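import Vale.Agent.P004.Iface

/-!
# P004, module A1: arithmetic of the coefficients `ca`
-/

open Set

namespace P004
namespace A1

/-- primary Gaussian integers -/
def Prim (z : GaussianInt) : Prop := z.im % 2 = 0 ∧ (z.re + z.im) % 4 = 1

/-- the embedding of pairs of integers -/
def emb : ℤ × ℤ ↪ GaussianInt := ⟨fun q => ⟨q.1, q.2⟩, by
  rintro ⟨a, b⟩ ⟨c, d⟩ h
  simp only [Zsqrtd.mk.injEq] at h
  exact Prod.ext h.1 h.2⟩

/-- the primary Gaussian integers of norm `n` -/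
noncomputable def PA (n : ℕ) : Finset GaussianInt :=
  (((Finset.Icc (-(n : ℤ)) n) ×ˢ (Finset.Icc (-(n : ℤ)) n)).filter
    (fun q => q.1 ^ 2 + q.2 ^ 2 = (n : ℤ) ∧ q.2 % 2 = 0 ∧ (q.1 + q.2) % 4 = 1)).map emb

lemma norm_eq (z : GaussianInt) : z.norm = z.re ^ 2 + z.im ^ 2 := by
  rw [Zsqrtd.norm_def]; ring

lemma abs_le_of_sq {a n : ℤ} (h : a ^ 2 ≤ n) : -n ≤ a ∧ a ≤ n := by
  constructor <;> nlinarith [sq_nonneg (a - 1), sq_nonneg (a + 1), sq_nonneg a,
    Int.le_self_sq a, Int.le_self_sq (-a)]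

lemma mem_PA {n : ℕ} {z : GaussianInt} : z ∈ PA n ↔ z.norm = n ∧ Prim z := by
  unfold PA Prim
  rw [Finset.mem_map]
  constructor
  · rintro ⟨⟨a, b⟩, h, rfl⟩
    rw [Finset.mem_filter] at h
    refine ⟨?_, h.2.2⟩
    rw [norm_eq]
    exact h.2.1
  · rintro ⟨h1, h2⟩
    refine ⟨(z.re, z.im), ?_, rfl⟩
    rw [norm_eq] at h1
    rw [Finset.mem_filter, Finset.mem_product, Finset.mem_Icc, Finset.mem_Icc]
    refine ⟨⟨abs_le_of_sq ?_, abs_le_of_sq ?_⟩, h1, h2⟩
    · rw [← h1]; nlinarith [sq_nonneg z.im]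
    · rw [← h1]; nlinarith [sq_nonneg z.re]

lemma ca_eq (n : ℕ) : ca n = ∑ z ∈ PA n, z.re := by
  unfold PA ca
  rw [Finset.sum_map, Finset.sum_filter, Finset.sum_product]
  rfl

lemma prim_one : Prim 1 := by
  constructor
  · rw [Zsqrtd.im_one]; rfl
  · rw [Zsqrtd.im_one, Zsqrtd.re_one]; rfl

lemma prim_mul {z w : GaussianInt} (hz : Prim z) (hw : Prim w) : Prim (z * w) := by
  obtain ⟨h1, h2⟩ := hz
  obtain ⟨h3, h4⟩ := hw
  obtain ⟨b, hb⟩ : ∃ b, z.im = 2 * b := ⟨z.im / 2, by omega⟩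
  obtain ⟨d, hd⟩ : ∃ d, w.im = 2 * d := ⟨w.im / 2, by omega⟩
  obtain ⟨k, hk⟩ : ∃ k, z.re = 4 * k + 1 - 2 * b := ⟨(z.re + z.im) / 4, by omega⟩
  obtain ⟨l, hl⟩ : ∃ l, w.re = 4 * l + 1 - 2 * d := ⟨(w.re + w.im) / 4, by omega⟩
  have e1 : (z * w).im = 2 * (z.re * d + b * w.re) := by
    rw [Zsqrtd.im_mul, hb, hd]; ring
  have e2 : (z * w).re + (z * w).im = 4 * (4 * k * l + k + l - 2 * b * d) + 1 := by
    rw [Zsqrtd.im_mul, Zsqrtd.re_mul, hb, hd, hk, hl]; ring
  constructor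
  · rw [e1]; omega
  · rw [e2]; omega

lemma prim_star {z : GaussianInt} (hz : Prim z) : Prim (star z) := by
  obtain ⟨h1, h2⟩ := hz
  constructor
  · rw [Zsqrtd.im_star]; omega
  · rw [Zsqrtd.im_star, Zsqrtd.re_star]; omega

lemma prim_norm {z : GaussianInt} (hz : Prim z) : z.norm % 4 = 1 := by
  obtain ⟨h1, h2⟩ := hz
  obtain ⟨b, hb⟩ : ∃ b, z.im = 2 * b := ⟨z.im / 2, by omega⟩
  obtain ⟨k, hk⟩ : ∃ k, z.re = 4 * k + 1 - 2 * b := ⟨(z.re + z.im) / 4, by omega⟩
  have e : z.norm = 4 * (4 * k ^ 2 + b ^ 2 + 2 * k - 4 * k * b - b + b ^ 2) + 1 := by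
    rw [norm_eq, hb, hk]; ring
  rw [e]; omega

lemma prim_ne_zero {z : GaussianInt} (hz : Prim z) : z ≠ 0 := by
  rintro rfl
  have := prim_norm hz
  simp at this

lemma prim_of_mul {z w : GaussianInt} (hz : Prim z) (h : Prim (z * w)) : Prim w := by
  have h1 := prim_mul (prim_star hz) h
  have h2 : star z * (z * w) = (z.norm : GaussianInt) * w := by
    rw [Zsqrtd.norm_eq_mul_conj]; ring
  rw [h2] at h1
  obtain ⟨h3, h4⟩ := h1
  have h5 := prim_norm hz
  obtain ⟨t, ht⟩ : ∃ t, z.norm = 4 * t + 1 := ⟨z.norm / 4, by omega⟩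
  have e1 : ((z.norm : GaussianInt) * w).im = 4 * (t * w.im) + w.im := by
    rw [Zsqrtd.im_mul]; simp; rw [ht]; ring
  have e2 : ((z.norm : GaussianInt) * w).re = 4 * (t * w.re) + w.re := by
    rw [Zsqrtd.re_mul]; simp; rw [ht]; ring
  rw [e1] at h3
  rw [e1, e2] at h4
  generalize t * w.im = A at *
  generalize t * w.re = B at *
  constructor <;> omega

lemma unit_cases {u : GaussianInt} (hu : u.norm = 1) :
    (u.re = 1 ∧ u.im = 0) ∨ (u.re = -1 ∧ u.im = 0) ∨ (u.re = 0 ∧ u.im = 1) ∨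
      (u.re = 0 ∧ u.im = -1) := by
  rw [norm_eq] at hu
  have h1 : u.re ≤ 1 := by nlinarith [sq_nonneg u.im]
  have h2 : -1 ≤ u.re := by nlinarith [sq_nonneg u.im]
  have h3 : u.im ≤ 1 := by nlinarith [sq_nonneg u.re]
  have h4 : -1 ≤ u.im := by nlinarith [sq_nonneg u.re]
  generalize u.re = a at *
  generalize u.im = b at *
  interval_cases a <;> interval_cases b <;> simp_all

lemma prim_unit {z u : GaussianInt} (hu : u.norm = 1) (hz : Prim z) (h : Prim (z * u)) :
    u = 1 := by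
  obtain ⟨h1, h2⟩ := prim_of_mul hz h
  rcases unit_cases hu with h | h | h | h
  · exact Zsqrtd.ext h.1 h.2
  all_goals (rw [h.1, h.2] at h2; rw [h.2] at h1; first | (norm_num at h1; done) | norm_num at h2)

lemma exists_prim {z : GaussianInt} (hz : z.norm % 2 = 1) :
    ∃ u : GaussianInt, u.norm = 1 ∧ Prim (z * u) := by
  rw [norm_eq] at hz
  have ha : z.re % 2 = 0 ∨ z.re % 2 = 1 := by omega
  have hb : z.im % 2 = 0 ∨ z.im % 2 = 1 := by omega
  have key : (z.re + z.im) % 2 = 1 := by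
    rcases Int.even_or_odd' z.re with ⟨a, ha | ha⟩ <;> rcases Int.even_or_odd' z.im with ⟨b, hb | hb⟩
    · have : z.re ^ 2 + z.im ^ 2 = 2 * (2 * a ^ 2 + 2 * b ^ 2) := by rw [ha, hb]; ring
      omega
    · omega
    · omega
    · have : z.re ^ 2 + z.im ^ 2 = 2 * (2 * a ^ 2 + 2 * b ^ 2 + 2 * a + 2 * b + 1) := by
        rw [ha, hb]; ring
      omega
  rcases hb with hb | hb
  · have : (z.re + z.im) % 4 = 1 ∨ (z.re + z.im) % 4 = 3 := by omega
    rcases this with h | h
    · exact ⟨1, by simp, by rw [mul_one]; exact ⟨hb, h⟩⟩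
    · refine ⟨-1, by simp [Zsqrtd.norm_def], ?_⟩
      rw [mul_neg, mul_one]
      constructor
      · rw [Zsqrtd.im_neg]; omega
      · rw [Zsqrtd.im_neg, Zsqrtd.re_neg]; omega
  · have : (z.re - z.im) % 4 = 1 ∨ (z.re - z.im) % 4 = 3 := by omega
    rcases this with h | h
    · refine ⟨⟨0, 1⟩, by simp [Zsqrtd.norm_def], ?_⟩
      constructor
      · rw [Zsqrtd.im_mul]; simp; omega
      · rw [Zsqrtd.im_mul, Zsqrtd.re_mul]; simp; omega
    · refine ⟨⟨0, -1⟩, by simp [Zsqrtd.norm_def], ?_⟩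
      constructor
      · rw [Zsqrtd.im_mul]; simp; omega
      · rw [Zsqrtd.im_mul, Zsqrtd.re_mul]; simp; omega

lemma mod_four {n : ℕ} (hn : n % 4 ≠ 1) : PA n = ∅ := by
  rw [Finset.eq_empty_iff_forall_notMem]
  intro z hz
  rw [mem_PA] at hz
  have := prim_norm hz.2
  rw [hz.1] at this
  omega

lemma sum_PA (n : ℕ) : ∑ z ∈ PA n, z = ((ca n : ℤ) : GaussianInt) := by
  have hre : (∑ z ∈ PA n, z).re = ∑ z ∈ PA n, z.re :=
    map_sum (⟨⟨Zsqrtd.re, rfl⟩, fun _ _ => rfl⟩ : GaussianInt →+ ℤ) _ _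
  have him : (∑ z ∈ PA n, z).im = ∑ z ∈ PA n, z.im :=
    map_sum (⟨⟨Zsqrtd.im, rfl⟩, fun _ _ => rfl⟩ : GaussianInt →+ ℤ) _ _
  have h0 : ∑ z ∈ PA n, z.im = ∑ z ∈ PA n, (star z).im := by
    refine Finset.sum_nbij' star star ?_ ?_ ?_ ?_ ?_
    · intro z hz
      rw [mem_PA] at hz ⊢
      exact ⟨by rw [Zsqrtd.norm_conj]; exact hz.1, prim_star hz.2⟩
    · intro z hz
      rw [mem_PA] at hz ⊢
      exact ⟨by rw [Zsqrtd.norm_conj]; exact hz.1, prim_star hz.2⟩
    · intro z _; exact star_star z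
    · intro z _; exact star_star z
    · intro z _; rw [star_star]
  have h1 : ∑ z ∈ PA n, z.im = 0 := by
    have : ∑ z ∈ PA n, (star z).im = - ∑ z ∈ PA n, z.im := by
      rw [← Finset.sum_neg_distrib]
      exact Finset.sum_congr rfl fun z _ => Zsqrtd.im_star z
    omega
  apply Zsqrtd.ext
  · rw [hre, ← ca_eq]; simp
  · rw [him, h1]; simp


/-! ### unique factorisation -/

lemma norm_mul_eq {z w : GaussianInt} {m n : ℕ} (hz : z.norm = m) (hw : w.norm = n) :
    (z * w).norm = ((m * n : ℕ) : ℤ) := by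
  rw [Zsqrtd.norm_mul, hz, hw]; push_cast; ring

lemma coprime_of_norm {z w : GaussianInt} {m n : ℕ} (hz : z.norm = m) (hw : w.norm = n)
    (h : Nat.Coprime m n) : IsCoprime z w := by
  have h1 : IsCoprime (m : ℤ) (n : ℤ) := Nat.isCoprime_iff_coprime.mpr h
  obtain ⟨a, b, hab⟩ := h1
  refine ⟨(a : GaussianInt) * star z, (b : GaussianInt) * star w, ?_⟩
  have e1 : z * star z = ((m : ℤ) : GaussianInt) := by rw [← Zsqrtd.norm_eq_mul_conj, hz]
  have e2 : w * star w = ((n : ℤ) : GaussianInt) := by rw [← Zsqrtd.norm_eq_mul_conj, hw]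
  calc (a : GaussianInt) * star z * z + (b : GaussianInt) * star w * w
      = a * (z * star z) + b * (w * star w) := by ring
    _ = ((a * m + b * n : ℤ) : GaussianInt) := by rw [e1, e2]; push_cast; ring
    _ = 1 := by rw [hab]; simp

lemma eq_of_dvd {z w : GaussianInt} (hz : Prim z) (hw : Prim w) (hn : z.norm = w.norm)
    (h : z ∣ w) : z = w := by
  obtain ⟨u, rfl⟩ := h
  rw [Zsqrtd.norm_mul] at hn
  have h0 : z.norm ≠ 0 := by have := prim_norm hz; omega
  have hu : u.norm = 1 := by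
    have : z.norm * 1 = z.norm * u.norm := by rw [mul_one]; exact hn
    exact (mul_left_cancel₀ h0 this).symm
  rw [prim_unit hu hz hw, mul_one]

lemma inj_mul {m n : ℕ} (h : Nat.Coprime m n) :
    Set.InjOn (fun p : GaussianInt × GaussianInt => p.1 * p.2) (PA m ×ˢ PA n : Finset _) := by
  rintro ⟨z, w⟩ h1 ⟨z', w'⟩ h2 heq
  rw [Finset.mem_coe, Finset.mem_product, mem_PA, mem_PA] at h1 h2
  simp only at h1 h2 heq
  have hc : IsCoprime z w' := coprime_of_norm h1.1.1 h2.2.1 h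
  have hd : z ∣ z' := by
    apply hc.dvd_of_dvd_mul_right
    rw [← heq]; exact dvd_mul_right _ _
  have he : z = z' := eq_of_dvd h1.1.2 h2.1.2 (by rw [h1.1.1, h2.1.1]) hd
  subst he
  have : w = w' := mul_left_cancel₀ (prim_ne_zero h1.1.2) heq
  rw [this]

lemma int_dvd {a b : ℤ} (h : (a : GaussianInt) ∣ (b : GaussianInt)) : a ∣ b := by
  obtain ⟨c, hc⟩ := h
  refine ⟨c.re, ?_⟩
  have := congrArg Zsqrtd.re hc
  simpa using this

lemma surj_mul {m n : ℕ} (h : Nat.Coprime m n) :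
    Set.SurjOn (fun p : GaussianInt × GaussianInt => p.1 * p.2) (PA m ×ˢ PA n : Finset _)
      (PA (m * n)) := by
  classical
  intro u hu
  rw [Finset.mem_coe, mem_PA] at hu
  obtain ⟨hN, hP⟩ := hu
  set z0 := EuclideanDomain.gcd u ((m : ℤ) : GaussianInt) with hz0
  have hd1 : z0 ∣ u := EuclideanDomain.gcd_dvd_left _ _
  have hd2 : z0 ∣ ((m : ℤ) : GaussianInt) := EuclideanDomain.gcd_dvd_right _ _
  have hab := EuclideanDomain.gcd_eq_gcd_ab u ((m : ℤ) : GaussianInt)
  set a := EuclideanDomain.gcdA u ((m : ℤ) : GaussianInt)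
  set b := EuclideanDomain.gcdB u ((m : ℤ) : GaussianInt)
  rw [← hz0] at hab
  have hodd : (m * n) % 4 = 1 := by
    have := prim_norm hP
    rw [hN] at this
    exact_mod_cast this
  have hm0 : m ≠ 0 := by rintro rfl; simp at hodd
  -- the norm of z0 is m
  have h1 : (m : ℤ) ∣ z0.norm := by
    apply int_dvd
    have e1 : u * star u = ((m : ℤ) : GaussianInt) * ((n : ℤ) : GaussianInt) := by
      rw [← Zsqrtd.norm_eq_mul_conj, hN]; push_cast; rfl
    have e2 : star (((m : ℤ) : GaussianInt)) = ((m : ℤ) : GaussianInt) := by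
      apply Zsqrtd.ext <;> simp
    rw [Zsqrtd.norm_eq_mul_conj, hab, star_add, star_mul, star_mul, e2]
    refine ⟨((n : ℤ) : GaussianInt) * (a * star a) + u * a * star b + b * (star a * star u)
      + ((m : ℤ) : GaussianInt) * (b * star b), ?_⟩
    linear_combination (a * star a) * e1
  have h2 : z0.norm ∣ (m : ℤ) := by
    obtain ⟨c, hc⟩ := hd1
    obtain ⟨d, hd⟩ := hd2
    have h3 : z0.norm ∣ (m * n : ℤ) := by
      have : u.norm = z0.norm * c.norm := by rw [hc, Zsqrtd.norm_mul]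
      rw [hN] at this
      exact ⟨c.norm, by push_cast at this; exact this⟩
    have h4 : z0.norm ∣ (m * m : ℤ) := by
      have : (((m : ℤ) : GaussianInt)).norm = z0.norm * d.norm := by rw [hd, Zsqrtd.norm_mul]
      rw [Zsqrtd.norm_intCast] at this
      exact ⟨d.norm, this⟩
    have h5 : IsCoprime (m : ℤ) (n : ℤ) := Nat.isCoprime_iff_coprime.mpr h
    obtain ⟨α, β, hαβ⟩ := h5
    have : (m : ℤ) = β * (m * n) + α * (m * m) := by
      linear_combination (-(m : ℤ)) * hαβ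
    rw [this]
    exact dvd_add (h3.mul_left _) (h4.mul_left _)
  have h3 : z0.norm = m :=
    Int.dvd_antisymm (GaussianInt.norm_nonneg _) (by positivity) h2 h1
  have hmodd : m % 2 = 1 := by
    rcases Nat.mod_two_eq_zero_or_one m with h | h
    · exfalso
      have : (m * n) % 2 = 0 := by rw [Nat.mul_mod, h]; simp
      omega
    · exact h
  obtain ⟨ε, hε, hzp⟩ := exists_prim (z := z0) (by rw [h3]; exact_mod_cast hmodd)
  have hdu : z0 * ε ∣ u := by
    have hu : IsUnit ε := (Zsqrtd.norm_eq_one_iff' (by norm_num) ε).mp hε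
    exact hu.mul_right_dvd.mpr hd1
  obtain ⟨w, hw⟩ := hdu
  have hzn : (z0 * ε).norm = m := by rw [Zsqrtd.norm_mul, h3, hε, mul_one]
  refine ⟨(z0 * ε, w), ?_, hw.symm⟩
  rw [Finset.mem_coe, Finset.mem_product, mem_PA, mem_PA]
  refine ⟨⟨hzn, hzp⟩, ?_, prim_of_mul hzp (hw ▸ hP)⟩
  have : u.norm = m * w.norm := by rw [hw, Zsqrtd.norm_mul, hzn]
  rw [hN] at this
  push_cast at this
  exact (mul_left_cancel₀ (by exact_mod_cast hm0) this).symm

lemma maps_mul {m n : ℕ} {p : GaussianInt × GaussianInt} (hp : p ∈ PA m ×ˢ PA n) :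
    p.1 * p.2 ∈ PA (m * n) := by
  rw [Finset.mem_product, mem_PA, mem_PA] at hp
  rw [mem_PA]
  exact ⟨norm_mul_eq hp.1.1 hp.2.1, prim_mul hp.1.2 hp.2.2⟩

lemma card_mul {m n : ℕ} (h : Nat.Coprime m n) :
    (PA (m * n)).card = (PA m).card * (PA n).card := by
  rw [← Finset.card_product]
  exact (Finset.card_nbij _ (fun p hp => maps_mul hp) (inj_mul h) (surj_mul h)).symm

lemma ca_mul {m n : ℕ} (h : Nat.Coprime m n) : ca (m * n) = ca m * ca n := by
  have h1 : ((ca (m * n) : ℤ) : GaussianInt) = ((ca m : ℤ) : GaussianInt) * ((ca n : ℤ) : GaussianInt) := by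
    rw [← sum_PA, ← sum_PA, ← sum_PA, Finset.sum_mul_sum, ← Finset.sum_product']
    exact (Finset.sum_nbij (fun p : GaussianInt × GaussianInt => p.1 * p.2)
      (fun p hp => maps_mul hp) (inj_mul h) (surj_mul h) (fun p _ => rfl)).symm
  have h2 := congrArg Zsqrtd.re h1
  simpa using h2

/-! ### prime powers -/

lemma exists_pi {p : ℕ} [Fact p.Prime] (hp : p % 4 = 1) :
    ∃ ϖ : GaussianInt, ϖ.norm = p ∧ Prim ϖ := by
  obtain ⟨a, b, hab⟩ := Nat.Prime.sq_add_sq (p := p) (by omega)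
  have h1 : (⟨a, b⟩ : GaussianInt).norm = p := by
    rw [norm_eq]
    change (a : ℤ) ^ 2 + (b : ℤ) ^ 2 = p
    exact_mod_cast hab
  obtain ⟨u, hu, hP⟩ := exists_prim (z := (⟨a, b⟩ : GaussianInt)) (by rw [h1]; omega)
  exact ⟨_, by rw [Zsqrtd.norm_mul, h1, hu, mul_one], hP⟩

lemma prime_of_norm {p : ℕ} [hp : Fact p.Prime] {z : GaussianInt} (hz : z.norm = p) : Prime z := by
  apply Irreducible.prime
  constructor
  · intro h
    have := (Zsqrtd.norm_eq_one_iff' (by norm_num) z).mpr h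
    rw [hz] at this
    exact hp.out.one_lt.ne' (by exact_mod_cast this)
  · intro a b hab
    have h1 : a.norm * b.norm = p := by rw [← Zsqrtd.norm_mul, ← hab, hz]
    have h2 : Prime ((p : ℕ) : ℤ) := Nat.prime_iff_prime_int.mp hp.out
    have h3 := h2.irreducible.isUnit_or_isUnit h1.symm
    rcases h3 with h | h
    · left; exact (Zsqrtd.isUnit_iff_norm_isUnit a).mpr h
    · right; exact (Zsqrtd.isUnit_iff_norm_isUnit b).mpr h

lemma star_norm {z : GaussianInt} : (star z).norm = z.norm := Zsqrtd.norm_conj z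

lemma exists_rep {p : ℕ} [hp : Fact p.Prime] {ϖ : GaussianInt} (hϖ : ϖ.norm = p) (hP : Prim ϖ) :
    ∀ (k : ℕ) (u : GaussianInt), u.norm = ((p ^ k : ℕ) : ℤ) → Prim u →
      ∃ i ≤ k, u = ϖ ^ i * star ϖ ^ (k - i) := by
  intro k
  induction k with
  | zero =>
    intro u hu hPu
    refine ⟨0, le_rfl, ?_⟩
    simp only [pow_zero, Nat.cast_one] at hu
    have := prim_unit (z := 1) hu prim_one (by rw [one_mul]; exact hPu)
    simpa using this
  | succ k ih =>
    intro u hu hPu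
    have hprime := prime_of_norm hϖ
    have hp0 : (p : ℤ) ≠ 0 := by exact_mod_cast hp.out.ne_zero
    have h1 : ϖ ∣ u * star u := by
      rw [← Zsqrtd.norm_eq_mul_conj, hu]
      have : ϖ ∣ ((p : ℤ) : GaussianInt) := by
        rw [← hϖ, Zsqrtd.norm_eq_mul_conj]; exact dvd_mul_right _ _
      refine this.trans ?_
      rw [pow_succ]
      push_cast
      exact dvd_mul_left _ _
    rcases hprime.dvd_or_dvd h1 with h | h
    · obtain ⟨c, hc⟩ := h
      have hcP : Prim c := prim_of_mul hP (hc ▸ hPu)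
      have hcn : c.norm = ((p ^ k : ℕ) : ℤ) := by
        have e : u.norm = p * c.norm := by rw [hc, Zsqrtd.norm_mul, hϖ]
        rw [hu, pow_succ] at e
        push_cast at e ⊢
        rw [mul_comm] at e
        exact (mul_left_cancel₀ hp0 e).symm
      obtain ⟨i, hi, hrep⟩ := ih c hcn hcP
      refine ⟨i + 1, by omega, ?_⟩
      rw [hc, hrep, pow_succ, Nat.add_sub_add_right]; ring
    · obtain ⟨c, hc⟩ := h
      have hu' : u = star ϖ * star c := by
        have := congrArg star hc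
        rw [star_star, star_mul] at this
        rw [this, mul_comm]
      have hcP : Prim (star c) := prim_of_mul (prim_star hP) (hu' ▸ hPu)
      have hcn : (star c).norm = ((p ^ k : ℕ) : ℤ) := by
        have e : u.norm = p * (star c).norm := by rw [hu', Zsqrtd.norm_mul, star_norm, hϖ]
        rw [hu, pow_succ] at e
        push_cast at e ⊢
        rw [mul_comm] at e
        exact (mul_left_cancel₀ hp0 e).symm
      obtain ⟨i, hi, hrep⟩ := ih (star c) hcn hcP
      refine ⟨i, by omega, ?_⟩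
      rw [hu', hrep]
      have : k + 1 - i = (k - i) + 1 := by omega
      rw [this, pow_succ]; ring

lemma pi_ne {p : ℕ} [hp : Fact p.Prime] {ϖ : GaussianInt} (hϖ : ϖ.norm = p) : ϖ ≠ star ϖ := by
  intro h
  have h1 := congrArg Zsqrtd.im h
  rw [Zsqrtd.im_star] at h1
  have h2 : ϖ.im = 0 := by omega
  rw [norm_eq, h2] at hϖ
  have h3 : Prime ((p : ℕ) : ℤ) := Nat.prime_iff_prime_int.mp hp.out
  have h4 : ((p : ℕ) : ℤ) = ϖ.re * ϖ.re := by rw [← hϖ]; ring
  rcases h3.irreducible.isUnit_or_isUnit h4 with h | h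
  all_goals
    rw [Int.isUnit_iff] at h
    rcases h with h | h <;>
    · rw [h] at h4
      have h5 : (p : ℤ) = 1 := by rw [h4]; norm_num
      have : p = 1 := by exact_mod_cast h5
      exact hp.out.one_lt.ne' this

lemma pow_inj {p : ℕ} [hp : Fact p.Prime] {ϖ : GaussianInt} (hϖ : ϖ.norm = p) (hP : Prim ϖ)
    (k i j : ℕ) (hij : i < j) (hj : j ≤ k) :
    ϖ ^ i * star ϖ ^ (k - i) ≠ ϖ ^ j * star ϖ ^ (k - j) := by
  intro h
  have h0 : ϖ ≠ 0 := prim_ne_zero hP
  have h0' : star ϖ ≠ 0 := prim_ne_zero (prim_star hP)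
  have e1 : k - i = (j - i) + (k - j) := by omega
  have e2 : j = i + (j - i) := by omega
  have h1 : (ϖ ^ i * star ϖ ^ (k - j)) * star ϖ ^ (j - i) = (ϖ ^ i * star ϖ ^ (k - j)) * ϖ ^ (j - i) := by
    calc _ = ϖ ^ i * star ϖ ^ (k - i) := by rw [e1, pow_add]; ring
      _ = ϖ ^ j * star ϖ ^ (k - j) := h
      _ = ϖ ^ (i + (j - i)) * star ϖ ^ (k - j) := by rw [← e2]
      _ = _ := by rw [pow_add]; ring
  have h2 : star ϖ ^ (j - i) = ϖ ^ (j - i) :=
    mul_left_cancel₀ (mul_ne_zero (pow_ne_zero _ h0) (pow_ne_zero _ h0')) h1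
  have h3 : ϖ ∣ star ϖ ^ (j - i) := by
    rw [h2]; exact dvd_pow_self _ (by omega)
  have h4 : ϖ ∣ star ϖ := (prime_of_norm hϖ).dvd_of_dvd_pow h3
  exact pi_ne hϖ (eq_of_dvd hP (prim_star hP) star_norm.symm h4)

lemma PA_pow {p : ℕ} [hp : Fact p.Prime] {ϖ : GaussianInt} (hϖ : ϖ.norm = p) (hP : Prim ϖ) (k : ℕ) :
    PA (p ^ k) = (Finset.range (k + 1)).image (fun i => ϖ ^ i * star ϖ ^ (k - i)) := by
  classical
  ext u
  rw [mem_PA, Finset.mem_image]
  constructor
  · rintro ⟨h1, h2⟩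
    obtain ⟨i, hi, h⟩ := exists_rep hϖ hP k u h1 h2
    exact ⟨i, Finset.mem_range.mpr (by omega), h.symm⟩
  · rintro ⟨i, hi, rfl⟩
    rw [Finset.mem_range] at hi
    constructor
    · have e : ∀ (z : GaussianInt) (n : ℕ), (z ^ n).norm = z.norm ^ n := by
        intro z n
        exact map_pow (Zsqrtd.normMonoidHom) z n
      rw [Zsqrtd.norm_mul, e, e, star_norm, hϖ, ← pow_add]
      have : i + (k - i) = k := by omega
      rw [this]; push_cast; rfl
    · have e : ∀ (z : GaussianInt), Prim z → ∀ n : ℕ, Prim (z ^ n) := by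
        intro z hz n
        induction n with
        | zero => rw [pow_zero]; exact prim_one
        | succ n ih => rw [pow_succ]; exact prim_mul ih hz
      exact prim_mul (e _ hP _) (e _ (prim_star hP) _)

lemma injOn_pow {p : ℕ} [hp : Fact p.Prime] {ϖ : GaussianInt} (hϖ : ϖ.norm = p) (hP : Prim ϖ)
    (k : ℕ) : Set.InjOn (fun i => ϖ ^ i * star ϖ ^ (k - i)) (Finset.range (k + 1)) := by
  intro i hi j hj h
  rw [Finset.mem_coe, Finset.mem_range] at hi hj
  rcases lt_trichotomy i j with h1 | h1 | h1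
  · exact absurd h (pow_inj hϖ hP k i j h1 (by omega))
  · exact h1
  · exact absurd h.symm (pow_inj hϖ hP k j i h1 (by omega))

/-- the recursion for `p ≡ 1 mod 4` -/
lemma hecke_one {p : ℕ} [hp : Fact p.Prime] (h4 : p % 4 = 1) (k : ℕ) :
    ca (p ^ (k + 2)) = ca p * ca (p ^ (k + 1)) - p * ca (p ^ k) := by
  classical
  obtain ⟨ϖ, hϖ, hP⟩ := exists_pi h4
  have S : ∀ k, ((ca (p ^ k) : ℤ) : GaussianInt) * (ϖ - star ϖ) = ϖ ^ (k + 1) - star ϖ ^ (k + 1) := by
    intro k
    rw [← sum_PA, PA_pow hϖ hP, Finset.sum_image (injOn_pow hϖ hP k), ← geom_sum₂_mul]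
    rfl
  have hd : ϖ - star ϖ ≠ 0 := sub_ne_zero.mpr (pi_ne hϖ)
  have e1 : ((ca p : ℤ) : GaussianInt) = ϖ + star ϖ := by
    have := S 1
    rw [pow_one] at this
    apply mul_right_cancel₀ hd
    rw [this]; ring
  have e2 : ((p : ℤ) : GaussianInt) = ϖ * star ϖ := by rw [← Zsqrtd.norm_eq_mul_conj, hϖ]
  have e3 : ((ca (p ^ (k + 2)) : ℤ) : GaussianInt) =
      ((ca p * ca (p ^ (k + 1)) - p * ca (p ^ k) : ℤ) : GaussianInt) := by
    apply mul_right_cancel₀ hd
    rw [S]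
    push_cast
    have e2' : ((p : ℕ) : GaussianInt) = ϖ * star ϖ := by rw [← e2]; push_cast; rfl
    rw [sub_mul, mul_assoc, S, mul_assoc, S, e1, e2']
    ring
  have h2 := congrArg Zsqrtd.re e3
  simpa using h2

lemma card_one {p : ℕ} [hp : Fact p.Prime] (h4 : p % 4 = 1) (k : ℕ) :
    (PA (p ^ k)).card ≤ k + 1 := by
  classical
  obtain ⟨ϖ, hϖ, hP⟩ := exists_pi h4
  rw [PA_pow hϖ hP]
  exact Finset.card_image_le.trans (by rw [Finset.card_range])

lemma PA_three {p : ℕ} [hp : Fact p.Prime] (h4 : p % 4 = 3) (k : ℕ) :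
    PA (p ^ (k + 2)) = (PA (p ^ k)).map ⟨fun z => ((-(p : ℤ) : ℤ) : GaussianInt) * z, by
      intro z w h
      have h0 : ((-(p : ℤ) : ℤ) : GaussianInt) ≠ 0 := by
        rw [Int.cast_ne_zero]
        have := hp.out.ne_zero
        omega
      exact mul_left_cancel₀ h0 h⟩ := by
  classical
  have hPp : Prim ((-(p : ℤ) : ℤ) : GaussianInt) := by
    constructor
    · simp
    · simp; omega
  have hNp : (((-(p : ℤ) : ℤ) : GaussianInt)).norm = (p : ℤ) * p := by
    rw [Zsqrtd.norm_intCast]; ring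
  have hprime : Prime ((p : ℕ) : GaussianInt) :=
    GaussianInt.prime_of_nat_prime_of_mod_four_eq_three p h4
  ext u
  rw [mem_PA, Finset.mem_map]
  constructor
  · rintro ⟨h1, h2⟩
    have h3 : ((p : ℕ) : GaussianInt) ∣ u * star u := by
      rw [← Zsqrtd.norm_eq_mul_conj, h1, pow_succ]
      push_cast
      exact dvd_mul_left _ _
    have h5 : ((p : ℕ) : GaussianInt) ∣ u := by
      rcases hprime.dvd_or_dvd h3 with h | h
      · exact h
      · obtain ⟨c, hc⟩ := h
        have := congrArg star hc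
        rw [star_star, star_mul] at this
        rw [this]
        have e : star (((p : ℕ) : GaussianInt)) = ((p : ℕ) : GaussianInt) := by
          apply Zsqrtd.ext <;> simp
        rw [e]
        exact dvd_mul_left _ _
    obtain ⟨c, hc⟩ := h5
    have hu : u = ((-(p : ℤ) : ℤ) : GaussianInt) * (-c) := by
      rw [hc]; push_cast; ring
    refine ⟨-c, ?_, hu.symm⟩
    rw [mem_PA]
    refine ⟨?_, prim_of_mul hPp (hu ▸ h2)⟩
    have e : u.norm = ((p : ℤ) * p) * (-c).norm := by rw [hu, Zsqrtd.norm_mul, hNp]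
    rw [h1] at e
    have hp0 : (p : ℤ) ≠ 0 := by exact_mod_cast hp.out.ne_zero
    apply mul_left_cancel₀ (mul_ne_zero hp0 hp0)
    rw [← e]; push_cast; ring
  · rintro ⟨z, hz, rfl⟩
    rw [mem_PA] at hz
    constructor
    · change (((-(p : ℤ) : ℤ) : GaussianInt) * z).norm = _
      rw [Zsqrtd.norm_mul, hNp, hz.1]; push_cast; ring
    · exact prim_mul hPp hz.2

lemma hecke_three {p : ℕ} [hp : Fact p.Prime] (h4 : p % 4 = 3) (k : ℕ) :
    ca (p ^ (k + 2)) = ca p * ca (p ^ (k + 1)) - p * ca (p ^ k) := by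
  have h0 : ca p = 0 := by rw [ca_eq, mod_four (by omega)]; rfl
  have e3 : ((ca (p ^ (k + 2)) : ℤ) : GaussianInt) = ((-(p : ℤ) * ca (p ^ k) : ℤ) : GaussianInt) := by
    rw [← sum_PA, PA_three h4, Finset.sum_map]
    push_cast
    rw [← sum_PA, Finset.mul_sum]
    apply Finset.sum_congr rfl
    intro z _
    simp
  have h2 := congrArg Zsqrtd.re e3
  rw [h0]
  have h3 : ca (p ^ (k + 2)) = -(p : ℤ) * ca (p ^ k) := by simpa using h2
  rw [h3]; ring

lemma PA_one : PA 1 = {1} := by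
  ext u
  rw [mem_PA, Finset.mem_singleton]
  constructor
  · rintro ⟨h1, h2⟩
    exact prim_unit (z := 1) (by exact_mod_cast h1) prim_one (by rw [one_mul]; exact h2)
  · rintro rfl
    exact ⟨by simp, prim_one⟩

lemma card_three {p : ℕ} [hp : Fact p.Prime] (h4 : p % 4 = 3) (k : ℕ) :
    (PA (p ^ k)).card ≤ 1 := by
  induction k using Nat.twoStepInduction with
  | zero => rw [pow_zero, PA_one]; simp
  | one => rw [pow_one, mod_four (by omega)]; simp
  | more k ih _ => rw [PA_three h4, Finset.card_map]; exact ih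

lemma card_le (n : ℕ) : (PA n).card ≤ n.divisors.card := by
  induction n using Nat.recOnPosPrimePosCoprime with
  | zero => rw [mod_four (by norm_num)]; simp
  | one => rw [PA_one]; simp
  | prime_pow p k hp hk =>
    have : Fact p.Prime := ⟨hp⟩
    rw [Nat.divisors_prime_pow hp, Finset.card_map, Finset.card_range]
    rcases Nat.Prime.eq_two_or_odd hp with h2 | h2
    · rw [mod_four]
      · simp
      · subst h2
        obtain ⟨j, rfl⟩ : ∃ j, k = j + 1 := ⟨k - 1, by omega⟩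
        rw [pow_succ]; omega
    · have : p % 4 = 1 ∨ p % 4 = 3 := by omega
      rcases this with h | h
      · exact card_one h k
      · exact (card_three h k).trans (by omega)
  | coprime a b ha hb hab iha ihb =>
    rw [card_mul hab, Nat.Coprime.card_divisors_mul hab]
    exact Nat.mul_le_mul iha ihb

end A1

/-- Module A1 -/
theorem pfStCoef : StCoef where
  zero := by rw [A1.ca_eq, A1.mod_four (by norm_num)]; rfl
  one := by rw [A1.ca_eq, A1.PA_one]; simp
  mul := fun _ _ h => A1.ca_mul h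
  mod_four := fun n hn => by rw [A1.ca_eq, A1.mod_four hn]; rfl
  three_mod_four := fun p _ hp => by rw [A1.ca_eq, A1.mod_four (by omega)]; rfl
  hecke := fun p k hp h2 => by
    have : Fact p.Prime := ⟨hp⟩
    rcases Nat.Prime.eq_two_or_odd hp with h | h
    · exact absurd h h2
    · have : p % 4 = 1 ∨ p % 4 = 3 := by omega
      rcases this with h | h
      · exact A1.hecke_one h k
      · exact A1.hecke_three h k
  bound := fun n => by
    rw [A1.ca_eq]
    push_cast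
    refine (Finset.abs_sum_le_sum_abs _ _).trans ?_
    have h1 : ∀ z ∈ A1.PA n, |(z.re : ℝ)| ≤ √(n : ℝ) := by
      intro z hz
      rw [A1.mem_PA] at hz
      apply Real.abs_le_sqrt
      have h := hz.1
      rw [A1.norm_eq] at h
      have : (z.re : ℝ) ^ 2 + (z.im : ℝ) ^ 2 = n := by exact_mod_cast h
      nlinarith [sq_nonneg (z.im : ℝ)]
    refine (Finset.sum_le_sum h1).trans ?_
    rw [Finset.sum_const, nsmul_eq_mul]
    apply mul_le_mul_of_nonneg_right _ (Real.sqrt_nonneg _)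
    unfold dv
    exact_mod_cast A1.card_le n

end P004
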