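import Vale.Agent.P004.Iface

/-!
# Module A2: `ca p` is the trace of Frobenius of `y² = x³ - x` (Jacobsthal sums)
-/

open Finset

namespace P004

section Jac

variable {p : ℕ} [Fact p.Prime]


theorem ringChar_ne_two (hp : p ≠ 2) : ringChar (ZMod p) ≠ 2 := by
  rw [ZMod.ringChar_zmod_n]; exact hp

theorem jac_chi_sq {a : ZMod p} (ha : a ≠ 0) : (quadraticChar (ZMod p)) a * (quadraticChar (ZMod p)) a = 1 := by
  rw [← sq]; exact quadraticChar_sq_one ha

theorem jac_chi_sq' {a : ZMod p} (ha : a ≠ 0) : (quadraticChar (ZMod p)) (a ^ 2) = 1 := quadraticChar_sq_one' ha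

theorem jac_sum_zero (hp : p ≠ 2) : ∑ x : ZMod p, (quadraticChar (ZMod p)) x = 0 :=
  quadraticChar_sum_zero (ringChar_ne_two hp)

/-- `∑ (quadraticChar (ZMod p))(t) (quadraticChar (ZMod p))(t+c) = -1` -/
theorem jac_sum_shift (hp : p ≠ 2) {c : ZMod p} (hc : c ≠ 0) :
    ∑ t : ZMod p, (quadraticChar (ZMod p)) t * (quadraticChar (ZMod p)) (t + c) = -1 := by
  have h0 : ∑ t : ZMod p, (quadraticChar (ZMod p)) t * (quadraticChar (ZMod p)) (t + c) = ∑ t ∈ univ.erase (0 : ZMod p), (quadraticChar (ZMod p)) (1 + c * t⁻¹) := by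
    rw [← Finset.sum_erase_add (s := univ) (a := (0 : ZMod p)) _ (mem_univ _)]
    rw [show (quadraticChar (ZMod p)) (0 : ZMod p) = 0 by simp, zero_mul, add_zero]
    refine Finset.sum_congr rfl fun t ht => ?_
    have ht0 : t ≠ 0 := (Finset.mem_erase.mp ht).1
    rw [← map_mul, show t * (t + c) = t ^ 2 * (1 + c * t⁻¹) by field_simp, map_mul,
      jac_chi_sq' ht0, one_mul]
  have h1 : ∑ t ∈ univ.erase (0 : ZMod p), (quadraticChar (ZMod p)) (1 + c * t⁻¹) =
      ∑ s ∈ univ.erase (0 : ZMod p), (quadraticChar (ZMod p)) (1 + c * s) := by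
    refine Finset.sum_bij' (fun t _ => t⁻¹) (fun t _ => t⁻¹) ?_ ?_ ?_ ?_ ?_
    · intro t ht; simpa using ht
    · intro t ht; simpa using ht
    · intro t ht; simp
    · intro t ht; simp
    · intro t ht; rfl
  have h2 : ∑ s : ZMod p, (quadraticChar (ZMod p)) (1 + c * s) = 0 := by
    rw [← jac_sum_zero hp]
    refine Fintype.sum_bijective (fun s : ZMod p => 1 + c * s) ?_ _ _ (fun s => rfl)
    refine ⟨fun a b hab => ?_, fun y => ⟨c⁻¹ * (y - 1), ?_⟩⟩
    · simpa [hc] using hab
    · simp only []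
      rw [mul_inv_cancel_left₀ hc]; ring
  rw [h0, h1]
  have h3 := Finset.sum_erase_add (s := univ) (f := fun s : ZMod p => (quadraticChar (ZMod p)) (1 + c * s))
    (a := (0 : ZMod p)) (mem_univ _)
  rw [h2] at h3
  simp only [mul_zero, add_zero, map_one] at h3
  linarith

theorem jac_sum_sq (hp : p ≠ 2) (a b : ZMod p) :
    ∑ k : ZMod p, (quadraticChar (ZMod p)) (a - k) * (quadraticChar (ZMod p)) (b - k) = if a = b then (p : ℤ) - 1 else -1 := by
  have h0 : ∑ k : ZMod p, (quadraticChar (ZMod p)) (a - k) * (quadraticChar (ZMod p)) (b - k) = ∑ t : ZMod p, (quadraticChar (ZMod p)) t * (quadraticChar (ZMod p)) (t + (b - a)) := by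
    refine Fintype.sum_bijective (fun k : ZMod p => a - k) ?_ _ _ (fun k => ?_)
    · exact (Equiv.subLeft a).bijective
    · congr 2; ring
  rw [h0]
  split_ifs with hab
  · subst hab
    rw [sub_self]
    simp only [add_zero]
    rw [← Finset.sum_erase_add (s := univ) (a := (0 : ZMod p)) _ (mem_univ _)]
    have h5 : ∑ t ∈ univ.erase (0 : ZMod p), (quadraticChar (ZMod p)) t * (quadraticChar (ZMod p)) t = ∑ t ∈ univ.erase (0 : ZMod p), (1 : ℤ) :=
      Finset.sum_congr rfl (fun t ht => jac_chi_sq (Finset.mem_erase.mp ht).1)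
    rw [h5, Finset.sum_const, Finset.card_erase_of_mem (mem_univ _), Finset.card_univ, ZMod.card]
    have hp1 : 1 ≤ p := (Fact.out : p.Prime).one_lt.le
    simp [Nat.cast_sub hp1]
  · exact jac_sum_shift hp (sub_ne_zero.mpr (Ne.symm hab))

/-- Jacobsthal sum -/
noncomputable def jac (k : ZMod p) : ℤ := ∑ x : ZMod p, (quadraticChar (ZMod p)) (x ^ 3 - k * x)

theorem jac_eq (k : ZMod p) : jac k = ∑ x : ZMod p, (quadraticChar (ZMod p)) x * (quadraticChar (ZMod p)) (x ^ 2 - k) := by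
  unfold jac
  refine Finset.sum_congr rfl fun x _ => ?_
  rw [← map_mul]; congr 1; ring

theorem two_ne_zero' (hp : p ≠ 2) : (2 : ZMod p) ≠ 0 := by
  intro h
  have : ((2 : ℕ) : ZMod p) = 0 := by exact_mod_cast h
  rw [ZMod.natCast_eq_zero_iff] at this
  exact hp ((Nat.prime_dvd_prime_iff_eq Fact.out Nat.prime_two).mp this)

theorem neg_ne_self' (hp : p ≠ 2) {x : ZMod p} (hx : x ≠ 0) : -x ≠ x := by
  intro h
  have h2 : (2 : ZMod p) * x = 0 := by linear_combination -h
  rcases mul_eq_zero.mp h2 with h | h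
  · exact two_ne_zero' hp h
  · exact hx h

theorem chi_neg_one (hp4 : p % 4 = 1) : (quadraticChar (ZMod p)) (-1) = 1 := by
  have hp : p ≠ 2 := by rintro rfl; norm_num at hp4
  rw [quadraticChar_neg_one (ringChar_ne_two hp), ZMod.card]
  exact_mod_cast ZMod.χ₄_nat_one_mod_four hp4

theorem chi_neg_one' (hp4 : p % 4 = 3) : (quadraticChar (ZMod p)) (-1) = -1 := by
  have hp : p ≠ 2 := by rintro rfl; norm_num at hp4
  rw [quadraticChar_neg_one (ringChar_ne_two hp), ZMod.card]
  exact_mod_cast ZMod.χ₄_nat_three_mod_four hp4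

theorem jac_sum_sq_eq (hp4 : p % 4 = 1) :
    ∑ k : ZMod p, jac k ^ 2 = 2 * (p : ℤ) * (p - 1) := by
  have hp : p ≠ 2 := by rintro rfl; norm_num at hp4
  have h1 : ∀ k : ZMod p, jac k ^ 2 = ∑ x : ZMod p, ∑ y : ZMod p,
      (quadraticChar (ZMod p)) x * (quadraticChar (ZMod p)) y * ((quadraticChar (ZMod p)) (x ^ 2 - k) * (quadraticChar (ZMod p)) (y ^ 2 - k)) := by
    intro k
    rw [jac_eq, sq, Finset.sum_mul_sum]
    refine Finset.sum_congr rfl fun x _ => Finset.sum_congr rfl fun y _ => ?_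
    ring
  rw [Finset.sum_congr rfl fun k _ => h1 k, Finset.sum_comm]
  have h2 : ∀ x : ZMod p, ∑ k : ZMod p, ∑ y : ZMod p,
      (quadraticChar (ZMod p)) x * (quadraticChar (ZMod p)) y * ((quadraticChar (ZMod p)) (x ^ 2 - k) * (quadraticChar (ZMod p)) (y ^ 2 - k)) =
      (if x = 0 then 0 else 2 * (p : ℤ)) - (quadraticChar (ZMod p)) x * ∑ y : ZMod p, (quadraticChar (ZMod p)) y := by
    intro x
    rw [Finset.sum_comm]
    have h3 : ∀ y : ZMod p, ∑ k : ZMod p, (quadraticChar (ZMod p)) x * (quadraticChar (ZMod p)) y * ((quadraticChar (ZMod p)) (x ^ 2 - k) * (quadraticChar (ZMod p)) (y ^ 2 - k)) =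
        (if x ^ 2 = y ^ 2 then (p : ℤ) * ((quadraticChar (ZMod p)) x * (quadraticChar (ZMod p)) y) else 0) - (quadraticChar (ZMod p)) x * (quadraticChar (ZMod p)) y := by
      intro y
      rw [← Finset.mul_sum, jac_sum_sq hp]
      split_ifs <;> ring
    rw [Finset.sum_congr rfl fun y _ => h3 y, Finset.sum_sub_distrib, ← Finset.mul_sum]
    congr 1
    rw [← Finset.sum_filter]
    by_cases hx : x = 0
    · subst hx
      rw [if_pos rfl]
      refine Finset.sum_eq_zero fun y _ => ?_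
      simp
    · rw [if_neg hx]
      have h4 : (univ.filter fun y : ZMod p => x ^ 2 = y ^ 2) = {x, -x} := by
        ext y
        simp only [mem_filter, mem_univ, true_and, mem_insert, mem_singleton]
        constructor
        · intro h
          rcases sq_eq_sq_iff_eq_or_eq_neg.mp h.symm with h | h
          · exact Or.inl h
          · exact Or.inr h
        · rintro (h | h) <;> simp [h]
      rw [h4, Finset.sum_pair (neg_ne_self' hp hx).symm, jac_chi_sq hx,
        show (quadraticChar (ZMod p)) (-x) = (quadraticChar (ZMod p)) (-1) * (quadraticChar (ZMod p)) x by rw [← map_mul]; congr 1; ring, chi_neg_one hp4, one_mul,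
        jac_chi_sq hx]
      ring
  rw [Finset.sum_congr rfl fun x _ => h2 x, Finset.sum_sub_distrib, jac_sum_zero hp]
  simp only [mul_zero, Finset.sum_const_zero, sub_zero]
  rw [← Finset.sum_erase_add (s := univ) (a := (0 : ZMod p)) _ (mem_univ _), if_pos rfl, add_zero,
    Finset.sum_congr rfl (g := fun _ => 2 * (p : ℤ))
      (fun t ht => if_neg (Finset.mem_erase.mp ht).1),
    Finset.sum_const, Finset.card_erase_of_mem (mem_univ _), Finset.card_univ, ZMod.card]
  have hp1 : 1 ≤ p := (Fact.out : p.Prime).one_lt.le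
  simp [Nat.cast_sub hp1]
  ring

theorem jac_mul_sq (k t : ZMod p) (ht : t ≠ 0) : jac (k * t ^ 2) = (quadraticChar (ZMod p)) t * jac k := by
  unfold jac
  rw [Finset.mul_sum]
  refine (Fintype.sum_bijective (fun y : ZMod p => t * y)
    ⟨fun a b hab => by simpa [ht] using hab, fun y => ⟨t⁻¹ * y, mul_inv_cancel_left₀ ht y⟩⟩ _ _
    fun y => ?_).symm
  rw [show (t * y) ^ 3 - k * t ^ 2 * (t * y) = t ^ 2 * (t * (y ^ 3 - k * y)) by ring, map_mul,
    map_mul, jac_chi_sq' ht, one_mul]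

theorem jac_zero (hp : p ≠ 2) : jac (0 : ZMod p) = 0 := by
  rw [← jac_sum_zero hp]
  unfold jac
  refine Finset.sum_congr rfl fun x _ => ?_
  by_cases hx : x = 0
  · simp [hx]
  · rw [show x ^ 3 - 0 * x = x ^ 2 * x by ring, map_mul, jac_chi_sq' hx, one_mul]

/-- `φ(1)² + φ(g)² = 4p` -/
theorem jac_four (hp4 : p % 4 = 1) {g : ZMod p} (hg : (quadraticChar (ZMod p)) g = -1) :
    jac (1 : ZMod p) ^ 2 + jac g ^ 2 = 4 * (p : ℤ) := by
  have hp : p ≠ 2 := by rintro rfl; norm_num at hp4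
  have hg0 : g ≠ 0 := by rintro rfl; simp at hg
  have key : ∀ k : ZMod p, 2 * jac k ^ 2 =
      ((quadraticChar (ZMod p)) k * (quadraticChar (ZMod p)) k) * (jac (1 : ZMod p) ^ 2 + jac g ^ 2) +
        (quadraticChar (ZMod p)) k * (jac (1 : ZMod p) ^ 2 - jac g ^ 2) := by
    intro k
    by_cases hk : k = 0
    · subst hk; rw [jac_zero hp]; simp
    rcases quadraticChar_dichotomy hk with h | h
    · obtain ⟨t, ht⟩ := (quadraticChar_one_iff_isSquare hk).mp h
      have ht0 : t ≠ 0 := by rintro rfl; simp at ht; exact hk ht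
      have : jac k = (quadraticChar (ZMod p)) t * jac (1 : ZMod p) := by
        rw [← jac_mul_sq 1 t ht0, ht]; congr 1; ring
      rw [this, h, mul_pow, sq ((quadraticChar (ZMod p)) t), jac_chi_sq ht0]; ring
    · have hkg : (quadraticChar (ZMod p)) (k * g⁻¹) = 1 := by
        have h1 : (quadraticChar (ZMod p)) (k * g⁻¹) * (quadraticChar (ZMod p)) g = (quadraticChar (ZMod p)) k := by
          rw [← map_mul, inv_mul_cancel_right₀ hg0]
        rw [hg, h] at h1; linarith
      obtain ⟨t, ht⟩ := (quadraticChar_one_iff_isSquare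
        (mul_ne_zero hk (inv_ne_zero hg0))).mp hkg
      have ht0 : t ≠ 0 := by
        rintro rfl; simp at ht; rcases ht with ht | ht
        · exact hk ht
        · exact hg0 ht
      have : jac k = (quadraticChar (ZMod p)) t * jac g := by
        rw [← jac_mul_sq g t ht0]; congr 1
        rw [sq, ← ht, mul_comm, inv_mul_cancel_right₀ hg0]
      rw [this, h, mul_pow, sq ((quadraticChar (ZMod p)) t), jac_chi_sq ht0]; ring
  have h2 : ∑ k : ZMod p, 2 * jac k ^ 2 = ((p : ℤ) - 1) * (jac (1 : ZMod p) ^ 2 + jac g ^ 2) := by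
    rw [Finset.sum_congr rfl fun k _ => key k, Finset.sum_add_distrib, ← Finset.sum_mul,
      ← Finset.sum_mul, jac_sum_zero hp, zero_mul, add_zero]
    congr 1
    have := jac_sum_sq (p := p) hp 0 0
    rw [if_pos rfl] at this
    rw [← this]
    refine Fintype.sum_bijective (fun k : ZMod p => -k) (Equiv.neg _).bijective _ _ fun k => ?_
    simp
  rw [← Finset.mul_sum, jac_sum_sq_eq hp4] at h2
  have hp1 : (p : ℤ) - 1 ≠ 0 := by
    have : 1 < p := (Fact.out : p.Prime).one_lt
    have : (1 : ℤ) < p := by exact_mod_cast this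
    linarith
  have h3 : ((p : ℤ) - 1) * (jac (1 : ZMod p) ^ 2 + jac g ^ 2 - 4 * p) = 0 := by
    linear_combination -h2
  rcases mul_eq_zero.mp h3 with h | h
  · exact absurd h hp1
  · linarith

theorem jac_even (hp4 : p % 4 = 1) (k : ZMod p) : (2 : ℤ) ∣ jac k := by
  have hp : p ≠ 2 := by rintro rfl; norm_num at hp4
  refine (ZMod.intCast_zmod_eq_zero_iff_dvd (jac k) 2).mp ?_
  unfold jac
  push_cast
  have hsym : ∀ x : ZMod p, (quadraticChar (ZMod p)) ((-x) ^ 3 - k * (-x)) = (quadraticChar (ZMod p)) (x ^ 3 - k * x) := by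
    intro x
    rw [show (-x) ^ 3 - k * (-x) = (-1) * (x ^ 3 - k * x) by ring, map_mul, chi_neg_one hp4,
      one_mul]
  refine Finset.sum_involution (fun x _ => -x) ?_ ?_ ?_ ?_
  · intro x _
    simp only [hsym x]
    exact CharTwo.add_self_eq_zero _
  · intro x _ hx
    refine neg_ne_self' hp ?_
    rintro rfl
    simp at hx
  · intro x _; exact mem_univ _
  · intro x _; exact neg_neg x

theorem chi_symm (hp4 : p % 4 = 1) (x : ZMod p) : (quadraticChar (ZMod p)) ((-x) ^ 3 - (-x)) = (quadraticChar (ZMod p)) (x ^ 3 - x) := by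
  rw [show (-x) ^ 3 - (-x) = (-1) * (x ^ 3 - x) by ring, map_mul, chi_neg_one hp4, one_mul]

theorem chi_inv (hp4 : p % 4 = 1) {x : ZMod p} (hx : x ≠ 0) :
    (quadraticChar (ZMod p)) ((x⁻¹) ^ 3 - x⁻¹) = (quadraticChar (ZMod p)) (x ^ 3 - x) := by
  rw [show (x⁻¹) ^ 3 - x⁻¹ = (x⁻¹ ^ 2) ^ 2 * ((-1) * (x ^ 3 - x)) by field_simp; ring, map_mul,
    map_mul, chi_neg_one hp4, one_mul, jac_chi_sq' (pow_ne_zero 2 (inv_ne_zero hx)), one_mul]

open scoped Classical in
/-- the set where the character is `-1` -/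
noncomputable def TT : Finset (ZMod p) := univ.filter fun x : ZMod p => (quadraticChar (ZMod p)) (x ^ 3 - x) = -1

theorem mem_TT {x : ZMod p} : x ∈ (TT : Finset (ZMod p)) ↔ (quadraticChar (ZMod p)) (x ^ 3 - x) = -1 := by
  simp [TT]

theorem TT_ne_zero {x : ZMod p} (hx : x ∈ (TT : Finset (ZMod p))) : x ≠ 0 := by
  rintro rfl
  rw [mem_TT] at hx
  simp at hx

theorem TT_sq_ne_one {x : ZMod p} (hx : x ∈ (TT : Finset (ZMod p))) : x ^ 2 ≠ 1 := by
  intro h
  rw [mem_TT, show x ^ 3 - x = x * (x ^ 2 - 1) by ring, h] at hx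
  simp at hx

theorem TT_sq_ne_neg_one {x : ZMod p} (hx : x ∈ (TT : Finset (ZMod p))) : x ^ 2 ≠ -1 := by
  intro h
  rw [mem_TT, show x ^ 3 - x = (1 - x) ^ 2 by linear_combination (x - 1) * h, map_pow] at hx
  nlinarith [sq_nonneg ((quadraticChar (ZMod p)) (1 - x))]

theorem card_TT (hp4 : p % 4 = 1) : 4 ∣ (TT : Finset (ZMod p)).card := by
  classical
  have hp : p ≠ 2 := by rintro rfl; norm_num at hp4
  have h1 : (TT : Finset (ZMod p)).card = 2 * ((TT : Finset (ZMod p)).image fun x => x ^ 2).card := by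
    rw [Finset.card_eq_sum_card_image (fun x : ZMod p => x ^ 2) (TT : Finset (ZMod p))]
    rw [Finset.sum_congr rfl (g := fun _ => 2), Finset.sum_const, smul_eq_mul, mul_comm]
    intro b hb
    obtain ⟨x, hx, rfl⟩ := Finset.mem_image.mp hb
    have h4 : ((TT : Finset (ZMod p)).filter fun a => a ^ 2 = x ^ 2) = {x, -x} := by
      ext y
      simp only [mem_filter, mem_insert, mem_singleton]
      constructor
      · rintro ⟨_, h⟩
        exact sq_eq_sq_iff_eq_or_eq_neg.mp h
      · rintro (h | h)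
        · subst h; exact ⟨hx, rfl⟩
        · subst h
          refine ⟨?_, by ring⟩
          rw [mem_TT, chi_symm hp4]; exact mem_TT.mp hx
    rw [h4, Finset.card_pair (neg_ne_self' hp (TT_ne_zero hx)).symm]
  have h2 : 2 ∣ ((TT : Finset (ZMod p)).image fun x => x ^ 2).card := by
    rw [← ZMod.natCast_eq_zero_iff]
    rw [show ((((TT : Finset (ZMod p)).image fun x => x ^ 2).card : ℕ) : ZMod 2) =
      ∑ y ∈ (TT : Finset (ZMod p)).image (fun x => x ^ 2), (1 : ZMod 2) by simp]
    refine Finset.sum_involution (fun y _ => y⁻¹) ?_ ?_ ?_ ?_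
    · intro y _; exact CharTwo.add_self_eq_zero _
    · intro y hy _ hyy
      obtain ⟨x, hx, rfl⟩ := Finset.mem_image.mp hy
      have hx0 := TT_ne_zero hx
      have h3 : x ^ 2 * x ^ 2 = 1 := by
        nth_rewrite 1 [← hyy]
        exact inv_mul_cancel₀ (pow_ne_zero 2 hx0)
      have h4 : (x ^ 2 - 1) * (x ^ 2 + 1) = 0 := by linear_combination h3
      rcases mul_eq_zero.mp h4 with h | h
      · exact TT_sq_ne_one hx (by linear_combination h)
      · exact TT_sq_ne_neg_one hx (by linear_combination h)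
    · intro y hy
      obtain ⟨x, hx, rfl⟩ := Finset.mem_image.mp hy
      refine Finset.mem_image.mpr ⟨x⁻¹, ?_, by simp⟩
      rw [mem_TT, chi_inv hp4 (TT_ne_zero hx)]; exact mem_TT.mp hx
    · intro y _; exact inv_inv y
  obtain ⟨c, hc⟩ := h2
  exact ⟨c, by rw [h1, hc]; ring⟩

theorem jac_one_eq (hp4 : p % 4 = 1) :
    jac (1 : ZMod p) = (p : ℤ) - 3 - 2 * ((TT : Finset (ZMod p)).card : ℤ) := by
  classical
  have hp : p ≠ 2 := by rintro rfl; norm_num at hp4
  have h1 : ∀ x : ZMod p, (quadraticChar (ZMod p)) (x ^ 3 - 1 * x) =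
      (1 - (if x ∈ ({0, 1, -1} : Finset (ZMod p)) then 1 else 0)) -
        2 * (if x ∈ (TT : Finset (ZMod p)) then 1 else 0) := by
    intro x
    rw [one_mul]
    by_cases hx : x ^ 3 - x = 0
    · have h2 : x ∈ ({0, 1, -1} : Finset (ZMod p)) := by
        have : x * ((x - 1) * (x + 1)) = 0 := by linear_combination hx
        simp only [mem_insert, mem_singleton]
        rcases mul_eq_zero.mp this with h | h
        · exact Or.inl h
        · rcases mul_eq_zero.mp h with h | h
          · exact Or.inr (Or.inl (by linear_combination h))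
          · exact Or.inr (Or.inr (by linear_combination h))
      have h3 : x ∉ (TT : Finset (ZMod p)) := by
        rw [mem_TT, hx]; simp
      rw [if_pos h2, if_neg h3, hx]; simp
    · have h2 : x ∉ ({0, 1, -1} : Finset (ZMod p)) := by
        simp only [mem_insert, mem_singleton]
        rintro (h | h | h) <;> subst h <;> apply hx <;> ring
      rw [if_neg h2]
      rcases quadraticChar_dichotomy hx with h | h
      · rw [if_neg (by rw [mem_TT, h]; norm_num), h]; norm_num
      · rw [if_pos (by rw [mem_TT, h]), h]; norm_num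
  unfold jac
  rw [Finset.sum_congr rfl fun x _ => h1 x, Finset.sum_sub_distrib, Finset.sum_sub_distrib,
    ← Finset.mul_sum, Finset.sum_ite_mem, Finset.sum_ite_mem]
  simp only [Finset.univ_inter, Finset.sum_const, mul_one, nsmul_eq_mul,
    Finset.card_univ, ZMod.card]
  have h3 : ({0, 1, -1} : Finset (ZMod p)).card = 3 := by
    rw [Finset.card_insert_of_notMem, Finset.card_pair]
    · exact (neg_ne_self' hp one_ne_zero).symm
    · simp only [mem_insert, mem_singleton]
      rintro (h | h)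
      · exact zero_ne_one h
      · exact one_ne_zero (α := ZMod p) (by linear_combination h)
  rw [h3]
  push_cast
  ring

end Jac

theorem two_sq_aux {p x y a b : ℤ} (hp : 0 < p) (h1 : x ^ 2 + y ^ 2 = p) (h2 : a ^ 2 + b ^ 2 = p)
    (hy : y % 2 = 0) (hb : b % 2 = 0) (hxy : (x + y) % 4 = 1) (hab : (a + b) % 4 = 1)
    (hd : p ∣ x * b - y * a) : x = a ∧ y = b := by
  obtain ⟨c, hc⟩ := hd
  have h3 : (x * a + y * b) ^ 2 + p ^ 2 * c ^ 2 = p ^ 2 := by
    have : (x * a + y * b) ^ 2 + (x * b - y * a) ^ 2 = (x ^ 2 + y ^ 2) * (a ^ 2 + b ^ 2) := by ring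
    rw [hc, h1, h2] at this
    linarith
  have hc0 : c = 0 := by
    by_contra hne
    have h4 : 1 ≤ c ^ 2 := by
      have := pow_pos (abs_pos.mpr hne) 2
      rw [sq_abs] at this
      omega
    have h5 : (x * a + y * b) ^ 2 ≤ 0 := by nlinarith [sq_nonneg p]
    have h6 : x * a + y * b = 0 := by
      have := le_antisymm h5 (sq_nonneg _)
      exact pow_eq_zero_iff (two_ne_zero) |>.mp this
    have hx2 : x % 2 = 1 := by omega
    have ha2 : a % 2 = 1 := by omega
    have h7 : (x * a) % 2 = 1 := by rw [Int.mul_emod, hx2, ha2]; norm_num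
    have h8 : (y * b) % 2 = 0 := by rw [Int.mul_emod, hy]; norm_num
    omega
  rw [hc0] at hc h3
  have h4 : (x * a + y * b - p) * (x * a + y * b + p) = 0 := by linear_combination h3
  rcases mul_eq_zero.mp h4 with h | h
  · refine ⟨?_, ?_⟩
    · have : p * (x - a) = 0 := by linear_combination -x * h2 + a * h + b * hc
      rcases mul_eq_zero.mp this with h | h <;> omega
    · have : p * (y - b) = 0 := by linear_combination -y * h2 + b * h - a * hc
      rcases mul_eq_zero.mp this with h | h <;> omega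
  · exfalso
    have h5 : x = -a := by
      have : p * (x + a) = 0 := by linear_combination -x * h2 + a * h + b * hc
      rcases mul_eq_zero.mp this with h | h <;> omega
    have h6 : y = -b := by
      have : p * (y + b) = 0 := by linear_combination -y * h2 + b * h - a * hc
      rcases mul_eq_zero.mp this with h | h <;> omega
    omega

theorem two_sq_unique {p : ℕ} (hp : p.Prime) {x y a b : ℤ} (h1 : x ^ 2 + y ^ 2 = p)
    (h2 : a ^ 2 + b ^ 2 = p)
    (hy : y % 2 = 0) (hb : b % 2 = 0) (hxy : (x + y) % 4 = 1) (hab : (a + b) % 4 = 1) :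
    x = a ∧ (y = b ∨ y = -b) := by
  have hp0 : (0 : ℤ) < p := by exact_mod_cast hp.pos
  have hpp : Prime (p : ℤ) := Nat.prime_iff_prime_int.mp hp
  have key : (p : ℤ) ∣ (x * b - y * a) * (x * b + y * a) :=
    ⟨x ^ 2 - a ^ 2, by linear_combination x ^ 2 * h2 - a ^ 2 * h1⟩
  rcases hpp.dvd_or_dvd key with h | h
  · obtain ⟨h3, h4⟩ := two_sq_aux hp0 h1 h2 hy hb hxy hab h
    exact ⟨h3, Or.inl h4⟩
  · obtain ⟨h3, h4⟩ := two_sq_aux (a := a) (b := -b) hp0 h1 (by rw [neg_sq]; exact h2) hy (by omega) hxy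
      (by omega) (by
        have : x * -b - y * a = -(x * b + y * a) := by ring
        rw [this]; exact (dvd_neg).mpr h)
    exact ⟨h3, Or.inr h4⟩

theorem ca_eq_two_mul {p : ℕ} (hp : p.Prime) {a b : ℤ} (h2 : a ^ 2 + b ^ 2 = p)
    (hb : b % 2 = 0) (hab : (a + b) % 4 = 1) : ca p = 2 * a := by
  have hb0 : b ≠ 0 := by
    rintro rfl
    have h3 : IsSquare (p : ℤ) := ⟨a, by rw [← h2]; ring⟩
    exact (Nat.prime_iff_prime_int.mp hp).not_isSquare h3
  unfold ca
  rw [← Finset.sum_product' (f := fun x y : ℤ =>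
    if x ^ 2 + y ^ 2 = (p : ℤ) ∧ y % 2 = 0 ∧ (x + y) % 4 = 1 then x else 0), ← Finset.sum_filter]
  have h4 : ((Finset.Icc (-(p : ℤ)) p ×ˢ Finset.Icc (-(p : ℤ)) p).filter fun q : ℤ × ℤ =>
      q.1 ^ 2 + q.2 ^ 2 = (p : ℤ) ∧ q.2 % 2 = 0 ∧ (q.1 + q.2) % 4 = 1) = {(a, b), (a, -b)} := by
    ext ⟨x, y⟩
    simp only [Finset.mem_filter, Finset.mem_product, Finset.mem_Icc, Finset.mem_insert,
      Finset.mem_singleton, Prod.mk.injEq]
    constructor
    · rintro ⟨_, h1, hy, hxy⟩
      obtain ⟨h3, h4 | h4⟩ := two_sq_unique hp h1 h2 hy hb hxy hab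
      · exact Or.inl ⟨h3, h4⟩
      · exact Or.inr ⟨h3, h4⟩
    · have bd : ∀ x y : ℤ, x ^ 2 + y ^ 2 = p → -(p : ℤ) ≤ x ∧ x ≤ p := by
        intro x y h
        constructor <;> nlinarith [sq_nonneg y, sq_nonneg x, sq_nonneg (x - 1), sq_nonneg (x + 1)]
      have h5 := bd a b h2
      have h6 := bd b a (by rw [add_comm]; exact h2)
      rintro (⟨rfl, rfl⟩ | ⟨rfl, rfl⟩)
      · exact ⟨⟨h5, h6⟩, h2, hb, hab⟩
      · refine ⟨⟨h5, ?_⟩, ?_, ?_, ?_⟩
        · constructor <;> omega
        · rw [neg_sq]; exact h2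
        · omega
        · omega
  rw [h4, Finset.sum_pair (by
    intro h
    rw [Prod.mk.injEq] at h
    omega)]
  simp only []
  ring

theorem ca_three {p : ℕ} (hp4 : p % 4 = 3) : ca p = 0 := by
  unfold ca
  refine Finset.sum_eq_zero fun x _ => Finset.sum_eq_zero fun y _ => if_neg ?_
  rintro ⟨h, -, -⟩
  have hp4' : (p : ℤ) % 4 = 3 := by omega
  rw [← h] at hp4'
  have hx : x ^ 2 % 4 = 0 ∨ x ^ 2 % 4 = 1 := by
    rcases Int.emod_two_eq_zero_or_one x with h | h
    · obtain ⟨c, hc⟩ : ∃ c, x = 2 * c := ⟨x / 2, by omega⟩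
      left; rw [hc]; ring_nf; omega
    · obtain ⟨c, hc⟩ : ∃ c, x = 2 * c + 1 := ⟨x / 2, by omega⟩
      right; rw [hc]; ring_nf; omega
  have hy : y ^ 2 % 4 = 0 ∨ y ^ 2 % 4 = 1 := by
    rcases Int.emod_two_eq_zero_or_one y with h | h
    · obtain ⟨c, hc⟩ : ∃ c, y = 2 * c := ⟨y / 2, by omega⟩
      left; rw [hc]; ring_nf; omega
    · obtain ⟨c, hc⟩ : ∃ c, y = 2 * c + 1 := ⟨y / 2, by omega⟩
      right; rw [hc]; ring_nf; omega
  omega

/-- Module A2. -/
theorem pfStPt : StPt := by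
  intro p hpf hp2
  have hp : p.Prime := Fact.out
  have hodd : p % 2 = 1 := hp.eq_two_or_odd.resolve_left hp2
  have hcases : p % 4 = 1 ∨ p % 4 = 3 := by omega
  rcases hcases with hp4 | hp4
  · obtain ⟨g, hg⟩ := quadraticChar_exists_neg_one (ringChar_ne_two (p := p) hp2)
    have h4 := jac_four hp4 hg
    obtain ⟨a, ha⟩ := jac_even hp4 (1 : ZMod p)
    obtain ⟨b, hb⟩ := jac_even hp4 g
    have h1 := jac_one_eq (p := p) hp4
    obtain ⟨c, hc⟩ := card_TT (p := p) hp4
    rw [hc] at h1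
    have hsum : ∑ x : ZMod p, quadraticChar (ZMod p) (x ^ 3 - x) = 2 * a := by
      rw [← ha]; unfold jac; simp only [one_mul]
    have hab : (-a) ^ 2 + b ^ 2 = (p : ℤ) := by
      rw [ha, hb] at h4; linarith
    push_cast at h1
    -- 2 a = p - 3 - 8 c
    have hpz : (p : ℤ) % 4 = 1 := by omega
    have haodd : a % 2 = 1 := by omega
    obtain ⟨a', ha'⟩ : ∃ a', a = 2 * a' + 1 := ⟨a / 2, by omega⟩
    have hbeven : b % 2 = 0 := by
      rcases Int.emod_two_eq_zero_or_one b with h | h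
      · exact h
      · exfalso
        obtain ⟨b', hb'⟩ : ∃ b', b = 2 * b' + 1 := ⟨b / 2, by omega⟩
        rw [ha', hb'] at hab
        ring_nf at hab
        omega
    obtain ⟨b', hb'⟩ : ∃ b', b = 2 * b' := ⟨b / 2, by omega⟩
    have hab2 : (p : ℤ) = 4 * a' ^ 2 + 4 * a' + 1 + 4 * b' ^ 2 := by
      rw [← hab, ha', hb']; ring
    have h6 : (a' ^ 2 + b' ^ 2) % 2 = 1 := by omega
    have h7 : (a' + b') % 2 = 1 := by
      have e1 : ¬ Even (a' ^ 2 + b' ^ 2) := Int.not_even_iff.mpr h6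
      rw [Int.even_add, Int.even_pow' two_ne_zero, Int.even_pow' two_ne_zero, ← Int.even_add] at e1
      exact Int.not_even_iff.mp e1
    rw [hsum, ca_eq_two_mul hp hab hbeven (by omega)]
    ring
  · rw [ca_three hp4]
    have h1 : ∑ x : ZMod p, quadraticChar (ZMod p) (x ^ 3 - x) =
        ∑ x : ZMod p, -quadraticChar (ZMod p) (x ^ 3 - x) := by
      refine Fintype.sum_bijective (fun x : ZMod p => -x) (Equiv.neg _).bijective _ _ fun x => ?_
      rw [show (-x) ^ 3 - (-x) = (-1) * (x ^ 3 - x) by ring, map_mul, chi_neg_one' hp4]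
      ring
    rw [Finset.sum_neg_distrib] at h1
    linarith

end P004
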