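import Vale.Agent.P004.Iface

/-!
# P004, module B: divisor sums (`StDiv`)
-/

open Real Set
open scoped ENNReal Pointwise

namespace P004

namespace B

theorem dv_nonneg (n : ℕ) : 0 ≤ dv n := by
  unfold dv; positivity

theorem dv_mul_le (a b : ℕ) : dv (a * b) ≤ dv a * dv b := by
  unfold dv
  rw [Nat.divisors_mul]
  exact_mod_cast Finset.card_mul_le

theorem dv_one : dv 1 = 1 := by
  simp [dv]

theorem dv_pow_le (a k : ℕ) : dv (a ^ k) ≤ dv a ^ k := by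
  induction k with
  | zero => simp [dv_one]
  | succ k ih =>
    rw [pow_succ, pow_succ]
    calc dv (a ^ k * a) ≤ dv (a ^ k) * dv a := dv_mul_le _ _
      _ ≤ dv a ^ k * dv a := by
        gcongr
        exact dv_nonneg a

/-- the elementary step `n^{-1-θ} ≤ θ⁻¹ ((n-1)^{-θ} - n^{-θ})` -/
theorem rpow_step (θ : ℝ) (h0 : 0 < θ) (h1 : θ ≤ 1) (n : ℕ) (hn : 1 ≤ n) :
    ((n + 1 : ℕ) : ℝ) ^ (-1 - θ) ≤ (1 / θ) * ((n : ℝ) ^ (-θ) - ((n + 1 : ℕ) : ℝ) ^ (-θ)) := by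
  have hnpos : (0 : ℝ) < n := by exact_mod_cast hn
  have hN : (0 : ℝ) < ((n + 1 : ℕ) : ℝ) := by positivity
  set N : ℝ := ((n + 1 : ℕ) : ℝ) with hNdef
  have hNn : (n : ℝ) = N * (1 - 1 / N) := by
    rw [hNdef]; push_cast; field_simp; ring
  have h1N : 1 / N < 1 := by
    rw [div_lt_one hN, hNdef]; push_cast; linarith
  have hb : (1 - 1 / N) ^ θ ≤ 1 - θ * (1 / N) := by
    have := rpow_one_add_le_one_add_mul_self (s := -(1 / N)) (by linarith) h0.le h1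
    have e1 : (1 + -(1 / N)) = 1 - 1 / N := by ring
    have e2 : 1 + θ * -(1 / N) = 1 - θ * (1 / N) := by ring
    rwa [e1, e2] at this
  have hpos1 : 0 < (1 - 1 / N) ^ θ := Real.rpow_pos_of_pos (by linarith) _
  have hpos2 : 0 < 1 - θ * (1 / N) := lt_of_lt_of_le hpos1 hb
  have hc : 1 + θ * (1 / N) ≤ (1 - 1 / N) ^ (-θ) := by
    rw [Real.rpow_neg (by linarith)]
    calc 1 + θ * (1 / N) ≤ (1 - θ * (1 / N))⁻¹ := by
          rw [le_inv_comm₀ (by positivity) hpos2, inv_eq_one_div, le_div_iff₀ (by positivity)]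
          nlinarith [sq_nonneg (θ * (1 / N))]
      _ ≤ ((1 - 1 / N) ^ θ)⁻¹ := inv_anti₀ hpos1 hb
  have hd : (n : ℝ) ^ (-θ) = N ^ (-θ) * (1 - 1 / N) ^ (-θ) := by
    rw [hNn, Real.mul_rpow hN.le (by linarith)]
  have he : N ^ (-1 - θ) = N ^ (-θ) * (1 / N) := by
    rw [show (-1 - θ) = -θ - 1 by ring, Real.rpow_sub hN, Real.rpow_one]; ring
  have hNθ : 0 < N ^ (-θ) := Real.rpow_pos_of_pos hN _
  rw [hd, he]
  have : N ^ (-θ) * (θ * (1 / N)) ≤ N ^ (-θ) * ((1 - 1 / N) ^ (-θ) - 1) := by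
    apply mul_le_mul_of_nonneg_left _ hNθ.le
    linarith
  calc N ^ (-θ) * (1 / N) = (1 / θ) * (N ^ (-θ) * (θ * (1 / N))) := by field_simp
    _ ≤ (1 / θ) * (N ^ (-θ) * ((1 - 1 / N) ^ (-θ) - 1)) := by
        apply mul_le_mul_of_nonneg_left this (by positivity)
    _ = 1 / θ * (N ^ (-θ) * (1 - 1 / N) ^ (-θ) - N ^ (-θ)) := by ring

theorem sum_rpow (θ : ℝ) (h0 : 0 < θ) (h1 : θ ≤ 1) (n : ℕ) (hn : 1 ≤ n) :
    ∑ k ∈ Finset.range (n + 1), ((k : ℕ) : ℝ) ^ (-1 - θ) ≤ 1 + (1 / θ) * (1 - (n : ℝ) ^ (-θ)) := by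
  induction n, hn using Nat.le_induction with
  | base =>
    have hne : (-1 - θ) ≠ 0 := by linarith
    simp [Finset.sum_range_succ, Real.zero_rpow hne]
  | succ n hn ih =>
    rw [Finset.sum_range_succ]
    have := rpow_step θ h0 h1 n hn
    have e : 1 + 1 / θ * (1 - ((n + 1 : ℕ) : ℝ) ^ (-θ)) =
        1 + (1 / θ) * (1 - (n : ℝ) ^ (-θ)) +
          (1 / θ) * ((n : ℝ) ^ (-θ) - ((n + 1 : ℕ) : ℝ) ^ (-θ)) := by ring
    rw [e]
    exact add_le_add ih this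

theorem tsum_rpow (θ : ℝ) (h0 : 0 < θ) (h1 : θ ≤ 1) :
    ∑' n : ℕ, ENNReal.ofReal ((n : ℝ) ^ (-1 - θ)) ≤ ENNReal.ofReal (2 * (1 / θ) ^ 1) := by
  apply ENNReal.tsum_le_of_sum_range_le
  intro n
  have hmono : ∑ i ∈ Finset.range n, ENNReal.ofReal ((i : ℝ) ^ (-1 - θ)) ≤
      ∑ i ∈ Finset.range (n + 1 + 1), ENNReal.ofReal ((i : ℝ) ^ (-1 - θ)) := by
    apply Finset.sum_le_sum_of_subset
    intro x hx
    simp only [Finset.mem_range] at hx ⊢
    omega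
  refine hmono.trans ?_
  rw [← ENNReal.ofReal_sum_of_nonneg (fun i _ => by positivity)]
  apply ENNReal.ofReal_le_ofReal
  refine (sum_rpow θ h0 h1 (n + 1) (by omega)).trans ?_
  have h2 : (0 : ℝ) ≤ ((n + 1 : ℕ) : ℝ) ^ (-θ) := by positivity
  have h3 : 1 ≤ 1 / θ := by rw [le_div_iff₀ h0]; linarith
  have h4 : 1 / θ * (1 - ((n + 1 : ℕ) : ℝ) ^ (-θ)) ≤ 1 / θ * 1 := by
    apply mul_le_mul_of_nonneg_left _ (by positivity)
    linarith
  rw [pow_one]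
  linarith

/-- Dirichlet convolution in `ℝ≥0∞` -/
theorem tsum_divisors_mul (f g : ℕ → ℝ≥0∞) :
    ∑' n : ℕ, ∑ p ∈ n.divisorsAntidiagonal, f p.1 * g p.2 ≤ (∑' a, f a) * ∑' b, g b := by
  have h1 : ∀ n : ℕ, ∑ p ∈ n.divisorsAntidiagonal, f p.1 * g p.2 ≤
      ∑' p : ℕ × ℕ, if p.1 * p.2 = n then f p.1 * g p.2 else 0 := by
    intro n
    calc ∑ p ∈ n.divisorsAntidiagonal, f p.1 * g p.2
        = ∑ p ∈ n.divisorsAntidiagonal, (if p.1 * p.2 = n then f p.1 * g p.2 else 0) := by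
          apply Finset.sum_congr rfl
          intro p hp
          rw [if_pos (Nat.mem_divisorsAntidiagonal.1 hp).1]
      _ ≤ _ := ENNReal.sum_le_tsum _
  calc ∑' n : ℕ, ∑ p ∈ n.divisorsAntidiagonal, f p.1 * g p.2
      ≤ ∑' n : ℕ, ∑' p : ℕ × ℕ, (if p.1 * p.2 = n then f p.1 * g p.2 else 0) :=
        ENNReal.tsum_le_tsum h1
    _ = ∑' p : ℕ × ℕ, ∑' n : ℕ, (if p.1 * p.2 = n then f p.1 * g p.2 else 0) :=
        ENNReal.tsum_comm
    _ = ∑' p : ℕ × ℕ, f p.1 * g p.2 := by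
        apply tsum_congr
        intro p
        simp_rw [eq_comm (a := p.1 * p.2)]
        exact tsum_ite_eq (p.1 * p.2) (fun _ => f p.1 * g p.2)
    _ = ∑' a : ℕ, ∑' b : ℕ, f a * g b := ENNReal.tsum_prod (f := fun a b => f a * g b)
    _ = (∑' a, f a) * ∑' b, g b := by
        rw [← ENNReal.tsum_mul_right]
        apply tsum_congr
        intro a
        rw [ENNReal.tsum_mul_left]

theorem dv_step (K : ℕ) (θ : ℝ) :
    ∑' n : ℕ, ENNReal.ofReal (dv n ^ (K + 1) * (n : ℝ) ^ (-1 - θ)) ≤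
      (∑' n : ℕ, ENNReal.ofReal (dv n ^ K * (n : ℝ) ^ (-1 - θ))) *
        ∑' n : ℕ, ENNReal.ofReal (dv n ^ K * (n : ℝ) ^ (-1 - θ)) := by
  refine le_trans ?_ (tsum_divisors_mul _ _)
  apply ENNReal.tsum_le_tsum
  intro n
  have hcard : (n.divisorsAntidiagonal.card : ℝ) = dv n := by
    unfold dv
    rw [← Nat.map_div_right_divisors, Finset.card_map]
  have hle : ∀ p ∈ n.divisorsAntidiagonal,
      ENNReal.ofReal (dv n ^ K * (n : ℝ) ^ (-1 - θ)) ≤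
      ENNReal.ofReal (dv p.1 ^ K * (p.1 : ℝ) ^ (-1 - θ)) *
        ENNReal.ofReal (dv p.2 ^ K * (p.2 : ℝ) ^ (-1 - θ)) := by
    intro p hp
    have hpn := (Nat.mem_divisorsAntidiagonal.1 hp).1
    rw [← ENNReal.ofReal_mul (mul_nonneg (pow_nonneg (dv_nonneg _) _) (by positivity))]
    apply ENNReal.ofReal_le_ofReal
    have h1 : (n : ℝ) ^ (-1 - θ) = (p.1 : ℝ) ^ (-1 - θ) * (p.2 : ℝ) ^ (-1 - θ) := by
      rw [← hpn]; push_cast
      rw [Real.mul_rpow (by positivity) (by positivity)]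
    have h2 : dv n ^ K ≤ dv p.1 ^ K * dv p.2 ^ K := by
      rw [← mul_pow, ← hpn]
      exact pow_le_pow_left₀ (dv_nonneg _) (dv_mul_le _ _) _
    rw [h1]
    calc dv n ^ K * ((p.1 : ℝ) ^ (-1 - θ) * (p.2 : ℝ) ^ (-1 - θ))
        ≤ (dv p.1 ^ K * dv p.2 ^ K) * ((p.1 : ℝ) ^ (-1 - θ) * (p.2 : ℝ) ^ (-1 - θ)) := by
          apply mul_le_mul_of_nonneg_right h2 (by positivity)
      _ = _ := by ring
  calc ENNReal.ofReal (dv n ^ (K + 1) * (n : ℝ) ^ (-1 - θ))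
      = ∑ p ∈ n.divisorsAntidiagonal, ENNReal.ofReal (dv n ^ K * (n : ℝ) ^ (-1 - θ)) := by
        rw [Finset.sum_const, nsmul_eq_mul, ← ENNReal.ofReal_natCast,
          ← ENNReal.ofReal_mul (by positivity), hcard]
        congr 1
        ring
    _ ≤ _ := Finset.sum_le_sum hle

theorem div1 (K : ℕ) : ∃ C : ℝ, 0 < C ∧ ∃ A : ℕ, ∀ θ : ℝ, 0 < θ → θ ≤ 1 →
    ∑' n : ℕ, ENNReal.ofReal (dv n ^ K * (n : ℝ) ^ (-1 - θ)) ≤
      ENNReal.ofReal (C * (1 / θ) ^ A) := by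
  induction K with
  | zero =>
    refine ⟨2, by norm_num, 1, fun θ h0 h1 => ?_⟩
    simpa using tsum_rpow θ h0 h1
  | succ K ih =>
    obtain ⟨C, hC, A, h⟩ := ih
    refine ⟨C * C, by positivity, A + A, fun θ h0 h1 => ?_⟩
    refine (dv_step K θ).trans ?_
    have hh := h θ h0 h1
    calc _ ≤ ENNReal.ofReal (C * (1 / θ) ^ A) * ENNReal.ofReal (C * (1 / θ) ^ A) :=
          mul_le_mul' hh hh
      _ = ENNReal.ofReal (C * C * (1 / θ) ^ (A + A)) := by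
          rw [← ENNReal.ofReal_mul (by positivity)]
          congr 1
          rw [pow_add]; ring

/-- every powerful number is `s² t³` -/
theorem powerful_eq (r : ℕ) (hr : Powerful r) : ∃ s t : ℕ, s ≠ 0 ∧ t ≠ 0 ∧ r = s ^ 2 * t ^ 3 := by
  obtain ⟨b, a, hab, hb⟩ := Nat.sq_mul_squarefree r
  have hr0 := hr.1
  have ha0 : a ≠ 0 := by rintro rfl; apply hr0; rw [← hab]; simp
  have hb0 : b ≠ 0 := by rintro rfl; apply hr0; rw [← hab]; simp
  have hdvd : b ∣ a := by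
    rw [← Nat.prod_primeFactors_of_squarefree hb]
    apply Finset.prod_primes_dvd
    · intro p hp
      exact (Nat.prime_of_mem_primeFactors hp).prime
    · intro p hp
      have hpp := Nat.prime_of_mem_primeFactors hp
      have hpb := Nat.dvd_of_mem_primeFactors hp
      have hpr : p ∣ r := by rw [← hab]; exact hpb.mul_left _
      have hp2 : p ^ 2 ∣ r := hr.2 p hpp hpr
      by_contra hpa
      have hcop : Nat.Coprime (p ^ 2) (a ^ 2) :=
        Nat.Coprime.pow 2 2 ((Nat.Prime.coprime_iff_not_dvd hpp).2 hpa)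
      rw [← hab] at hp2
      have : p ^ 2 ∣ b := hcop.dvd_of_dvd_mul_left hp2
      have h3 : p * p ∣ b := by rwa [← sq]
      have := (Nat.squarefree_iff_prime_squarefree.1 hb) p hpp
      exact this h3
  obtain ⟨c, hc⟩ := hdvd
  refine ⟨c, b, ?_, hb0, ?_⟩
  · rintro rfl; apply ha0; simpa using hc
  · rw [← hab, hc]; ring

theorem div2 (K : ℕ) : ∃ C : ℝ, 0 < C ∧ ∃ A : ℕ, ∀ θ : ℝ, 0 < θ → θ ≤ 1 →
    ∑' r : {r : ℕ // Powerful r}, ENNReal.ofReal (dv r ^ K * (r : ℝ) ^ (-1 / 2 - θ)) ≤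
      ENNReal.ofReal (C * (1 / θ) ^ A) := by
  obtain ⟨C₁, hC₁, A₁, h₁⟩ := div1 (2 * K)
  obtain ⟨C₂, hC₂, A₂, h₂⟩ := div1 (3 * K)
  refine ⟨C₁ * C₂, by positivity, A₁ + A₂, fun θ h0 h1 => ?_⟩
  choose s t hs ht hst using fun r : {r : ℕ // Powerful r} => powerful_eq r.1 r.2
  let φ : {r : ℕ // Powerful r} → ℕ × ℕ := fun r => (s r, t r)
  have hinj : Function.Injective φ := by
    intro r r' h
    have h1 : s r = s r' := congrArg Prod.fst h
    have h2 : t r = t r' := congrArg Prod.snd h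
    apply Subtype.ext
    rw [hst r, hst r', h1, h2]
  let G : ℕ × ℕ → ℝ≥0∞ := fun p =>
    ENNReal.ofReal (dv p.1 ^ (2 * K) * (p.1 : ℝ) ^ (-1 - θ)) *
      ENNReal.ofReal (dv p.2 ^ (3 * K) * (p.2 : ℝ) ^ (-1 - θ))
  have hle : ∀ r : {r : ℕ // Powerful r},
      ENNReal.ofReal (dv r ^ K * (r : ℝ) ^ (-1 / 2 - θ)) ≤ G (φ r) := by
    intro r
    simp only [G, φ]
    rw [← ENNReal.ofReal_mul (mul_nonneg (pow_nonneg (dv_nonneg _) _) (by positivity))]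
    apply ENNReal.ofReal_le_ofReal
    have hs1 : (1 : ℝ) ≤ s r := by exact_mod_cast Nat.one_le_iff_ne_zero.2 (hs r)
    have ht1 : (1 : ℝ) ≤ t r := by exact_mod_cast Nat.one_le_iff_ne_zero.2 (ht r)
    have hd : dv r ^ K ≤ dv (s r) ^ (2 * K) * dv (t r) ^ (3 * K) := by
      rw [pow_mul, pow_mul, ← mul_pow]
      apply pow_le_pow_left₀ (dv_nonneg _)
      conv_lhs => rw [hst r]
      refine (dv_mul_le _ _).trans ?_
      exact mul_le_mul (dv_pow_le _ _) (dv_pow_le _ _) (dv_nonneg _)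
        (pow_nonneg (dv_nonneg _) _)
    have hr : ((r : ℕ) : ℝ) ^ (-1 / 2 - θ) ≤ (s r : ℝ) ^ (-1 - θ) * (t r : ℝ) ^ (-1 - θ) := by
      have e : ((r : ℕ) : ℝ) = (s r : ℝ) ^ (2 : ℝ) * (t r : ℝ) ^ (3 : ℝ) := by
        conv_lhs => rw [hst r]
        push_cast
        rw [show (2 : ℝ) = ((2 : ℕ) : ℝ) by norm_num, show (3 : ℝ) = ((3 : ℕ) : ℝ) by norm_num,
          Real.rpow_natCast, Real.rpow_natCast]
      rw [e, Real.mul_rpow (by positivity) (by positivity), ← Real.rpow_mul (by positivity),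
        ← Real.rpow_mul (by positivity)]
      apply mul_le_mul
      · exact Real.rpow_le_rpow_of_exponent_le hs1 (by linarith)
      · exact Real.rpow_le_rpow_of_exponent_le ht1 (by linarith)
      · positivity
      · positivity
    calc dv r ^ K * ((r : ℕ) : ℝ) ^ (-1 / 2 - θ)
        ≤ (dv (s r) ^ (2 * K) * dv (t r) ^ (3 * K)) *
          ((s r : ℝ) ^ (-1 - θ) * (t r : ℝ) ^ (-1 - θ)) := by
          apply mul_le_mul hd hr (by positivity)
          exact mul_nonneg (pow_nonneg (dv_nonneg _) _) (pow_nonneg (dv_nonneg _) _)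
      _ = _ := by ring
  calc ∑' r : {r : ℕ // Powerful r}, ENNReal.ofReal (dv r ^ K * (r : ℝ) ^ (-1 / 2 - θ))
      ≤ ∑' r : {r : ℕ // Powerful r}, G (φ r) := ENNReal.tsum_le_tsum hle
    _ ≤ ∑' p : ℕ × ℕ, G p := ENNReal.tsum_comp_le_tsum_of_injective hinj G
    _ = (∑' a : ℕ, ENNReal.ofReal (dv a ^ (2 * K) * (a : ℝ) ^ (-1 - θ))) *
        ∑' b : ℕ, ENNReal.ofReal (dv b ^ (3 * K) * (b : ℝ) ^ (-1 - θ)) := by
        rw [← ENNReal.tsum_mul_right]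
        simp only [G]
        rw [ENNReal.tsum_prod (f := fun a b =>
          ENNReal.ofReal (dv a ^ (2 * K) * (a : ℝ) ^ (-1 - θ)) *
            ENNReal.ofReal (dv b ^ (3 * K) * (b : ℝ) ^ (-1 - θ)))]
        apply tsum_congr
        intro a
        rw [ENNReal.tsum_mul_left]
    _ ≤ ENNReal.ofReal (C₁ * (1 / θ) ^ A₁) * ENNReal.ofReal (C₂ * (1 / θ) ^ A₂) :=
        mul_le_mul' (h₁ θ h0 h1) (h₂ θ h0 h1)
    _ = ENNReal.ofReal (C₁ * C₂ * (1 / θ) ^ (A₁ + A₂)) := by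
        rw [← ENNReal.ofReal_mul (by positivity)]
        congr 1
        rw [pow_add]; ring

end B

/-- Module B. -/
theorem pfDiv : StDiv := ⟨B.div1, B.div2⟩

end P004
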