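import Vale.Agent.P004.C6

/-!
# Module C: the functional equation of `theta`
-/

open Real MeasureTheory Set
open scoped ENNReal

namespace P004

/-- the real lattice sum with integer coefficients -/
noncomputable def Ls (c : ℤ × ℤ → ℤ) (t : ℝ) : ℝ := ∑' p : ℤ × ℤ, (c p : ℝ) * gw t p

/-- swapped weight -/
theorem gw_swap_add (t : ℝ) (x y : ℤ) :
    ((x : ℝ) + y) * Real.exp (-π * (((x + y : ℤ) : ℝ) ^ 2 + ((x - y : ℤ) : ℝ) ^ 2) * t) =
      gw (2 * t) (x, y) + gw (2 * t) (y, x) := by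
  unfold gw
  have h1 : -π * (((x + y : ℤ) : ℝ) ^ 2 + ((x - y : ℤ) : ℝ) ^ 2) * t =
      -π * ((x : ℝ) ^ 2 + (y : ℝ) ^ 2) * (2 * t) := by
    push_cast; ring
  have h2 : -π * ((y : ℝ) ^ 2 + (x : ℝ) ^ 2) * (2 * t) =
      -π * ((x : ℝ) ^ 2 + (y : ℝ) ^ 2) * (2 * t) := by ring
  simp only
  rw [h1, h2]
  ring

theorem chi4_bound (a : ZMod 4) : |((ZMod.χ₄ a : ℤ) : ℝ)| ≤ 1 := by
  rcases cases4 a with rfl | rfl | rfl | rfl
  · rw [c40]; norm_num
  · rw [c41]; norm_num
  · rw [c42]; norm_num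
  · rw [c43]; norm_num

theorem e0_bound (a : ZMod 4) : |((e0 a : ℤ) : ℝ)| ≤ 1 := by
  rcases cases4 a with rfl | rfl | rfl | rfl
  · rw [e00]; norm_num
  · rw [e01]; norm_num
  · rw [e02]; norm_num
  · rw [e03]; norm_num

theorem chi4_add (a b : ZMod 4) :
    ZMod.χ₄ (a + b) * (1 - e1 (a - b)) = ZMod.χ₄ a * e0 b + e0 a * ZMod.χ₄ b := by
  revert a b; decide

theorem chi4_supp (a b : ZMod 4) (h : ZMod.χ₄ a * (1 - e1 b) ≠ 0) :
    (a = 1 ∨ a = 3) ∧ (b = 1 ∨ b = 3) := by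
  revert a b; decide

theorem odd_of_cast {x : ℤ} (h : (x : ZMod 4) = 1 ∨ (x : ZMod 4) = 3) : x % 2 = 1 := by
  have h4 : x % 4 = 0 ∨ x % 4 = 1 ∨ x % 4 = 2 ∨ x % 4 = 3 := by omega
  rw [cast_mod4] at h
  rcases h4 with h' | h' | h' | h' <;> rw [h'] at h
  · exact absurd h (by decide)
  · omega
  · exact absurd h (by decide)
  · omega

theorem chi4_neg (a : ZMod 4) : ZMod.χ₄ (-a) = - ZMod.χ₄ a := by
  revert a; decide

/-- the rotation identity -/
theorem rotate (n : ℕ) (hn : Odd n) {t : ℝ} (ht : 0 < t) :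
    Ls (fun p => ZMod.χ₄ p.1 * (1 - e1 p.2) * jn n p) t =
      2 * (jacobiSym 2 n : ℝ) * Ls (fun p => ZMod.χ₄ p.1 * e0 p.2 * jn n p) (2 * t) := by
  have ht2 : 0 < 2 * t := by positivity
  -- coefficient functions
  set c1 : ℤ × ℤ → ℤ := fun p => ZMod.χ₄ p.1 * e0 p.2 * jn n p with hc1
  set c2 : ℤ × ℤ → ℤ := fun p => e0 p.1 * ZMod.χ₄ p.2 * jn n p with hc2
  have jswap : ∀ p : ℤ × ℤ, jn n p.swap = jn n p := by
    intro p; unfold jn; simp [add_comm]
  have hb1 : ∀ p, |(c1 p : ℝ)| ≤ 1 := by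
    intro p
    rw [hc1]
    push_cast
    rw [abs_mul, abs_mul]
    calc _ ≤ (1 : ℝ) * 1 * 1 := by
          gcongr
          · exact chi4_bound _
          · exact e0_bound _
          · exact abs_jn n p
      _ = 1 := by norm_num
  have hb2 : ∀ p, |(c2 p : ℝ)| ≤ 1 := by
    intro p
    rw [hc2]
    push_cast
    rw [abs_mul, abs_mul]
    calc _ ≤ (1 : ℝ) * 1 * 1 := by
          gcongr
          · exact e0_bound _
          · exact chi4_bound _
          · exact abs_jn n p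
      _ = 1 := by norm_num
  have hswap1 : ∀ p, c1 p.swap = c2 p := by
    intro p
    rw [hc1, hc2]
    simp only [jswap, Prod.fst_swap, Prod.snd_swap]
    ring
  have hswap2 : ∀ p, c2 p.swap = c1 p := by
    intro p
    rw [hc1, hc2]
    simp only [jswap, Prod.fst_swap, Prod.snd_swap]
    ring
  have s1 : Summable fun p : ℤ × ℤ => (c1 p : ℝ) * gw (2 * t) p :=
    summable_lattice ht2 (fun p => (c1 p : ℝ)) 1 hb1
  have s2 : Summable fun p : ℤ × ℤ => (c2 p : ℝ) * gw (2 * t) p :=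
    summable_lattice ht2 (fun p => (c2 p : ℝ)) 1 hb2
  have s1' : Summable fun p : ℤ × ℤ => (c2 p : ℝ) * gw (2 * t) p.swap := by
    have := ((Equiv.prodComm ℤ ℤ).summable_iff (f := fun p : ℤ × ℤ => (c1 p : ℝ) * gw (2 * t) p)).2
      s1
    refine this.congr fun p => ?_
    simp only [Function.comp_def, Equiv.prodComm_apply]
    rw [hswap1]
  have s2' : Summable fun p : ℤ × ℤ => (c1 p : ℝ) * gw (2 * t) p.swap := by
    have := ((Equiv.prodComm ℤ ℤ).summable_iff (f := fun p : ℤ × ℤ => (c2 p : ℝ) * gw (2 * t) p)).2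
      s2
    refine this.congr fun p => ?_
    simp only [Function.comp_def, Equiv.prodComm_apply]
    rw [hswap2]
  -- the four sums
  have v1 : ∑' p : ℤ × ℤ, (c2 p : ℝ) * gw (2 * t) p.swap =
      ∑' p : ℤ × ℤ, (c1 p : ℝ) * gw (2 * t) p := by
    rw [← (Equiv.prodComm ℤ ℤ).tsum_eq (fun p : ℤ × ℤ => (c1 p : ℝ) * gw (2 * t) p)]
    refine tsum_congr fun p => ?_
    simp only [Equiv.prodComm_apply]
    rw [hswap1]
  have v2 : ∑' p : ℤ × ℤ, (c2 p : ℝ) * gw (2 * t) p = 0 := by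
    have h1 : ∑' p : ℤ × ℤ, (c2 p : ℝ) * gw (2 * t) p =
        - ∑' p : ℤ × ℤ, (c2 p : ℝ) * gw (2 * t) p := by
      conv_lhs => rw [← ((Equiv.refl ℤ).prodCongr (Equiv.neg ℤ)).tsum_eq
        (fun p : ℤ × ℤ => (c2 p : ℝ) * gw (2 * t) p)]
      rw [← tsum_neg]
      refine tsum_congr fun p => ?_
      rw [hc2]
      simp only [Equiv.prodCongr_apply, Prod.map, Equiv.refl_apply, Equiv.neg_apply]
      unfold gw jn
      push_cast
      rw [chi4_neg]
      simp only [even_two, Even.neg_pow, neg_sq]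
      push_cast
      ring
    linarith
  have v3 : ∑' p : ℤ × ℤ, (c1 p : ℝ) * gw (2 * t) p.swap = 0 := by
    rw [← v2, ← (Equiv.prodComm ℤ ℤ).tsum_eq (fun p : ℤ × ℤ => (c2 p : ℝ) * gw (2 * t) p)]
    refine tsum_congr fun p => ?_
    simp only [Equiv.prodComm_apply]
    rw [hswap2]
  -- the change of variables
  set φ : ℤ × ℤ → ℤ × ℤ := fun p => (p.1 + p.2, p.1 - p.2) with hφ
  have hinj : Function.Injective φ := by
    rintro ⟨a, b⟩ ⟨a', b'⟩ h
    rw [hφ] at h
    simp only [Prod.mk.injEq] at h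
    ext <;> simp only <;> omega
  have hsupp : Function.support (fun p : ℤ × ℤ =>
      ((ZMod.χ₄ p.1 * (1 - e1 p.2) * jn n p : ℤ) : ℝ) * gw t p) ⊆ Set.range φ := by
    intro p hp
    have h1 : ZMod.χ₄ p.1 * (1 - e1 p.2) ≠ 0 := by
      intro h2
      apply hp
      simp only
      rw [h2]
      simp
    obtain ⟨h2, h3⟩ := chi4_supp _ _ h1
    have h4 := odd_of_cast h2
    have h5 := odd_of_cast h3
    refine ⟨((p.1 + p.2) / 2, (p.1 - p.2) / 2), ?_⟩
    rw [hφ]
    ext <;> simp only <;> omega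
  have h1 : Ls (fun p => ZMod.χ₄ p.1 * (1 - e1 p.2) * jn n p) t =
      ∑' p : ℤ × ℤ, ((ZMod.χ₄ (φ p).1 * (1 - e1 (φ p).2) * jn n (φ p) : ℤ) : ℝ) * gw t (φ p) :=
    (hinj.tsum_eq hsupp).symm
  rw [h1]
  have h2 : ∀ p : ℤ × ℤ,
      ((ZMod.χ₄ (φ p).1 * (1 - e1 (φ p).2) * jn n (φ p) : ℤ) : ℝ) * gw t (φ p) =
      (jacobiSym 2 n : ℝ) * ((c1 p : ℝ) * gw (2 * t) p + (c1 p : ℝ) * gw (2 * t) p.swap +
        ((c2 p : ℝ) * gw (2 * t) p + (c2 p : ℝ) * gw (2 * t) p.swap)) := by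
    rintro ⟨x, y⟩
    have h3 : ZMod.χ₄ (((φ (x, y)).1 : ℤ) : ZMod 4) * (1 - e1 (((φ (x, y)).2 : ℤ) : ZMod 4)) =
        ZMod.χ₄ x * e0 y + e0 x * ZMod.χ₄ y := by
      rw [hφ]
      push_cast
      exact chi4_add _ _
    have h4 : jn n (φ (x, y)) = jacobiSym 2 n * jn n (x, y) := by
      unfold jn
      rw [← jacobiSym.mul_left]
      congr 1
      rw [hφ]
      simp only
      ring
    have h5 : gw t (φ (x, y)) = gw (2 * t) (x, y) + gw (2 * t) (y, x) := by
      rw [← gw_swap_add]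
      unfold gw
      rw [hφ]
      push_cast
      ring_nf
    rw [h3, h4, h5, hc1, hc2]
    simp only [Prod.swap]
    push_cast
    ring
  rw [tsum_congr h2, tsum_mul_left, (s1.add s2').tsum_add (s2.add s1'), s1.tsum_add s2',
    s2.tsum_add s1', v1, v2, v3]
  unfold Ls
  ring

theorem pfFE : StFE := by
  intro m hm
  rcases Nat.even_or_odd m with hev | hodd
  · -- m = 2 n
    obtain ⟨n, hn⟩ := hev
    have hmn : m = 2 * n := by omega
    subst hmn
    have hn0 : n ≠ 0 := by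
      rintro rfl
      simp at hm
    have hnodd : Odd n := by
      rcases Nat.even_or_odd n with h | h
      · exfalso
        obtain ⟨k, hk⟩ := h
        have h2 : 2 * 2 ∣ 2 * n := ⟨k, by omega⟩
        have := hm 2 h2
        rw [Nat.isUnit_iff] at this
        omega
      · exact h
    have : NeZero n := ⟨hn0⟩
    have hsq : Squarefree n := hm.of_mul_right
    refine ⟨((ZMod.χ₄ n : ℤ) : ℝ), ?_, ?_⟩
    · rcases odd_cases n hnodd with h | h
      · left; rw [h, c41]; norm_num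
      · right; rw [h, c43]; norm_num
    · intro u hu
      have hQ : Qm (2 * n) = 16 * (n : ℝ) ^ 2 := by
        unfold Qm
        rw [if_neg (by rw [Nat.not_odd_iff_even]; exact even_two_mul n)]
        push_cast
        ring
      rw [hQ]
      have hu' : 0 < 1 / (16 * (n : ℝ) ^ 2 * u) := by positivity
      rw [theta_sym_even n hnodd hu, theta_sym_even n hnodd hu',
        lattice_poisson n e1 hnodd hsq e1 (by decide) dft_e1 hu]
      ring
  · -- m odd
    have hm0 : m ≠ 0 := by rintro rfl; simp at hm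
    have : NeZero m := ⟨hm0⟩
    refine ⟨((ZMod.χ₄ m : ℤ) : ℝ) * (jacobiSym 2 m : ℝ), ?_, ?_⟩
    · have h2 : jacobiSym 2 m = 1 ∨ jacobiSym 2 m = -1 := by
        apply jacobiSym.eq_one_or_neg_one
        have : Nat.gcd 2 m = 1 := Nat.coprime_two_left.2 hodd
        exact_mod_cast this
      rcases odd_cases m hodd with h | h <;> rcases h2 with h2 | h2 <;> rw [h, h2]
      · left; rw [c41]; norm_num
      · right; rw [c41]; norm_num
      · right; rw [c43]; norm_num
      · left; rw [c43]; norm_num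
    · intro u hu
      have hQ : Qm m = 8 * (m : ℝ) ^ 2 := by
        unfold Qm
        rw [if_pos hodd]
      rw [hQ]
      have hm1 : (0 : ℝ) < m := by positivity
      have hu' : 0 < 1 / (8 * (m : ℝ) ^ 2 * u) := by positivity
      have hu'' : 0 < 1 / (16 * (m : ℝ) ^ 2 * u) := by positivity
      have h1 := lattice_poisson m e0 hodd hm (fun k => 1 - e1 k) (by decide)
        (by intro k; rw [dft_e0]; push_cast; ring) hu
      have h2 := rotate m hodd hu''
      have h3 : 2 * (1 / (16 * (m : ℝ) ^ 2 * u)) = 1 / (8 * (m : ℝ) ^ 2 * u) := by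
        field_simp
        norm_num
      rw [h3] at h2
      rw [theta_sym_odd m hodd hu, theta_sym_odd m hodd hu', h1]
      unfold Ls at h2
      rw [h2]
      field_simp
      ring

end P004
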