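import Vale.Agent.P004.Iface

/-!
# Module C0: Poisson summation twisted by a periodic function
-/

open Real MeasureTheory Set
open scoped ENNReal

namespace P004

/-- splitting a sum over `ℤ` into residue classes -/
theorem hasSum_classes (M : ℕ) [NeZero M] (c : ZMod M → ℂ) (K : ℤ → ℂ) (S : ZMod M → ℂ)
    (h : ∀ a : ZMod M, HasSum (fun k : ℤ => K (a.val + M * k)) (S a)) :
    HasSum (fun n : ℤ => c n * K n) (∑ a : ZMod M, c a * S a) := by
  have key : ∀ a : ZMod M, HasSum (fun n : ℤ => if (n : ZMod M) = a then c n * K n else 0)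
      (c a * S a) := by
    intro a
    have hM : (M : ℤ) ≠ 0 := by exact_mod_cast NeZero.ne M
    have hinj : Function.Injective (fun k : ℤ => (a.val : ℤ) + M * k) := by
      intro k l hkl
      simp only at hkl
      exact mul_left_cancel₀ hM (by linarith)
    rw [← hinj.hasSum_iff]
    · have := (h a).mul_left (c a)
      refine this.congr_fun ?_
      intro k
      simp only [Function.comp_def]
      have h1 : (((a.val : ℤ) + M * k : ℤ) : ZMod M) = a := by
        push_cast
        simp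
      rw [if_pos h1, h1]
    · intro n hn
      rw [if_neg]
      intro h2
      apply hn
      have h3 : (M : ℤ) ∣ n - a.val := by
        rw [← ZMod.intCast_zmod_eq_zero_iff_dvd]
        push_cast
        rw [h2]
        simp
      obtain ⟨k, hk⟩ := h3
      exact ⟨k, by simp only; linarith⟩
  have := hasSum_sum (fun a (_ : a ∈ Finset.univ) => key a)
  refine this.congr_fun ?_
  intro n
  simp [Finset.sum_ite_eq]

theorem stdAddChar_mul_int (M : ℕ) [NeZero M] (a : ZMod M) (k : ℤ) :
    ZMod.stdAddChar (a * (k : ZMod M)) =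
      Complex.exp (2 * π * Complex.I * ((a.val : ℝ) / M : ℝ) * k) := by
  have h1 : a * (k : ZMod M) = (((a.val : ℤ) * k : ℤ) : ZMod M) := by
    push_cast
    simp
  rw [h1, ZMod.stdAddChar_coe]
  congr 1
  push_cast
  ring

theorem pfTw : StTw := by
  intro M _ c t ht
  have hM0 : (0 : ℝ) < M := by exact_mod_cast Nat.pos_of_ne_zero (NeZero.ne M)
  have hM2 : 0 < (M : ℝ) ^ 2 * t := by positivity
  have hsq : √t * √t = t := Real.mul_self_sqrt ht.le
  have hst : 0 < √t := Real.sqrt_pos.2 ht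
  constructor
  · -- even part
    have hcl : ∀ a : ZMod M, HasSum (fun k : ℤ =>
        (Real.exp (-π * (((a.val + M * k : ℤ)) : ℝ) ^ 2 * t) : ℂ))
        ((1 / (M * √t : ℝ) : ℂ) * (HurwitzZeta.cosKernel ((a.val : ℝ) / M : ℝ)
          (1 / ((M : ℝ) ^ 2 * t)) : ℂ)) := by
      intro a
      have h1 := HurwitzZeta.hasSum_int_evenKernel ((a.val : ℝ) / M) hM2
      have h2 : (HurwitzZeta.evenKernel (((a.val : ℝ) / M : ℝ) : UnitAddCircle) ((M : ℝ) ^ 2 * t)) =
          1 / (M * √t) * HurwitzZeta.cosKernel ((a.val : ℝ) / M : ℝ) (1 / ((M : ℝ) ^ 2 * t)) := by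
        rw [HurwitzZeta.evenKernel_functional_equation]
        congr 2
        rw [← Real.sqrt_eq_rpow, Real.sqrt_mul (by positivity), Real.sqrt_sq hM0.le]
      rw [h2] at h1
      have h3 := (Complex.hasSum_ofReal (L := _)).2 h1
      push_cast at h3 ⊢
      refine h3.congr_fun ?_
      intro k
      have hMc : (M : ℂ) ≠ 0 := by exact_mod_cast NeZero.ne M
      have e1 : (k : ℂ) + (a.val : ℂ) / M = (a.val + M * k) / M := by
        field_simp
        ring
      rw [e1]
      congr 1
      field_simp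
    have h4 := hasSum_classes M c (fun n : ℤ => (Real.exp (-π * (n : ℝ) ^ 2 * t) : ℂ)) _ hcl
    rw [h4.tsum_eq]
    have h5 : ∀ a : ZMod M, HasSum (fun k : ℤ => c a * ((1 / (M * √t : ℝ) : ℂ) *
        (ZMod.stdAddChar (a * (k : ZMod M)) *
          (Real.exp (-π * (k : ℝ) ^ 2 / (M ^ 2 * t)) : ℂ))))
        (c a * ((1 / (M * √t : ℝ) : ℂ) * (HurwitzZeta.cosKernel ((a.val : ℝ) / M : ℝ)
          (1 / ((M : ℝ) ^ 2 * t)) : ℂ))) := by
      intro a
      have h6 := HurwitzZeta.hasSum_int_cosKernel ((a.val : ℝ) / M)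
        (t := 1 / ((M : ℝ) ^ 2 * t)) (by positivity)
      refine ((h6.mul_left _).mul_left _).congr_fun ?_
      intro k
      rw [stdAddChar_mul_int]
      congr 4
      ring_nf
    have h7 := hasSum_sum (fun a (_ : a ∈ Finset.univ) => h5 a)
    rw [← h7.tsum_eq, ← tsum_mul_left]
    congr 1
    ext k
    rw [Finset.sum_mul, Finset.mul_sum]
    refine Finset.sum_congr rfl fun a _ => ?_
    ring
  · -- odd part
    have hcl : ∀ a : ZMod M, HasSum (fun k : ℤ =>
        ((((a.val + M * k : ℤ) : ℝ) * Real.exp (-π * (((a.val + M * k : ℤ)) : ℝ) ^ 2 * t) : ℝ) : ℂ))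
        ((1 / (M ^ 2 * (t * √t) : ℝ) : ℂ) * (HurwitzZeta.sinKernel ((a.val : ℝ) / M : ℝ)
          (1 / ((M : ℝ) ^ 2 * t)) : ℂ)) := by
      intro a
      have h1 := (HurwitzZeta.hasSum_int_oddKernel ((a.val : ℝ) / M) hM2).mul_left (M : ℝ)
      have h2 : (M : ℝ) * (HurwitzZeta.oddKernel (((a.val : ℝ) / M : ℝ) : UnitAddCircle)
          ((M : ℝ) ^ 2 * t)) =
          1 / (M ^ 2 * (t * √t)) *
            HurwitzZeta.sinKernel ((a.val : ℝ) / M : ℝ) (1 / ((M : ℝ) ^ 2 * t)) := by
        rw [HurwitzZeta.oddKernel_functional_equation, ← mul_assoc]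
        congr 1
        have h3 : ((M : ℝ) ^ 2 * t) ^ (3 / 2 : ℝ) = M ^ 3 * (t * √t) := by
          rw [show (3 / 2 : ℝ) = 1 + 1 / 2 by norm_num, Real.rpow_add hM2, Real.rpow_one,
            ← Real.sqrt_eq_rpow, Real.sqrt_mul (by positivity), Real.sqrt_sq hM0.le]
          ring
        rw [h3]
        field_simp
      rw [h2] at h1
      have h3 := (Complex.hasSum_ofReal (L := _)).2 h1
      push_cast at h3 ⊢
      refine h3.congr_fun ?_
      intro k
      have hMc : (M : ℂ) ≠ 0 := by exact_mod_cast NeZero.ne M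
      have e1 : (k : ℂ) + (a.val : ℂ) / M = (a.val + M * k) / M := by
        field_simp
        ring
      rw [← mul_assoc, e1]
      congr 1
      · field_simp
      · congr 1
        field_simp
    have h4 := hasSum_classes M c
      (fun n : ℤ => (((n : ℝ) * Real.exp (-π * (n : ℝ) ^ 2 * t) : ℝ) : ℂ)) _ hcl
    rw [h4.tsum_eq]
    have h5 : ∀ a : ZMod M, HasSum (fun k : ℤ => c a * ((1 / (M ^ 2 * (t * √t) : ℝ) : ℂ) *
        (-Complex.I * k * (ZMod.stdAddChar (a * (k : ZMod M)) *
          (Real.exp (-π * (k : ℝ) ^ 2 / (M ^ 2 * t)) : ℂ)))))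
        (c a * ((1 / (M ^ 2 * (t * √t) : ℝ) : ℂ) * (HurwitzZeta.sinKernel ((a.val : ℝ) / M : ℝ)
          (1 / ((M : ℝ) ^ 2 * t)) : ℂ))) := by
      intro a
      have h6 := HurwitzZeta.hasSum_int_sinKernel ((a.val : ℝ) / M)
        (t := 1 / ((M : ℝ) ^ 2 * t)) (by positivity)
      refine ((h6.mul_left _).mul_left _).congr_fun ?_
      intro k
      rw [stdAddChar_mul_int, mul_assoc (-Complex.I * (k : ℂ))]
      congr 5
      ring_nf
    have h7 := hasSum_sum (fun a (_ : a ∈ Finset.univ) => h5 a)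
    rw [← h7.tsum_eq, ← tsum_mul_left]
    congr 1
    ext k
    rw [Finset.sum_mul, Finset.mul_sum]
    refine Finset.sum_congr rfl fun a _ => ?_
    push_cast
    ring

end P004
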