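import Vale.Agent.P004.DSign

/-!
Module D: Poisson summation for the Jacobi symbol `(h/q)`, `q` a product of distinct primes
`≡ 1 mod 4`.
-/

open Real MeasureTheory Set Filter Topology
open Complex (I)
open scoped NumberTheorySymbols

namespace P004

/-- The finite Fourier transform of `(a/q)`. -/
def FT (q : ℕ) [NeZero q] : Prop := ∀ k : ℤ,
  ∑ a : ZMod q, ((J((a.val : ℤ) | q) : ℤ) : ℂ) * ZMod.stdAddChar (a * (k : ZMod q)) =
    ((J(k | q) : ℤ) : ℂ) * (√(q : ℝ) : ℝ)

lemma FT_one : FT 1 := fun k => by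
  have h : ∀ x : ZMod 1, (ZMod.stdAddChar x : ℂ) = 1 := fun x => by
    rw [Subsingleton.elim x 0, AddChar.map_zero_eq_one]
  simp [jacobiSym.one_right, h]

lemma FT_prime (hTw : StTw) (p : ℕ) [Fact p.Prime] (hp : p % 4 = 1) : FT p := by
  intro k
  have hp2 : ringChar (ZMod p) ≠ 2 := by
    rw [ZMod.ringChar_zmod_n]
    rintro rfl
    omega
  set χ := quadraticChar (ZMod p) with hχ
  have hJ : ∀ a : ℤ, J(a | p) = χ (a : ZMod p) := fun a => by
    rw [← jacobiSym.legendreSym.to_jacobiSym]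
    rfl
  have hJv : ∀ a : ZMod p, J((a.val : ℤ) | p) = χ a := fun a => by
    rw [hJ]
    congr 1
    simp
  simp only [hJv]
  rw [hJ]
  have hsum0 : ∑ b : ZMod p, (ZMod.stdAddChar b : ℂ) = 0 := by
    refine AddChar.sum_eq_zero_of_ne_one ?_
    have := ZMod.isPrimitive_stdAddChar p (one_ne_zero : (1 : ZMod p) ≠ 0)
    simpa using this
  have hg : ∑ b : ZMod p, ((χ b : ℤ) : ℂ) * ZMod.stdAddChar b = (√(p : ℝ) : ℝ) := by
    rw [← gs_eq hTw hp, gsd]
    have h1 : ∑ a : ZMod p, (ZMod.stdAddChar (a * a) : ℂ) =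
        ∑ b : ZMod p, ∑ a ∈ Finset.univ.filter (fun a => a ^ 2 = b), ZMod.stdAddChar (a * a) :=
      (Finset.sum_fiberwise _ _ _).symm
    rw [h1]
    have h2 : ∀ b : ZMod p, ∑ a ∈ Finset.univ.filter (fun a => a ^ 2 = b), (ZMod.stdAddChar (a * a) : ℂ) =
        ((χ b : ℤ) + 1 : ℂ) * ZMod.stdAddChar b := fun b => by
      rw [Finset.sum_congr rfl fun a ha => by rw [← pow_two, (Finset.mem_filter.1 ha).2],
        Finset.sum_const, nsmul_eq_mul]
      congr 1
      have := quadraticChar_card_sqrts hp2 b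
      rw [← hχ] at this
      have h3 : ((Finset.univ.filter fun a : ZMod p => a ^ 2 = b).card : ℤ) = χ b + 1 := by
        rw [← this]
        congr 2
        ext x
        simp
      exact_mod_cast h3
    simp only [h2, add_mul, one_mul, Finset.sum_add_distrib, hsum0, add_zero]
  by_cases hk : (k : ZMod p) = 0
  · rw [hk]
    have h0 : ∑ a : ZMod p, χ a = 0 := quadraticChar_sum_zero hp2
    simp only [mul_zero, AddChar.map_zero_eq_one, mul_one, MulChar.map_zero, Int.cast_zero, zero_mul]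
    exact_mod_cast h0
  · have h1 : ∀ a : ZMod p, χ a = χ (k : ZMod p) * χ (a * k) := fun a => by
      rw [map_mul, mul_left_comm, ← sq, quadraticChar_sq_one hk, mul_one]
    rw [← hg, Finset.mul_sum]
    rw [← Equiv.sum_comp (Equiv.mulRight₀ (k : ZMod p) hk)
      (fun b => ((χ (k : ZMod p) : ℤ) : ℂ) * (((χ b : ℤ) : ℂ) * ZMod.stdAddChar b))]
    refine Finset.sum_congr rfl fun a _ => ?_
    rw [h1 a]
    have h2 : (Equiv.mulRight₀ (k : ZMod p) hk) a = a * k := rfl
    rw [h2]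
    push_cast
    ring

/-- The map of the Chinese remainder theorem. -/
def crt (m n : ℕ) (z : ZMod n × ZMod m) : ZMod (m * n) := ((m * z.1.val + n * z.2.val : ℕ) : ZMod (m * n))

lemma crt_bij {m n : ℕ} [NeZero m] [NeZero n] (h : m.Coprime n) : (crt m n).Bijective := by
  rw [Fintype.bijective_iff_injective_and_card]
  constructor
  · rintro ⟨x, y⟩ ⟨x', y'⟩ he
    unfold crt at he
    rw [ZMod.natCast_eq_natCast_iff] at he
    dsimp only at he
    have h1 : m * x.val ≡ m * x'.val [MOD n] := by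
      have h2 := he.of_mul_left m
      refine Nat.ModEq.trans ?_ (h2.trans ?_)
      · exact (Nat.modEq_iff_dvd' (by omega)).2 ⟨y.val, by simp⟩
      · exact ((Nat.modEq_iff_dvd' (by omega)).2 ⟨y'.val, by simp⟩).symm
    have h2 : n * y.val ≡ n * y'.val [MOD m] := by
      have h2 := he.of_mul_right n
      refine Nat.ModEq.trans ?_ (h2.trans ?_)
      · exact (Nat.modEq_iff_dvd' (by omega)).2 ⟨x.val, by simp⟩
      · exact ((Nat.modEq_iff_dvd' (by omega)).2 ⟨x'.val, by simp⟩).symm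
    have h3 := Nat.ModEq.cancel_left_of_coprime (by simpa [Nat.coprime_comm] using h) h1
    have h4 := Nat.ModEq.cancel_left_of_coprime (by simpa using h) h2
    refine Prod.ext (ZMod.val_injective n ?_) (ZMod.val_injective m ?_)
    · exact (Nat.ModEq.eq_of_lt_of_lt h3 (ZMod.val_lt _) (ZMod.val_lt _))
    · exact (Nat.ModEq.eq_of_lt_of_lt h4 (ZMod.val_lt _) (ZMod.val_lt _))
  · simp [ZMod.card, mul_comm]

lemma FT_mul {m n : ℕ} [NeZero m] [NeZero n] (h : m.Coprime n) (hm : m % 4 = 1) (hn : n % 4 = 1)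
    (Fm : FT m) (Fn : FT n) : FT (m * n) := by
  intro k
  have hm0 : (m : ℂ) ≠ 0 := by exact_mod_cast NeZero.ne m
  have hn0 : (n : ℂ) ≠ 0 := by exact_mod_cast NeZero.ne n
  have hrec : J(n | m) * J(m | n) = 1 := by
    rw [jacobiSym.quadratic_reciprocity_one_mod_four hn (Nat.odd_iff.2 (by omega)), ← sq]
    exact jacobiSym.sq_one (by simpa [Int.gcd_natCast_natCast] using h)
  have hJ : ∀ x : ZMod n, ∀ y : ZMod m, J(((crt m n (x, y)).val : ℤ) | m * n) =
      J((x.val : ℤ) | n) * J((y.val : ℤ) | m) := fun x y => by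
    have h1 : J(((crt m n (x, y)).val : ℤ) | m * n) = J(((m * x.val + n * y.val : ℕ) : ℤ) | m * n) := by
      apply jacobiSym.mod_left'
      unfold crt
      rw [ZMod.val_natCast]
      push_cast
      exact Int.emod_emod_of_dvd _ dvd_rfl
    rw [h1, jacobiSym.mul_right]
    have h2 : J(((m * x.val + n * y.val : ℕ) : ℤ) | m) = J(n | m) * J((y.val : ℤ) | m) := by
      rw [← jacobiSym.mul_left]
      apply jacobiSym.mod_left'
      push_cast
      simp
    have h3 : J(((m * x.val + n * y.val : ℕ) : ℤ) | n) = J(m | n) * J((x.val : ℤ) | n) := by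
      rw [← jacobiSym.mul_left]
      apply jacobiSym.mod_left'
      push_cast
      simp
    rw [h2, h3]
    linear_combination (J((x.val : ℤ) | n) * J((y.val : ℤ) | m)) * hrec
  have hψ : ∀ x : ZMod n, ∀ y : ZMod m, (ZMod.stdAddChar (crt m n (x, y) * (k : ZMod (m * n))) : ℂ) =
      ZMod.stdAddChar (x * (k : ZMod n)) * ZMod.stdAddChar (y * (k : ZMod m)) := fun x y => by
    have e1 : crt m n (x, y) * (k : ZMod (m * n)) = (((m * x.val + n * y.val) * k : ℤ) : ZMod (m * n)) := by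
      unfold crt
      push_cast
      ring
    have e2 : x * (k : ZMod n) = ((x.val * k : ℤ) : ZMod n) := by simp
    have e3 : y * (k : ZMod m) = ((y.val * k : ℤ) : ZMod m) := by simp
    rw [e1, e2, e3, ZMod.stdAddChar_coe, ZMod.stdAddChar_coe, ZMod.stdAddChar_coe, ← Complex.exp_add]
    congr 1
    push_cast
    field_simp
  rw [← (crt_bij h).sum_comp, Fintype.sum_prod_type]
  simp only [hJ, hψ]
  have : ∀ x : ZMod n, ∀ y : ZMod m, ((J((x.val : ℤ) | n) * J((y.val : ℤ) | m) : ℤ) : ℂ) *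
      (ZMod.stdAddChar (x * (k : ZMod n)) * ZMod.stdAddChar (y * (k : ZMod m))) =
      (((J((x.val : ℤ) | n) : ℤ) : ℂ) * ZMod.stdAddChar (x * (k : ZMod n))) *
      (((J((y.val : ℤ) | m) : ℤ) : ℂ) * ZMod.stdAddChar (y * (k : ZMod m))) := fun x y => by
    push_cast
    ring
  simp only [this, ← Finset.mul_sum, ← Finset.sum_mul, Fm k, Fn k]
  rw [jacobiSym.mul_right, Nat.cast_mul, Real.sqrt_mul (Nat.cast_nonneg m)]
  push_cast
  ring

lemma one_mod_four_of_primes {q : ℕ} (hq : q ≠ 0) (h : ∀ p : ℕ, p.Prime → p ∣ q → p % 4 = 1) :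
    q % 4 = 1 := by
  induction q using Nat.recOnMul with
  | zero => exact absurd rfl hq
  | one => rfl
  | prime p hp => exact h p hp dvd_rfl
  | mul a b ha hb =>
    have h1 := ha (left_ne_zero_of_mul hq) fun p hp hd => h p hp (hd.mul_right _)
    have h2 := hb (right_ne_zero_of_mul hq) fun p hp hd => h p hp (hd.mul_left _)
    rw [Nat.mul_mod, h1, h2]

theorem FT_all (hTw : StTw) : ∀ q : ℕ, Squarefree q → (∀ p : ℕ, p.Prime → p ∣ q → p % 4 = 1) →
    ∀ _ : NeZero q, FT q := by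
  intro q
  induction q using induction_on_primes with
  | zero => exact fun h => absurd h not_squarefree_zero
  | one => exact fun _ _ _ => FT_one
  | prime_mul p a hp ih =>
    intro hs h h0
    have : Fact p.Prime := ⟨hp⟩
    have hp0 : NeZero p := ⟨hp.ne_zero⟩
    have ha0 : NeZero a := ⟨right_ne_zero_of_mul h0.ne⟩
    have ha : ∀ p : ℕ, p.Prime → p ∣ a → p % 4 = 1 := fun r hr hd => h r hr (hd.mul_left _)
    exact FT_mul (Nat.coprime_of_squarefree_mul hs) (h p hp (dvd_mul_right _ _))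
      (one_mod_four_of_primes ha0.ne ha) (FT_prime hTw p (h p hp (dvd_mul_right _ _)))
      (ih (hs.of_mul_right) ha ha0)

/-- Module D. -/
theorem pfPois (hTw : StTw) : StPois := by
  intro q hs hq T hT
  have hq0 : q ≠ 0 := hs.ne_zero
  have : NeZero q := ⟨hq0⟩
  have hqpos : (0 : ℝ) < q := by exact_mod_cast Nat.pos_of_ne_zero hq0
  have hF := FT_all hTw q hs hq this
  have h1 := (hTw q (fun a => ((J((a.val : ℤ) | q) : ℤ) : ℂ)) (1 / T ^ 2) (by positivity)).1
  simp only [hF _] at h1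
  have hJ : ∀ n : ℤ, J((((n : ZMod q).val : ℕ) : ℤ) | q) = J(n | q) := fun n => by
    apply jacobiSym.mod_left'
    rw [ZMod.val_intCast]
    exact Int.emod_emod_of_dvd _ dvd_rfl
  simp only [hJ] at h1
  have hsT : √(1 / T ^ 2) = 1 / T := by
    rw [Real.sqrt_div zero_le_one, Real.sqrt_one, Real.sqrt_sq hT.le]
  rw [hsT] at h1
  have hsq : (√(q : ℝ)) * √(q : ℝ) = q := Real.mul_self_sqrt hqpos.le
  have hsq0 : √(q : ℝ) ≠ 0 := (Real.sqrt_pos.2 hqpos).ne'
  apply Complex.ofReal_injective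
  rw [Complex.ofReal_tsum, Complex.ofReal_mul, Complex.ofReal_tsum]
  unfold chi
  calc _ = ∑' n : ℤ, ((J(n | q) : ℤ) : ℂ) * (rexp (-π * (n : ℝ) ^ 2 * (1 / T ^ 2)) : ℂ) := by
        refine tsum_congr fun n => ?_
        push_cast
        rw [mul_comm, mul_one_div]
    _ = _ := by
        rw [h1, ← tsum_mul_left, ← tsum_mul_left]
        refine tsum_congr fun k => ?_
        have e1 : -π * (k : ℝ) ^ 2 / ((q : ℝ) ^ 2 * (1 / T ^ 2)) = -π * (k : ℝ) ^ 2 * T ^ 2 / (q : ℝ) ^ 2 := by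
          field_simp
        rw [e1]
        have e2 : (1 / ((q : ℝ) * (1 / T)) : ℝ) * √(q : ℝ) = T / √(q : ℝ) := by
          field_simp
          rw [sq, hsq]
        have e3 : ((1 / ((q : ℝ) * (1 / T)) : ℝ) : ℂ) * (√(q : ℝ) : ℝ) = ((T / √(q : ℝ) : ℝ) : ℂ) := by
          rw [← Complex.ofReal_mul, e2]
        rw [← e3]
        push_cast
        ring

end P004
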