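import Vale.Agent.P004.DSign

/-!
Module D2: the mixed Poisson formula for a pair `n₁, n₂`.
-/

open Real MeasureTheory Set Filter Topology
open scoped NumberTheorySymbols ArithmeticFunction.Moebius

namespace P004

/-! ### the kernel -/

lemma gk_int (y : ℝ) : IntegrableOn (fun x : ℝ => x ^ 7 * rexp (-x) * rexp (-π * y ^ 2 / x ^ 16))
    (Ioi 0) := by
  have h1 : IntegrableOn (fun x : ℝ => x ^ 7 * rexp (-x)) (Ioi 0) := by
    have := Real.GammaIntegral_convergent (s := 8) (by norm_num)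
    refine this.congr_fun (fun x hx => ?_) measurableSet_Ioi
    dsimp only
    rw [mul_comm]
    norm_num
  refine Integrable.mono' h1 (by fun_prop) ?_
  filter_upwards [ae_restrict_mem measurableSet_Ioi] with x hx
  have hx' : (0 : ℝ) < x := hx
  rw [Real.norm_of_nonneg (by positivity)]
  refine mul_le_of_le_one_right (by positivity) (Real.exp_le_one_iff.2 ?_)
  rw [neg_mul, neg_div, neg_nonpos]
  positivity

lemma gk_nonneg (y : ℝ) : 0 ≤ Gk y :=
  setIntegral_nonneg measurableSet_Ioi fun x hx => by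
    have hx' : (0 : ℝ) < x := hx
    positivity

lemma gk_le {y : ℝ} (hy : y ≠ 0) : Gk y ≤ Real.Gamma 24 / (π * y ^ 2) := by
  have h1 : IntegrableOn (fun x : ℝ => rexp (-x) * x ^ ((24 : ℝ) - 1)) (Ioi 0) :=
    Real.GammaIntegral_convergent (s := 24) (by norm_num)
  have hy2 : 0 < π * y ^ 2 := by positivity
  rw [Real.Gamma_eq_integral (by norm_num), ← integral_div]
  refine setIntegral_mono_on (gk_int y) (h1.div_const _) measurableSet_Ioi fun x hx => ?_
  have hx' : (0 : ℝ) < x := hx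
  have e1 : x ^ ((24 : ℝ) - 1) = x ^ 23 := by
    rw [← Real.rpow_natCast]
    norm_num
  rw [e1]
  have h2 : rexp (-π * y ^ 2 / x ^ 16) ≤ x ^ 16 / (π * y ^ 2) := by
    have h3 : -π * y ^ 2 / x ^ 16 = -((π * y ^ 2) / x ^ 16) := by ring
    rw [h3, Real.exp_neg, inv_le_comm₀ (Real.exp_pos _) (by positivity), inv_div]
    have := Real.add_one_le_exp ((π * y ^ 2) / x ^ 16)
    linarith
  calc x ^ 7 * rexp (-x) * rexp (-π * y ^ 2 / x ^ 16)
      ≤ x ^ 7 * rexp (-x) * (x ^ 16 / (π * y ^ 2)) := by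
        refine mul_le_mul_of_nonneg_left h2 (by positivity)
    _ = rexp (-x) * x ^ 23 / (π * y ^ 2) := by ring

/-! ### arithmetic -/

lemma chi_bound (h : ℤ) (n : ℕ) : |chi h n| ≤ 1 := by
  unfold chi
  rcases jacobiSym.trichotomy h n with h1 | h1 | h1 <;> simp [h1]

lemma sum_moebius_dvd (g : ℕ) (hg : g ≠ 0) (h : ℤ) :
    ∑ d ∈ g.divisors, (if (d : ℤ) ∣ h then (μ d : ℝ) else 0) = if h.gcd g = 1 then 1 else 0 := by
  have h1 : ∑ d ∈ g.divisors, (if (d : ℤ) ∣ h then (μ d : ℝ) else 0) =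
      ∑ d ∈ (h.gcd g).divisors, (μ d : ℝ) := by
    rw [← Finset.sum_filter]
    refine Finset.sum_congr ?_ fun _ _ => rfl
    ext d
    rw [Finset.mem_filter, Nat.mem_divisors, Nat.mem_divisors]
    have : h.gcd g ≠ 0 := by
      intro h0
      rw [Int.gcd_eq_zero_iff] at h0
      exact hg (by exact_mod_cast h0.2)
    constructor
    · rintro ⟨⟨h2, -⟩, h3⟩
      exact ⟨Int.natCast_dvd_natCast.1 (Int.dvd_coe_gcd h3 (Int.natCast_dvd_natCast.2 h2)), this⟩
    · rintro ⟨h2, -⟩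
      refine ⟨⟨?_, hg⟩, ?_⟩
      · have := (Int.natCast_dvd_natCast.2 h2).trans (Int.gcd_dvd_right h g)
        exact_mod_cast this
      · exact (Int.natCast_dvd_natCast.2 h2).trans (Int.gcd_dvd_left h g)
  rw [h1]
  have h2 : ∑ d ∈ (h.gcd g).divisors, μ d = if h.gcd g = 1 then 1 else 0 := by
    have := ArithmeticFunction.coe_mul_zeta_apply (f := μ) (x := h.gcd g)
    rw [← this, ArithmeticFunction.moebius_mul_coe_zeta, ArithmeticFunction.one_apply]
  exact_mod_cast h2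

lemma chi_mul_left (a b : ℤ) (n : ℕ) : chi (a * b) n = chi a n * chi b n := by
  unfold chi
  rw [jacobiSym.mul_left]
  push_cast
  rfl

/-- The symbol of a pair. -/
lemma chi_pair {g q : ℕ} (hg : g ≠ 0) (hq : q ≠ 0) (h : ℤ) :
    chi h (g * g * q) = ∑ d ∈ g.divisors, if (d : ℤ) ∣ h then (μ d : ℝ) * chi h q else 0 := by
  have : NeZero g := ⟨hg⟩
  have : NeZero q := ⟨hq⟩
  have h1 : chi h (g * g * q) = (if h.gcd g = 1 then 1 else 0) * chi h q := by
    unfold chi
    rw [jacobiSym.mul_right, jacobiSym.mul_right, ← sq]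
    split_ifs with h2
    · rw [jacobiSym.sq_one h2]
      simp
    · rw [jacobiSym.eq_zero_iff_not_coprime.2 h2]
      simp
  rw [h1, ← sum_moebius_dvd g hg h, Finset.sum_mul]
  refine Finset.sum_congr rfl fun d _ => ?_
  split_ifs <;> simp

/-- A sum over the multiples of `d`. -/
lemma tsum_multiples {d : ℕ} (hd : d ≠ 0) (F : ℤ → ℝ) :
    ∑' h : ℤ, (if (d : ℤ) ∣ h then F h else 0) = ∑' h : ℤ, F (d * h) := by
  have hinj : Function.Injective fun n : ℤ => (d : ℤ) * n := fun a b h => by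
    have : (d : ℤ) ≠ 0 := by exact_mod_cast hd
    exact mul_left_cancel₀ this h
  rw [← hinj.tsum_eq]
  · exact tsum_congr fun n => by rw [if_pos (dvd_mul_right _ _)]
  · intro n hn
    have : (d : ℤ) ∣ n := by
      by_contra h
      simp [h] at hn
    obtain ⟨m, rfl⟩ := this
    exact ⟨m, rfl⟩

lemma summable_chi {c : ℝ} (hc : 0 < c) (q : ℕ) (P : ℤ → Prop) [DecidablePred P] :
    Summable fun h : ℤ => if P h then rexp (-π * (h : ℝ) ^ 2 * c) * chi h q else 0 := by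
  refine Summable.of_norm_bounded (summable_gauss hc) fun h => ?_
  split_ifs
  · rw [norm_mul, Real.norm_of_nonneg (Real.exp_pos _).le]
    exact mul_le_of_le_one_right (Real.exp_pos _).le (chi_bound h q)
  · simpa using (Real.exp_pos _).le

/-- The formula for fixed `x`. -/
lemma pair_point (hP : StPois) {g q : ℕ} (hg : g ≠ 0) (hs : Squarefree q)
    (hq : ∀ p : ℕ, p.Prime → p ∣ q → p % 4 = 1) {H x : ℝ} (hH : 0 < H) (hx : 0 < x) :
    x ^ 15 * rexp (-x) * ∑' h : ℤ, rexp (-π * (h : ℝ) ^ 2 * x ^ 16 / H ^ 2) * chi h (g * g * q) =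
      ∑' j : ℤ, ∑ d ∈ g.divisors, H * ((μ d : ℝ) / (d * √(q : ℝ))) * (if (d : ℤ) ∣ j then
        chi j q * (x ^ 7 * rexp (-x) *
          rexp (-π * (|(j : ℝ)| * H / ((d : ℝ) ^ 2 * q)) ^ 2 / x ^ 16)) else 0) := by
  have hq0 : q ≠ 0 := hs.ne_zero
  have hqpos : (0 : ℝ) < q := by exact_mod_cast Nat.pos_of_ne_zero hq0
  have hc : 0 < x ^ 16 / H ^ 2 := by positivity
  have e0 : ∀ h : ℤ, rexp (-π * (h : ℝ) ^ 2 * x ^ 16 / H ^ 2) * chi h (g * g * q) =
      ∑ d ∈ g.divisors, (μ d : ℝ) * (if (d : ℤ) ∣ h then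
        rexp (-π * (h : ℝ) ^ 2 * (x ^ 16 / H ^ 2)) * chi h q else 0) := fun h => by
    rw [chi_pair hg hq0, Finset.mul_sum]
    refine Finset.sum_congr rfl fun d _ => ?_
    rw [mul_div_assoc]
    split_ifs
    · ring
    · ring
  simp only [e0]
  rw [Summable.tsum_finsetSum fun d _ => (summable_chi hc q _).mul_left _, Finset.mul_sum]
  rw [Summable.tsum_finsetSum]
  · refine Finset.sum_congr rfl fun d hd => ?_
    have hd0 : d ≠ 0 := (Nat.pos_of_mem_divisors hd).ne'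
    have hdpos : (0 : ℝ) < d := by exact_mod_cast Nat.pos_of_ne_zero hd0
    rw [tsum_mul_left, tsum_multiples hd0, tsum_mul_left, tsum_multiples hd0]
    have hT : 0 < H / (d * x ^ 8) := by positivity
    have h1 := hP q hs hq _ hT
    have h2 : ∑' h : ℤ, rexp (-π * ((d * h : ℤ) : ℝ) ^ 2 * (x ^ 16 / H ^ 2)) * chi (d * h) q =
        chi d q * ∑' h : ℤ, rexp (-π * (h : ℝ) ^ 2 / (H / (d * x ^ 8)) ^ 2) * chi h q := by
      rw [← tsum_mul_left]
      refine tsum_congr fun h => ?_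
      rw [chi_mul_left]
      have : -π * ((d * h : ℤ) : ℝ) ^ 2 * (x ^ 16 / H ^ 2) = -π * (h : ℝ) ^ 2 / (H / (d * x ^ 8)) ^ 2 := by
        push_cast
        field_simp
      rw [this]
      ring
    rw [h2, h1, ← tsum_mul_left, ← tsum_mul_left, ← tsum_mul_left, ← tsum_mul_left, ← tsum_mul_left]
    refine tsum_congr fun j => ?_
    rw [chi_mul_left]
    have : -π * (|((d * j : ℤ) : ℝ)| * H / ((d : ℝ) ^ 2 * q)) ^ 2 / x ^ 16 =
        -π * (j : ℝ) ^ 2 * (H / (d * x ^ 8)) ^ 2 / (q : ℝ) ^ 2 := by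
      rw [div_pow, mul_pow, sq_abs]
      push_cast
      field_simp
    rw [this]
    field_simp
  · intro d hd
    have hdpos : (0 : ℝ) < d := by exact_mod_cast Nat.pos_of_mem_divisors hd
    have hc' : 0 < (H / ((d : ℝ) ^ 2 * q)) ^ 2 / x ^ 16 := by positivity
    refine Summable.mul_left _ ?_
    refine ((summable_chi hc' q (fun j => (d : ℤ) ∣ j)).mul_left (x ^ 7 * rexp (-x))).congr
      fun j => ?_
    have : -π * (|(j : ℝ)| * H / ((d : ℝ) ^ 2 * q)) ^ 2 / x ^ 16 =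
        -π * (j : ℝ) ^ 2 * ((H / ((d : ℝ) ^ 2 * q)) ^ 2 / x ^ 16) := by
      rw [div_pow, mul_pow, sq_abs, div_pow]
      ring
    rw [this]
    split_ifs
    · ring
    · ring

lemma summable_Gk {c : ℝ} (hc : 0 < c) : Summable fun j : ℤ => Gk (|(j : ℝ)| * c) := by
  have h1 : Summable fun j : ℤ => (if j = 0 then Gk 0 else 0) +
      Real.Gamma 24 / (π * c ^ 2) * (1 / (j : ℝ) ^ 2) := by
    refine Summable.add ?_ ((Real.summable_one_div_int_pow.2 one_lt_two).mul_left _)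
    exact summable_of_ne_finset_zero (s := {0}) fun j hj => if_neg (by simpa using hj)
  refine Summable.of_norm_bounded h1 fun j => ?_
  rw [Real.norm_of_nonneg (gk_nonneg _)]
  by_cases hj : j = 0
  · subst hj
    simp
  · rw [if_neg hj, zero_add]
    have hj' : (j : ℝ) ≠ 0 := by exact_mod_cast hj
    refine (gk_le (mul_ne_zero (abs_ne_zero.2 hj') hc.ne')).trans (le_of_eq ?_)
    rw [mul_pow, sq_abs]
    field_simp

/-- Module D2. -/
theorem pfPair (hP : StPois) : StPair := by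
  intro n₁ n₂ hs1 hs2 hp H hH
  set g := n₁.gcd n₂ with hg
  have hn1 : n₁ ≠ 0 := hs1.ne_zero
  have hn2 : n₂ ≠ 0 := hs2.ne_zero
  have hg0 : g ≠ 0 := Nat.gcd_ne_zero_left hn1
  obtain ⟨m₁, h1⟩ : g ∣ n₁ := Nat.gcd_dvd_left _ _
  obtain ⟨m₂, h2⟩ : g ∣ n₂ := Nat.gcd_dvd_right _ _
  have hm1 : n₁ / g = m₁ := by
    rw [h1]
    exact Nat.mul_div_cancel_left _ (Nat.pos_of_ne_zero hg0)
  have hm2 : n₂ / g = m₂ := by
    rw [h2]
    exact Nat.mul_div_cancel_left _ (Nat.pos_of_ne_zero hg0)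
  have hco : m₁.Coprime m₂ := by
    rw [← hm1, ← hm2]
    exact Nat.coprime_div_gcd_div_gcd (Nat.pos_of_ne_zero hg0)
  have hq : Squarefree (m₁ * m₂) := by
    rw [Nat.squarefree_mul hco]
    refine ⟨?_, ?_⟩
    · rw [h1] at hs1
      exact hs1.of_mul_right
    · rw [h2] at hs2
      exact hs2.of_mul_right
  have hqp : ∀ p : ℕ, p.Prime → p ∣ m₁ * m₂ → p % 4 = 1 := fun p hpp hd => by
    refine hp p hpp (hd.trans ⟨g * g, ?_⟩)
    conv_lhs => rw [h1, h2]
    ring
  have hnn : n₁ * n₂ = g * g * (m₁ * m₂) := by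
    conv_lhs => rw [h1, h2]
    ring
  rw [hm1, hm2]
  have hnc : ∀ h : ℤ, chi h (n₁ * n₂) = chi h (g * g * (m₁ * m₂)) := fun h => by rw [hnn]
  simp only [hnc]
  generalize m₁ * m₂ = q at hq hqp
  clear_value g
  have hq0 : q ≠ 0 := hq.ne_zero
  have hqpos : (0 : ℝ) < q := by exact_mod_cast Nat.pos_of_ne_zero hq0
  set F : ℤ → ℝ → ℝ := fun j x => ∑ d ∈ g.divisors, H * ((μ d : ℝ) / (d * √(q : ℝ))) *
    (if (d : ℤ) ∣ j then chi j q * (x ^ 7 * rexp (-x) *
      rexp (-π * (|(j : ℝ)| * H / ((d : ℝ) ^ 2 * q)) ^ 2 / x ^ 16)) else 0) with hF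
  have hint1 : ∀ (j : ℤ) (d : ℕ), IntegrableOn (fun x => H * ((μ d : ℝ) / (d * √(q : ℝ))) *
    (if (d : ℤ) ∣ j then chi j q * (x ^ 7 * rexp (-x) *
      rexp (-π * (|(j : ℝ)| * H / ((d : ℝ) ^ 2 * q)) ^ 2 / x ^ 16)) else 0)) (Ioi 0) := fun j d => by
    refine Integrable.const_mul ?_ _
    split_ifs
    · exact (gk_int _).const_mul _
    · exact integrable_zero _ _ _
  have hval1 : ∀ (j : ℤ) (d : ℕ), ∫ x in Ioi (0 : ℝ), H * ((μ d : ℝ) / (d * √(q : ℝ))) *
    (if (d : ℤ) ∣ j then chi j q * (x ^ 7 * rexp (-x) *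
      rexp (-π * (|(j : ℝ)| * H / ((d : ℝ) ^ 2 * q)) ^ 2 / x ^ 16)) else 0) =
      H * ((μ d : ℝ) / (d * √(q : ℝ))) *
      (if (d : ℤ) ∣ j then chi j q * Gk (|(j : ℝ)| * H / ((d : ℝ) ^ 2 * q)) else 0) := fun j d => by
    rw [integral_const_mul]
    congr 1
    split_ifs
    · rw [integral_const_mul]
      rfl
    · simp
  have hint : ∀ j, IntegrableOn (F j) (Ioi 0) := fun j =>
    integrable_finsetSum _ fun d _ => hint1 j d
  have hval : ∀ j, ∫ x in Ioi (0 : ℝ), F j x = ∑ d ∈ g.divisors, H * ((μ d : ℝ) / (d * √(q : ℝ))) *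
      (if (d : ℤ) ∣ j then chi j q * Gk (|(j : ℝ)| * H / ((d : ℝ) ^ 2 * q)) else 0) := fun j => by
    rw [hF, integral_finsetSum _ fun d _ => hint1 j d]
    exact Finset.sum_congr rfl fun d _ => hval1 j d
  have hsumd : ∀ d ∈ g.divisors, Summable fun j : ℤ => |H * ((μ d : ℝ) / (d * √(q : ℝ)))| *
      Gk (|(j : ℝ)| * H / ((d : ℝ) ^ 2 * q)) := fun d hd => by
    have hdpos : (0 : ℝ) < d := by exact_mod_cast Nat.pos_of_mem_divisors hd
    refine ((summable_Gk (c := H / ((d : ℝ) ^ 2 * q)) (by positivity)).mul_left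
      |H * ((μ d : ℝ) / (d * √(q : ℝ)))|).congr fun j => ?_
    rw [mul_div_assoc]
  have hnorm : Summable fun j => ∫ x in Ioi (0 : ℝ), ‖F j x‖ := by
    refine Summable.of_norm_bounded (summable_sum hsumd) fun j => ?_
    rw [Real.norm_of_nonneg (integral_nonneg fun _ => norm_nonneg _)]
    have hG : ∀ d ∈ g.divisors, IntegrableOn (fun x : ℝ => |H * ((μ d : ℝ) / (d * √(q : ℝ)))| *
        (x ^ 7 * rexp (-x) * rexp (-π * (|(j : ℝ)| * H / ((d : ℝ) ^ 2 * q)) ^ 2 / x ^ 16)))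
        (Ioi 0) := fun d _ => (gk_int _).const_mul _
    calc ∫ x in Ioi (0 : ℝ), ‖F j x‖ ≤ ∫ x in Ioi (0 : ℝ), ∑ d ∈ g.divisors,
          |H * ((μ d : ℝ) / (d * √(q : ℝ)))| * (x ^ 7 * rexp (-x) *
            rexp (-π * (|(j : ℝ)| * H / ((d : ℝ) ^ 2 * q)) ^ 2 / x ^ 16)) := by
          refine setIntegral_mono_on (hint j).norm (integrable_finsetSum _ hG)
            measurableSet_Ioi fun x hx => ?_
          have hx' : (0 : ℝ) < x := hx
          refine (norm_sum_le _ _).trans (Finset.sum_le_sum fun d _ => ?_)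
          rw [norm_mul, Real.norm_eq_abs]
          refine mul_le_mul_of_nonneg_left ?_ (abs_nonneg _)
          split_ifs
          · rw [norm_mul, Real.norm_eq_abs, Real.norm_of_nonneg (by positivity)]
            exact mul_le_of_le_one_left (by positivity) (chi_bound _ _)
          · rw [norm_zero]
            positivity
      _ = _ := by
          rw [integral_finsetSum _ hG]
          exact Finset.sum_congr rfl fun d _ => by rw [integral_const_mul]; rfl
  have hmain := integral_tsum_of_summable_integral_norm hint hnorm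
  rw [setIntegral_congr_fun measurableSet_Ioi (g := fun x => ∑' j, F j x)
    (fun x hx => pair_point hP hg0 hq hqp hH hx), ← hmain]
  simp only [hval]
  have hsum2 : ∀ d ∈ g.divisors, Summable fun j : ℤ => H * ((μ d : ℝ) / (d * √(q : ℝ))) *
      (if (d : ℤ) ∣ j then chi j q * Gk (|(j : ℝ)| * H / ((d : ℝ) ^ 2 * q)) else 0) := fun d hd => by
    refine Summable.of_norm_bounded (hsumd d hd) fun j => ?_
    rw [norm_mul, Real.norm_eq_abs]
    refine mul_le_mul_of_nonneg_left ?_ (abs_nonneg _)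
    split_ifs
    · rw [norm_mul, Real.norm_eq_abs, Real.norm_of_nonneg (gk_nonneg _)]
      exact mul_le_of_le_one_left (gk_nonneg _) (chi_bound _ _)
    · rw [norm_zero]
      exact gk_nonneg _
  rw [Summable.tsum_finsetSum hsum2, Finset.mul_sum]
  refine Finset.sum_congr rfl fun d _ => ?_
  rw [tsum_mul_left, mul_assoc]

end P004
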