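import Mathlib

/-!
# P004, module E, part 1: exponential decay of the Gamma function on vertical lines
-/

open Complex Filter Set MeasureTheory
open scoped Topology

namespace P004.E

lemma integrableOn_cpow_mul_exp {a r : ℂ} (ha : 0 < a.re) (hr : 0 < r.re) :
    IntegrableOn (fun t : ℝ => (t : ℂ) ^ (a - 1) * cexp (-(r * t))) (Ioi 0) := by
  have h1 : IntegrableOn (fun t : ℝ => t ^ (a.re - 1) * Real.exp (-r.re * t ^ (1 : ℝ))) (Ioi 0) :=
    integrableOn_rpow_mul_exp_neg_mul_rpow (by linarith) one_pos hr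
  refine h1.mono' ?_ ?_
  · apply ContinuousOn.aestronglyMeasurable _ measurableSet_Ioi
    intro t ht
    apply ContinuousAt.continuousWithinAt
    refine ContinuousAt.mul ?_ ?_
    · refine ContinuousAt.comp (f := fun t : ℝ => (t : ℂ)) (g := fun z : ℂ => z ^ (a - 1)) ?_
        Complex.continuous_ofReal.continuousAt
      exact continuousAt_cpow_const (ofReal_mem_slitPlane.2 ht)
    · fun_prop
  · filter_upwards [ae_restrict_mem measurableSet_Ioi] with t ht
    rw [norm_mul, norm_cpow_eq_rpow_re_of_pos ht, norm_exp, Real.rpow_one]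
    simp

lemma hasDerivAt_lap {a : ℂ} (ha : 0 < a.re) {r : ℂ} (hr : 0 < r.re) :
    DifferentiableAt ℂ (fun r : ℂ => ∫ t : ℝ in Ioi 0, (t : ℂ) ^ (a - 1) * cexp (-(r * t))) r := by
  have h := hasDerivAt_integral_of_dominated_loc_of_deriv_le (μ := volume.restrict (Ioi (0 : ℝ)))
    (F := fun (r : ℂ) (t : ℝ) => (t : ℂ) ^ (a - 1) * cexp (-(r * t)))
    (F' := fun (r : ℂ) (t : ℝ) => (t : ℂ) ^ (a - 1) * (cexp (-(r * t)) * (-t)))
    (x₀ := r) (s := Metric.ball r (r.re / 2))
    (bound := fun t : ℝ => t ^ a.re * Real.exp (-(r.re / 2) * t ^ (1 : ℝ)))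
    (Metric.ball_mem_nhds r (by linarith)) ?_ (integrableOn_cpow_mul_exp ha hr) ?_ ?_ ?_ ?_
  · exact h.2.differentiableAt
  · have h1 : ∀ᶠ z : ℂ in 𝓝 r, 0 < z.re :=
      (Complex.continuous_re.continuousAt).eventually (lt_mem_nhds hr)
    filter_upwards [h1] with z hz
    exact (integrableOn_cpow_mul_exp ha hz).aestronglyMeasurable
  · apply ContinuousOn.aestronglyMeasurable _ measurableSet_Ioi
    intro t ht
    apply ContinuousAt.continuousWithinAt
    refine ContinuousAt.mul ?_ ?_
    · refine ContinuousAt.comp (f := fun t : ℝ => (t : ℂ)) (g := fun z : ℂ => z ^ (a - 1)) ?_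
        Complex.continuous_ofReal.continuousAt
      exact continuousAt_cpow_const (ofReal_mem_slitPlane.2 ht)
    · fun_prop
  · filter_upwards [ae_restrict_mem measurableSet_Ioi] with t ht z hz
    have ht0 : (0 : ℝ) < t := ht
    have hzr : r.re / 2 ≤ z.re := by
      have h2 : |(z - r).re| ≤ ‖z - r‖ := Complex.abs_re_le_norm _
      rw [Metric.mem_ball, dist_eq] at hz
      rw [Complex.sub_re, abs_le] at h2
      linarith [h2.1]
    rw [norm_mul, norm_mul, norm_cpow_eq_rpow_re_of_pos ht, norm_exp, Real.rpow_one, norm_neg,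
      Complex.norm_real, Real.norm_of_nonneg ht0.le]
    have e1 : (-(z * (t : ℂ))).re = -(z.re * t) := by simp
    have e2 : t ^ a.re = t ^ (a - 1).re * t := by
      rw [Complex.sub_re, Complex.one_re, Real.rpow_sub_one ht0.ne']
      field_simp
    rw [e1, e2]
    have e3 : Real.exp (-(z.re * t)) ≤ Real.exp (-(r.re / 2) * t) := by
      apply Real.exp_le_exp.2
      nlinarith
    calc t ^ (a - 1).re * (Real.exp (-(z.re * t)) * t) ≤
          t ^ (a - 1).re * (Real.exp (-(r.re / 2) * t) * t) := by gcongr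
      _ = _ := by ring
  · exact integrableOn_rpow_mul_exp_neg_mul_rpow (by linarith) one_pos (by linarith)
  · filter_upwards with t z _
    have h1 : HasDerivAt (fun z : ℂ => cexp (-(z * t))) (cexp (-(z * t)) * (-t)) z := by
      have h2 : HasDerivAt (fun z : ℂ => -(z * t)) (-(1 * (t : ℂ))) z :=
        ((hasDerivAt_id z).mul_const (t : ℂ)).neg
      rw [one_mul] at h2
      exact h2.cexp
    exact h1.const_mul _

/-- The rotated Gamma integral. -/
theorem integral_rot {a r : ℂ} (ha : 0 < a.re) (hr : 0 < r.re) :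
    ∫ t : ℝ in Ioi 0, (t : ℂ) ^ (a - 1) * cexp (-(r * t)) = (1 / r) ^ a * Complex.Gamma a := by
  set U : Set ℂ := {r : ℂ | 0 < r.re} with hU
  have hUo : IsOpen U := isOpen_lt continuous_const Complex.continuous_re
  have hUc : IsPreconnected U := (convex_halfSpace_re_gt 0).isPreconnected
  have hf : AnalyticOnNhd ℂ (fun r : ℂ => ∫ t : ℝ in Ioi 0, (t : ℂ) ^ (a - 1) * cexp (-(r * t))) U :=
    DifferentiableOn.analyticOnNhd
      (fun r hr => (hasDerivAt_lap ha hr).differentiableWithinAt) hUo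
  have hg : AnalyticOnNhd ℂ (fun r : ℂ => (1 / r) ^ a * Complex.Gamma a) U := by
    refine DifferentiableOn.analyticOnNhd (fun r hr => ?_) hUo
    have hr0 : r ≠ 0 := by
      rintro rfl
      simp [hU] at hr
    have h1 : (1 / r) ∈ slitPlane := by
      left
      rw [one_div, Complex.inv_re]
      have : 0 < normSq r := normSq_pos.2 hr0
      exact div_pos hr this
    have h2 : DifferentiableAt ℂ (fun r : ℂ => 1 / r) r := by
      simp_rw [one_div]
      exact differentiableAt_inv hr0
    exact ((h2.cpow_const h1).mul_const _).differentiableWithinAt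
  have hfr : ∃ᶠ z in 𝓝[≠] (1 : ℂ), (∫ t : ℝ in Ioi 0, (t : ℂ) ^ (a - 1) * cexp (-(z * t))) =
      (1 / z) ^ a * Complex.Gamma a := by
    have h1 : Tendsto (fun n : ℕ => ((1 + 1 / ((n : ℝ) + 1) : ℝ) : ℂ)) atTop (𝓝[≠] 1) := by
      rw [tendsto_nhdsWithin_iff]
      refine ⟨?_, Eventually.of_forall fun n => ?_⟩
      · have h2 : Tendsto (fun n : ℕ => (1 + 1 / ((n : ℝ) + 1) : ℝ)) atTop (𝓝 (1 + 0)) :=
          tendsto_const_nhds.add tendsto_one_div_add_atTop_nhds_zero_nat
        rw [add_zero] at h2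
        have h3 := (Complex.continuous_ofReal.tendsto (1 : ℝ)).comp h2
        rwa [Complex.ofReal_one] at h3
      · rw [mem_compl_iff, mem_singleton_iff]
        intro h
        have h2 : (1 + 1 / ((n : ℝ) + 1) : ℝ) = 1 := by exact_mod_cast h
        have h3 : 0 < 1 / ((n : ℝ) + 1) := by positivity
        linarith
    refine h1.frequently (Frequently.of_forall fun n => ?_)
    exact integral_cpow_mul_exp_neg_mul_Ioi ha (by positivity)
  have := hf.eqOn_of_preconnected_of_frequently_eq hg hUc (show (1 : ℂ) ∈ U by simp [hU]) hfr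
  exact this hr

/-- Exponential decay of the Gamma function on vertical lines. -/
theorem norm_Gamma_le {a : ℂ} (ha : 0 < a.re) {φ : ℝ} (hφ0 : 0 ≤ φ) (hφ : φ < Real.pi / 2) :
    ‖Complex.Gamma a‖ ≤
      Real.Gamma a.re * (Real.cos φ)⁻¹ ^ a.re * Real.exp (-φ * |a.im|) := by
  have hcos : 0 < Real.cos φ := Real.cos_pos_of_mem_Ioo ⟨by linarith, hφ⟩
  -- the rotation by `ψ`, `|ψ| = φ`
  have key : ∀ ψ : ℝ, |ψ| < Real.pi / 2 → ‖Complex.Gamma a‖ * Real.exp (ψ * a.im) ≤
      Real.Gamma a.re * (Real.cos ψ)⁻¹ ^ a.re := by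
    intro ψ hψ
    rw [abs_lt] at hψ
    have hc : 0 < Real.cos ψ := Real.cos_pos_of_mem_Ioo ⟨by linarith, hψ.2⟩
    set r : ℂ := cexp (ψ * I) with hr
    have hre : r.re = Real.cos ψ := by rw [hr, Complex.exp_ofReal_mul_I_re]
    have h1 := integral_rot ha (r := r) (by rw [hre]; exact hc)
    have h2 : ‖(1 / r) ^ a * Complex.Gamma a‖ = Real.exp (ψ * a.im) * ‖Complex.Gamma a‖ := by
      rw [norm_mul]
      congr 1
      have e1 : 1 / r = cexp (-(ψ * I)) := by rw [hr, Complex.exp_neg, one_div]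
      have e2 : Complex.log (1 / r) = -(ψ * I) := by
        rw [e1, Complex.log_exp]
        · simp; linarith [Real.pi_pos]
        · simp; linarith [Real.pi_pos]
      have e3 : (1 / r) ≠ 0 := by rw [e1]; exact Complex.exp_ne_zero _
      rw [Complex.cpow_def_of_ne_zero e3, e2, Complex.norm_exp]
      congr 1
      simp
    rw [mul_comm, ← h2, ← h1]
    refine (norm_integral_le_integral_norm _).trans (le_of_eq ?_)
    have h3 : ∫ t : ℝ in Ioi 0, ‖(t : ℂ) ^ (a - 1) * cexp (-(r * t))‖ =
        ∫ t : ℝ in Ioi 0, t ^ (a.re - 1) * Real.exp (-(Real.cos ψ * t)) := by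
      apply setIntegral_congr_fun measurableSet_Ioi
      intro t ht
      simp only
      rw [norm_mul, norm_cpow_eq_rpow_re_of_pos ht, norm_exp]
      congr 2
      simp [hre]
    rw [h3, Real.integral_rpow_mul_exp_neg_mul_Ioi ha hc, one_div, mul_comm]
  have hfin : ‖Complex.Gamma a‖ * Real.exp (φ * |a.im|) ≤
      Real.Gamma a.re * (Real.cos φ)⁻¹ ^ a.re := by
    rcases le_total 0 a.im with h | h
    · rw [abs_of_nonneg h]
      exact key φ (by rw [abs_of_nonneg hφ0]; exact hφ)
    · rw [abs_of_nonpos h]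
      have := key (-φ) (by rw [abs_neg, abs_of_nonneg hφ0]; exact hφ)
      rw [Real.cos_neg] at this
      convert this using 3
      ring
  rw [neg_mul, Real.exp_neg, ← div_eq_mul_inv, le_div_iff₀ (Real.exp_pos _)]
  exact hfin

end P004.E
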