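import Vale.Agent.P004.Iface
import Vale.Agent.P004.EGam

/-!
# P004, module E: the kernel `Gk`
-/

open Complex Filter Set MeasureTheory
open scoped Topology

namespace P004

namespace E

lemma intg (k : ℕ) {c : ℝ} (hc : 0 < c) :
    IntegrableOn (fun x : ℝ => x ^ k * Real.exp (-(c * x))) (Ioi 0) := by
  have h := integrableOn_rpow_mul_exp_neg_mul_rpow (s := k) (p := 1) (b := c)
    (by have : (0 : ℝ) ≤ k := Nat.cast_nonneg k
        linarith) one_pos hc
  refine h.congr_fun (fun x hx => ?_) measurableSet_Ioi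
  simp only
  rw [Real.rpow_natCast, Real.rpow_one, neg_mul]

lemma intval (k : ℕ) {c : ℝ} (hc : 0 < c) :
    ∫ x in Ioi (0 : ℝ), x ^ k * Real.exp (-(c * x)) = k.factorial / c ^ (k + 1) := by
  have h := Real.integral_rpow_mul_exp_neg_mul_Ioi (a := (k : ℝ) + 1) (r := c) (by positivity) hc
  have h2 : ∫ x in Ioi (0 : ℝ), x ^ k * Real.exp (-(c * x)) =
      ∫ x in Ioi (0 : ℝ), x ^ ((k : ℝ) + 1 - 1) * Real.exp (-(c * x)) := by
    apply setIntegral_congr_fun measurableSet_Ioi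
    intro x hx
    simp only
    rw [add_sub_cancel_right, Real.rpow_natCast]
  rw [h2, h, Real.Gamma_nat_eq_factorial, one_div, Real.inv_rpow hc.le]
  rw [show ((k : ℝ) + 1) = ((k + 1 : ℕ) : ℝ) by push_cast; ring, Real.rpow_natCast]
  field_simp

/-- the integrand -/
noncomputable def gi (y x : ℝ) : ℝ := x ^ 7 * Real.exp (-x) * Real.exp (-Real.pi * y ^ 2 / x ^ 16)

lemma Gk_eq (y : ℝ) : Gk y = ∫ x in Ioi (0 : ℝ), gi y x := rfl

lemma gi_nonneg {y x : ℝ} (hx : 0 < x) : 0 ≤ gi y x := by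
  unfold gi; positivity

lemma gi_meas : Measurable (Function.uncurry gi) := by
  unfold gi Function.uncurry
  fun_prop

lemma gi_le {y x : ℝ} (hx : 0 < x) : gi y x ≤ x ^ 7 * Real.exp (-(1 * x)) := by
  unfold gi
  rw [one_mul]
  have : Real.exp (-Real.pi * y ^ 2 / x ^ 16) ≤ 1 := by
    rw [Real.exp_le_one_iff]
    apply div_nonpos_of_nonpos_of_nonneg
    · have := Real.pi_pos
      nlinarith [sq_nonneg y]
    · positivity
  exact mul_le_of_le_one_right (by positivity) this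

lemma gi_int (y : ℝ) : IntegrableOn (gi y) (Ioi 0) := by
  refine (intg 7 one_pos).mono' ?_ ?_
  · exact (gi_meas.comp (measurable_const.prodMk measurable_id)).aestronglyMeasurable
  · filter_upwards [ae_restrict_mem measurableSet_Ioi] with x hx
    rw [Real.norm_of_nonneg (gi_nonneg hx)]
    exact gi_le hx

lemma Gk_nonneg (y : ℝ) : 0 ≤ Gk y :=
  setIntegral_nonneg measurableSet_Ioi fun x hx => gi_nonneg hx

lemma Gk_le (y : ℝ) : Gk y ≤ 5040 := by
  calc Gk y ≤ ∫ x in Ioi (0 : ℝ), x ^ 7 * Real.exp (-(1 * x)) :=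
        setIntegral_mono_on (gi_int y) (intg 7 one_pos) measurableSet_Ioi fun x hx => gi_le hx
    _ = 5040 := by
        rw [intval 7 one_pos]
        norm_num [Nat.factorial]

lemma Gk_cont : Continuous Gk := by
  refine continuous_of_dominated (F := fun y x => gi y x)
    (bound := fun x => x ^ 7 * Real.exp (-(1 * x))) ?_ ?_ (intg 7 one_pos) ?_
  · intro y
    exact (gi_int y).aestronglyMeasurable
  · intro y
    filter_upwards [ae_restrict_mem measurableSet_Ioi] with x hx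
    rw [Real.norm_of_nonneg (gi_nonneg hx)]
    exact gi_le hx
  · filter_upwards [ae_restrict_mem measurableSet_Ioi] with x hx
    unfold gi
    fun_prop

lemma Gk_decay (y : ℝ) (hy : 0 ≤ y) :
    Gk y ≤ (2 ^ 8 * 5040) * Real.exp (-(y ^ (2 / 17 : ℝ)) / 2) := by
  have hpt : ∀ x : ℝ, 0 < x → gi y x ≤
      (x ^ 7 * Real.exp (-(1 / 2 * x))) * Real.exp (-(y ^ (2 / 17 : ℝ)) / 2) := by
    intro x hx
    unfold gi
    rw [mul_assoc, mul_assoc, ← Real.exp_add, ← Real.exp_add]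
    apply mul_le_mul_of_nonneg_left _ (by positivity)
    apply Real.exp_le_exp.2
    set w := y ^ (2 / 17 : ℝ) with hw
    have hw0 : 0 ≤ w := Real.rpow_nonneg hy _
    have hyw : y ^ 2 = w ^ 17 := by
      rw [hw, ← Real.rpow_natCast (y ^ (2 / 17 : ℝ)) 17, ← Real.rpow_mul hy, ← Real.rpow_natCast y 2]
      norm_num
    have hT0 : 0 ≤ Real.pi * y ^ 2 / x ^ 16 := by positivity
    have hsum : w ≤ x + Real.pi * y ^ 2 / x ^ 16 := by
      by_cases h : w ≤ x
      · linarith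
      · push Not at h
        have h1 : w ≤ Real.pi * y ^ 2 / x ^ 16 := by
          rw [le_div_iff₀ (by positivity), hyw]
          have h2 : x ^ 16 ≤ w ^ 16 := pow_le_pow_left₀ hx.le h.le 16
          calc w * x ^ 16 ≤ w * w ^ 16 := by gcongr
            _ = 1 * w ^ 17 := by ring
            _ ≤ Real.pi * w ^ 17 := by
                apply mul_le_mul_of_nonneg_right _ (by positivity)
                linarith [Real.pi_gt_three]
        linarith
    have e1 : -Real.pi * y ^ 2 / x ^ 16 = -(Real.pi * y ^ 2 / x ^ 16) := by ring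
    rw [e1]
    linarith
  calc Gk y ≤ ∫ x in Ioi (0 : ℝ),
        (x ^ 7 * Real.exp (-(1 / 2 * x))) * Real.exp (-(y ^ (2 / 17 : ℝ)) / 2) :=
        setIntegral_mono_on (gi_int y) ((intg 7 (by norm_num)).mul_const _) measurableSet_Ioi
          fun x hx => hpt x hx
    _ = (2 ^ 8 * 5040) * Real.exp (-(y ^ (2 / 17 : ℝ)) / 2) := by
        rw [integral_mul_const, intval 7 (by norm_num)]
        norm_num [Nat.factorial]

/-! ### the Mellin transform -/

lemma mellin_gauss {s : ℂ} (hs : 0 < s.re) {b : ℝ} (hb : 0 < b) :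
    ∫ y in Ioi (0 : ℝ), (y : ℂ) ^ (s - 1) * cexp (-(b * (y : ℂ) ^ 2)) =
      1 / 2 * ((1 / b : ℂ) ^ (s / 2) * Complex.Gamma (s / 2)) := by
  have h1 := mellin_comp_rpow (fun t : ℝ => cexp (-(b * (t : ℂ)))) s 2
  have h2 : mellin (fun t : ℝ => cexp (-(b * (t : ℂ)))) (s / 2) =
      (1 / b : ℂ) ^ (s / 2) * Complex.Gamma (s / 2) := by
    rw [mellin]
    simp only [smul_eq_mul]
    exact Complex.integral_cpow_mul_exp_neg_mul_Ioi (by simpa using hs) hb
  have h3 : mellin (fun t : ℝ => (fun t : ℝ => cexp (-(b * (t : ℂ)))) (t ^ (2 : ℝ))) s =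
      ∫ y in Ioi (0 : ℝ), (y : ℂ) ^ (s - 1) * cexp (-(b * (y : ℂ) ^ 2)) := by
    rw [mellin]
    apply setIntegral_congr_fun measurableSet_Ioi
    intro y hy
    simp only [smul_eq_mul]
    congr 3
    rw [Real.rpow_two]
    push_cast
    rfl
  rw [← h3, h1]
  have e2 : ((2 : ℝ) : ℂ) = 2 := by norm_num
  rw [e2, h2]
  rw [abs_of_pos (by norm_num : (0 : ℝ) < 2), Complex.real_smul]
  push_cast
  ring

/-- the two variable integrand -/
noncomputable def f2 (s : ℂ) (y x : ℝ) : ℂ := (y : ℂ) ^ (s - 1) * ((gi y x : ℝ) : ℂ)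

lemma f2_meas (s : ℂ) : Measurable (Function.uncurry (f2 s)) := by
  unfold f2 Function.uncurry
  have h1 : Measurable (fun p : ℝ × ℝ => ((p.1 : ℝ) : ℂ) ^ (s - 1)) := by fun_prop
  have h2 : Measurable (fun p : ℝ × ℝ => ((gi p.1 p.2 : ℝ) : ℂ)) :=
    Complex.measurable_ofReal.comp gi_meas
  exact h1.mul h2

lemma norm_f2 {s : ℂ} {y x : ℝ} (hy : 0 < y) (hx : 0 < x) : ‖f2 s y x‖ =
    x ^ 7 * Real.exp (-x) * (y ^ (s.re - 1) * Real.exp (-(Real.pi / x ^ 16) * y ^ (2 : ℝ))) := by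
  unfold f2
  rw [norm_mul, norm_cpow_eq_rpow_re_of_pos hy, Complex.norm_real,
    Real.norm_of_nonneg (gi_nonneg hx)]
  unfold gi
  have e1 : -Real.pi * y ^ 2 / x ^ 16 = -(Real.pi / x ^ 16) * y ^ (2 : ℝ) := by
    rw [Real.rpow_two]; ring
  rw [e1]
  simp
  ring

lemma f2_int_y {s : ℂ} (hs : 0 < s.re) {x : ℝ} (hx : 0 < x) :
    IntegrableOn (fun y => f2 s y x) (Ioi 0) := by
  have hb : 0 < Real.pi / x ^ 16 := by positivity
  have h1 : IntegrableOn (fun y : ℝ => x ^ 7 * Real.exp (-x) *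
      (y ^ (s.re - 1) * Real.exp (-(Real.pi / x ^ 16) * y ^ (2 : ℝ)))) (Ioi 0) :=
    (integrableOn_rpow_mul_exp_neg_mul_rpow (by linarith) two_pos hb).const_mul _
  refine h1.mono' ?_ ?_
  · exact ((f2_meas s).comp (measurable_id.prodMk measurable_const)).aestronglyMeasurable
  · filter_upwards [ae_restrict_mem measurableSet_Ioi] with y hy
    exact (norm_f2 hy hx).le

lemma f2_int_norm {s : ℂ} (hs : 0 < s.re) {x : ℝ} (hx : 0 < x) :
    ∫ y in Ioi (0 : ℝ), ‖f2 s y x‖ =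
      (Real.pi ^ (-(s.re) / 2) * (1 / 2) * Real.Gamma (s.re / 2)) *
        (x ^ (7 + 8 * s.re) * Real.exp (-1 * x ^ (1 : ℝ))) := by
  have hb : 0 < Real.pi / x ^ 16 := by positivity
  have h1 : ∫ y in Ioi (0 : ℝ), ‖f2 s y x‖ = ∫ y in Ioi (0 : ℝ), x ^ 7 * Real.exp (-x) *
      (y ^ (s.re - 1) * Real.exp (-(Real.pi / x ^ 16) * y ^ (2 : ℝ))) := by
    apply setIntegral_congr_fun measurableSet_Ioi
    intro y hy
    exact norm_f2 hy hx
  rw [h1, integral_const_mul, _root_.integral_rpow_mul_exp_neg_mul_rpow two_pos (by linarith) hb]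
  rw [sub_add_cancel, Real.div_rpow Real.pi_pos.le (by positivity)]
  have e1 : (x ^ 16 : ℝ) ^ (-s.re / 2) = (x ^ (8 * s.re))⁻¹ := by
    rw [← Real.rpow_natCast x 16, ← Real.rpow_mul hx.le, ← Real.rpow_neg hx.le]
    congr 1
    push_cast
    ring
  rw [e1, Real.rpow_add hx, Real.rpow_one]
  have e2 : x ^ (7 : ℝ) = x ^ 7 := by exact_mod_cast Real.rpow_natCast x 7
  rw [e2, div_inv_eq_mul]
  ring_nf

lemma f2_integrable {s : ℂ} (hs : 0 < s.re) :
    Integrable (Function.uncurry (f2 s))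
      ((volume.restrict (Ioi (0 : ℝ))).prod (volume.restrict (Ioi (0 : ℝ)))) := by
  rw [integrable_prod_iff' (f2_meas s).aestronglyMeasurable]
  constructor
  · filter_upwards [ae_restrict_mem measurableSet_Ioi] with x hx
    exact f2_int_y hs hx
  · have h1 : IntegrableOn (fun x : ℝ => (Real.pi ^ (-(s.re) / 2) * (1 / 2) *
        Real.Gamma (s.re / 2)) * (x ^ (7 + 8 * s.re) * Real.exp (-1 * x ^ (1 : ℝ)))) (Ioi 0) :=
      (integrableOn_rpow_mul_exp_neg_mul_rpow (by linarith) one_pos one_pos).const_mul _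
    refine h1.congr_fun (fun x hx => ?_) measurableSet_Ioi
    exact (f2_int_norm hs hx).symm

lemma f2_inner {s : ℂ} (hs : 0 < s.re) {x : ℝ} (hx : 0 < x) :
    ∫ y in Ioi (0 : ℝ), f2 s y x =
      1 / 2 * ((1 / Real.pi : ℂ) ^ (s / 2) * Complex.Gamma (s / 2)) *
        ((Real.exp (-x) : ℝ) * (x : ℂ) ^ (8 * s + 8 - 1)) := by
  have hb : 0 < Real.pi / x ^ 16 := by positivity
  have h1 : ∫ y in Ioi (0 : ℝ), f2 s y x = ∫ y in Ioi (0 : ℝ), ((x ^ 7 * Real.exp (-x) : ℝ) : ℂ) *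
      ((y : ℂ) ^ (s - 1) * cexp (-(((Real.pi / x ^ 16 : ℝ) : ℂ) * (y : ℂ) ^ 2))) := by
    apply setIntegral_congr_fun measurableSet_Ioi
    intro y hy
    simp only [f2, gi]
    push_cast
    have e1 : -(Real.pi : ℂ) * (y : ℂ) ^ 2 / (x : ℂ) ^ 16 =
        -((Real.pi : ℂ) / (x : ℂ) ^ 16 * (y : ℂ) ^ 2) := by ring
    rw [e1]
    ring
  rw [h1, integral_const_mul, mellin_gauss hs hb]
  have hx0 : (x : ℂ) ≠ 0 := by exact_mod_cast hx.ne'
  have e2 : (1 / ((Real.pi / x ^ 16 : ℝ) : ℂ)) ^ (s / 2) =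
      (1 / Real.pi : ℂ) ^ (s / 2) * (x : ℂ) ^ (8 * s) := by
    have e3 : (1 / ((Real.pi / x ^ 16 : ℝ) : ℂ)) = ((1 / Real.pi : ℝ) : ℂ) * ((x ^ 16 : ℝ) : ℂ) := by
      push_cast
      field_simp
    rw [e3, mul_cpow_ofReal_nonneg (by positivity) (by positivity)]
    congr 1
    · push_cast; rfl
    · have h16 : ((x ^ 16 : ℝ) : ℂ) ≠ 0 := by exact_mod_cast (pow_pos hx 16).ne'
      rw [Complex.cpow_def_of_ne_zero h16, Complex.cpow_def_of_ne_zero hx0,
        ← Complex.ofReal_log (by positivity), ← Complex.ofReal_log hx.le, Real.log_pow]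
      congr 1
      push_cast
      ring
  rw [e2]
  have e4 : (x : ℂ) ^ (8 * s + 8 - 1) = (x : ℂ) ^ (8 * s) * (x : ℂ) ^ 7 := by
    rw [show (8 * s + 8 - 1 : ℂ) = 8 * s + ((7 : ℕ) : ℂ) by push_cast; ring,
      Complex.cpow_add _ _ hx0, Complex.cpow_natCast]
  rw [e4]
  push_cast
  ring

lemma mellin_Gk {s : ℂ} (hs : 0 < s.re) :
    mellin (fun y : ℝ => (Gk y : ℂ)) s =
      1 / 2 * ((1 / Real.pi : ℂ) ^ (s / 2) * Complex.Gamma (s / 2)) * Complex.Gamma (8 * s + 8) := by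
  have h1 : mellin (fun y : ℝ => (Gk y : ℂ)) s =
      ∫ y in Ioi (0 : ℝ), ∫ x in Ioi (0 : ℝ), f2 s y x := by
    rw [mellin]
    apply setIntegral_congr_fun measurableSet_Ioi
    intro y _
    simp only [smul_eq_mul, f2]
    rw [integral_const_mul, Gk_eq, integral_complex_ofReal]
  rw [h1, integral_integral_swap (f2_integrable hs)]
  have h2 : ∫ x in Ioi (0 : ℝ), ∫ y in Ioi (0 : ℝ), f2 s y x =
      ∫ x in Ioi (0 : ℝ), 1 / 2 * ((1 / Real.pi : ℂ) ^ (s / 2) * Complex.Gamma (s / 2)) *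
        ((Real.exp (-x) : ℝ) * (x : ℂ) ^ (8 * s + 8 - 1)) := by
    apply setIntegral_congr_fun measurableSet_Ioi
    intro x hx
    exact f2_inner hs hx
  rw [h2, integral_const_mul]
  congr 1
  have h3 : 0 < (8 * s + 8).re := by simp; linarith
  rw [Complex.Gamma_eq_integral h3, Complex.GammaIntegral]

lemma mellinConvergent_Gk {s : ℂ} (hs : 0 < s.re) :
    MellinConvergent (fun y : ℝ => (Gk y : ℂ)) s := by
  have h1 := (f2_integrable hs).integral_prod_left
  have h2 : IntegrableOn (fun y => ∫ x in Ioi (0 : ℝ), f2 s y x) (Ioi 0) volume := h1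
  refine h2.congr_fun (fun y _ => ?_) measurableSet_Ioi
  simp only [smul_eq_mul, f2]
  rw [integral_const_mul, Gk_eq, integral_complex_ofReal]

lemma integrable_exp_abs : Integrable (fun v : ℝ => Real.exp (-3 * Real.pi * |v|)) := by
  refine (integrable_inv_one_add_sq.const_mul 2).mono' ?_ ?_
  · exact (by fun_prop : Continuous (fun v : ℝ => Real.exp (-3 * Real.pi * |v|))).aestronglyMeasurable
  · filter_upwards with v
    rw [Real.norm_of_nonneg (Real.exp_pos _).le]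
    have h1 : Real.exp (-3 * Real.pi * |v|) ≤ Real.exp (-|v|) := by
      apply Real.exp_le_exp.2
      have := Real.pi_gt_three
      nlinarith [abs_nonneg v]
    refine h1.trans ?_
    rw [Real.exp_neg, ← div_eq_mul_inv, inv_eq_one_div, div_le_div_iff₀ (Real.exp_pos _) (by positivity)]
    have h2 := Real.quadratic_le_exp_of_nonneg (abs_nonneg v)
    rw [sq_abs] at h2
    nlinarith [abs_nonneg v]

lemma kapc_eq {θ : ℝ} (hθ : 0 < θ) (hθ1 : θ ≤ 1 / 4) (v : ℝ) :
    kapc θ v = (1 / (2 * Real.pi) : ℝ) *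
      (1 / 2 * ((1 / Real.pi : ℂ) ^ ((((1 / 2 - θ : ℝ) : ℂ) + v * I) / 2) *
        Complex.Gamma ((((1 / 2 - θ : ℝ) : ℂ) + v * I) / 2)) *
          Complex.Gamma (8 * (((1 / 2 - θ : ℝ) : ℂ) + v * I) + 8)) := by
  unfold kapc
  rw [mellin_Gk (by simp; linarith)]

lemma kapc_cont {θ : ℝ} (hθ : 0 < θ) (hθ1 : θ ≤ 1 / 4) : Continuous (kapc θ) := by
  rw [show kapc θ = fun v => _ from funext fun v => kapc_eq hθ hθ1 v]
  have hne : ∀ s : ℂ, 0 < s.re → ∀ m : ℕ, s ≠ -m := by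
    intro s hs m h
    rw [h] at hs
    simp at hs
    have : (0 : ℝ) ≤ m := Nat.cast_nonneg m
    linarith
  have hpi : (1 / Real.pi : ℂ) ≠ 0 := by
    have := Real.pi_ne_zero
    simp [this]
  rw [continuous_iff_continuousAt]
  intro v
  have c1 : ContinuousAt (fun v : ℝ => (((1 / 2 - θ : ℝ) : ℂ) + v * I) / 2) v := by fun_prop
  have c2 : ContinuousAt (fun v : ℝ => 8 * (((1 / 2 - θ : ℝ) : ℂ) + v * I) + 8) v := by fun_prop
  have g1 : ContinuousAt Complex.Gamma ((((1 / 2 - θ : ℝ) : ℂ) + v * I) / 2) :=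
    (Complex.differentiableAt_Gamma _ (hne _ (by simp; linarith))).continuousAt
  have g2 : ContinuousAt Complex.Gamma (8 * (((1 / 2 - θ : ℝ) : ℂ) + v * I) + 8) :=
    (Complex.differentiableAt_Gamma _ (hne _ (by simp; linarith))).continuousAt
  have g3 : ContinuousAt (fun z : ℂ => (1 / Real.pi : ℂ) ^ z)
      ((((1 / 2 - θ : ℝ) : ℂ) + v * I) / 2) := continuousAt_const_cpow hpi
  refine continuousAt_const.mul (ContinuousAt.mul (continuousAt_const.mul (ContinuousAt.mul ?_ ?_)) ?_)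
  · exact ContinuousAt.comp (f := fun v : ℝ => (((1 / 2 - θ : ℝ) : ℂ) + v * I) / 2) g3 c1
  · exact ContinuousAt.comp (f := fun v : ℝ => (((1 / 2 - θ : ℝ) : ℂ) + v * I) / 2) g1 c1
  · exact ContinuousAt.comp (f := fun v : ℝ => 8 * (((1 / 2 - θ : ℝ) : ℂ) + v * I) + 8) g2 c2

lemma kapc_bound : ∃ C : ℝ, 0 < C ∧ ∀ θ v : ℝ, 0 < θ → θ ≤ 1 / 4 →
    ‖kapc θ v‖ ≤ C * Real.exp (-3 * Real.pi * |v|) := by
  obtain ⟨M1, hM1⟩ := (isCompact_Icc (a := (1 / 8 : ℝ)) (b := 1 / 4)).exists_bound_of_continuousOn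
    (f := Real.Gamma) (fun x hx => (Real.differentiableAt_Gamma (fun m h => by
      have h1 := hx.1
      have : (0 : ℝ) ≤ m := Nat.cast_nonneg m
      linarith)).continuousAt.continuousWithinAt)
  obtain ⟨M2, hM2⟩ := (isCompact_Icc (a := (10 : ℝ)) (b := 12)).exists_bound_of_continuousOn
    (f := Real.Gamma) (fun x hx => (Real.differentiableAt_Gamma (fun m h => by
      have h1 := hx.1
      have : (0 : ℝ) ≤ m := Nat.cast_nonneg m
      linarith)).continuousAt.continuousWithinAt)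
  have hφ : 3 * Real.pi / 8 < Real.pi / 2 := by
    have := Real.pi_pos
    linarith
  have hφ0 : 0 ≤ 3 * Real.pi / 8 := by
    have := Real.pi_pos
    positivity
  have hcos : 0 < Real.cos (3 * Real.pi / 8) :=
    Real.cos_pos_of_mem_Ioo ⟨by linarith, hφ⟩
  set c := (Real.cos (3 * Real.pi / 8))⁻¹ with hc
  have hc1 : 1 ≤ c := by
    rw [hc]
    exact (one_le_inv₀ hcos).2 (Real.cos_le_one _)
  have hM10 : 0 ≤ M1 := (norm_nonneg _).trans (hM1 (1 / 8) ⟨le_rfl, by norm_num⟩)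
  have hM20 : 0 ≤ M2 := (norm_nonneg _).trans (hM2 10 ⟨le_rfl, by norm_num⟩)
  refine ⟨M1 * (M2 * c ^ (12 : ℝ)) + 1, by positivity, ?_⟩
  intro θ v hθ hθ1
  rw [kapc_eq hθ hθ1]
  set s : ℂ := ((1 / 2 - θ : ℝ) : ℂ) + v * I with hs
  have hsre : s.re = 1 / 2 - θ := by simp [hs]
  have hsim : s.im = v := by simp [hs]
  have h1 : ‖((1 / (2 * Real.pi) : ℝ) : ℂ)‖ ≤ 1 := by
    rw [Complex.norm_real, Real.norm_of_nonneg (by positivity), div_le_one (by positivity)]
    have := Real.pi_gt_three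
    linarith
  have h2 : ‖(1 / Real.pi : ℂ) ^ (s / 2)‖ ≤ 1 := by
    have e1 : (1 / Real.pi : ℂ) = ((1 / Real.pi : ℝ) : ℂ) := by push_cast; rfl
    rw [e1, norm_cpow_eq_rpow_re_of_pos (by positivity)]
    apply Real.rpow_le_one (by positivity)
    · rw [div_le_one Real.pi_pos]
      linarith [Real.pi_gt_three]
    · simp [hsre]; linarith
  have h3 : ‖Complex.Gamma (s / 2)‖ ≤ M1 := by
    have hre : (s / 2).re = (1 / 2 - θ) / 2 := by
      rw [← hsre]; simp
    have h4 := norm_Gamma_le (a := s / 2) (by rw [hre]; linarith) (φ := 0) le_rfl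
      (by have := Real.pi_pos; positivity)
    rw [Real.cos_zero, inv_one, Real.one_rpow, mul_one, neg_zero, zero_mul, Real.exp_zero, mul_one,
      hre] at h4
    refine h4.trans ((le_abs_self _).trans (hM1 _ ⟨by linarith, by linarith⟩))
  have h5 : ‖Complex.Gamma (8 * s + 8)‖ ≤ M2 * c ^ (12 : ℝ) * Real.exp (-3 * Real.pi * |v|) := by
    have hre : (8 * s + 8).re = 12 - 8 * θ := by
      have : (8 * s + 8).re = 8 * s.re + 8 := by simp
      rw [this, hsre]; ring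
    have him : (8 * s + 8).im = 8 * v := by
      have : (8 * s + 8).im = 8 * s.im := by simp
      rw [this, hsim]
    have h6 := norm_Gamma_le (a := 8 * s + 8) (by rw [hre]; linarith) hφ0 hφ
    rw [hre, him, ← hc] at h6
    refine h6.trans ?_
    have e1 : Real.Gamma (12 - 8 * θ) ≤ M2 :=
      (le_abs_self _).trans (hM2 _ ⟨by linarith, by linarith⟩)
    have e2 : c ^ (12 - 8 * θ) ≤ c ^ (12 : ℝ) :=
      Real.rpow_le_rpow_of_exponent_le hc1 (by linarith)
    have e3 : -(3 * Real.pi / 8) * |8 * v| = -3 * Real.pi * |v| := by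
      rw [abs_mul, abs_of_pos (by norm_num : (0 : ℝ) < 8)]
      ring
    rw [e3]
    have hc0 : 0 ≤ c ^ (12 - 8 * θ) := Real.rpow_nonneg (by linarith) _
    gcongr
  have h7 : 0 ≤ Real.exp (-3 * Real.pi * |v|) := (Real.exp_pos _).le
  rw [norm_mul, norm_mul, norm_mul, norm_mul]
  have h8 : ‖(1 / 2 : ℂ)‖ ≤ 1 := by simp; norm_num
  calc ‖((1 / (2 * Real.pi) : ℝ) : ℂ)‖ * (‖(1 / 2 : ℂ)‖ * (‖(1 / Real.pi : ℂ) ^ (s / 2)‖ *
        ‖Complex.Gamma (s / 2)‖) * ‖Complex.Gamma (8 * s + 8)‖) ≤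
      1 * (1 * (1 * M1) * (M2 * c ^ (12 : ℝ) * Real.exp (-3 * Real.pi * |v|))) := by
        gcongr
    _ = M1 * (M2 * c ^ (12 : ℝ)) * Real.exp (-3 * Real.pi * |v|) := by ring
    _ ≤ (M1 * (M2 * c ^ (12 : ℝ)) + 1) * Real.exp (-3 * Real.pi * |v|) := by
        apply mul_le_mul_of_nonneg_right _ h7
        linarith

lemma kapc_repr {θ : ℝ} (hθ : 0 < θ) (hθ1 : θ ≤ 1 / 4) {y : ℝ} (hy : 0 < y) :
    (Gk y : ℂ) = ∫ v : ℝ, kapc θ v * (y : ℂ) ^ (-(((1 / 2 - θ : ℝ) : ℂ) + v * Complex.I)) := by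
  obtain ⟨C, hC0, hC⟩ := kapc_bound
  have hmel : ∀ v : ℝ, mellin (fun y : ℝ => (Gk y : ℂ)) (((1 / 2 - θ : ℝ) : ℂ) + v * I) =
      (2 * Real.pi : ℝ) * kapc θ v := by
    intro v
    unfold kapc
    rw [← mul_assoc, ← Complex.ofReal_mul]
    have : (2 * Real.pi) * (1 / (2 * Real.pi)) = 1 := by
      have := Real.pi_ne_zero
      field_simp
    rw [this, Complex.ofReal_one, one_mul]
  have hint : Integrable (kapc θ) :=
    (integrable_exp_abs.const_mul C).mono' (kapc_cont hθ hθ1).aestronglyMeasurable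
      (Eventually.of_forall fun v => hC θ v hθ hθ1)
  have h1 := mellinInv_mellin_eq (1 / 2 - θ) (fun y : ℝ => (Gk y : ℂ)) hy
    (mellinConvergent_Gk (by simp; linarith)) ?_ ?_
  · rw [← h1, mellinInv]
    simp_rw [hmel]
    rw [Complex.real_smul, ← integral_const_mul]
    apply integral_congr_ae
    filter_upwards with v
    have e1 : ((1 / (2 * Real.pi) : ℝ) : ℂ) * ((2 * Real.pi : ℝ) : ℂ) = 1 := by
      rw [← Complex.ofReal_mul]
      have := Real.pi_ne_zero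
      have e2 : (1 / (2 * Real.pi)) * (2 * Real.pi) = 1 := by field_simp
      rw [e2, Complex.ofReal_one]
    rw [smul_eq_mul]
    linear_combination (kapc θ v * (y : ℂ) ^ (-(((1 / 2 - θ : ℝ) : ℂ) + v * Complex.I))) * e1
  · unfold Complex.VerticalIntegrable
    simp_rw [hmel]
    exact hint.const_mul _
  · exact (Complex.continuous_ofReal.comp Gk_cont).continuousAt

end E

theorem pfKer : StKer where
  nonneg := E.Gk_nonneg
  le := E.Gk_le
  cont := E.Gk_cont
  decay := ⟨2 ^ 8 * 5040, by norm_num, E.Gk_decay⟩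
  kcont := fun _ h1 h2 => E.kapc_cont h1 h2
  kbound := E.kapc_bound
  repr := fun _ h1 h2 _ hy => E.kapc_repr h1 h2 hy

end P004
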