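import Vale.Agent.P004.Iface

/-!
# P004, module F: fractional integration (`StFrac`)
-/

open MeasureTheory Set
open scoped ENNReal

namespace P004
namespace F

/-! ### Gamma estimates -/

lemma gamma_le {s : ℝ} (h1 : 7 / 8 ≤ s) (h2 : s ≤ 1) : Real.Gamma s ≤ 2 := by
  have hs : 0 < s := by linarith
  have h3 : Real.Gamma (s + 1) = s * Real.Gamma s := Real.Gamma_add_one hs.ne'
  have h4 : Real.Gamma (s + 1) ≤ 1 := by
    have hc := Real.convexOn_Gamma.2 (show (1 : ℝ) ∈ Ioi (0 : ℝ) by simp)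
      (show (2 : ℝ) ∈ Ioi (0 : ℝ) by simp) (show (0 : ℝ) ≤ 1 - s by linarith) hs.le (by ring)
    simp only [smul_eq_mul, Real.Gamma_one, mul_one] at hc
    have e1 : (1 - s) * 1 + s * 2 = s + 1 := by ring
    have e2 : Real.Gamma 2 = 1 := by
      have := Real.Gamma_add_one (s := 1) one_ne_zero
      rw [Real.Gamma_one, mul_one] at this
      rw [← this]; norm_num
    rw [mul_one] at e1
    rw [e1, e2] at hc
    linarith
  nlinarith [Real.Gamma_pos_of_pos hs]

lemma norm_Gamma_le {z : ℂ} (hz : 0 < z.re) : ‖Complex.Gamma z‖ ≤ Real.Gamma z.re := by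
  rw [Complex.Gamma_eq_integral hz, Complex.GammaIntegral, Real.Gamma_eq_integral hz]
  refine (norm_integral_le_integral_norm _).trans (le_of_eq ?_)
  apply setIntegral_congr_fun measurableSet_Ioi
  intro x hx
  have hx' : (0 : ℝ) < x := hx
  simp only [norm_mul, Complex.norm_real, Real.norm_eq_abs, Real.abs_exp]
  rw [Complex.norm_cpow_eq_rpow_re_of_pos hx']
  simp

lemma norm_sin_le (z : ℂ) : ‖Complex.sin z‖ ≤ Real.exp |z.im| := by
  unfold Complex.sin
  rw [norm_div, norm_mul, Complex.norm_I, mul_one, Complex.norm_ofNat]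
  have h1 : ‖Complex.exp (-z * Complex.I)‖ ≤ Real.exp |z.im| := by
    rw [Complex.norm_exp]
    apply Real.exp_le_exp.mpr
    simp
    exact le_abs_self _
  have h2 : ‖Complex.exp (z * Complex.I)‖ ≤ Real.exp |z.im| := by
    rw [Complex.norm_exp]
    apply Real.exp_le_exp.mpr
    simp
    exact neg_le_abs _
  have := norm_sub_le (Complex.exp (-z * Complex.I)) (Complex.exp (z * Complex.I))
  linarith

/-- `1/|Γ(θ - iv)| ≤ e^{π|v|}` -/
lemma inv_gamma_le {θ v : ℝ} (h0 : 0 < θ) (h1 : θ ≤ 1 / 8) :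
    1 ≤ Real.exp (Real.pi * |v|) * ‖Complex.Gamma ((θ : ℂ) - v * Complex.I)‖ := by
  set b : ℂ := (θ : ℂ) - v * Complex.I with hb
  have hre : b.re = θ := by simp [hb]
  have him : b.im = -v := by simp [hb]
  have h2 := Complex.Gamma_mul_Gamma_one_sub b
  have h3 : ‖Complex.Gamma (1 - b)‖ ≤ 2 := by
    refine (norm_Gamma_le (by simp [hre]; linarith)).trans ?_
    apply gamma_le <;> simp [hre] <;> linarith
  have h4 : ‖Complex.sin (Real.pi * b)‖ ≤ Real.exp (Real.pi * |v|) := by
    refine (norm_sin_le _).trans ?_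
    apply Real.exp_le_exp.mpr
    have : ((Real.pi : ℂ) * b).im = -(Real.pi * v) := by
      rw [Complex.mul_im]; simp [him]
    rw [this, abs_neg, abs_mul, abs_of_pos Real.pi_pos]
  have h5 : Complex.Gamma b ≠ 0 := Complex.Gamma_ne_zero_of_re_pos (by rw [hre]; exact h0)
  have h6 : Complex.Gamma (1 - b) ≠ 0 :=
    Complex.Gamma_ne_zero_of_re_pos (by simp [hre]; linarith)
  have h7 : Complex.sin (Real.pi * b) ≠ 0 := by
    intro h
    rw [h, div_zero] at h2
    exact mul_ne_zero h5 h6 h2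
  have h8 : ‖Complex.Gamma b‖ * ‖Complex.Gamma (1 - b)‖ * ‖Complex.sin (Real.pi * b)‖ = Real.pi := by
    rw [← norm_mul, ← norm_mul, h2, div_mul_cancel₀ _ h7, Complex.norm_real, Real.norm_eq_abs,
      abs_of_pos Real.pi_pos]
  have hG : 0 ≤ ‖Complex.Gamma b‖ := norm_nonneg _
  have h9 : ‖Complex.Gamma b‖ * ‖Complex.Gamma (1 - b)‖ * ‖Complex.sin (Real.pi * b)‖
      ≤ ‖Complex.Gamma b‖ * 2 * Real.exp (Real.pi * |v|) := by
    apply mul_le_mul _ h4 (norm_nonneg _) (by positivity)
    exact mul_le_mul_of_nonneg_left h3 hG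
  rw [h8] at h9
  nlinarith [Real.pi_gt_three]

/-! ### summability -/

lemma abs_chi_le (m : ℤ) (n : ℕ) : |chi m n| ≤ 1 := by
  unfold chi
  rcases jacobiSym.trichotomy m n with h | h | h <;> rw [h] <;> norm_num

lemma coef_le (h : StCoef) (n : ℕ) : |(ca n : ℝ)| ≤ (n : ℝ) ^ 2 := by
  refine (h.bound n).trans ?_
  have h1 : dv n ≤ n := by
    unfold dv; exact_mod_cast Nat.card_divisors_le_self n
  have h2 : √(n : ℝ) ≤ n := by
    rcases Nat.eq_zero_or_pos n with h | h
    · subst h; simp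
    · have : (1 : ℝ) ≤ n := by exact_mod_cast h
      exact Real.sqrt_le_iff.mpr ⟨by positivity, by nlinarith⟩
  have h3 : (0 : ℝ) ≤ n := by positivity
  have h4 : 0 ≤ dv n := by unfold dv; positivity
  nlinarith [Real.sqrt_nonneg (n : ℝ), mul_le_mul h1 h2 (Real.sqrt_nonneg _) h3]

lemma term_le (h : StCoef) (m : ℤ) (n : ℕ) (u : ℝ) :
    |(ca n : ℝ) * chi m n * Real.exp (-Real.pi * n * u)| ≤
      (n : ℝ) ^ 2 * Real.exp (-(Real.pi * u) * n) := by
  rw [abs_mul, abs_mul, Real.abs_exp]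
  have e : -Real.pi * n * u = -(Real.pi * u) * n := by ring
  rw [e]
  apply mul_le_mul_of_nonneg_right _ (Real.exp_pos _).le
  calc |(ca n : ℝ)| * |chi m n| ≤ (n : ℝ) ^ 2 * 1 :=
        mul_le_mul (coef_le h n) (abs_chi_le m n) (abs_nonneg _) (by positivity)
    _ = _ := mul_one _

lemma summable_bound {u : ℝ} (hu : 0 < u) :
    Summable fun n : ℕ => (n : ℝ) ^ 2 * Real.exp (-(Real.pi * u) * n) :=
  Real.summable_pow_mul_exp_neg_nat_mul 2 (mul_pos Real.pi_pos hu)

lemma summable_term (h : StCoef) (m : ℤ) {u : ℝ} (hu : 0 < u) :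
    Summable fun n : ℕ => (ca n : ℝ) * chi m n * Real.exp (-Real.pi * n * u) :=
  Summable.of_norm_bounded (summable_bound hu) fun n => by
    rw [Real.norm_eq_abs]; exact term_le h m n u

lemma continuousOn_theta (h : StCoef) (m : ℤ) : ContinuousOn (theta m) (Ioi 0) := by
  intro u hu
  have hu' : (0 : ℝ) < u := hu
  apply ContinuousAt.continuousWithinAt
  have h1 : ContinuousOn (fun u : ℝ => ∑' n : ℕ, (ca n : ℝ) * chi m n * Real.exp (-Real.pi * n * u))
      (Ioi (u / 2)) := by
    apply continuousOn_tsum (u := fun n : ℕ => (n : ℝ) ^ 2 * Real.exp (-(Real.pi * (u / 2)) * n))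
    · intro n
      fun_prop
    · exact summable_bound (by linarith)
    · intro n x hx
      have hx' : u / 2 < x := hx
      rw [Real.norm_eq_abs]
      refine (term_le h m n x).trans ?_
      apply mul_le_mul_of_nonneg_left _ (by positivity)
      apply Real.exp_le_exp.mpr
      have : (0 : ℝ) ≤ n := by positivity
      nlinarith [Real.pi_pos, mul_nonneg this Real.pi_pos.le]
  have h2 := h1.continuousAt (Ioi_mem_nhds (by linarith : u / 2 < u))
  exact (continuousAt_const.mul h2)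

lemma abs_theta_le (h : StCoef) : ∃ S : ℝ, 0 < S ∧ ∀ (m : ℤ) (t : ℝ), 1 ≤ t →
    |theta m t| ≤ S * Real.exp (-Real.pi * t) := by
  refine ⟨4 * Real.exp Real.pi * (∑' n : ℕ, (n : ℝ) ^ 2 * Real.exp (-(Real.pi * 1) * n)) + 1,
    ?_, ?_⟩
  · have : 0 ≤ ∑' n : ℕ, (n : ℝ) ^ 2 * Real.exp (-(Real.pi * 1) * n) :=
      tsum_nonneg fun n => by positivity
    positivity
  · intro m t ht
    unfold theta
    rw [abs_mul, abs_of_pos (by norm_num : (0 : ℝ) < 4)]
    have hs := summable_bound (u := 1) one_pos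
    have h1 : |∑' n : ℕ, (ca n : ℝ) * chi m n * Real.exp (-Real.pi * n * t)| ≤
        ∑' n : ℕ, (Real.exp Real.pi * Real.exp (-Real.pi * t)) *
          ((n : ℝ) ^ 2 * Real.exp (-(Real.pi * 1) * n)) := by
      rw [← Real.norm_eq_abs]
      apply tsum_of_norm_bounded (hs.mul_left _).hasSum
      intro n
      rw [Real.norm_eq_abs]
      refine (term_le h m n t).trans ?_
      rcases Nat.eq_zero_or_pos n with hn | hn
      · subst hn; simp
      · have hn' : (1 : ℝ) ≤ n := by exact_mod_cast hn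
        have : Real.exp (-(Real.pi * t) * n) ≤
            Real.exp Real.pi * Real.exp (-Real.pi * t) * Real.exp (-(Real.pi * 1) * n) := by
          rw [← Real.exp_add, ← Real.exp_add]
          apply Real.exp_le_exp.mpr
          have h3 : 0 ≤ (t - 1) * (n - 1) := mul_nonneg (by linarith) (by linarith)
          nlinarith [Real.pi_pos, mul_nonneg h3 Real.pi_pos.le]
        calc (n : ℝ) ^ 2 * Real.exp (-(Real.pi * t) * n)
            ≤ (n : ℝ) ^ 2 * (Real.exp Real.pi * Real.exp (-Real.pi * t) *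
              Real.exp (-(Real.pi * 1) * n)) := mul_le_mul_of_nonneg_left this (by positivity)
          _ = _ := by ring
    rw [tsum_mul_left] at h1
    have h2 : 0 < Real.exp (-Real.pi * t) := Real.exp_pos _
    nlinarith [h1]

/-! ### the representation of `Bf` -/

lemma bf_repr (h : StCoef) {θ v : ℝ} (h0 : 0 < θ) (h1 : θ ≤ 1 / 8) (m : ℤ) {u : ℝ} (hu : 0 < u) :
    ENNReal.ofReal ‖Bf θ v m u‖ ≤ ENNReal.ofReal (Real.exp (Real.pi * |v|)) *
      ∫⁻ y in Ioi (0 : ℝ), ENNReal.ofReal (y ^ (θ - 1) * |theta m (u + y)|) := by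
  set b : ℂ := (θ : ℂ) - v * Complex.I with hb
  have hre : b.re = θ := by simp [hb]
  have hG : Complex.Gamma b ≠ 0 := Complex.Gamma_ne_zero_of_re_pos (by rw [hre]; exact h0)
  -- the functions
  set F : ℕ → ℝ → ℂ := fun n y => (y : ℂ) ^ (b - 1) *
    (((ca n : ℝ) * chi m n * Real.exp (-Real.pi * n * (u + y)) : ℝ) : ℂ) with hF
  have hFn : ∀ (n : ℕ) (y : ℝ), y ∈ Ioi (0 : ℝ) → ‖F n y‖ =
      |(ca n : ℝ) * chi m n * Real.exp (-Real.pi * n * u)| *
        (y ^ (θ - 1) * Real.exp (-(Real.pi * n * y))) := by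
    intro n y hy
    have hy' : (0 : ℝ) < y := hy
    rw [hF]
    have e1 : (b - 1).re = θ - 1 := by simp [hre]
    have e2 : Real.exp (-Real.pi * n * (u + y)) =
        Real.exp (-Real.pi * n * u) * Real.exp (-(Real.pi * n * y)) := by
      rw [← Real.exp_add]; congr 1; ring
    simp only
    rw [norm_mul, Complex.norm_real, Real.norm_eq_abs, Complex.norm_cpow_eq_rpow_re_of_pos hy', e1,
      e2, ← mul_assoc, abs_mul (_ * _ * _) (Real.exp (-(Real.pi * n * y))), Real.abs_exp]
    ring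
  have hzero : ∀ n : ℕ, n = 0 → ca n = 0 := fun n hn => by rw [hn]; exact h.zero
  -- integrability
  have hint0 : ∀ n : ℕ, 0 < n → IntegrableOn (fun y : ℝ => y ^ (θ - 1) *
      Real.exp (-(Real.pi * n * y))) (Ioi 0) := by
    intro n hn
    have hn' : (0 : ℝ) < n := by exact_mod_cast hn
    have := integrableOn_rpow_mul_exp_neg_mul_rpow (p := 1) (s := θ - 1) (b := Real.pi * n)
      (by linarith) one_pos (by positivity)
    refine this.congr_fun ?_ measurableSet_Ioi
    intro y _
    simp only [Real.rpow_one, neg_mul]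
  have hmeas : ∀ n, AEStronglyMeasurable (F n) (volume.restrict (Ioi (0 : ℝ))) := by
    intro n
    apply ContinuousOn.aestronglyMeasurable _ measurableSet_Ioi
    rw [hF]
    apply ContinuousOn.mul
    · intro y hy
      apply ContinuousAt.continuousWithinAt
      exact Complex.continuousAt_ofReal_cpow_const y _ (Or.inr (ne_of_gt hy))
    · fun_prop
  have hFint : ∀ n, Integrable (F n) (volume.restrict (Ioi (0 : ℝ))) := by
    intro n
    rcases Nat.eq_zero_or_pos n with hn | hn
    · have : F n = fun _ => 0 := by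
        funext y; rw [hF]; simp [hzero n hn]
      rw [this]; exact integrable_zero _ _ _
    · have h2 := (hint0 n hn).const_mul (|(ca n : ℝ) * chi m n * Real.exp (-Real.pi * n * u)|)
      rw [← integrable_norm_iff (hmeas n)]
      refine h2.congr ?_
      filter_upwards [ae_restrict_mem measurableSet_Ioi] with y hy
      exact (hFn n y hy).symm
  have hnormint : ∀ n, ∫ y in Ioi (0 : ℝ), ‖F n y‖ ≤
      Real.Gamma θ * ((n : ℝ) ^ 2 * Real.exp (-(Real.pi * u) * n)) := by
    intro n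
    rw [setIntegral_congr_fun measurableSet_Ioi (hFn n), integral_const_mul]
    rcases Nat.eq_zero_or_pos n with hn | hn
    · rw [hzero n hn]; simp
      positivity
    · have hn' : (1 : ℝ) ≤ n := by exact_mod_cast hn
      rw [Real.integral_rpow_mul_exp_neg_mul_Ioi h0 (by positivity)]
      have h3 := term_le h m n u
      have h4 : (1 / (Real.pi * n)) ^ θ ≤ 1 := by
        apply Real.rpow_le_one (by positivity) _ h0.le
        rw [div_le_one (by positivity)]
        nlinarith [Real.pi_gt_three]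
      have h5 := Real.Gamma_pos_of_pos h0
      have h6 : (0 : ℝ) ≤ (1 / (Real.pi * n)) ^ θ := by positivity
      calc |(ca n : ℝ) * chi m n * Real.exp (-Real.pi * n * u)| *
            ((1 / (Real.pi * n)) ^ θ * Real.Gamma θ)
          ≤ ((n : ℝ) ^ 2 * Real.exp (-(Real.pi * u) * n)) * (1 * Real.Gamma θ) := by
            apply mul_le_mul h3 _ (by positivity) (by positivity)
            exact mul_le_mul_of_nonneg_right h4 h5.le
        _ = _ := by ring
  have hsum : Summable fun n => ∫ y in Ioi (0 : ℝ), ‖F n y‖ := by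
    refine Summable.of_nonneg_of_le (fun n => integral_nonneg fun y => norm_nonneg _) hnormint ?_
    exact (summable_bound hu).mul_left _
  have hHS := hasSum_integral_of_summable_integral_norm hFint hsum
  -- the terms
  have hterm : ∀ n, ∫ y in Ioi (0 : ℝ), F n y =
      (((ca n : ℝ) * chi m n * Real.exp (-Real.pi * n * u) : ℝ) : ℂ) *
        (n : ℂ) ^ (-(θ : ℂ) + v * Complex.I) * ((1 / (Real.pi : ℂ)) ^ b * Complex.Gamma b) := by
    intro n
    rcases Nat.eq_zero_or_pos n with hn | hn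
    · have : F n = fun _ => 0 := by
        funext y; rw [hF]; simp [hzero n hn]
      rw [this, hzero n hn]; simp
    · have hn' : (0 : ℝ) < n := by exact_mod_cast hn
      have e1 : ∀ y ∈ Ioi (0 : ℝ), F n y =
          (((ca n : ℝ) * chi m n * Real.exp (-Real.pi * n * u) : ℝ) : ℂ) *
            ((y : ℂ) ^ (b - 1) * Complex.exp (-(((Real.pi * n : ℝ) : ℂ) * y))) := by
        intro y hy
        rw [hF]
        have e2 : Real.exp (-Real.pi * n * (u + y)) =
            Real.exp (-Real.pi * n * u) * Real.exp (-(Real.pi * n * y)) := by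
          rw [← Real.exp_add]; congr 1; ring
        simp only [e2]
        push_cast
        ring
      rw [setIntegral_congr_fun measurableSet_Ioi e1, integral_const_mul,
        Complex.integral_cpow_mul_exp_neg_mul_Ioi (by rw [hre]; exact h0) (by positivity)]
      have e3 : (1 / ((Real.pi * n : ℝ) : ℂ)) ^ b = (1 / (Real.pi : ℂ)) ^ b *
          (n : ℂ) ^ (-(θ : ℂ) + v * Complex.I) := by
        have e4 : (1 / ((Real.pi * n : ℝ) : ℂ)) = ((1 / Real.pi : ℝ) : ℂ) * ((1 / n : ℝ) : ℂ) := by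
          push_cast; field_simp
        rw [e4, Complex.mul_cpow_ofReal_nonneg (by positivity) (by positivity)]
        have e5 : (((1 / n : ℝ) : ℝ) : ℂ) = ((n : ℂ))⁻¹ := by push_cast; rw [one_div]
        rw [e5, Complex.inv_cpow, ← Complex.cpow_neg]
        · congr 1
          · push_cast; rfl
          · rw [hb]; ring_nf
        · rw [Complex.natCast_arg]; exact Real.pi_pos.ne
      rw [e3]; ring
  have hBf : ∫ y in Ioi (0 : ℝ), ∑' n, F n y = Bf θ v m u * ((1 / (Real.pi : ℂ)) ^ b * Complex.Gamma b) := by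
    rw [← hHS.tsum_eq, Bf, ← tsum_mul_right]
    exact tsum_congr hterm
  have hnorm : ‖Bf θ v m u‖ ≤ Real.exp (Real.pi * |v|) * (4 * ‖∫ y in Ioi (0 : ℝ), ∑' n, F n y‖) := by
    rw [hBf, norm_mul, norm_mul]
    have e1 : ‖(1 / (Real.pi : ℂ)) ^ b‖ = (1 / Real.pi) ^ θ := by
      have : (1 / (Real.pi : ℂ)) = ((1 / Real.pi : ℝ) : ℂ) := by push_cast; rfl
      rw [this, Complex.norm_cpow_eq_rpow_re_of_pos (by positivity), hre]
    have e2 : 1 / 4 ≤ (1 / Real.pi) ^ θ := by
      have : (1 / Real.pi) ^ (1 : ℝ) ≤ (1 / Real.pi) ^ θ := by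
        apply Real.rpow_le_rpow_of_exponent_ge (by positivity) _ (by linarith)
        rw [div_le_one Real.pi_pos]; linarith [Real.pi_gt_three]
      rw [Real.rpow_one] at this
      have h4 : 1 / 4 ≤ 1 / Real.pi := one_div_le_one_div_of_le Real.pi_pos Real.pi_le_four
      linarith
    rw [e1]
    have e3 := inv_gamma_le (v := v) h0 h1
    rw [← hb] at e3
    have hB : 0 ≤ ‖Bf θ v m u‖ := norm_nonneg _
    calc ‖Bf θ v m u‖ = ‖Bf θ v m u‖ * (4 * (1 / 4) * 1) := by ring
      _ ≤ ‖Bf θ v m u‖ * (4 * (1 / Real.pi) ^ θ *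
          (Real.exp (Real.pi * |v|) * ‖Complex.Gamma b‖)) := by
          apply mul_le_mul_of_nonneg_left _ hB
          apply mul_le_mul _ e3 (by norm_num) (by positivity)
          linarith
      _ = _ := by ring
  have hE : ENNReal.ofReal (4 * ‖∫ y in Ioi (0 : ℝ), ∑' n, F n y‖) ≤
      ∫⁻ y in Ioi (0 : ℝ), ENNReal.ofReal (y ^ (θ - 1) * |theta m (u + y)|) := by
    have h2 : (4 : ℝ) * ‖∫ y in Ioi (0 : ℝ), ∑' n, F n y‖ =
        ‖∫ y in Ioi (0 : ℝ), (4 : ℂ) * ∑' n, F n y‖ := by
      rw [integral_const_mul, norm_mul]; simp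
    rw [h2, ofReal_norm]
    refine (enorm_integral_le_lintegral_enorm _).trans ?_
    apply setLIntegral_mono' measurableSet_Ioi
    intro y hy
    have hy' : (0 : ℝ) < y := hy
    rw [← ofReal_norm]
    apply ENNReal.ofReal_le_ofReal
    have e1 : (4 : ℂ) * ∑' n, F n y = (y : ℂ) ^ (b - 1) * (theta m (u + y) : ℝ) := by
      rw [hF, theta]
      simp only
      rw [tsum_mul_left]
      push_cast
      ring
    rw [e1, norm_mul, Complex.norm_cpow_eq_rpow_re_of_pos hy', Complex.norm_real,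
      Real.norm_eq_abs]
    simp [hre]
  calc ENNReal.ofReal ‖Bf θ v m u‖
      ≤ ENNReal.ofReal (Real.exp (Real.pi * |v|) * (4 * ‖∫ y in Ioi (0 : ℝ), ∑' n, F n y‖)) :=
        ENNReal.ofReal_le_ofReal hnorm
    _ = ENNReal.ofReal (Real.exp (Real.pi * |v|)) * ENNReal.ofReal (4 * ‖∫ y in Ioi (0 : ℝ), ∑' n, F n y‖) :=
        ENNReal.ofReal_mul (Real.exp_pos _).le
    _ ≤ _ := mul_le_mul_right hE _

/-! ### Cauchy-Schwarz -/

lemma cs {α : Type*} [MeasurableSpace α] (μ : Measure α) {a b c : α → ℝ≥0∞}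
    (ha : AEMeasurable a μ) (hb : AEMeasurable b μ) (h : ∀ᵐ x ∂μ, c x ^ 2 ≤ a x * b x) :
    (∫⁻ x, c x ∂μ) ^ 2 ≤ (∫⁻ x, a x ∂μ) * ∫⁻ x, b x ∂μ := by
  have hpq : Real.HolderConjugate 2 2 := Real.HolderConjugate.two_two
  have h1 := ENNReal.lintegral_mul_le_Lp_mul_Lq μ hpq
    (f := fun x => a x ^ (1 / 2 : ℝ)) (g := fun x => b x ^ (1 / 2 : ℝ))
    (ha.pow_const _) (hb.pow_const _)
  have e : ∀ t : ℝ≥0∞, (t ^ (1 / 2 : ℝ)) ^ (2 : ℝ) = t := fun t => by
    rw [← ENNReal.rpow_mul]; norm_num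
  simp only [e] at h1
  have h2 : ∫⁻ x, c x ∂μ ≤ ∫⁻ x, ((fun x => a x ^ (1 / 2 : ℝ)) * fun x => b x ^ (1 / 2 : ℝ)) x ∂μ := by
    apply lintegral_mono_ae
    filter_upwards [h] with x hx
    have h3 : c x = (c x ^ (2 : ℝ)) ^ (1 / 2 : ℝ) := by
      rw [← ENNReal.rpow_mul]; norm_num
    rw [h3, Pi.mul_apply, ← ENNReal.mul_rpow_of_nonneg _ _ (by norm_num : (0 : ℝ) ≤ 1 / 2)]
    apply ENNReal.rpow_le_rpow _ (by norm_num)
    rw [show (2 : ℝ) = ((2 : ℕ) : ℝ) by norm_num, ENNReal.rpow_natCast]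
    exact hx
  calc (∫⁻ x, c x ∂μ) ^ 2
      ≤ ((∫⁻ x, a x ∂μ) ^ (1 / 2 : ℝ) * (∫⁻ x, b x ∂μ) ^ (1 / 2 : ℝ)) ^ 2 := by
        apply pow_le_pow_left' (h2.trans h1)
    _ = _ := by
        rw [mul_pow, ← ENNReal.rpow_natCast, ← ENNReal.rpow_natCast]
        push_cast
        rw [e, e]

/-- `∫_0^∞ y^{θ-1}/(u+y) dy ≤ (2/θ) u^{θ-1}` -/
lemma beta_le {θ : ℝ} (h0 : 0 < θ) (h1 : θ ≤ 1 / 8) {u : ℝ} (hu : 0 < u) :
    ∫⁻ y in Ioi (0 : ℝ), ENNReal.ofReal (y ^ (θ - 1) / (u + y)) ≤
      ENNReal.ofReal (2 / θ * u ^ (θ - 1)) := by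
  have hsplit : Ioi (0 : ℝ) = Ioc 0 u ∪ Ioi u := (Ioc_union_Ioi_eq_Ioi hu.le).symm
  rw [hsplit]
  refine (lintegral_union_le _ _ _).trans ?_
  have hA : ∫⁻ y in Ioc (0 : ℝ) u, ENNReal.ofReal (y ^ (θ - 1) / (u + y)) ≤
      ENNReal.ofReal (1 / θ * u ^ (θ - 1)) := by
    have h2 : ∫⁻ y in Ioc (0 : ℝ) u, ENNReal.ofReal (y ^ (θ - 1) / (u + y)) ≤
        ∫⁻ y in Ioc (0 : ℝ) u, ENNReal.ofReal (u⁻¹ * y ^ (θ - 1)) := by
      apply setLIntegral_mono' measurableSet_Ioc
      intro y hy
      apply ENNReal.ofReal_le_ofReal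
      have h3 : (0 : ℝ) ≤ y ^ (θ - 1) := Real.rpow_nonneg hy.1.le _
      rw [div_eq_mul_inv, mul_comm]
      apply mul_le_mul_of_nonneg_right _ h3
      exact inv_anti₀ hu (by linarith [hy.1])
    refine h2.trans (le_of_eq ?_)
    have hi : IntervalIntegrable (fun y : ℝ => y ^ (θ - 1)) volume 0 u :=
      intervalIntegral.intervalIntegrable_rpow' (by linarith)
    have hi2 : IntegrableOn (fun y : ℝ => u⁻¹ * y ^ (θ - 1)) (Ioc 0 u) :=
      ((intervalIntegrable_iff_integrableOn_Ioc_of_le hu.le).mp hi).const_mul _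
    rw [← ofReal_integral_eq_lintegral_ofReal hi2]
    · congr 1
      rw [integral_const_mul, ← intervalIntegral.integral_of_le hu.le, integral_rpow (Or.inl (by linarith))]
      rw [sub_add_cancel, Real.zero_rpow h0.ne', sub_zero, Real.rpow_sub_one hu.ne']
      field_simp
    · filter_upwards [ae_restrict_mem measurableSet_Ioc] with y hy
      have := hy.1
      simp only [Pi.zero_apply]
      positivity
  have hB : ∫⁻ y in Ioi u, ENNReal.ofReal (y ^ (θ - 1) / (u + y)) ≤
      ENNReal.ofReal (1 / (1 - θ) * u ^ (θ - 1)) := by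
    have h2 : ∫⁻ y in Ioi u, ENNReal.ofReal (y ^ (θ - 1) / (u + y)) ≤
        ∫⁻ y in Ioi u, ENNReal.ofReal (y ^ (θ - 2)) := by
      apply setLIntegral_mono' measurableSet_Ioi
      intro y hy
      have hy' : 0 < y := hu.trans hy
      apply ENNReal.ofReal_le_ofReal
      have h3 : (0 : ℝ) ≤ y ^ (θ - 1) := Real.rpow_nonneg hy'.le _
      have e : y ^ (θ - 2) = y ^ (θ - 1) / y := by
        rw [← Real.rpow_sub_one hy'.ne']; ring_nf
      rw [e]
      exact div_le_div_of_nonneg_left h3 hy' (by linarith)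
    refine h2.trans (le_of_eq ?_)
    have hi2 : IntegrableOn (fun y : ℝ => y ^ (θ - 2)) (Ioi u) :=
      integrableOn_Ioi_rpow_of_lt (by linarith) hu
    rw [← ofReal_integral_eq_lintegral_ofReal hi2]
    · congr 1
      rw [integral_Ioi_rpow_of_lt (by linarith) hu]
      have e : θ - 2 + 1 = θ - 1 := by ring
      rw [e]
      have : θ - 1 ≠ 0 := by linarith
      have h3 : 1 - θ ≠ 0 := by linarith
      field_simp
      ring
    · filter_upwards [ae_restrict_mem measurableSet_Ioi] with y hy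
      have : 0 < y := hu.trans hy
      simp only [Pi.zero_apply]
      positivity
  refine (add_le_add hA hB).trans ?_
  rw [← ENNReal.ofReal_add (by positivity) (mul_nonneg (by
    apply div_nonneg one_pos.le; linarith) (by positivity))]
  apply ENNReal.ofReal_le_ofReal
  rw [← add_mul]
  apply mul_le_mul_of_nonneg_right _ (by positivity)
  have : 1 / (1 - θ) ≤ 1 / θ := one_div_le_one_div_of_le h0 (by linarith)
  have e : 2 / θ = 1 / θ + 1 / θ := by ring
  linarith

/-- `∫_{0<y<t} y^{θ-1} = t^θ/θ` -/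
lemma pow_int {θ : ℝ} (h0 : 0 < θ) {t : ℝ} (ht : 0 < t) :
    ∫⁻ y in Ioc (0 : ℝ) t, ENNReal.ofReal (y ^ (θ - 1)) = ENNReal.ofReal (t ^ θ / θ) := by
  have hi : IntervalIntegrable (fun y : ℝ => y ^ (θ - 1)) volume 0 t :=
    intervalIntegral.intervalIntegrable_rpow' (by linarith)
  have hi2 : IntegrableOn (fun y : ℝ => y ^ (θ - 1)) (Ioc 0 t) :=
    (intervalIntegrable_iff_integrableOn_Ioc_of_le ht.le).mp hi
  rw [← ofReal_integral_eq_lintegral_ofReal hi2]
  · congr 1
    rw [← intervalIntegral.integral_of_le ht.le, integral_rpow (Or.inl (by linarith))]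
    rw [sub_add_cancel, Real.zero_rpow h0.ne', sub_zero]
  · filter_upwards [ae_restrict_mem measurableSet_Ioc] with y hy
    have := hy.1
    simp only [Pi.zero_apply]
    positivity

/-- the convolution estimate -/
lemma conv_le {θ : ℝ} (h0 : 0 < θ) (G : ℝ → ℝ≥0∞) (hG : Measurable G) :
    ∫⁻ u in Ioi (0 : ℝ), ∫⁻ y in Ioi (0 : ℝ), ENNReal.ofReal (y ^ (θ - 1)) * G (u + y) ≤
      ∫⁻ t in Ioi (0 : ℝ), G t * ENNReal.ofReal (t ^ θ / θ) := by
  have hm1 : Measurable fun y : ℝ => ENNReal.ofReal (y ^ (θ - 1)) := by fun_prop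
  rw [lintegral_lintegral_swap]
  swap
  · apply Measurable.aemeasurable
    simp only [Function.uncurry_def]
    exact (hm1.comp measurable_snd).mul (hG.comp (measurable_fst.add measurable_snd))
  have h1 : ∀ y ∈ Ioi (0 : ℝ), ∫⁻ u in Ioi (0 : ℝ), ENNReal.ofReal (y ^ (θ - 1)) * G (u + y) =
      ∫⁻ t, {p : ℝ × ℝ | p.1 < p.2}.indicator (fun p => ENNReal.ofReal (p.1 ^ (θ - 1)) * G p.2) (y, t) := by
    intro y hy
    rw [← lintegral_indicator measurableSet_Ioi]
    rw [← lintegral_add_right_eq_self (fun t => {p : ℝ × ℝ | p.1 < p.2}.indicator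
      (fun p => ENNReal.ofReal (p.1 ^ (θ - 1)) * G p.2) (y, t)) y]
    apply lintegral_congr
    intro u
    by_cases hu : 0 < u
    · rw [indicator_of_mem (show u ∈ Ioi (0 : ℝ) from hu),
        indicator_of_mem (show (y, u + y) ∈ {p : ℝ × ℝ | p.1 < p.2} by simpa using hu)]
    · rw [indicator_of_notMem (show u ∉ Ioi (0 : ℝ) from hu),
        indicator_of_notMem (show (y, u + y) ∉ {p : ℝ × ℝ | p.1 < p.2} by simpa using hu)]
  rw [setLIntegral_congr_fun measurableSet_Ioi h1]
  rw [lintegral_lintegral_swap]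
  swap
  · apply Measurable.aemeasurable
    apply Measurable.indicator _ (measurableSet_lt measurable_fst measurable_snd)
    exact (hm1.comp measurable_fst).mul (hG.comp measurable_snd)
  have h2 : ∀ t : ℝ, ∫⁻ y in Ioi (0 : ℝ), {p : ℝ × ℝ | p.1 < p.2}.indicator
      (fun p => ENNReal.ofReal (p.1 ^ (θ - 1)) * G p.2) (y, t) ≤
        (Ioi (0 : ℝ)).indicator (fun t => G t * ENNReal.ofReal (t ^ θ / θ)) t := by
    intro t
    by_cases ht : 0 < t
    · rw [indicator_of_mem (show t ∈ Ioi (0 : ℝ) from ht), ← pow_int h0 ht, mul_comm,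
        ← lintegral_mul_const _ hm1, ← lintegral_indicator measurableSet_Ioi,
        ← lintegral_indicator measurableSet_Ioc]
      apply lintegral_mono
      intro y
      by_cases hy : y ∈ Ioi (0 : ℝ)
      · rw [indicator_of_mem hy]
        by_cases hyt : y < t
        · rw [indicator_of_mem (show (y, t) ∈ {p : ℝ × ℝ | p.1 < p.2} from hyt),
            indicator_of_mem (show y ∈ Ioc 0 t from ⟨hy, hyt.le⟩)]
        · rw [indicator_of_notMem (show (y, t) ∉ {p : ℝ × ℝ | p.1 < p.2} from hyt)]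
          exact zero_le
      · rw [indicator_of_notMem hy]
        exact zero_le
    · rw [indicator_of_notMem (show t ∉ Ioi (0 : ℝ) from ht)]
      apply le_of_eq
      rw [← lintegral_indicator measurableSet_Ioi]
      rw [lintegral_eq_zero_iff']
      · filter_upwards with y
        by_cases hy : y ∈ Ioi (0 : ℝ)
        · rw [indicator_of_mem hy, indicator_of_notMem]
          · rfl
          · intro h
            have h' : y < t := h
            have : (0 : ℝ) < y := hy
            linarith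
        · rw [indicator_of_notMem hy]; rfl
      · apply Measurable.aemeasurable
        apply Measurable.indicator _ measurableSet_Ioi
        have : Measurable (fun p : ℝ × ℝ => {p : ℝ × ℝ | p.1 < p.2}.indicator
            (fun p => ENNReal.ofReal (p.1 ^ (θ - 1)) * G p.2) p) := by
          apply Measurable.indicator _ (measurableSet_lt measurable_fst measurable_snd)
          exact (hm1.comp measurable_fst).mul (hG.comp measurable_snd)
        exact this.comp (measurable_id.prodMk measurable_const)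
  refine (lintegral_mono h2).trans ?_
  rw [lintegral_indicator measurableSet_Ioi]

end F

/-- Module F -/
theorem pfStFrac (h : StCoef) : StFrac := by
  obtain ⟨S, hS, hth⟩ := F.abs_theta_le h
  refine ⟨2 * (1 + S ^ 2), by positivity, ?_⟩
  intro θ h0 h1 v m hm
  have hpi := Real.pi_gt_three
  set K : ℝ := Real.exp (Real.pi * |v|) with hK
  have hKpos : 0 < K := Real.exp_pos _
  -- the function G
  classical
  set g : ℝ → ℝ≥0∞ := (Ioi (0 : ℝ)).piecewise
    (fun t => ENNReal.ofReal (theta m t ^ 2 * t ^ (1 + 3 * θ))) (fun _ => 0) with hg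
  have hgm : Measurable g := by
    apply ContinuousOn.measurable_piecewise _ continuousOn_const measurableSet_Ioi
    apply ENNReal.continuous_ofReal.comp_continuousOn
    apply ((F.continuousOn_theta h m).pow 2).mul
    intro t ht
    exact (Real.continuousAt_rpow_const _ _ (Or.inl (ne_of_gt ht))).continuousWithinAt
  have hgt : ∀ t : ℝ, 0 < t → g t = ENNReal.ofReal (theta m t ^ 2 * t ^ (1 + 3 * θ)) := by
    intro t ht
    rw [hg, Set.piecewise_eq_of_mem _ _ _ (show t ∈ Ioi (0 : ℝ) from ht)]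
  have hthm : ∀ u : ℝ, 0 < u → AEMeasurable (fun y : ℝ => theta m (u + y))
      (volume.restrict (Ioi (0 : ℝ))) := by
    intro u hu
    apply ContinuousOn.aemeasurable _ measurableSet_Ioi
    apply (F.continuousOn_theta h m).comp (by fun_prop)
    intro y hy
    have : (0 : ℝ) < y := hy
    exact mem_Ioi.mpr (by linarith)
  have hm1 : Measurable fun y : ℝ => y ^ (θ - 1) := by fun_prop
  -- pointwise bound
  have hpt : ∀ u ∈ Ioi (0 : ℝ), ENNReal.ofReal (‖Bf θ v m u‖ ^ 2 * u ^ (1 + 2 * θ)) ≤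
      ENNReal.ofReal (K ^ 2 * (2 / θ)) * ∫⁻ y in Ioi (0 : ℝ), ENNReal.ofReal (y ^ (θ - 1)) * g (u + y) := by
    intro u hu
    have hu' : (0 : ℝ) < u := hu
    have hb := F.bf_repr h (v := v) h0 h1 m hu'
    have hcs := F.cs (volume.restrict (Ioi (0 : ℝ)))
      (a := fun y => ENNReal.ofReal (y ^ (θ - 1) / (u + y)))
      (b := fun y => ENNReal.ofReal (y ^ (θ - 1) * (u + y) * theta m (u + y) ^ 2))
      (c := fun y => ENNReal.ofReal (y ^ (θ - 1) * |theta m (u + y)|))
      (by
        apply AEMeasurable.ennreal_ofReal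
        exact (hm1.div (measurable_const.add measurable_id)).aemeasurable)
      (by
        apply AEMeasurable.ennreal_ofReal
        exact (hm1.mul (measurable_const.add measurable_id)).aemeasurable.mul
          ((hthm u hu').pow_const 2))
      (by
        filter_upwards [ae_restrict_mem measurableSet_Ioi] with y hy
        have hy' : (0 : ℝ) < y := hy
        have h2 : (0 : ℝ) ≤ y ^ (θ - 1) := by positivity
        rw [← ENNReal.ofReal_pow (by positivity), ← ENNReal.ofReal_mul (by positivity)]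
        apply ENNReal.ofReal_le_ofReal
        apply le_of_eq
        rw [mul_pow, sq_abs]
        have : u + y ≠ 0 := by positivity
        field_simp)
    have h3 : ENNReal.ofReal (‖Bf θ v m u‖ ^ 2) ≤ ENNReal.ofReal (K ^ 2) *
        (ENNReal.ofReal (2 / θ * u ^ (θ - 1)) *
          ∫⁻ y in Ioi (0 : ℝ), ENNReal.ofReal (y ^ (θ - 1) * (u + y) * theta m (u + y) ^ 2)) := by
      rw [ENNReal.ofReal_pow (norm_nonneg _)]
      refine (pow_le_pow_left' hb 2).trans ?_
      rw [mul_pow, ← ENNReal.ofReal_pow hKpos.le]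
      apply mul_le_mul_right
      refine hcs.trans ?_
      exact mul_le_mul_left (F.beta_le h0 h1 hu') _
    rw [ENNReal.ofReal_mul (by positivity)]
    refine (mul_le_mul_left h3 _).trans ?_
    have e1 : ENNReal.ofReal (K ^ 2) * (ENNReal.ofReal (2 / θ * u ^ (θ - 1)) *
          ∫⁻ y in Ioi (0 : ℝ), ENNReal.ofReal (y ^ (θ - 1) * (u + y) * theta m (u + y) ^ 2)) *
          ENNReal.ofReal (u ^ (1 + 2 * θ)) =
        ENNReal.ofReal (K ^ 2 * (2 / θ)) * ∫⁻ y in Ioi (0 : ℝ), ENNReal.ofReal (u ^ (3 * θ)) *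
          ENNReal.ofReal (y ^ (θ - 1) * (u + y) * theta m (u + y) ^ 2) := by
      rw [lintegral_const_mul' _ _ ENNReal.ofReal_ne_top, ENNReal.ofReal_mul (by positivity : (0 : ℝ) ≤ 2 / θ),
        ENNReal.ofReal_mul (by positivity : (0 : ℝ) ≤ K ^ 2)]
      have e2 : ENNReal.ofReal (u ^ (3 * θ)) = ENNReal.ofReal (u ^ (θ - 1)) * ENNReal.ofReal (u ^ (1 + 2 * θ)) := by
        rw [← ENNReal.ofReal_mul (by positivity), ← Real.rpow_add hu']
        congr 2; ring
      rw [e2]; ring
    rw [e1]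
    apply mul_le_mul_right
    apply setLIntegral_mono' measurableSet_Ioi
    intro y hy
    have hy' : (0 : ℝ) < y := hy
    rw [hgt _ (by linarith), ← ENNReal.ofReal_mul (by positivity), ← ENNReal.ofReal_mul (by positivity)]
    apply ENNReal.ofReal_le_ofReal
    have h4 : u ^ (3 * θ) ≤ (u + y) ^ (3 * θ) :=
      Real.rpow_le_rpow hu'.le (by linarith) (by linarith)
    have e3 : (u + y) ^ (1 + 3 * θ) = (u + y) * (u + y) ^ (3 * θ) := by
      rw [Real.rpow_add (by linarith), Real.rpow_one]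
    rw [e3]
    calc u ^ (3 * θ) * (y ^ (θ - 1) * (u + y) * theta m (u + y) ^ 2)
        ≤ (u + y) ^ (3 * θ) * (y ^ (θ - 1) * (u + y) * theta m (u + y) ^ 2) :=
          mul_le_mul_of_nonneg_right h4 (by positivity)
      _ = _ := by ring
  have h5 : nrm θ (Bf θ v m) ≤ ENNReal.ofReal (K ^ 2 * (2 / θ)) *
      ∫⁻ t in Ioi (0 : ℝ), g t * ENNReal.ofReal (t ^ θ / θ) := by
    unfold nrm
    refine (setLIntegral_mono' measurableSet_Ioi hpt).trans ?_
    rw [lintegral_const_mul' _ _ ENNReal.ofReal_ne_top]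
    exact mul_le_mul_right (F.conv_le h0 g hgm) _
  have h6 : ∫⁻ t in Ioi (0 : ℝ), g t * ENNReal.ofReal (t ^ θ / θ) ≤
      ENNReal.ofReal (1 / θ) * (Jm m + ENNReal.ofReal (S ^ 2)) := by
    have h7 : ∀ t ∈ Ioi (0 : ℝ), g t * ENNReal.ofReal (t ^ θ / θ) ≤
        ENNReal.ofReal (1 / θ) * (ENNReal.ofReal (theta m t ^ 2 * t) +
          ENNReal.ofReal (S ^ 2 * Real.exp (-t))) := by
      intro t ht
      have ht' : (0 : ℝ) < t := ht
      rw [hgt t ht', ← ENNReal.ofReal_mul (by positivity), ← ENNReal.ofReal_add (by positivity) (by positivity),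
        ← ENNReal.ofReal_mul (by positivity)]
      apply ENNReal.ofReal_le_ofReal
      have e1 : theta m t ^ 2 * t ^ (1 + 3 * θ) * (t ^ θ / θ) = 1 / θ * (theta m t ^ 2 * t ^ (1 + 4 * θ)) := by
        have : t ^ (1 + 4 * θ) = t ^ (1 + 3 * θ) * t ^ θ := by
          rw [← Real.rpow_add ht']; congr 1; ring
        rw [this]; field_simp
      rw [e1]
      apply mul_le_mul_of_nonneg_left _ (by positivity)
      rcases le_or_gt t 1 with h8 | h8
      · have h9 : t ^ (1 + 4 * θ) ≤ t := by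
          calc t ^ (1 + 4 * θ) ≤ t ^ (1 : ℝ) :=
                Real.rpow_le_rpow_of_exponent_ge ht' h8 (by linarith)
            _ = t := Real.rpow_one t
        have : theta m t ^ 2 * t ^ (1 + 4 * θ) ≤ theta m t ^ 2 * t :=
          mul_le_mul_of_nonneg_left h9 (by positivity)
        have h10 : 0 ≤ S ^ 2 * Real.exp (-t) := by positivity
        linarith
      · have h9 : t ^ (1 + 4 * θ) ≤ t ^ 2 := by
          calc t ^ (1 + 4 * θ) ≤ t ^ (2 : ℝ) :=
                Real.rpow_le_rpow_of_exponent_le h8.le (by linarith)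
            _ = t ^ 2 := by norm_cast
        have h10 : theta m t ^ 2 ≤ (S * Real.exp (-Real.pi * t)) ^ 2 := by
          rw [← sq_abs (theta m t)]
          exact pow_le_pow_left₀ (abs_nonneg _) (hth m t h8.le) 2
        have h11 : t ≤ Real.exp t := by linarith [Real.add_one_le_exp t]
        have h12 : t ^ 2 ≤ Real.exp t ^ 2 := pow_le_pow_left₀ ht'.le h11 2
        have h13 : Real.exp (-Real.pi * t) ^ 2 * Real.exp t ^ 2 ≤ Real.exp (-t) := by
          rw [← Real.exp_nat_mul, ← Real.exp_nat_mul, ← Real.exp_add]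
          apply Real.exp_le_exp.mpr
          push_cast
          nlinarith
        have h14 : 0 ≤ theta m t ^ 2 * t := by positivity
        calc theta m t ^ 2 * t ^ (1 + 4 * θ)
            ≤ (S * Real.exp (-Real.pi * t)) ^ 2 * Real.exp t ^ 2 :=
              mul_le_mul h10 (h9.trans h12) (by positivity) (by positivity)
          _ = S ^ 2 * (Real.exp (-Real.pi * t) ^ 2 * Real.exp t ^ 2) := by ring
          _ ≤ S ^ 2 * Real.exp (-t) := mul_le_mul_of_nonneg_left h13 (by positivity)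
          _ ≤ _ := by linarith
    refine (setLIntegral_mono' measurableSet_Ioi h7).trans ?_
    rw [lintegral_const_mul' _ _ ENNReal.ofReal_ne_top]
    apply mul_le_mul_right
    rw [lintegral_add_right]
    · apply add_le_add le_rfl
      have e2 : ∀ t : ℝ, ENNReal.ofReal (S ^ 2 * Real.exp (-t)) =
          ENNReal.ofReal (S ^ 2) * ENNReal.ofReal (Real.exp (-t)) :=
        fun t => ENNReal.ofReal_mul (by positivity)
      simp only [e2]
      rw [lintegral_const_mul' _ _ ENNReal.ofReal_ne_top,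
        ← ofReal_integral_eq_lintegral_ofReal (integrableOn_exp_neg_Ioi 0)
          (Filter.Eventually.of_forall fun t => (Real.exp_pos _).le),
        integral_exp_neg_Ioi_zero]
      simp
    · fun_prop
  refine (h5.trans (mul_le_mul_right h6 _)).trans ?_
  rw [← mul_assoc, ← ENNReal.ofReal_mul (by positivity)]
  have e3 : ENNReal.ofReal (2 * (1 + S ^ 2) * (1 / θ) ^ 2 * Real.exp (2 * Real.pi * |v|)) * (Jm m + 1) =
      ENNReal.ofReal (K ^ 2 * (2 / θ) * (1 / θ)) * (ENNReal.ofReal (1 + S ^ 2) * (Jm m + 1)) := by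
    rw [← mul_assoc, ← ENNReal.ofReal_mul (by positivity)]
    congr 2
    have : Real.exp (2 * Real.pi * |v|) = K ^ 2 := by
      rw [hK, ← Real.exp_nat_mul]; congr 1; push_cast; ring
    rw [this]; field_simp
  rw [e3]
  apply mul_le_mul_right
  rw [ENNReal.ofReal_add (by norm_num) (by positivity), ENNReal.ofReal_one, add_mul, one_mul, mul_add, mul_one]
  calc Jm m + ENNReal.ofReal (S ^ 2) ≤ (Jm m + 1) + (ENNReal.ofReal (S ^ 2) * Jm m + ENNReal.ofReal (S ^ 2)) := by
        apply add_le_add le_self_add le_add_self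
    _ = _ := rfl

end P004
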