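import Vale.Agent.P004.H1a

/-!
# P004, module H1: the positivity step and Poisson summation
-/

open Real MeasureTheory Set

namespace P004.H1

/-- polynomial decay of `Gk` -/
theorem Gk_decay (hK : StKer) : ∃ K : ℝ, 0 < K ∧ ∀ y : ℝ, 0 < y → Gk y ≤ K / y ^ 2 := by
  obtain ⟨C, hC, h⟩ := hK.decay
  refine ⟨C * ((Nat.factorial 17 : ℝ) * 2 ^ 17), by positivity, fun y hy => ?_⟩
  rw [le_div_iff₀ (by positivity)]
  have hz0 : 0 ≤ y ^ (2 / 17 : ℝ) := by positivity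
  have hz : (y ^ (2 / 17 : ℝ)) ^ 17 = y ^ 2 := by
    rw [← Real.rpow_natCast, ← Real.rpow_mul hy.le, ← Real.rpow_natCast]
    norm_num
  have h1 := Real.pow_div_factorial_le_exp (y ^ (2 / 17 : ℝ) / 2) (by positivity) 17
  rw [div_pow, hz, div_div, div_le_iff₀ (by positivity)] at h1
  have h2 := h y hy.le
  have h3 : Real.exp (-(y ^ (2 / 17 : ℝ)) / 2) * Real.exp (y ^ (2 / 17 : ℝ) / 2) = 1 := by
    rw [← Real.exp_add, show -(y ^ (2 / 17 : ℝ)) / 2 + y ^ (2 / 17 : ℝ) / 2 = 0 by ring,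
      Real.exp_zero]
  calc Gk y * y ^ 2 ≤ (C * Real.exp (-(y ^ (2 / 17 : ℝ)) / 2)) *
        (Real.exp (y ^ (2 / 17 : ℝ) / 2) * (2 ^ 17 * (Nat.factorial 17 : ℝ))) := by
        refine mul_le_mul h2 h1 (by positivity) (by positivity)
    _ = C * ((Nat.factorial 17 : ℝ) * 2 ^ 17) *
        (Real.exp (-(y ^ (2 / 17 : ℝ)) / 2) * Real.exp (y ^ (2 / 17 : ℝ) / 2)) := by ring
    _ = _ := by rw [h3, mul_one]

/-- the summable majorant in `j` -/
noncomputable def cj (j : ℤ) : ℝ := (if j = 0 then 1 else 0) + 1 / (j : ℝ) ^ 2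

theorem cj_nonneg (j : ℤ) : 0 ≤ cj j := by
  unfold cj; split_ifs <;> positivity

theorem summable_cj : Summable cj := by
  refine Summable.add ?_ (Real.summable_one_div_int_pow.2 (by norm_num))
  exact summable_of_ne_finset_zero (s := {0}) fun j hj => by
    rw [if_neg (by simpa using hj)]

/-- the quotient `q = (n₁/g)(n₂/g)` -/
def qq (p : ℕ × ℕ) : ℕ := (p.1 / p.1.gcd p.2) * (p.2 / p.1.gcd p.2)

/-- the terms after Poisson summation -/
noncomputable def Bt (H : ℝ) (r : ℕ) (u : ℝ) (p : ℕ × ℕ) (j : ℤ) : ℝ :=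
  wt r u p.1 * wt r u p.2 * ∑ d ∈ (p.1.gcd p.2).divisors,
    (ArithmeticFunction.moebius d : ℝ) / (d * √(qq p : ℝ)) *
      (if (d : ℤ) ∣ j then chi j (qq p) * Gk (|(j : ℝ)| * H / ((d : ℝ) ^ 2 * (qq p : ℝ))) else 0)

theorem Gk_bound (hK : StKer) {H : ℝ} (hH : 0 < H) : ∃ M : ℝ, 0 < M ∧
    ∀ (p : ℕ × ℕ) (j : ℤ) (d : ℕ), p.1 ≠ 0 → p.2 ≠ 0 → d ∈ (p.1.gcd p.2).divisors →
      Gk (|(j : ℝ)| * H / ((d : ℝ) ^ 2 * (qq p : ℝ))) ≤
        M * (1 + ((p.1 : ℝ) * p.2) ^ 2) * cj j := by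
  obtain ⟨K, hK0, hKd⟩ := Gk_decay hK
  refine ⟨5040 + K / H ^ 2, by positivity, fun p j d h1 h2 hd => ?_⟩
  obtain ⟨n₁, n₂⟩ := p
  simp only at h1 h2 hd ⊢
  have hg : 0 < n₁.gcd n₂ := Nat.gcd_pos_of_pos_left _ (Nat.pos_of_ne_zero h1)
  have hdg : d ∣ n₁.gcd n₂ := Nat.dvd_of_mem_divisors hd
  have hd0 : 0 < d := Nat.pos_of_dvd_of_pos hdg hg
  have hdle : d ≤ n₁.gcd n₂ := Nat.le_of_dvd hg hdg
  obtain ⟨a, ha⟩ := Nat.gcd_dvd_left n₁ n₂
  obtain ⟨b, hb⟩ := Nat.gcd_dvd_right n₁ n₂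
  have hqq : qq (n₁, n₂) = a * b := by
    unfold qq
    simp only
    have e1 : n₁ / n₁.gcd n₂ = a := by
      conv_lhs => rw [ha]
      rw [← ha]
      exact Nat.div_eq_of_eq_mul_right hg ha
    have e2 : n₂ / n₁.gcd n₂ = b := Nat.div_eq_of_eq_mul_right hg hb
    rw [e1, e2]
  have ha0 : 0 < a := by
    rcases Nat.eq_zero_or_pos a with h | h
    · rw [h, mul_zero] at ha; exact absurd ha h1
    · exact h
  have hb0 : 0 < b := by
    rcases Nat.eq_zero_or_pos b with h | h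
    · rw [h, mul_zero] at hb; exact absurd hb h2
    · exact h
  have hq0 : (0 : ℝ) < ((a * b : ℕ) : ℝ) := by
    exact_mod_cast Nat.mul_pos ha0 hb0
  have hdR : (0 : ℝ) < d := by exact_mod_cast hd0
  have hdq : (d : ℝ) ^ 2 * ((a * b : ℕ) : ℝ) ≤ (n₁ : ℝ) * n₂ := by
    have : d ^ 2 * (a * b) ≤ n₁ * n₂ := by
      calc d ^ 2 * (a * b) ≤ (n₁.gcd n₂) ^ 2 * (a * b) :=
            Nat.mul_le_mul_right _ (Nat.pow_le_pow_left hdle 2)
        _ = (n₁.gcd n₂ * a) * (n₁.gcd n₂ * b) := by ring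
        _ = n₁ * n₂ := by rw [← ha, ← hb]
    exact_mod_cast this
  rw [hqq]
  rcases eq_or_ne j 0 with rfl | hj
  · have h3 := hK.le (|((0 : ℤ) : ℝ)| * H / ((d : ℝ) ^ 2 * ((a * b : ℕ) : ℝ)))
    refine h3.trans ?_
    have : cj 0 = 1 := by simp [cj]
    rw [this, mul_one]
    have h4 : 0 ≤ K / H ^ 2 := by positivity
    have h5 : 0 ≤ ((n₁ : ℝ) * n₂) ^ 2 := by positivity
    nlinarith [mul_nonneg h4 h5]
  · have hj0 : 0 < |(j : ℝ)| := by rw [abs_pos]; exact_mod_cast hj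
    have h3 := hKd (|(j : ℝ)| * H / ((d : ℝ) ^ 2 * ((a * b : ℕ) : ℝ))) (by positivity)
    refine h3.trans ?_
    have : cj j = 1 / (j : ℝ) ^ 2 := by simp [cj, hj]
    rw [this, ← sq_abs (j : ℝ)]
    have e : K / (|(j : ℝ)| * H / ((d : ℝ) ^ 2 * ((a * b : ℕ) : ℝ))) ^ 2 =
        (K / H ^ 2) * ((d : ℝ) ^ 2 * ((a * b : ℕ) : ℝ)) ^ 2 * (1 / |(j : ℝ)| ^ 2) := by
      field_simp
    rw [e]
    refine mul_le_mul_of_nonneg_right ?_ (by positivity)
    refine mul_le_mul (by linarith) ?_ (by positivity) (by positivity)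
    have := pow_le_pow_left₀ (by positivity) hdq 2
    linarith

/-- the summable majorant in `p` -/
noncomputable def Wp (r : ℕ) (u : ℝ) (p : ℕ × ℕ) : ℝ :=
  (|wt r u p.1| * (p.1 : ℝ) ^ 1) * (|wt r u p.2| * (p.2 : ℝ) ^ 0) +
    (|wt r u p.1| * (p.1 : ℝ) ^ 3) * (|wt r u p.2| * (p.2 : ℝ) ^ 2)

theorem Wp_nonneg (r : ℕ) (u : ℝ) (p : ℕ × ℕ) : 0 ≤ Wp r u p := by
  unfold Wp; positivity

theorem summable_Wp (hC : StCoef) (r : ℕ) {u : ℝ} (hu : 0 < u) : Summable (Wp r u) := by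
  refine Summable.add ?_ ?_
  · exact (summable_wt hC r hu 1).mul_of_nonneg (summable_wt hC r hu 0)
      (fun n => by positivity) (fun n => by positivity)
  · exact (summable_wt hC r hu 3).mul_of_nonneg (summable_wt hC r hu 2)
      (fun n => by positivity) (fun n => by positivity)

theorem abs_moebius_le (d : ℕ) : |(ArithmeticFunction.moebius d : ℝ)| ≤ 1 := by
  have := ArithmeticFunction.abs_moebius_le_one (n := d)
  exact_mod_cast this

theorem qq_ne_zero {p : ℕ × ℕ} (h1 : p.1 ≠ 0) (h2 : p.2 ≠ 0) : qq p ≠ 0 := by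
  unfold qq
  refine Nat.mul_ne_zero ?_ ?_
  · exact Nat.ne_of_gt (Nat.div_pos (Nat.le_of_dvd (Nat.pos_of_ne_zero h1) (Nat.gcd_dvd_left _ _))
      (Nat.gcd_pos_of_pos_left _ (Nat.pos_of_ne_zero h1)))
  · exact Nat.ne_of_gt (Nat.div_pos (Nat.le_of_dvd (Nat.pos_of_ne_zero h2) (Nat.gcd_dvd_right _ _))
      (Nat.gcd_pos_of_pos_left _ (Nat.pos_of_ne_zero h1)))

/-- one summand of `Bt` is small -/
theorem abs_term_le (hK : StKer) {H : ℝ} (hH : 0 < H) : ∃ M : ℝ, 0 < M ∧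
    ∀ (p : ℕ × ℕ) (j : ℤ) (d : ℕ), p.1 ≠ 0 → p.2 ≠ 0 → d ∈ (p.1.gcd p.2).divisors →
      |(ArithmeticFunction.moebius d : ℝ) / (d * √(qq p : ℝ)) *
      (if (d : ℤ) ∣ j then chi j (qq p) * Gk (|(j : ℝ)| * H / ((d : ℝ) ^ 2 * (qq p : ℝ))) else 0)|
        ≤ M * (1 + ((p.1 : ℝ) * p.2) ^ 2) * cj j := by
  obtain ⟨M, hM, hb⟩ := Gk_bound hK hH
  refine ⟨M, hM, fun p j d h1 h2 hd => ?_⟩
  have hd0 : d ≠ 0 := by
    rintro rfl
    simp at hd
    exact h1 hd.1.1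
  have hd1 : (1 : ℝ) ≤ d := by exact_mod_cast Nat.pos_of_ne_zero hd0
  have hq1 : (1 : ℝ) ≤ √(qq p : ℝ) := by
    rw [Real.one_le_sqrt]
    exact_mod_cast Nat.pos_of_ne_zero (qq_ne_zero h1 h2)
  rw [abs_mul, abs_div, abs_of_pos (by positivity : (0 : ℝ) < d * √(qq p : ℝ))]
  have e1 : |(ArithmeticFunction.moebius d : ℝ)| / (d * √(qq p : ℝ)) ≤ 1 := by
    rw [div_le_one (by positivity)]
    have := abs_moebius_le d
    nlinarith
  have e2 : |(if (d : ℤ) ∣ j then chi j (qq p) *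
      Gk (|(j : ℝ)| * H / ((d : ℝ) ^ 2 * (qq p : ℝ))) else 0)| ≤
      M * (1 + ((p.1 : ℝ) * p.2) ^ 2) * cj j := by
    split_ifs
    · rw [abs_mul, abs_of_nonneg (hK.nonneg _)]
      refine le_trans ?_ (hb p j d h1 h2 hd)
      exact mul_le_of_le_one_left (hK.nonneg _) (abs_chi_le _ _)
    · rw [abs_zero]
      have := cj_nonneg j
      positivity
  calc _ ≤ 1 * (M * (1 + ((p.1 : ℝ) * p.2) ^ 2) * cj j) :=
        mul_le_mul e1 e2 (abs_nonneg _) (by norm_num)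
    _ = _ := one_mul _

theorem abs_Bt_le (hK : StKer) {H : ℝ} (hH : 0 < H) : ∃ M : ℝ, 0 < M ∧
    ∀ (r : ℕ) (u : ℝ) (p : ℕ × ℕ) (j : ℤ), |Bt H r u p j| ≤ M * (Wp r u p * cj j) := by
  obtain ⟨M, hM, hb⟩ := abs_term_le hK hH
  refine ⟨M, hM, fun r u p j => ?_⟩
  by_cases h1 : p.1 = 0
  · have : wt r u p.1 = 0 := by
      rw [h1]; unfold wt; rw [if_neg]; simp
    unfold Bt
    rw [this]
    simp only [zero_mul, abs_zero]
    have := Wp_nonneg r u p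
    have := cj_nonneg j
    positivity
  by_cases h2 : p.2 = 0
  · have : wt r u p.2 = 0 := by
      rw [h2]; unfold wt; rw [if_neg]; simp
    unfold Bt
    rw [this]
    simp only [zero_mul, mul_zero, abs_zero]
    have := Wp_nonneg r u p
    have := cj_nonneg j
    positivity
  unfold Bt
  rw [abs_mul, abs_mul]
  have h3 : |∑ d ∈ (p.1.gcd p.2).divisors, (ArithmeticFunction.moebius d : ℝ) /
      (d * √(qq p : ℝ)) * (if (d : ℤ) ∣ j then chi j (qq p) *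
      Gk (|(j : ℝ)| * H / ((d : ℝ) ^ 2 * (qq p : ℝ))) else 0)| ≤
      (p.1 : ℝ) * (M * (1 + ((p.1 : ℝ) * p.2) ^ 2) * cj j) := by
    refine (Finset.abs_sum_le_sum_abs _ _).trans ?_
    refine (Finset.sum_le_card_nsmul _ _ _ fun d hd => hb p j d h1 h2 hd).trans ?_
    rw [nsmul_eq_mul]
    have h4 : ((p.1.gcd p.2).divisors.card : ℝ) ≤ (p.1 : ℝ) := by
      have : (p.1.gcd p.2).divisors.card ≤ p.1 :=
        (Nat.card_divisors_le_self _).trans
          (Nat.le_of_dvd (Nat.pos_of_ne_zero h1) (Nat.gcd_dvd_left _ _))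
      exact_mod_cast this
    refine mul_le_mul_of_nonneg_right h4 ?_
    have := cj_nonneg j
    positivity
  calc |wt r u p.1| * |wt r u p.2| * _ ≤ |wt r u p.1| * |wt r u p.2| *
        ((p.1 : ℝ) * (M * (1 + ((p.1 : ℝ) * p.2) ^ 2) * cj j)) :=
        mul_le_mul_of_nonneg_left h3 (by positivity)
    _ = M * (Wp r u p * cj j) := by unfold Wp; ring

theorem summable_Bt (hC : StCoef) (hK : StKer) {H : ℝ} (hH : 0 < H) (r : ℕ) {u : ℝ} (hu : 0 < u) :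
    Summable (Function.uncurry (Bt H r u)) := by
  obtain ⟨M, hM, hb⟩ := abs_Bt_le hK hH
  have h1 := ((summable_Wp hC r hu).mul_of_nonneg summable_cj (Wp_nonneg r u) cj_nonneg).mul_left M
  refine Summable.of_norm_bounded h1 fun x => ?_
  exact hb r u x.1 x.2

/-- Poisson summation for one pair -/
theorem pair_eq (hC : StCoef) (hP : StPair) (hK : StKer) {H : ℝ} (hH : 0 < H) (r : ℕ)
    (u : ℝ) (p : ℕ × ℕ) :
    wt r u p.1 * wt r u p.2 * ∑' h : ℤ, ah H h * chi h (p.1 * p.2) =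
      H * ∑' j : ℤ, Bt H r u p j := by
  by_cases h1 : wt r u p.1 = 0
  · have : ∀ j, Bt H r u p j = 0 := fun j => by unfold Bt; rw [h1]; ring
    simp [this, h1]
  by_cases h2 : wt r u p.2 = 0
  · have : ∀ j, Bt H r u p j = 0 := fun j => by unfold Bt; rw [h2]; ring
    simp [this, h2]
  obtain ⟨s1, -, c1⟩ := wt_ne_zero h1
  obtain ⟨s2, -, c2⟩ := wt_ne_zero h2
  have n1 : p.1 ≠ 0 := s1.ne_zero
  have n2 : p.2 ≠ 0 := s2.ne_zero
  have hpr : ∀ q : ℕ, q.Prime → q ∣ p.1 * p.2 → q % 4 = 1 := by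
    intro q hq hqd
    rcases (hq.dvd_mul).1 hqd with h | h
    · exact prime_of_ca_ne_zero hC s1 c1 q hq h
    · exact prime_of_ca_ne_zero hC s2 c2 q hq h
  have key := hP p.1 p.2 s1 s2 hpr H hH
  rw [integral_eq_tsum hH] at key
  rw [key]
  obtain ⟨M, hM, hb⟩ := abs_term_le hK hH
  have hsum : ∀ d ∈ (p.1.gcd p.2).divisors, Summable fun j : ℤ =>
      (ArithmeticFunction.moebius d : ℝ) / (d * √(qq p : ℝ)) *
      (if (d : ℤ) ∣ j then chi j (qq p) *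
        Gk (|(j : ℝ)| * H / ((d : ℝ) ^ 2 * (qq p : ℝ))) else 0) := by
    intro d hd
    refine Summable.of_norm_bounded (summable_cj.mul_left (M * (1 + ((p.1 : ℝ) * p.2) ^ 2)))
      fun j => ?_
    exact hb p j d n1 n2 hd
  have e1 : ∑' j : ℤ, Bt H r u p j = wt r u p.1 * wt r u p.2 *
      ∑ d ∈ (p.1.gcd p.2).divisors, (ArithmeticFunction.moebius d : ℝ) / (d * √(qq p : ℝ)) *
        ∑' j : ℤ, (if (d : ℤ) ∣ j then chi j (qq p) *
          Gk (|(j : ℝ)| * H / ((d : ℝ) ^ 2 * (qq p : ℝ))) else 0) := by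
    unfold Bt
    rw [tsum_mul_left, Summable.tsum_finsetSum hsum]
    congr 1
    refine Finset.sum_congr rfl fun d _ => ?_
    rw [tsum_mul_left]
  rw [e1]
  unfold qq
  ring

/-- the first double series -/
theorem summable_first (hC : StCoef) {H : ℝ} (hH : 0 < H) (r : ℕ) {u : ℝ} (hu : 0 < u) :
    Summable (Function.uncurry fun (h : ℤ) (p : ℕ × ℕ) =>
      ah H h * (wt r u p.1 * wt r u p.2 * chi h (p.1 * p.2))) := by
  have h0 := summable_wt hC r hu 0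
  have h1 : Summable fun p : ℕ × ℕ => |wt r u p.1| * |wt r u p.2| := by
    have := h0.mul_of_nonneg h0 (fun n => by positivity) (fun n => by positivity)
    simpa using this
  have h2 := (summable_ah hH).mul_of_nonneg h1 (ah_nonneg H) (fun n => by positivity)
  refine Summable.of_norm_bounded h2 fun x => ?_
  simp only [Function.uncurry]
  rw [norm_mul, norm_mul, norm_mul, Real.norm_eq_abs, Real.norm_eq_abs, Real.norm_eq_abs,
    Real.norm_eq_abs, abs_of_nonneg (ah_nonneg H x.1)]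
  refine mul_le_mul_of_nonneg_left ?_ (ah_nonneg H x.1)
  exact mul_le_of_le_one_right (by positivity) (abs_chi_le _ _)

theorem Uf_sq (hC : StCoef) (h : ℤ) (r : ℕ) {u : ℝ} (hu : 0 < u) :
    Uf h r u ^ 2 = ∑' p : ℕ × ℕ, wt r u p.1 * wt r u p.2 * chi h (p.1 * p.2) := by
  have h0 : Summable fun n : ℕ => ‖wt r u n * chi h n‖ := by
    have := summable_wt hC r hu 0
    refine Summable.of_nonneg_of_le (fun n => norm_nonneg _) (fun n => ?_) this
    rw [norm_mul, Real.norm_eq_abs, Real.norm_eq_abs, pow_zero, mul_one]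
    exact mul_le_of_le_one_right (abs_nonneg _) (abs_chi_le _ _)
  rw [Uf_eq, sq, tsum_mul_tsum_of_summable_norm h0 h0]
  refine tsum_congr fun p => ?_
  by_cases h1 : p.1 = 0
  · have : wt r u p.1 = 0 := by
      rw [h1]; unfold wt; rw [if_neg]; simp
    rw [this]; ring
  by_cases h2 : p.2 = 0
  · have : wt r u p.2 = 0 := by
      rw [h2]; unfold wt; rw [if_neg]; simp
    rw [this]; ring
  rw [chi_mul h h1 h2]
  ring

/-- `S = H ∑_j ∑_p Bt` -/
theorem S_eq (hC : StCoef) (hP : StPair) (hK : StKer) {H : ℝ} (hH : 0 < H) (r : ℕ)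
    {u : ℝ} (hu : 0 < u) :
    ∑' h : ℤ, ah H h * Uf h r u ^ 2 = H * ∑' j : ℤ, ∑' p : ℕ × ℕ, Bt H r u p j := by
  have e1 : ∑' h : ℤ, ah H h * Uf h r u ^ 2 =
      ∑' (h : ℤ) (p : ℕ × ℕ), ah H h * (wt r u p.1 * wt r u p.2 * chi h (p.1 * p.2)) := by
    refine tsum_congr fun h => ?_
    rw [Uf_sq hC h r hu, tsum_mul_left]
  rw [e1, ← (summable_first hC hH r hu).tsum_comm]
  have e2 : ∀ p : ℕ × ℕ, ∑' h : ℤ, ah H h * (wt r u p.1 * wt r u p.2 * chi h (p.1 * p.2)) =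
      H * ∑' j : ℤ, Bt H r u p j := by
    intro p
    rw [← pair_eq hC hP hK hH, ← tsum_mul_left]
    refine tsum_congr fun h => ?_
    ring
  rw [tsum_congr e2, tsum_mul_left, (summable_Bt hC hK hH r hu).tsum_comm]

theorem gcd_facts {g m₁ m₂ : ℕ} (hs : Squarefree (g * m₁ * m₂)) :
    g ≠ 0 ∧ m₁ ≠ 0 ∧ m₂ ≠ 0 ∧ Nat.Coprime g m₁ ∧ Nat.Coprime g m₂ ∧
      (g * m₁).gcd (g * m₂) = g ∧ qq (g * m₁, g * m₂) = m₁ * m₂ := by
  have h0 := hs.ne_zero
  have hm2 : m₂ ≠ 0 := right_ne_zero_of_mul h0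
  have hm1 : m₁ ≠ 0 := right_ne_zero_of_mul (left_ne_zero_of_mul h0)
  have hg : g ≠ 0 := left_ne_zero_of_mul (left_ne_zero_of_mul h0)
  obtain ⟨c1, s1, s2⟩ := (Nat.squarefree_mul_iff).1 hs
  obtain ⟨c2, s3, s4⟩ := (Nat.squarefree_mul_iff).1 s1
  have c3 : Nat.Coprime m₁ m₂ := Nat.Coprime.coprime_dvd_left (Dvd.intro_left g rfl) c1
  have c4 : Nat.Coprime g m₂ := Nat.Coprime.coprime_dvd_left (Dvd.intro m₁ rfl) c1
  have hgcd : (g * m₁).gcd (g * m₂) = g := by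
    rw [Nat.gcd_mul_left, Nat.Coprime.gcd_eq_one c3, mul_one]
  refine ⟨hg, hm1, hm2, c2, c4, hgcd, ?_⟩
  unfold qq
  simp only
  rw [hgcd, Nat.mul_div_cancel_left _ (Nat.pos_of_ne_zero hg),
    Nat.mul_div_cancel_left _ (Nat.pos_of_ne_zero hg)]

theorem term_eq (hC : StCoef) (H : ℝ) (r : ℕ) (u : ℝ) (j : ℤ) {g m₁ m₂ : ℕ}
    (hs : Squarefree (g * m₁ * m₂)) (hc : (g * m₁ * m₂).Coprime r) :
    Bt H r u (g * m₁, g * m₂) j = AjTerm H r j u (g, m₁, m₂) := by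
  obtain ⟨hg, hm1, hm2, c1, c2, hgcd, hqq⟩ := gcd_facts hs
  have s1 : Squarefree (g * m₁) := hs.squarefree_of_dvd (Dvd.intro m₂ rfl)
  have s2 : Squarefree (g * m₂) := hs.squarefree_of_dvd ⟨m₁, by ring⟩
  have r1 : (g * m₁).Coprime r := Nat.Coprime.coprime_dvd_left (Dvd.intro m₂ rfl) hc
  have r2 : (g * m₂).Coprime r := Nat.Coprime.coprime_dvd_left ⟨m₁, by ring⟩ hc
  unfold Bt AjTerm
  simp only
  rw [hgcd, hqq, if_pos ⟨hs, hc⟩]
  unfold wt
  rw [if_pos ⟨s1, r1⟩, if_pos ⟨s2, r2⟩, hC.mul _ _ c1, hC.mul _ _ c2]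
  have e0 : Real.exp (-π * ((g * m₁ : ℕ) : ℝ) * u) * Real.exp (-π * ((g * m₂ : ℕ) : ℝ) * u) =
      Real.exp (-π * g * u * (m₁ + m₂)) := by
    rw [← Real.exp_add]
    congr 1
    push_cast
    ring
  have e1 : √((m₁ * m₂ : ℕ) : ℝ) = √(m₁ : ℝ) * √(m₂ : ℝ) := by
    push_cast
    rw [Real.sqrt_mul (by positivity)]
  have e2 : ∑ d ∈ g.divisors, (ArithmeticFunction.moebius d : ℝ) / (d * √((m₁ * m₂ : ℕ) : ℝ)) *
      (if (d : ℤ) ∣ j then chi j (m₁ * m₂) *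
        Gk (|(j : ℝ)| * H / ((d : ℝ) ^ 2 * ((m₁ * m₂ : ℕ) : ℝ))) else 0) =
      (1 / (√(m₁ : ℝ) * √(m₂ : ℝ))) * chi j (m₁ * m₂) *
      ∑ d ∈ g.divisors, if (d : ℤ) ∣ j then
        (ArithmeticFunction.moebius d : ℝ) / d *
          Gk (|(j : ℝ)| * H / ((d : ℝ) ^ 2 * (m₁ * m₂))) else 0 := by
    rw [Finset.mul_sum]
    refine Finset.sum_congr rfl fun d _ => ?_
    rw [e1]
    split_ifs
    · push_cast
      ring
    · ring
  rw [e2]
  have m1p : (0 : ℝ) < √(m₁ : ℝ) := Real.sqrt_pos.2 (by exact_mod_cast Nat.pos_of_ne_zero hm1)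
  have m2p : (0 : ℝ) < √(m₂ : ℝ) := Real.sqrt_pos.2 (by exact_mod_cast Nat.pos_of_ne_zero hm2)
  rw [← e0]
  unfold lam
  push_cast
  field_simp

/-- regrouping by the greatest common divisor -/
theorem Aj_eq (hC : StCoef) (H : ℝ) (r : ℕ) (u : ℝ) (j : ℤ) :
    ∑' p : ℕ × ℕ, Bt H r u p j = Aj H r j u := by
  unfold Aj
  have hT : ∀ t : ℕ × ℕ × ℕ, AjTerm H r j u t ≠ 0 →
      Squarefree (t.1 * t.2.1 * t.2.2) ∧ (t.1 * t.2.1 * t.2.2).Coprime r := by
    intro t ht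
    unfold AjTerm at ht
    by_contra h
    rw [if_neg h] at ht
    exact ht rfl
  refine tsum_eq_tsum_of_ne_zero_bij
    (fun t : Function.support (AjTerm H r j u) => (t.1.1 * t.1.2.1, t.1.1 * t.1.2.2)) ?_ ?_ ?_
  · rintro ⟨⟨g, m₁, m₂⟩, ht⟩ ⟨⟨g', m₁', m₂'⟩, ht'⟩ h
    obtain ⟨hs, -⟩ := hT _ ht
    obtain ⟨hs', -⟩ := hT _ ht'
    obtain ⟨hg, -, -, -, -, hgcd, -⟩ := gcd_facts hs
    obtain ⟨hg', -, -, -, -, hgcd', -⟩ := gcd_facts hs'
    simp only [Prod.mk.injEq] at h hgcd hgcd' hg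
    obtain ⟨h1, h2⟩ := h
    have e : g = g' := by rw [← hgcd, ← hgcd', h1, h2]
    subst e
    have e1 : m₁ = m₁' := Nat.eq_of_mul_eq_mul_left (Nat.pos_of_ne_zero hg) h1
    have e2 : m₂ = m₂' := Nat.eq_of_mul_eq_mul_left (Nat.pos_of_ne_zero hg) h2
    subst e1; subst e2
    rfl
  · intro p hp
    have hp' : Bt H r u p j ≠ 0 := hp
    have w1 : wt r u p.1 ≠ 0 := by
      intro h; apply hp'; unfold Bt; rw [h]; ring
    have w2 : wt r u p.2 ≠ 0 := by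
      intro h; apply hp'; unfold Bt; rw [h]; ring
    obtain ⟨s1, r1, -⟩ := wt_ne_zero w1
    obtain ⟨s2, r2, -⟩ := wt_ne_zero w2
    obtain ⟨n₁, n₂⟩ := p
    simp only at s1 s2 r1 r2
    obtain ⟨a, ha⟩ := Nat.gcd_dvd_left n₁ n₂
    obtain ⟨b, hb⟩ := Nat.gcd_dvd_right n₁ n₂
    set g := n₁.gcd n₂ with hgdef
    have hg0 : 0 < g := Nat.gcd_pos_of_pos_left _ (Nat.pos_of_ne_zero s1.ne_zero)
    have hab : Nat.Coprime a b := by
      have h1 := Nat.coprime_div_gcd_div_gcd (m := n₁) (n := n₂) hg0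
      rw [← hgdef] at h1
      have ea : n₁ / g = a := Nat.div_eq_of_eq_mul_right hg0 ha
      have eb : n₂ / g = b := Nat.div_eq_of_eq_mul_right hg0 hb
      rwa [ea, eb] at h1
    rw [ha] at s1 r1
    rw [hb] at s2 r2
    have hgb : Nat.Coprime g b := ((Nat.squarefree_mul_iff).1 s2).1
    have hcop : Nat.Coprime (g * a) b := Nat.Coprime.mul_left hgb hab
    have hs : Squarefree (g * a * b) := by
      rw [Nat.squarefree_mul_iff]
      exact ⟨hcop, s1, ((Nat.squarefree_mul_iff).1 s2).2.2⟩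
    have hr : (g * a * b).Coprime r :=
      Nat.Coprime.mul_left r1 (Nat.Coprime.coprime_dvd_left (Dvd.intro_left g rfl) r2)
    have key := term_eq hC H r u j hs hr
    refine ⟨⟨(g, a, b), ?_⟩, ?_⟩
    · rw [Function.mem_support, ← key, ← ha, ← hb]
      exact hp'
    · simp only [Prod.mk.injEq]
      exact ⟨ha.symm, hb.symm⟩
  · rintro ⟨⟨g, m₁, m₂⟩, ht⟩
    obtain ⟨hs, hr⟩ := hT _ ht
    exact term_eq hC H r u j hs hr

theorem Aj_neg (hC : StCoef) (H : ℝ) (r : ℕ) (u : ℝ) (j : ℤ) : Aj H r (-j) u = Aj H r j u := by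
  unfold Aj
  refine tsum_congr fun t => ?_
  obtain ⟨g, m₁, m₂⟩ := t
  unfold AjTerm
  simp only
  split_ifs with h
  · by_cases h1 : ca m₁ = 0
    · have : lam m₁ = 0 := by unfold lam; rw [h1]; simp
      rw [this]; ring
    by_cases h2 : ca m₂ = 0
    · have : lam m₂ = 0 := by unfold lam; rw [h2]; simp
      rw [this]; ring
    have s1 : Squarefree m₁ := h.1.squarefree_of_dvd ⟨g * m₂, by ring⟩
    have s2 : Squarefree m₂ := h.1.squarefree_of_dvd ⟨g * m₁, by ring⟩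
    have hpr : ∀ q : ℕ, q.Prime → q ∣ m₁ * m₂ → q % 4 = 1 := by
      intro q hq hqd
      rcases (hq.dvd_mul).1 hqd with h | h
      · exact prime_of_ca_ne_zero hC s1 h1 q hq h
      · exact prime_of_ca_ne_zero hC s2 h2 q hq h
    rw [chi_neg j (Nat.mul_ne_zero s1.ne_zero s2.ne_zero) hpr]
    have e : ∀ d : ℕ, ((d : ℤ) ∣ -j) = ((d : ℤ) ∣ j) := fun d => by rw [dvd_neg]
    have e2 : |((-j : ℤ) : ℝ)| = |(j : ℝ)| := by push_cast; rw [abs_neg]
    simp only [e, e2]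
  · rfl

theorem tsum_abs_Aj (hC : StCoef) (H : ℝ) (r : ℕ) (u : ℝ) :
    ∑' j : ℤ, ENNReal.ofReal |Aj H r j u| ≤
      2 * (ENNReal.ofReal |Aj H r 0 u| + ∑' j : ℕ, ENNReal.ofReal |Aj H r (j + 1) u|) := by
  rw [tsum_of_nat_of_neg_add_one ENNReal.summable ENNReal.summable]
  have e1 : ∑' n : ℕ, ENNReal.ofReal |Aj H r (n : ℤ) u| =
      ENNReal.ofReal |Aj H r 0 u| + ∑' j : ℕ, ENNReal.ofReal |Aj H r (j + 1) u| := by
    rw [tsum_eq_zero_add' ENNReal.summable]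
    push_cast
    rfl
  have e2 : ∑' n : ℕ, ENNReal.ofReal |Aj H r (-((n : ℤ) + 1)) u| =
      ∑' j : ℕ, ENNReal.ofReal |Aj H r (j + 1) u| := by
    refine tsum_congr fun n => ?_
    rw [Aj_neg hC]
  rw [e1, e2, two_mul]
  gcongr
  exact le_add_self

/-- Module H1. -/
theorem pfSumS (hC : StCoef) (hP : StPair) (hK : StKer) : StSumS := by
  refine ⟨2 / c0, by have := c0_pos; positivity, fun X r H u hr hX hXH hu => ?_⟩
  have hX1 : (1 : ℝ) ≤ X := by exact_mod_cast hX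
  have hH : 0 < H := by linarith
  have hc := c0_pos
  -- the series `∑ ah h * Uf h ^ 2` is summable
  have hW : ∀ h : ℤ, Uf h r u ^ 2 ≤ (∑' n, |wt r u n|) ^ 2 := by
    intro h
    have h0 : Summable fun n : ℕ => |wt r u n| := by
      have := summable_wt hC r hu 0
      simpa using this
    have h1 : |Uf h r u| ≤ ∑' n, |wt r u n| := by
      rw [Uf_eq]
      have h2 : ∀ n, ‖wt r u n * chi h n‖ ≤ |wt r u n| := fun n => by
        rw [norm_mul, Real.norm_eq_abs, Real.norm_eq_abs]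
        exact mul_le_of_le_one_right (abs_nonneg _) (abs_chi_le _ _)
      exact tsum_of_norm_bounded h0.hasSum h2
    rw [← sq_abs (Uf h r u)]
    exact pow_le_pow_left₀ (abs_nonneg _) h1 2
  have hsum : Summable fun h : ℤ => ah H h * Uf h r u ^ 2 := by
    refine Summable.of_nonneg_of_le (fun h => mul_nonneg (ah_nonneg H h) (sq_nonneg _))
      (fun h => mul_le_mul_of_nonneg_left (hW h) (ah_nonneg H h))
      ((summable_ah hH).mul_right _)
  have hlow : c0 * ∑ m ∈ sqf X, Uf m r u ^ 2 ≤ ∑' h : ℤ, ah H h * Uf h r u ^ 2 := by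
    rw [Finset.mul_sum]
    have h1 : ∑ m ∈ sqf X, c0 * Uf m r u ^ 2 ≤ ∑ m ∈ sqf X, ah H (m : ℤ) * Uf m r u ^ 2 := by
      refine Finset.sum_le_sum fun m hm => ?_
      refine mul_le_mul_of_nonneg_right ?_ (sq_nonneg _)
      refine c0_le hH ?_
      have : m ≤ X := (Finset.mem_Icc.1 (Finset.mem_filter.1 hm).1).2
      exact le_trans (by exact_mod_cast this) hXH
    refine h1.trans ?_
    have h2 : ∑ m ∈ sqf X, ah H (m : ℤ) * Uf m r u ^ 2 =
        ∑ h ∈ (sqf X).map ⟨fun n : ℕ => (n : ℤ), Nat.cast_injective⟩, ah H h * Uf h r u ^ 2 := by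
      rw [Finset.sum_map]
      rfl
    rw [h2]
    exact hsum.sum_le_tsum _ fun h _ => mul_nonneg (ah_nonneg H h) (sq_nonneg _)
  rw [S_eq hC hP hK hH r hu, tsum_congr (Aj_eq hC H r u)] at hlow
  have habs : ENNReal.ofReal (∑' j : ℤ, Aj H r j u) ≤ ∑' j : ℤ, ENNReal.ofReal |Aj H r j u| := by
    by_cases hs : Summable fun j : ℤ => |Aj H r j u|
    · rw [← ENNReal.ofReal_tsum_of_nonneg (fun j => abs_nonneg _) hs]
      refine ENNReal.ofReal_le_ofReal ?_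
      refine Summable.tsum_le_tsum (fun j => le_abs_self _) ?_ hs
      exact Summable.of_abs hs
    · have : ¬ Summable fun j : ℤ => Aj H r j u := fun h => hs h.abs
      rw [tsum_eq_zero_of_not_summable this]
      simp
  have h1 : ENNReal.ofReal (∑ m ∈ sqf X, Uf m r u ^ 2) ≤
      ENNReal.ofReal (H / c0) * ENNReal.ofReal (∑' j : ℤ, Aj H r j u) := by
    rw [← ENNReal.ofReal_mul (by positivity)]
    refine ENNReal.ofReal_le_ofReal ?_
    rw [div_mul_eq_mul_div, le_div_iff₀ hc]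
    linarith
  calc ENNReal.ofReal (∑ m ∈ sqf X, Uf m r u ^ 2) ≤
        ENNReal.ofReal (H / c0) * ENNReal.ofReal (∑' j : ℤ, Aj H r j u) := h1
    _ ≤ ENNReal.ofReal (H / c0) * (2 * (ENNReal.ofReal |Aj H r 0 u| +
        ∑' j : ℕ, ENNReal.ofReal |Aj H r (j + 1) u|)) := by
        gcongr
        exact habs.trans (tsum_abs_Aj hC H r u)
    _ = ENNReal.ofReal (2 / c0 * H) * (ENNReal.ofReal |Aj H r 0 u| +
        ∑' j : ℕ, ENNReal.ofReal |Aj H r (j + 1) u|) := by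
        rw [← mul_assoc]
        congr 1
        rw [show (2 : ENNReal) = ENNReal.ofReal 2 by simp, ← ENNReal.ofReal_mul (by positivity)]
        congr 1
        ring

end P004.H1
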