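import Vale.Agent.P004.Iface

/-!
# P004, module H2 : separation of variables in `Aj` (`StSep`)
-/

open Real MeasureTheory Set
open scoped ENNReal

namespace P004
namespace H2

/-- the base term (without coprimality conditions) -/
noncomputable def base (H : ℝ) (j : ℤ) (u : ℝ) (g m₁ m₂ : ℕ) : ℝ :=
    (ca g : ℝ) ^ 2 * (lam m₁ * lam m₂) * chi j (m₁ * m₂) *
      (∑ d ∈ g.divisors, if (d : ℤ) ∣ j then
        (ArithmeticFunction.moebius d : ℝ) / d *
          Gk (|(j : ℝ)| * H / ((d : ℝ) ^ 2 * (m₁ * m₂))) else 0) *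
      Real.exp (-π * g * u * (m₁ + m₂))

/-- the conditions on `g, m₁, m₂` other than the coprimality of `m₁` and `m₂` -/
def Cnd (r g m₁ m₂ : ℕ) : Prop :=
  (Squarefree g ∧ g.Coprime r) ∧ (Squarefree m₁ ∧ m₁.Coprime (g * r)) ∧
    (Squarefree m₂ ∧ m₂.Coprime (g * r))

open Classical in
/-- the terms after opening the condition `(m₁, m₂) = 1` -/
noncomputable def Fe (H : ℝ) (r : ℕ) (j : ℤ) (u : ℝ) (g e m₁ m₂ : ℕ) : ℝ :=
  if Cnd r g m₁ m₂ ∧ e ∣ m₁ ∧ e ∣ m₂ then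
    (ArithmeticFunction.moebius e : ℝ) * base H j u g m₁ m₂ else 0

lemma sum_moebius_divisors (n : ℕ) :
    ∑ e ∈ n.divisors, (ArithmeticFunction.moebius e : ℝ) = if n = 1 then 1 else 0 := by
  have h := congrArg (fun f : ArithmeticFunction ℤ => f n)
    ArithmeticFunction.moebius_mul_coe_zeta
  simp only [ArithmeticFunction.coe_mul_zeta_apply, ArithmeticFunction.one_apply] at h
  have h2 := congrArg (fun z : ℤ => (z : ℝ)) h
  push_cast at h2
  rw [h2]

lemma cnd_iff (r g m₁ m₂ : ℕ) :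
    (Squarefree (g * m₁ * m₂) ∧ (g * m₁ * m₂).Coprime r) ↔
      Cnd r g m₁ m₂ ∧ m₁.gcd m₂ = 1 := by
  unfold Cnd
  simp only [Nat.squarefree_mul_iff, Nat.coprime_mul_iff_left, Nat.coprime_mul_iff_right]
  constructor
  · rintro ⟨⟨⟨h1, h2⟩, ⟨h3, h4, h5⟩, h6⟩, ⟨h7, h8⟩, h9⟩
    exact ⟨⟨⟨h4, h7⟩, ⟨h5, h3.symm, h8⟩, ⟨h6, h1.symm, h9⟩⟩, h2⟩
  · rintro ⟨⟨⟨h4, h7⟩, ⟨h5, h3, h8⟩, ⟨h6, h1, h9⟩⟩, h2⟩
    exact ⟨⟨⟨h1.symm, h2⟩, ⟨h3.symm, h4, h5⟩, h6⟩, ⟨h7, h8⟩, h9⟩

lemma AjTerm_eq (H : ℝ) (r : ℕ) (j : ℤ) (u : ℝ) (g m₁ m₂ : ℕ) :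
    AjTerm H r j u (g, m₁, m₂) = ∑' e : ℕ, Fe H r j u g e m₁ m₂ := by
  classical
  unfold AjTerm Fe
  simp only [cnd_iff]
  by_cases hC : Cnd r g m₁ m₂
  · have hm : m₁.gcd m₂ ≠ 0 := by
      intro h
      have := hC.2.1.1.ne_zero
      exact this (Nat.eq_zero_of_gcd_eq_zero_left h)
    simp only [hC, true_and]
    rw [tsum_eq_sum (s := (m₁.gcd m₂).divisors)]
    · have : ∀ e ∈ (m₁.gcd m₂).divisors, (if e ∣ m₁ ∧ e ∣ m₂ then
          (ArithmeticFunction.moebius e : ℝ) * base H j u g m₁ m₂ else 0) =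
          (ArithmeticFunction.moebius e : ℝ) * base H j u g m₁ m₂ := by
        intro e he
        rw [Nat.mem_divisors, Nat.dvd_gcd_iff] at he
        rw [if_pos he.1]
      rw [Finset.sum_congr rfl this, ← Finset.sum_mul, sum_moebius_divisors]
      split_ifs with h
      · simp [base]
      · simp
    · intro e he
      rw [Nat.mem_divisors, Nat.dvd_gcd_iff] at he
      rw [if_neg]
      exact fun h => he ⟨h, hm⟩
  · simp [hC]

lemma dv_nonneg (n : ℕ) : 0 ≤ dv n := by unfold dv; positivity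

lemma dv_le (n : ℕ) : dv n ≤ n := by
  unfold dv
  exact_mod_cast Nat.card_divisors_le_self n

lemma lam_le (hco : StCoef) (n : ℕ) : |lam n| ≤ dv n := by
  unfold lam
  rcases Nat.eq_zero_or_pos n with h | h
  · subst h; simp [dv]
  · have hs : 0 < √(n : ℝ) := Real.sqrt_pos.mpr (by exact_mod_cast h)
    rw [abs_div, abs_of_pos hs, div_le_iff₀ hs]
    exact hco.bound n

lemma chi_le (m : ℤ) (n : ℕ) : |chi m n| ≤ 1 := by
  unfold chi
  rcases jacobiSym.trichotomy m n with h | h | h <;> simp [h]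

lemma Gk_abs_le (hk : StKer) (y : ℝ) : |Gk y| ≤ 5040 := by
  rw [abs_of_nonneg (hk.nonneg y)]; exact hk.le y

lemma moebius_div_le (d : ℕ) : |(ArithmeticFunction.moebius d : ℝ) / d| ≤ 1 := by
  have h1 : |(ArithmeticFunction.moebius d : ℝ)| ≤ 1 := by
    have := ArithmeticFunction.abs_moebius_le_one (n := d)
    exact_mod_cast this
  rcases Nat.eq_zero_or_pos d with h | h
  · subst h; simp
  · have hd : (1 : ℝ) ≤ d := by exact_mod_cast h
    rw [abs_div, abs_of_pos (by linarith : (0 : ℝ) < d)]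
    exact (div_le_one (by linarith)).mpr (h1.trans hd)

lemma base_le (hco : StCoef) (hk : StKer) (H : ℝ) (j : ℤ) (u : ℝ) (g m₁ m₂ : ℕ) :
    |base H j u g m₁ m₂| ≤ (ca g : ℝ) ^ 2 * (5040 * g) *
      ((m₁ * Real.exp (-(π * g * u) * m₁)) * (m₂ * Real.exp (-(π * g * u) * m₂))) := by
  unfold base
  have h1 : |∑ d ∈ g.divisors, if (d : ℤ) ∣ j then
        (ArithmeticFunction.moebius d : ℝ) / d *
          Gk (|(j : ℝ)| * H / ((d : ℝ) ^ 2 * (m₁ * m₂))) else 0| ≤ 5040 * g := by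
    refine (Finset.abs_sum_le_sum_abs _ _).trans ?_
    have : ∀ d ∈ g.divisors, |if (d : ℤ) ∣ j then
        (ArithmeticFunction.moebius d : ℝ) / d *
          Gk (|(j : ℝ)| * H / ((d : ℝ) ^ 2 * (m₁ * m₂))) else 0| ≤ 5040 := by
      intro d _
      split_ifs
      · rw [abs_mul]
        calc _ ≤ 1 * 5040 := mul_le_mul (moebius_div_le d) (Gk_abs_le hk _) (abs_nonneg _)
              zero_le_one
          _ = 5040 := by norm_num
      · simp
    refine (Finset.sum_le_sum this).trans ?_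
    rw [Finset.sum_const, nsmul_eq_mul, mul_comm]
    have := dv_le g
    unfold dv at this
    linarith
  have h2 : Real.exp (-π * g * u * (m₁ + m₂)) =
      Real.exp (-(π * g * u) * m₁) * Real.exp (-(π * g * u) * m₂) := by
    rw [← Real.exp_add]; congr 1; ring
  rw [abs_mul, abs_mul, abs_mul, abs_mul, abs_mul, abs_of_nonneg (sq_nonneg _), h2, abs_mul,
    abs_of_pos (Real.exp_pos _), abs_of_pos (Real.exp_pos _)]
  have h3 := (lam_le hco m₁).trans (dv_le m₁)
  have h4 := (lam_le hco m₂).trans (dv_le m₂)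
  have h5 := chi_le j (m₁ * m₂)
  calc (ca g : ℝ) ^ 2 * (|lam m₁| * |lam m₂|) * |chi j (m₁ * m₂)| * _ *
        (Real.exp (-(π * g * u) * m₁) * Real.exp (-(π * g * u) * m₂))
      ≤ (ca g : ℝ) ^ 2 * (m₁ * m₂) * 1 * (5040 * g) *
        (Real.exp (-(π * g * u) * m₁) * Real.exp (-(π * g * u) * m₂)) := by gcongr
    _ = _ := by ring

lemma Fe_le (hco : StCoef) (hk : StKer) (H : ℝ) (r : ℕ) (j : ℤ) (u : ℝ) (g e m₁ m₂ : ℕ) :
    |Fe H r j u g e m₁ m₂| ≤ (ca g : ℝ) ^ 2 * (5040 * g) *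
      (((m₁ : ℝ) ^ 3 * Real.exp (-(π * g * u) * m₁)) *
        ((m₂ : ℝ) ^ 1 * Real.exp (-(π * g * u) * m₂)) * (1 / (e : ℝ) ^ 2)) := by
  unfold Fe
  split_ifs with h
  · have hm : m₁ ≠ 0 := h.1.2.1.1.ne_zero
    have he : 0 < e := Nat.pos_of_dvd_of_pos h.2.1 (Nat.pos_of_ne_zero hm)
    have hle : (e : ℝ) ≤ m₁ := by exact_mod_cast Nat.le_of_dvd (Nat.pos_of_ne_zero hm) h.2.1
    have he' : (0 : ℝ) < e := by exact_mod_cast he
    have h1 : |(ArithmeticFunction.moebius e : ℝ)| ≤ 1 := by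
      have := ArithmeticFunction.abs_moebius_le_one (n := e)
      exact_mod_cast this
    have h2 : (1 : ℝ) ≤ (m₁ : ℝ) ^ 2 * (1 / (e : ℝ) ^ 2) := by
      rw [mul_one_div, le_div_iff₀ (by positivity), one_mul]
      gcongr
    rw [abs_mul]
    calc _ ≤ 1 * |base H j u g m₁ m₂| := by gcongr
      _ ≤ 1 * ((ca g : ℝ) ^ 2 * (5040 * g) *
      ((m₁ * Real.exp (-(π * g * u) * m₁)) * (m₂ * Real.exp (-(π * g * u) * m₂)))) := by
          gcongr; exact base_le hco hk H j u g m₁ m₂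
      _ ≤ ((m₁ : ℝ) ^ 2 * (1 / (e : ℝ) ^ 2)) * ((ca g : ℝ) ^ 2 * (5040 * g) *
      ((m₁ * Real.exp (-(π * g * u) * m₁)) * (m₂ * Real.exp (-(π * g * u) * m₂)))) := by
          gcongr
      _ = _ := by ring
  · simp only [abs_zero]; positivity

lemma summable_Fe (hco : StCoef) (hk : StKer) (H : ℝ) (r : ℕ) (j : ℤ) (u : ℝ) (hu : 0 < u)
    (g : ℕ) (hg : 0 < g) :
    Summable (fun t : (ℕ × ℕ) × ℕ => Fe H r j u g t.2 t.1.1 t.1.2) := by
  have hc : 0 < π * g * u := by positivity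
  have s1 := Real.summable_pow_mul_exp_neg_nat_mul 3 hc
  have s2 := Real.summable_pow_mul_exp_neg_nat_mul 1 hc
  have s3 : Summable (fun e : ℕ => 1 / (e : ℝ) ^ 2) :=
    Real.summable_one_div_nat_pow.mpr (by norm_num)
  have s4 := (s1.mul_of_nonneg s2 (fun _ => by positivity) (fun _ => by positivity))
  have s5 := (s4.mul_of_nonneg s3 (fun _ => by positivity) (fun _ => by positivity)).mul_left
    ((ca g : ℝ) ^ 2 * (5040 * g))
  refine Summable.of_norm_bounded s5 ?_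
  rintro ⟨⟨m₁, m₂⟩, e⟩
  exact Fe_le hco hk H r j u g e m₁ m₂

lemma Aj_le (hco : StCoef) (hk : StKer) (H : ℝ) (r : ℕ) (j : ℤ) (u : ℝ) (hu : 0 < u) :
    ENNReal.ofReal |Aj H r j u| ≤
      ∑' g : ℕ, ∑' e : ℕ, ‖∑' m : ℕ × ℕ, Fe H r j u g e m.1 m.2‖ₑ := by
  rw [← Real.enorm_eq_ofReal_abs]
  unfold Aj
  by_cases hs : Summable (AjTerm H r j u)
  · rw [hs.tsum_prod]
    refine enorm_tsum_le_tsum_enorm.trans (ENNReal.tsum_le_tsum fun g => ?_)
    refine le_trans (le_of_eq ?_) (enorm_tsum_le_tsum_enorm (f := fun e : ℕ =>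
      ∑' m : ℕ × ℕ, Fe H r j u g e m.1 m.2))
    congr 1
    have h1 : ∀ m : ℕ × ℕ, AjTerm H r j u (g, m) = ∑' e : ℕ, Fe H r j u g e m.1 m.2 :=
      fun m => AjTerm_eq H r j u g m.1 m.2
    simp_rw [h1]
    rcases Nat.eq_zero_or_pos g with hg | hg
    · subst hg
      have : ∀ (e : ℕ) (m : ℕ × ℕ), Fe H r j u 0 e m.1 m.2 = 0 := by
        intro e m
        unfold Fe
        rw [if_neg]
        intro h
        exact not_squarefree_zero h.1.1.1
      simp [this]
    · exact (Summable.tsum_comm (f := fun (m : ℕ × ℕ) (e : ℕ) => Fe H r j u g e m.1 m.2)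
        (summable_Fe hco hk H r j u hu g hg)).symm
  · rw [tsum_eq_zero_of_not_summable hs]
    simp

/-! ### one pair `(g, e)` -/

/-- the condition on the new variables -/
def P (R n : ℕ) : Prop := Squarefree n ∧ n.Coprime R

lemma cnd_mul (r g e n₁ n₂ : ℕ) :
    Cnd r g (e * n₁) (e * n₂) ↔
      ((Squarefree g ∧ g.Coprime r) ∧ Squarefree e ∧ e.Coprime (g * r)) ∧
        P (e * g * r) n₁ ∧ P (e * g * r) n₂ := by
  unfold Cnd P
  simp only [Nat.squarefree_mul_iff, Nat.coprime_mul_iff_left, Nat.coprime_mul_iff_right]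
  constructor
  · rintro ⟨⟨h1, h2⟩, ⟨⟨h3, h4, h5⟩, ⟨h6, h7⟩, h8, h9⟩, ⟨⟨h10, -, h11⟩, ⟨-, h12⟩, -, h13⟩⟩
    exact ⟨⟨⟨h1, h2⟩, h4, h6, h8⟩, ⟨h5, ⟨h3.symm, h7⟩, h9⟩, ⟨h11, ⟨h10.symm, h12⟩, h13⟩⟩
  · rintro ⟨⟨⟨h1, h2⟩, h4, h6, h8⟩, ⟨h5, ⟨h3, h7⟩, h9⟩, ⟨h11, ⟨h10, h12⟩, h13⟩⟩
    exact ⟨⟨h1, h2⟩, ⟨⟨h3.symm, h4, h5⟩, ⟨h6, h7⟩, h8, h9⟩, ⟨⟨h10.symm, h4, h11⟩, ⟨h6, h12⟩, h8,
      h13⟩⟩

/-- the exponent `1/2 - θ + iv` -/
noncomputable def wv (θ v : ℝ) : ℂ := ((1 / 2 - θ : ℝ) : ℂ) + v * Complex.I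

/-- the divisor sum -/
noncomputable def Dv (θ v : ℝ) (j : ℤ) (g : ℕ) : ℂ :=
  ∑ d ∈ g.divisors, if (d : ℤ) ∣ j then
    (((ArithmeticFunction.moebius d : ℝ) / d : ℝ) : ℂ) *
      Complex.exp (wv θ v * (2 * Real.log d : ℝ)) else 0

/-- the weight in `v` -/
noncomputable def Kc (θ H : ℝ) (j : ℤ) (g e : ℕ) (v : ℝ) : ℂ :=
  (((ArithmeticFunction.moebius e : ℝ) * (ca g : ℝ) ^ 2 * lam e ^ 2 * chi j e ^ 2 : ℝ) : ℂ) *
    kapc θ v * Complex.exp (-wv θ v * (Real.log (|(j : ℝ)| * H) : ℝ)) *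
    Complex.exp (wv θ v * (2 * Real.log e : ℝ)) * Dv θ v j g

open Classical in
/-- the terms of `Tf` -/
noncomputable def an (θ : ℝ) (R : ℕ) (j : ℤ) (U : ℝ) (n : ℕ) (v : ℝ) : ℂ :=
  if P R n then
    (((ca n : ℝ) * chi j n * Real.exp (-π * n * U) : ℝ) : ℂ) *
      (n : ℂ) ^ (-(θ : ℂ) + v * Complex.I) else 0

lemma Tf_eq (θ v : ℝ) (R : ℕ) (j : ℤ) (U : ℝ) : Tf θ v R j U = ∑' n : ℕ, an θ R j U n v := by
  unfold Tf an P
  congr 1
  ext n
  congr

lemma Kc_norm (hco : StCoef) (θ H : ℝ) (hθ : 0 < θ) (hθ' : θ ≤ 1 / 8) (hH : 0 < H) (j g e : ℕ)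
    (hj : 0 < j) (he : 0 < e) (v C : ℝ) (hC : 0 < C)
    (hb : ‖kapc θ v‖ ≤ C * Real.exp (-3 * π * |v|)) :
    ‖Kc θ H j g e v‖ ≤ C * (j * H) ^ (-1 / 2 + θ) *
      (g * dv g ^ 3 * (dv e ^ 2 * (e : ℝ) ^ (1 - 2 * θ))) * Real.exp (-3 * π * |v|) := by
  have hjH : 0 < (j : ℝ) * H := by positivity
  have he' : (0 : ℝ) < e := by exact_mod_cast he
  have hre : (wv θ v).re = 1 / 2 - θ := by simp [wv]
  have h1 : ‖Complex.exp (-wv θ v * (Real.log (|((j : ℤ) : ℝ)| * H) : ℝ))‖ =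
      (j * H) ^ (-1 / 2 + θ) := by
    rw [Complex.norm_exp, Complex.re_mul_ofReal, Complex.neg_re, hre, Real.rpow_def_of_pos hjH]
    simp only [Int.cast_natCast, Nat.abs_cast]
    congr 1; ring
  have h2 : ‖Complex.exp (wv θ v * (2 * Real.log e : ℝ))‖ = (e : ℝ) ^ (1 - 2 * θ) := by
    rw [Complex.norm_exp, Complex.re_mul_ofReal, hre, Real.rpow_def_of_pos he']
    congr 1; ring
  have h3 : ‖Dv θ v j g‖ ≤ dv g := by
    unfold Dv
    refine (norm_sum_le _ _).trans ?_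
    have : ∀ d ∈ g.divisors, ‖if (d : ℤ) ∣ (j : ℤ) then
      (((ArithmeticFunction.moebius d : ℝ) / d : ℝ) : ℂ) *
        Complex.exp (wv θ v * (2 * Real.log d : ℝ)) else 0‖ ≤ 1 := by
      intro d hd
      have hd0 : 0 < d := Nat.pos_of_mem_divisors hd
      have hd1 : (1 : ℝ) ≤ d := by exact_mod_cast hd0
      split_ifs
      · rw [norm_mul, Complex.norm_exp, Complex.re_mul_ofReal, hre, Complex.norm_real,
          Real.norm_eq_abs, abs_div, abs_of_pos (by linarith : (0 : ℝ) < d)]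
        have hmu : |(ArithmeticFunction.moebius d : ℝ)| ≤ 1 := by
          have := ArithmeticFunction.abs_moebius_le_one (n := d)
          exact_mod_cast this
        have hl : 0 ≤ Real.log d := Real.log_nonneg hd1
        have : Real.exp ((1 / 2 - θ) * (2 * Real.log d)) ≤ d := by
          calc _ ≤ Real.exp (Real.log d) := by
                apply Real.exp_le_exp.mpr; nlinarith
            _ = d := Real.exp_log (by linarith)
        calc _ ≤ 1 / (d : ℝ) * d := by gcongr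
          _ = 1 := by field_simp
      · simp
    refine (Finset.sum_le_sum this).trans ?_
    rw [Finset.sum_const, nsmul_eq_mul, mul_one]
    rfl
  have h4 : |(ArithmeticFunction.moebius e : ℝ) * (ca g : ℝ) ^ 2 * lam e ^ 2 *
      chi j e ^ 2| ≤ 1 * (g * dv g ^ 2) * dv e ^ 2 * 1 := by
    rw [abs_mul, abs_mul, abs_mul, abs_pow (lam e), abs_pow (chi j e), abs_pow]
    have hmu : |(ArithmeticFunction.moebius e : ℝ)| ≤ 1 := by
      have := ArithmeticFunction.abs_moebius_le_one (n := e)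
      exact_mod_cast this
    have hg : |(ca g : ℝ)| ^ 2 ≤ g * dv g ^ 2 := by
      calc |(ca g : ℝ)| ^ 2 ≤ (dv g * √(g : ℝ)) ^ 2 := by
            gcongr; exact hco.bound g
        _ = g * dv g ^ 2 := by
            rw [mul_pow, Real.sq_sqrt (by positivity)]; ring
    have hx : |chi j e| ^ 2 ≤ 1 := by
      calc |chi j e| ^ 2 ≤ 1 ^ 2 := by gcongr; exact chi_le _ _
        _ = 1 := by norm_num
    have hle := lam_le hco e
    gcongr
  unfold Kc
  rw [norm_mul, norm_mul, norm_mul, norm_mul, h1, h2, Complex.norm_real, Real.norm_eq_abs]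
  have hd := dv_nonneg g
  have hde := dv_nonneg e
  calc _ ≤ (1 * (g * dv g ^ 2) * dv e ^ 2 * 1) * (C * Real.exp (-3 * π * |v|)) *
        (j * H) ^ (-1 / 2 + θ) * (e : ℝ) ^ (1 - 2 * θ) * dv g := by gcongr
    _ = _ := by ring

lemma integrable_expabs : Integrable (fun v : ℝ => Real.exp (-3 * π * |v|)) := by
  refine Integrable.mono' (integrable_inv_one_add_sq) (by fun_prop) ?_
  refine Filter.Eventually.of_forall fun v => ?_
  rw [Real.norm_eq_abs, abs_of_pos (Real.exp_pos _), ← one_div, le_div_iff₀ (by positivity)]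
  have h0 : 0 ≤ |v| := abs_nonneg v
  have h1 : |v| ≤ 3 * π * |v| / 3 := by nlinarith [Real.pi_gt_three]
  have h2 := Real.quadratic_le_exp_of_nonneg (x := 3 * π * |v|) (by positivity)
  have h3 : 1 + v ^ 2 ≤ Real.exp (3 * π * |v|) := by
    refine le_trans ?_ h2
    have h4 : v ^ 2 = |v| ^ 2 := (sq_abs v).symm
    have h5 : (9 : ℝ) * |v| ≤ 3 * π * |v| := by nlinarith [Real.pi_gt_three]
    have h6 : (9 * |v|) ^ 2 ≤ (3 * π * |v|) ^ 2 := by gcongr
    nlinarith [sq_nonneg (|v|), mul_nonneg Real.pi_pos.le h0]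
  calc Real.exp (-3 * π * |v|) * (1 + v ^ 2) ≤ Real.exp (-3 * π * |v|) *
        Real.exp (3 * π * |v|) := by gcongr
    _ = 1 := by rw [← Real.exp_add]; ring_nf; simp

lemma wv_cont (θ : ℝ) : Continuous (fun v : ℝ => wv θ v) := by
  unfold wv; fun_prop

lemma Dv_cont (θ : ℝ) (j : ℤ) (g : ℕ) : Continuous (fun v : ℝ => Dv θ v j g) := by
  unfold Dv
  refine continuous_finsetSum _ fun d _ => ?_
  split_ifs
  · have := wv_cont θ
    fun_prop
  · exact continuous_const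

lemma Kc_cont (hk : StKer) (θ H : ℝ) (hθ : 0 < θ) (hθ' : θ ≤ 1 / 8) (j : ℤ) (g e : ℕ) :
    Continuous (Kc θ H j g e) := by
  have h1 := hk.kcont θ hθ (by linarith)
  have h2 := wv_cont θ
  have h3 := Dv_cont θ j g
  unfold Kc
  fun_prop

lemma Kc_int (hco : StCoef) (hk : StKer) (θ H : ℝ) (hθ : 0 < θ) (hθ' : θ ≤ 1 / 8) (hH : 0 < H)
    (j g e : ℕ) (hj : 0 < j) (he : 0 < e) : Integrable (Kc θ H j g e) := by
  obtain ⟨C, hC, hb⟩ := hk.kbound
  refine Integrable.mono' (integrable_expabs.const_mul (C * (j * H) ^ (-1 / 2 + θ) *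
      (g * dv g ^ 3 * (dv e ^ 2 * (e : ℝ) ^ (1 - 2 * θ)))))
    (Kc_cont hk θ H hθ hθ' j g e).aestronglyMeasurable ?_
  exact Filter.Eventually.of_forall fun v =>
    Kc_norm hco θ H hθ hθ' hH j g e hj he v C hC (hb θ v hθ (by linarith))

lemma kap_int (hk : StKer) (θ : ℝ) (hθ : 0 < θ) (hθ' : θ ≤ 1 / 8) (c : ℝ) :
    Integrable (fun v => kapc θ v * Complex.exp (wv θ v * (c : ℝ))) := by
  obtain ⟨C, hC, hb⟩ := hk.kbound
  refine Integrable.mono' (integrable_expabs.const_mul (C * Real.exp ((1 / 2 - θ) * c))) ?_ ?_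
  · have h1 := hk.kcont θ hθ (by linarith)
    have h2 := wv_cont θ
    exact Continuous.aestronglyMeasurable (by fun_prop)
  · refine Filter.Eventually.of_forall fun v => ?_
    have hre : (wv θ v).re = 1 / 2 - θ := by simp [wv]
    rw [norm_mul, Complex.norm_exp, Complex.re_mul_ofReal, hre]
    calc _ ≤ (C * Real.exp (-3 * π * |v|)) * Real.exp ((1 / 2 - θ) * c) := by
          gcongr; exact hb θ v hθ (by linarith)
      _ = _ := by ring

/-- the representation of the sum over `d` -/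
lemma sum_Gk (hk : StKer) (θ H : ℝ) (hθ : 0 < θ) (hθ' : θ ≤ 1 / 8) (hH : 0 < H) (j g : ℕ)
    (hj : 0 < j) (m₁ m₂ : ℕ) (h₁ : 0 < m₁) (h₂ : 0 < m₂) :
    ((∑ d ∈ g.divisors, if (d : ℤ) ∣ (j : ℤ) then
        (ArithmeticFunction.moebius d : ℝ) / d *
          Gk (|((j : ℤ) : ℝ)| * H / ((d : ℝ) ^ 2 * (m₁ * m₂))) else 0 : ℝ) : ℂ) =
    ∫ v : ℝ, kapc θ v * Complex.exp (-wv θ v * (Real.log (|((j : ℤ) : ℝ)| * H) : ℝ)) *
      Dv θ v j g * Complex.exp (wv θ v * (Real.log m₁ + Real.log m₂ : ℝ)) := by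
  have hj' : (0 : ℝ) < j := by exact_mod_cast hj
  have h₁' : (0 : ℝ) < m₁ := by exact_mod_cast h₁
  have h₂' : (0 : ℝ) < m₂ := by exact_mod_cast h₂
  have key : ∀ v : ℝ, kapc θ v * Complex.exp (-wv θ v * (Real.log (|((j : ℤ) : ℝ)| * H) : ℝ)) *
      Dv θ v j g * Complex.exp (wv θ v * (Real.log m₁ + Real.log m₂ : ℝ)) =
      ∑ d ∈ g.divisors, if (d : ℤ) ∣ (j : ℤ) then
        (((ArithmeticFunction.moebius d : ℝ) / d : ℝ) : ℂ) * (kapc θ v *
          Complex.exp (wv θ v * ((-Real.log (|((j : ℤ) : ℝ)| * H) + 2 * Real.log d +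
            Real.log m₁ + Real.log m₂ : ℝ) : ℂ))) else 0 := by
    intro v
    unfold Dv
    rw [Finset.mul_sum, Finset.sum_mul]
    refine Finset.sum_congr rfl fun d _ => ?_
    split_ifs
    · have : Complex.exp (wv θ v * ((-Real.log (|((j : ℤ) : ℝ)| * H) + 2 * Real.log d +
            Real.log m₁ + Real.log m₂ : ℝ) : ℂ)) =
          Complex.exp (-wv θ v * (Real.log (|((j : ℤ) : ℝ)| * H) : ℝ)) *
          Complex.exp (wv θ v * (2 * Real.log d : ℝ)) *
          Complex.exp (wv θ v * (Real.log m₁ + Real.log m₂ : ℝ)) := by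
        rw [← Complex.exp_add, ← Complex.exp_add]
        congr 1
        push_cast
        ring
      rw [this]
      ring
    · simp
  simp_rw [key]
  rw [integral_finsetSum]
  · push_cast
    refine Finset.sum_congr rfl fun d hd => ?_
    have hd0 : 0 < d := Nat.pos_of_mem_divisors hd
    have hd' : (0 : ℝ) < d := by exact_mod_cast hd0
    split_ifs
    · rw [integral_const_mul]
      push_cast
      congr 1
      have hy : 0 < |((j : ℤ) : ℝ)| * H / ((d : ℝ) ^ 2 * (m₁ * m₂)) := by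
        simp only [Int.cast_natCast, Nat.abs_cast]; positivity
      have h := hk.repr θ hθ (by linarith) _ hy
      push_cast at h
      rw [h]
      refine integral_congr_ae (Filter.Eventually.of_forall fun v => ?_)
      simp only
      congr 1
      have hlog : Real.log (|((j : ℤ) : ℝ)| * H / ((d : ℝ) ^ 2 * (m₁ * m₂))) =
          Real.log (|((j : ℤ) : ℝ)| * H) - 2 * Real.log d - Real.log m₁ - Real.log m₂ := by
        rw [Real.log_div (by simp only [Int.cast_natCast, Nat.abs_cast]; positivity)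
          (by positivity), Real.log_mul (x := (d : ℝ) ^ 2) (by positivity) (by positivity),
          Real.log_mul (x := (m₁ : ℝ)) (by positivity) (by positivity), Real.log_pow]
        push_cast; ring
      have hne : ((|((j : ℤ) : ℝ)| * H / ((d : ℝ) ^ 2 * (m₁ * m₂)) : ℝ) : ℂ) ≠ 0 := by
        exact_mod_cast hy.ne'
      have h7 := Complex.cpow_def_of_ne_zero hne (-(((1 / 2 - θ : ℝ) : ℂ) + v * Complex.I))
      rw [← Complex.ofReal_log hy.le, hlog] at h7
      push_cast at h7 ⊢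
      rw [h7]
      unfold wv
      congr 1
      push_cast
      ring
    · simp
  · intro d _
    split_ifs
    · exact (kap_int hk θ hθ hθ' _).const_mul _
    · exact integrable_zero _ _ _

lemma an_norm (θ : ℝ) (hθ : 0 < θ) (R : ℕ) (j : ℤ) (U : ℝ) (n : ℕ) (v : ℝ) (hco : StCoef) :
    ‖an θ R j U n v‖ ≤ (n : ℝ) ^ 2 * Real.exp (-(π * U) * n) := by
  unfold an
  split_ifs with h
  · have hn : 0 < n := Nat.pos_of_ne_zero h.1.ne_zero
    have hn' : (1 : ℝ) ≤ n := by exact_mod_cast hn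
    rw [norm_mul, Complex.norm_real, Real.norm_eq_abs, abs_mul, abs_mul,
      abs_of_pos (Real.exp_pos _)]
    have h1 : ‖(n : ℂ) ^ (-(θ : ℂ) + v * Complex.I)‖ ≤ 1 := by
      rw [show (n : ℂ) = ((n : ℝ) : ℂ) by push_cast; rfl,
        Complex.norm_cpow_eq_rpow_re_of_pos (by linarith)]
      apply Real.rpow_le_one_of_one_le_of_nonpos hn'
      simp; linarith
    have h2 : |(ca n : ℝ)| ≤ (n : ℝ) ^ 2 := by
      refine (hco.bound n).trans ?_
      have hs : √(n : ℝ) ≤ n := by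
        rw [Real.sqrt_le_left (by linarith)]
        nlinarith
      have := dv_le n
      have h0 := dv_nonneg n
      calc dv n * √(n : ℝ) ≤ n * n := by gcongr
        _ = _ := by ring
    have h3 := chi_le j n
    have h4 : Real.exp (-π * n * U) = Real.exp (-(π * U) * n) := by congr 1; ring
    rw [h4]
    calc _ ≤ (n : ℝ) ^ 2 * 1 * Real.exp (-(π * U) * n) * 1 := by gcongr
      _ = _ := by ring
  · simp only [norm_zero]; positivity

lemma an_cont (θ : ℝ) (R : ℕ) (j : ℤ) (U : ℝ) (n : ℕ) : Continuous (an θ R j U n) := by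
  unfold an
  by_cases h : P R n
  · simp only [h, if_true]
    have hn : (n : ℂ) ≠ 0 := by
      have := h.1.ne_zero
      exact_mod_cast this
    refine continuous_const.mul ?_
    exact Continuous.const_cpow (by fun_prop) (Or.inl hn)
  · simp only [h, if_false]
    exact continuous_const

/-- exchange of the sum over `(n₁, n₂)` and the integral -/
lemma tsum_integral (hco : StCoef) (θ : ℝ) (hθ : 0 < θ) (R : ℕ) (j : ℤ) (U : ℝ) (hU : 0 < U)
    (K : ℝ → ℂ) (hK : Integrable K) :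
    ∑' t : ℕ × ℕ, ∫ v : ℝ, K v * (an θ R j U t.1 v * an θ R j U t.2 v) =
      ∫ v : ℝ, K v * (Tf θ v R j U) ^ 2 := by
  have hc : 0 < π * U := by positivity
  have hs := Real.summable_pow_mul_exp_neg_nat_mul 2 hc
  have hF : ∀ t : ℕ × ℕ, Integrable
      (fun v => K v * (an θ R j U t.1 v * an θ R j U t.2 v)) := by
    intro t
    refine Integrable.mono' (hK.norm.mul_const (((t.1 : ℝ) ^ 2 * Real.exp (-(π * U) * t.1)) *
      ((t.2 : ℝ) ^ 2 * Real.exp (-(π * U) * t.2))))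
      (hK.aestronglyMeasurable.mul
        ((an_cont θ R j U t.1).mul (an_cont θ R j U t.2)).aestronglyMeasurable) ?_
    refine Filter.Eventually.of_forall fun v => ?_
    rw [norm_mul, norm_mul]
    have h1 := an_norm θ hθ R j U t.1 v hco
    have h2 := an_norm θ hθ R j U t.2 v hco
    gcongr
  rw [integral_tsum_of_summable_integral_norm hF]
  · refine integral_congr_ae (Filter.Eventually.of_forall fun v => ?_)
    simp only
    rw [tsum_mul_left, sq, Tf_eq]
    congr 1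
    have hn : Summable (fun n => ‖an θ R j U n v‖) :=
      Summable.of_nonneg_of_le (fun _ => norm_nonneg _)
        (fun n => an_norm θ hθ R j U n v hco) hs
    exact (tsum_mul_tsum_of_summable_norm hn hn).symm
  · refine Summable.of_nonneg_of_le (fun _ => integral_nonneg fun _ => norm_nonneg _)
      (fun t => ?_) ((hs.mul_of_nonneg hs (fun _ => by positivity)
        (fun _ => by positivity)).mul_left (∫ v, ‖K v‖))
    rw [← integral_mul_const]
    refine integral_mono_of_nonneg (Filter.Eventually.of_forall fun _ => norm_nonneg _)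
      (hK.norm.mul_const _) (Filter.Eventually.of_forall fun v => ?_)
    simp only
    rw [norm_mul, norm_mul]
    have h1 := an_norm θ hθ R j U t.1 v hco
    have h2 := an_norm θ hθ R j U t.2 v hco
    gcongr

lemma lam_mul (hco : StCoef) (a b : ℕ) (h : a.Coprime b) : lam (a * b) = lam a * lam b := by
  unfold lam
  rw [hco.mul a b h]
  push_cast
  rw [Real.sqrt_mul (by positivity)]
  ring

lemma chi_mul (j : ℤ) (a b : ℕ) (ha : a ≠ 0) (hb : b ≠ 0) :
    chi j (a * b) = chi j a * chi j b := by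
  unfold chi
  have : NeZero a := ⟨ha⟩
  have : NeZero b := ⟨hb⟩
  rw [jacobiSym.mul_right]
  push_cast
  rfl

/-- `lam n · n^w = a_n n^{-θ+iv}` -/
lemma lam_cpow (θ v : ℝ) (n : ℕ) (hn : 0 < n) :
    (lam n : ℂ) * Complex.exp (wv θ v * (Real.log n : ℝ)) =
      (ca n : ℂ) * (n : ℂ) ^ (-(θ : ℂ) + v * Complex.I) := by
  have hn' : (0 : ℝ) < n := by exact_mod_cast hn
  have hne : (n : ℂ) ≠ 0 := by exact_mod_cast hn'.ne'
  have hsq : √(n : ℝ) = Real.exp (Real.log n / 2) := by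
    rw [Real.sqrt_eq_rpow, Real.rpow_def_of_pos hn']
    congr 1; ring
  have hl : (lam n : ℂ) = (ca n : ℂ) * Complex.exp (-(Real.log n : ℝ) / 2) := by
    unfold lam
    rw [hsq, div_eq_mul_inv, ← Real.exp_neg]
    push_cast
    congr 2
    ring
  rw [hl, mul_assoc, ← Complex.exp_add, Complex.cpow_def_of_ne_zero hne,
    show (n : ℂ) = ((n : ℝ) : ℂ) by push_cast; rfl, ← Complex.ofReal_log hn'.le]
  congr 2
  unfold wv
  push_cast
  ring

lemma Fe_eq_integral (hco : StCoef) (hk : StKer) (θ H : ℝ) (hθ : 0 < θ) (hθ' : θ ≤ 1 / 8)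
    (hH : 0 < H) (j g e r : ℕ) (hj : 0 < j) (u : ℝ)
    (hge : (Squarefree g ∧ g.Coprime r) ∧ Squarefree e ∧ e.Coprime (g * r)) (n₁ n₂ : ℕ) :
    ((Fe H r j u g e (e * n₁) (e * n₂) : ℝ) : ℂ) =
      ∫ v : ℝ, Kc θ H j g e v *
        (an θ (e * g * r) j (u * g * e) n₁ v * an θ (e * g * r) j (u * g * e) n₂ v) := by
  classical
  unfold Fe
  have hiff : (Cnd r g (e * n₁) (e * n₂) ∧ e ∣ e * n₁ ∧ e ∣ e * n₂) ↔
      (P (e * g * r) n₁ ∧ P (e * g * r) n₂) := by
    rw [cnd_mul]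
    simp only [dvd_mul_right, and_true]
    exact ⟨fun h => h.2, fun h => ⟨hge, h⟩⟩
  by_cases h : P (e * g * r) n₁ ∧ P (e * g * r) n₂
  · rw [if_pos (hiff.mpr h)]
    obtain ⟨h₁, h₂⟩ := h
    have hn₁ : 0 < n₁ := Nat.pos_of_ne_zero h₁.1.ne_zero
    have hn₂ : 0 < n₂ := Nat.pos_of_ne_zero h₂.1.ne_zero
    have he : 0 < e := Nat.pos_of_ne_zero hge.2.1.ne_zero
    have c₁ : e.Coprime n₁ := by
      have := h₁.2
      rw [mul_assoc, Nat.coprime_mul_iff_right] at this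
      exact this.1.symm
    have c₂ : e.Coprime n₂ := by
      have := h₂.2
      rw [mul_assoc, Nat.coprime_mul_iff_right] at this
      exact this.1.symm
    unfold base
    rw [lam_mul hco e n₁ c₁, lam_mul hco e n₂ c₂, chi_mul j _ _ (by positivity) (by positivity),
      chi_mul j e n₁ (by positivity) (by positivity), chi_mul j e n₂ (by positivity)
      (by positivity), Complex.ofReal_mul, Complex.ofReal_mul, Complex.ofReal_mul,
      sum_Gk hk θ H hθ hθ' hH j g hj (e * n₁) (e * n₂) (by positivity) (by positivity)]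
    rw [← integral_const_mul, ← integral_mul_const, ← integral_const_mul]
    refine integral_congr_ae (Filter.Eventually.of_forall fun v => ?_)
    simp only
    unfold an Kc
    rw [if_pos h₁, if_pos h₂]
    have e1 : Complex.exp (wv θ v * (Real.log (e * n₁ : ℕ) + Real.log (e * n₂ : ℕ) : ℝ)) =
        Complex.exp (wv θ v * (2 * Real.log e : ℝ)) *
        Complex.exp (wv θ v * (Real.log n₁ : ℝ)) * Complex.exp (wv θ v * (Real.log n₂ : ℝ)) := by
      rw [← Complex.exp_add, ← Complex.exp_add]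
      have he' : (0 : ℝ) < e := by exact_mod_cast he
      have h₁' : (0 : ℝ) < n₁ := by exact_mod_cast hn₁
      have h₂' : (0 : ℝ) < n₂ := by exact_mod_cast hn₂
      congr 1
      push_cast
      rw [Real.log_mul he'.ne' h₁'.ne', Real.log_mul he'.ne' h₂'.ne']
      push_cast
      ring
    have e2 : Real.exp (-π * g * u * ((e * n₁ : ℕ) + (e * n₂ : ℕ))) =
        Real.exp (-π * n₁ * (u * g * e)) * Real.exp (-π * n₂ * (u * g * e)) := by
      rw [← Real.exp_add]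
      congr 1
      push_cast
      ring
    have e3 := lam_cpow θ v n₁ hn₁
    have e4 := lam_cpow θ v n₂ hn₂
    rw [e1, e2]
    clear e1 e2
    generalize Complex.exp (wv θ v * (Real.log n₁ : ℝ)) = x1 at *
    generalize Complex.exp (wv θ v * (Real.log n₂ : ℝ)) = x2 at *
    generalize (n₁ : ℂ) ^ (-(θ : ℂ) + v * Complex.I) = y1 at *
    generalize (n₂ : ℂ) ^ (-(θ : ℂ) + v * Complex.I) = y2 at *
    generalize Complex.exp (wv θ v * (2 * Real.log e : ℝ)) = z1
    generalize Complex.exp (-wv θ v * (Real.log (|((j : ℤ) : ℝ)| * H) : ℝ)) = z2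
    generalize Real.exp (-π * n₁ * (u * g * e)) = z3
    generalize Real.exp (-π * n₂ * (u * g * e)) = z4
    push_cast
    linear_combination ((ArithmeticFunction.moebius e : ℂ) * (ca g : ℂ) ^ 2 *
      (lam e : ℂ) ^ 2 * (chi j e : ℂ) ^ 2 * kapc θ v * z2 * z1 * Dv θ v j g *
      (chi j n₁ * z3) * (chi j n₂ * z4)) *
      ((lam n₂ : ℂ) * x2 * e3 + (ca n₁ : ℂ) * y1 * e4)
  · rw [if_neg (fun h' => h (hiff.mp h'))]
    have : ∀ v, an θ (e * g * r) j (u * g * e) n₁ v * an θ (e * g * r) j (u * g * e) n₂ v = 0 := by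
      intro v
      unfold an
      by_cases h₁ : P (e * g * r) n₁
      · rw [if_neg (fun h₂ => h ⟨h₁, h₂⟩)]; simp
      · rw [if_neg h₁]; simp
    simp [this]

lemma one_pair (hco : StCoef) (hk : StKer) (θ H : ℝ) (hθ : 0 < θ) (hθ' : θ ≤ 1 / 8)
    (hH : 0 < H) (j g e r : ℕ) (hj : 0 < j) (u : ℝ) (hu : 0 < u) (C : ℝ) (hC : 0 < C)
    (hb : ∀ v : ℝ, ‖kapc θ v‖ ≤ C * Real.exp (-3 * π * |v|)) :
    ‖∑' m : ℕ × ℕ, Fe H r j u g e m.1 m.2‖ₑ ≤
      ENNReal.ofReal (C * (j * H) ^ (-1 / 2 + θ)) *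
      (ENNReal.ofReal (g * dv g ^ 3 * (dv e ^ 2 * (e : ℝ) ^ (1 - 2 * θ))) *
          ∫⁻ v : ℝ, ENNReal.ofReal (Real.exp (-3 * π * |v|) *
            ‖Tf θ v (e * g * r) j (u * g * e)‖ ^ 2)) := by
  by_cases hge : (Squarefree g ∧ g.Coprime r) ∧ Squarefree e ∧ e.Coprime (g * r)
  · have he : 0 < e := Nat.pos_of_ne_zero hge.2.1.ne_zero
    have hg : 0 < g := Nat.pos_of_ne_zero hge.1.1.ne_zero
    have hU : 0 < u * g * e := by positivity
    -- reindex
    have hinj : Function.Injective (fun n : ℕ × ℕ => (e * n.1, e * n.2)) := by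
      rintro ⟨a, b⟩ ⟨c, d⟩ h
      simp only [Prod.mk.injEq, mul_eq_mul_left_iff] at h
      obtain ⟨h1, h2⟩ := h
      ext <;> simp <;> omega
    have hre : ∑' m : ℕ × ℕ, Fe H r j u g e m.1 m.2 =
        ∑' n : ℕ × ℕ, Fe H r j u g e (e * n.1) (e * n.2) := by
      refine (hinj.tsum_eq (f := fun m : ℕ × ℕ => Fe H r j u g e m.1 m.2) ?_).symm
      rintro ⟨m₁, m₂⟩ hm
      have h : Cnd r g m₁ m₂ ∧ e ∣ m₁ ∧ e ∣ m₂ := by
        by_contra h
        exact hm (if_neg h)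
      obtain ⟨a, ha⟩ := h.2.1
      obtain ⟨b, hb⟩ := h.2.2
      exact ⟨(a, b), by simp [ha, hb]⟩
    have hcast : ‖∑' m : ℕ × ℕ, Fe H r j u g e m.1 m.2‖ₑ =
        ‖∫ v : ℝ, Kc θ H j g e v * (Tf θ v (e * g * r) j (u * g * e)) ^ 2‖ₑ := by
      rw [hre, ← tsum_integral hco θ hθ (e * g * r) j (u * g * e) hU _
        (Kc_int hco hk θ H hθ hθ' hH j g e hj he)]
      simp_rw [← Fe_eq_integral hco hk θ H hθ hθ' hH j g e r hj u hge]
      rw [← Complex.ofReal_tsum]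
      simp [enorm_eq_nnnorm]
    rw [hcast, ← mul_assoc, ← ENNReal.ofReal_mul (by positivity), ← lintegral_const_mul']
    · refine (enorm_integral_le_lintegral_enorm _).trans (lintegral_mono fun v => ?_)
      rw [← ENNReal.ofReal_mul (by
        have := dv_nonneg g
        have := dv_nonneg e
        positivity), ← ofReal_norm]
      apply ENNReal.ofReal_le_ofReal
      rw [norm_mul, norm_pow, ← mul_assoc]
      gcongr
      exact Kc_norm hco θ H hθ hθ' hH j g e hj he v C hC (hb v)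
    · exact ENNReal.ofReal_ne_top
  · have : ∀ m : ℕ × ℕ, Fe H r j u g e m.1 m.2 = 0 := by
      rintro ⟨m₁, m₂⟩
      simp only [Fe]
      rw [if_neg]
      rintro ⟨h1, ⟨a, ha⟩, ⟨b, hb⟩⟩
      subst ha hb
      rw [cnd_mul] at h1
      exact hge h1.1
    simp [this]

end H2

theorem pfStSep (hco : StCoef) (hk : StKer) : StSep := by
  obtain ⟨C, hC, hb⟩ := hk.kbound
  refine ⟨C, hC, fun θ hθ hθ' H r j u hH hr hj hu => ?_⟩
  refine (H2.Aj_le hco hk H r j u hu).trans ?_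
  rw [← ENNReal.tsum_mul_left]
  refine ENNReal.tsum_le_tsum fun g => ?_
  rw [← ENNReal.tsum_mul_left]
  refine ENNReal.tsum_le_tsum fun e => ?_
  exact H2.one_pair hco hk θ H hθ hθ' hH j g e r hj u hu C hC
    (fun v => hb θ v hθ (by linarith))

end P004
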