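import Vale.Agent.P004.Iface

/-!
# P004, module H3: the bound for one `j ≥ 1`
-/

open Real MeasureTheory Set Filter
open scoped ENNReal Topology

namespace P004

namespace H3

lemma dv_nonneg (n : ℕ) : 0 ≤ dv n := by unfold dv; positivity

lemma one_le_dv {n : ℕ} (hn : n ≠ 0) : 1 ≤ dv n := by
  unfold dv
  have : 0 < n.divisors.card := Finset.card_pos.2 ⟨1, by simp [hn]⟩
  exact_mod_cast this

lemma dv_zero : dv 0 = 0 := by simp [dv]

lemma dv_mul_le (a b : ℕ) : dv (a * b) ≤ dv a * dv b := by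
  unfold dv
  have : (a * b).divisors.card ≤ a.divisors.card * b.divisors.card := by
    rw [Nat.divisors_mul]
    exact Finset.card_mul_le
  exact_mod_cast this

/-- crude bound for `ca` -/
lemma abs_ca_le (n : ℕ) : |(ca n : ℝ)| ≤ (2 * n + 1) ^ 2 * n := by
  have h1 : |ca n| ≤ ∑ x ∈ Finset.Icc (-(n : ℤ)) n, ∑ y ∈ Finset.Icc (-(n : ℤ)) n, (n : ℤ) := by
    unfold ca
    refine (Finset.abs_sum_le_sum_abs _ _).trans (Finset.sum_le_sum fun x hx => ?_)
    refine (Finset.abs_sum_le_sum_abs _ _).trans (Finset.sum_le_sum fun y hy => ?_)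
    split_ifs
    · rw [Finset.mem_Icc] at hx
      exact abs_le.2 hx
    · simp
  have h2 : |ca n| ≤ (2 * n + 1) ^ 2 * n := by
    refine h1.trans ?_
    simp only [Finset.sum_const, Int.card_Icc, nsmul_eq_mul]
    have : (((n : ℤ) + 1 - -(n : ℤ)).toNat : ℤ) = 2 * n + 1 := by
      rw [Int.toNat_of_nonneg (by omega)]; ring
    rw [this]
    apply le_of_eq; ring
  exact_mod_cast h2

lemma abs_chi_le (m : ℤ) (n : ℕ) : |chi m n| ≤ 1 := by
  unfold chi
  rcases jacobiSym.trichotomy m n with h | h | h <;> rw [h] <;> simp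

/-- the general term of `Tf` -/
noncomputable def tt (θ : ℝ) (R : ℕ) (m : ℤ) (n : ℕ) (p : ℝ × ℝ) : ℂ :=
  if Squarefree n ∧ n.Coprime R then
    (((ca n : ℝ) * chi m n * Real.exp (-π * n * p.2) : ℝ) : ℂ) *
      (n : ℂ) ^ (-(θ : ℂ) + p.1 * Complex.I) else 0

lemma norm_tt_le {θ : ℝ} (hθ : 0 < θ) (R : ℕ) (m : ℤ) (n : ℕ) (p : ℝ × ℝ) :
    ‖tt θ R m n p‖ ≤ 9 * ((n : ℝ) ^ 3 * Real.exp (-(π * p.2) * n)) := by
  unfold tt
  split_ifs with h
  · have hn : 1 ≤ n := Nat.one_le_iff_ne_zero.2 h.1.ne_zero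
    have hn' : (1 : ℝ) ≤ n := by exact_mod_cast hn
    rw [norm_mul, Complex.norm_natCast_cpow_of_pos (by omega), Complex.norm_real, norm_mul,
      norm_mul, Real.norm_eq_abs, Real.norm_eq_abs, Real.norm_eq_abs, Real.abs_exp]
    have e1 : (n : ℝ) ^ (-(θ : ℂ) + p.1 * Complex.I).re ≤ 1 := by
      apply Real.rpow_le_one_of_one_le_of_nonpos hn'
      simp; linarith
    have e2 : |(ca n : ℝ)| ≤ 9 * (n : ℝ) ^ 3 := by
      refine (abs_ca_le n).trans ?_
      have : (2 * (n : ℝ) + 1) ≤ 3 * n := by linarith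
      calc (2 * (n : ℝ) + 1) ^ 2 * n ≤ (3 * n) ^ 2 * n := by gcongr
        _ = 9 * (n : ℝ) ^ 3 := by ring
    have e3 : 0 ≤ (n : ℝ) ^ (-(θ : ℂ) + p.1 * Complex.I).re := by positivity
    calc |(ca n : ℝ)| * |chi m n| * rexp (-π * n * p.2) *
          (n : ℝ) ^ (-(θ : ℂ) + p.1 * Complex.I).re
        ≤ (9 * (n : ℝ) ^ 3) * 1 * rexp (-π * n * p.2) * 1 := by
          gcongr
          exact abs_chi_le m n
      _ = 9 * ((n : ℝ) ^ 3 * Real.exp (-(π * p.2) * n)) := by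
          rw [show -π * n * p.2 = -(π * p.2) * n by ring]; ring
  · simp only [norm_zero]; positivity

lemma summable_tt {θ : ℝ} (hθ : 0 < θ) (R : ℕ) (m : ℤ) {p : ℝ × ℝ} (hp : 0 < p.2) :
    Summable fun n => tt θ R m n p := by
  refine Summable.of_norm_bounded
    (g := fun n : ℕ => 9 * ((n : ℝ) ^ 3 * Real.exp (-(π * p.2) * n))) ?_
    (fun n => norm_tt_le hθ R m n p)
  exact (Real.summable_pow_mul_exp_neg_nat_mul 3 (by positivity)).mul_left 9

lemma measurable_tt (θ : ℝ) (R : ℕ) (m : ℤ) (n : ℕ) : Measurable (tt θ R m n) := by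
  by_cases h : Squarefree n ∧ n.Coprime R
  · have : tt θ R m n = fun p : ℝ × ℝ =>
        (((ca n : ℝ) * chi m n * Real.exp (-π * n * p.2) : ℝ) : ℂ) *
        (n : ℂ) ^ (-(θ : ℂ) + p.1 * Complex.I) := by
      funext p; unfold tt; rw [if_pos h]
    rw [this]
    fun_prop
  · have : tt θ R m n = fun p : ℝ × ℝ => 0 := by
      funext p; unfold tt; rw [if_neg h]
    rw [this]
    fun_prop

/-- `Tf` as a function of `(v, u)`, cut to `u > 0` -/
noncomputable def TG (θ : ℝ) (R : ℕ) (m : ℤ) (p : ℝ × ℝ) : ℂ :=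
  if 0 < p.2 then Tf θ p.1 R m p.2 else 0

lemma Tf_eq_tsum (θ v : ℝ) (R : ℕ) (m : ℤ) (u : ℝ) : Tf θ v R m u = ∑' n, tt θ R m n (v, u) := rfl

lemma measurable_TG {θ : ℝ} (hθ : 0 < θ) (R : ℕ) (m : ℤ) : Measurable (TG θ R m) := by
  refine measurable_of_tendsto_metrizable
    (f := fun (N : ℕ) (p : ℝ × ℝ) => if 0 < p.2 then ∑ n ∈ Finset.range N, tt θ R m n p else 0) ?_ ?_
  · intro N
    refine Measurable.ite (measurableSet_lt measurable_const measurable_snd) ?_ measurable_const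
    exact Finset.measurable_sum _ fun n _ => measurable_tt θ R m n
  · rw [tendsto_pi_nhds]
    intro p
    unfold TG
    by_cases hp : 0 < p.2
    · simp only [hp, if_true]
      exact (summable_tt hθ R m hp).hasSum.tendsto_sum_nat
    · simp only [hp, if_false]
      exact tendsto_const_nhds

lemma TG_eq {θ v u : ℝ} (hu : 0 < u) (R : ℕ) (m : ℤ) : TG θ R m (v, u) = Tf θ v R m u := by
  simp [TG, hu]

/-- absorbing the square -/
lemma Tf_sq (θ v : ℝ) (R j₁ j₂ : ℕ) (u : ℝ) :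
    Tf θ v R ((j₁ * j₂ ^ 2 : ℕ) : ℤ) u = Tf θ v (R * j₂) j₁ u := by
  unfold Tf
  refine tsum_congr fun n => ?_
  by_cases h : Squarefree n ∧ n.Coprime R
  · rw [if_pos h]
    by_cases h2 : n.Coprime j₂
    · rw [if_pos ⟨h.1, Nat.Coprime.mul_right h.2 h2⟩]
      have : chi ((j₁ * j₂ ^ 2 : ℕ) : ℤ) n = chi j₁ n := by
        unfold chi
        push_cast
        rw [jacobiSym.mul_left, jacobiSym.pow_left, jacobiSym.sq_one, mul_one]
        rw [Int.gcd_natCast_natCast]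
        exact h2.symm
      rw [this]
    · rw [if_neg (fun hh => h2 (Nat.Coprime.coprime_mul_left_right hh.2))]
      have : chi ((j₁ * j₂ ^ 2 : ℕ) : ℤ) n = 0 := by
        unfold chi
        push_cast
        rw [jacobiSym.mul_left, jacobiSym.pow_left]
        have : NeZero n := ⟨h.1.ne_zero⟩
        have h3 : jacobiSym j₂ n = 0 := by
          rw [jacobiSym.eq_zero_iff_not_coprime, Int.gcd_natCast_natCast]
          exact fun hh => h2 (Nat.Coprime.symm hh)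
        rw [h3]; simp
      rw [this]; simp
  · rw [if_neg h, if_neg (fun hh => h ⟨hh.1, Nat.Coprime.coprime_mul_right_right hh.2⟩)]

/-- scaling -/
lemma scale (θ : ℝ) (f : ℝ → ℂ) {c : ℝ} (hc : 0 < c) :
    ∫⁻ u in Ioi (0 : ℝ), ENNReal.ofReal (‖f (u * c)‖ ^ 2 * u ^ (1 + 2 * θ)) =
      ENNReal.ofReal (c ^ (-2 - 2 * θ)) * nrm θ f := by
  unfold nrm
  set h : ℝ → ℝ≥0∞ := fun t => ENNReal.ofReal (‖f t‖ ^ 2 * t ^ (1 + 2 * θ)) with hh
  have e1 : ∫⁻ u in Ioi (0 : ℝ), ENNReal.ofReal (‖f (u * c)‖ ^ 2 * u ^ (1 + 2 * θ)) =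
      ∫⁻ u in Ioi (0 : ℝ), ENNReal.ofReal (c ^ (-(1 + 2 * θ))) * h (u * c) := by
    refine setLIntegral_congr_fun measurableSet_Ioi fun u hu => ?_
    have hu : 0 < u := hu
    simp only [hh]
    rw [← ENNReal.ofReal_mul (by positivity)]
    congr 1
    rw [Real.mul_rpow hu.le hc.le, Real.rpow_neg hc.le]
    have : c ^ (1 + 2 * θ) ≠ 0 := by positivity
    field_simp
  have e2 : ∫⁻ u in Ioi (0 : ℝ), h (u * c) = ENNReal.ofReal (c⁻¹) * ∫⁻ u in Ioi (0 : ℝ), h u := by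
    have hm : Measure.map (· * c) (volume : Measure ℝ) = ENNReal.ofReal |c⁻¹| • volume :=
      Real.map_volume_mul_right hc.ne'
    rw [← lintegral_indicator measurableSet_Ioi, ← lintegral_indicator measurableSet_Ioi]
    have h1 : (fun u => (Ioi (0 : ℝ)).indicator (fun u => h (u * c)) u) =
        fun u => ((Ioi (0 : ℝ)).indicator h) (MeasurableEquiv.mulRight₀ c hc.ne' u) := by
      funext u
      simp only [indicator, mem_Ioi, MeasurableEquiv.mulRight₀]
      by_cases hu : 0 < u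
      · rw [if_pos hu, if_pos (by simpa using mul_pos hu hc)]; rfl
      · rw [if_neg hu, if_neg]
        simp only [MeasurableEquiv.coe_mk, Equiv.mulRight₀_apply, not_lt]
        exact mul_nonpos_of_nonpos_of_nonneg (not_lt.1 hu) hc.le
    rw [h1, ← lintegral_map_equiv]
    have h2 : Measure.map (MeasurableEquiv.mulRight₀ c hc.ne') (volume : Measure ℝ) =
        ENNReal.ofReal |c⁻¹| • volume := hm
    rw [h2, lintegral_smul_measure, abs_of_pos (inv_pos.2 hc), smul_eq_mul]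
  rw [e1, lintegral_const_mul' _ _ ENNReal.ofReal_ne_top, e2, ← mul_assoc,
    ← ENNReal.ofReal_mul (by positivity)]
  congr 2
  rw [← Real.rpow_neg_one c, ← Real.rpow_add hc]
  congr 1; ring

/-- the `v`-integral -/
lemma vint : ∃ M : ℝ, 0 < M ∧
    ∫⁻ v : ℝ, ENNReal.ofReal (Real.exp (-π * |v|)) ≤ ENNReal.ofReal M := by
  have hint : Integrable fun v : ℝ => 2 * (1 + v ^ 2)⁻¹ := integrable_inv_one_add_sq.const_mul 2
  refine ⟨∫ v : ℝ, 2 * (1 + v ^ 2)⁻¹, ?_, ?_⟩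
  · rw [integral_const_mul, integral_univ_inv_one_add_sq]; positivity
  · rw [ofReal_integral_eq_lintegral_ofReal hint (Eventually.of_forall fun v => by positivity)]
    refine lintegral_mono fun v => ENNReal.ofReal_le_ofReal ?_
    have h1 : 1 + v ^ 2 ≤ 2 * Real.exp |v| := by
      have := Real.quadratic_le_exp_of_nonneg (abs_nonneg v)
      have h2 : |v| ^ 2 = v ^ 2 := sq_abs v
      nlinarith [abs_nonneg v]
    have h3 : Real.exp (-π * |v|) ≤ Real.exp (-|v|) := by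
      apply Real.exp_le_exp.2
      nlinarith [abs_nonneg v, Real.pi_gt_three]
    refine h3.trans ?_
    rw [Real.exp_neg, ← div_eq_mul_inv, le_div_iff₀ (by positivity), inv_mul_le_iff₀ (by positivity)]
    linarith

lemma four_mul {a b c d : ℝ} (x : ℝ≥0∞) (ha : 0 ≤ a) (hb : 0 ≤ b) (hc : 0 ≤ c) :
    ENNReal.ofReal a * (ENNReal.ofReal b * (ENNReal.ofReal c * (ENNReal.ofReal d * x))) =
      ENNReal.ofReal (a * (b * (c * d))) * x := by
  rw [ENNReal.ofReal_mul ha, ENNReal.ofReal_mul hb, ENNReal.ofReal_mul hc]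
  ring

/-- the main computation for fixed `g`, `e` -/
lemma inner {θ : ℝ} (hθ : 0 < θ) {CF : ℝ} (hCF : 0 < CF)
    {CG : ℝ} (hCG : 0 < CG) {AG : ℕ} (r j₁ j₂ : ℕ) (hr : 0 < r) (hj₂ : 0 < j₂)
    (hF : ∀ v : ℝ, nrm θ (Bf θ v j₁) ≤
      ENNReal.ofReal (CF * (1 / θ) ^ 2 * Real.exp (2 * π * |v|)) * (Jm j₁ + 1))
    (hG : ∀ v : ℝ, ∀ R : ℕ, 0 < R → nrm θ (Tf θ v R j₁) ≤
      ENNReal.ofReal (CG * (1 / θ) ^ AG * dv R ^ AG) * nrm θ (Bf θ v j₁))
    {M : ℝ}
    (hv : ∫⁻ v : ℝ, ENNReal.ofReal (Real.exp (-π * |v|)) ≤ ENNReal.ofReal M)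
    {g e : ℕ} (hg : 0 < g) (he : 0 < e) :
    ∫⁻ u in Ioi (0 : ℝ), (∫⁻ v : ℝ, ENNReal.ofReal (Real.exp (-3 * π * |v|) *
        ‖TG θ (e * g * r) ((j₁ * j₂ ^ 2 : ℕ) : ℤ) (v, u * g * e)‖ ^ 2)) *
          ENNReal.ofReal (u ^ (1 + 2 * θ)) ≤
      ENNReal.ofReal (M * CF * CG * (1 / θ) ^ (AG + 2) * dv r ^ AG * dv j₂ ^ AG *
        (dv g ^ AG * dv e ^ AG * ((g : ℝ) * e) ^ (-2 - 2 * θ))) * (Jm j₁ + 1) := by
  have hg' : (0 : ℝ) < g := by exact_mod_cast hg
  have he' : (0 : ℝ) < e := by exact_mod_cast he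
  have hmeas : Measurable fun p : ℝ × ℝ =>
      TG θ (e * g * r) ((j₁ * j₂ ^ 2 : ℕ) : ℤ) (p.2, p.1 * g * e) := by
    have h1 := measurable_TG hθ (e * g * r) ((j₁ * j₂ ^ 2 : ℕ) : ℤ)
    exact h1.comp (by fun_prop)
  have e1 : ∫⁻ u in Ioi (0 : ℝ), (∫⁻ v : ℝ, ENNReal.ofReal (Real.exp (-3 * π * |v|) *
        ‖TG θ (e * g * r) ((j₁ * j₂ ^ 2 : ℕ) : ℤ) (v, u * g * e)‖ ^ 2)) *
          ENNReal.ofReal (u ^ (1 + 2 * θ)) =
      ∫⁻ v : ℝ, ∫⁻ u in Ioi (0 : ℝ), ENNReal.ofReal (Real.exp (-3 * π * |v|) *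
        ‖TG θ (e * g * r) ((j₁ * j₂ ^ 2 : ℕ) : ℤ) (v, u * g * e)‖ ^ 2) *
          ENNReal.ofReal (u ^ (1 + 2 * θ)) := by
    rw [← lintegral_lintegral_swap]
    · refine lintegral_congr fun u => ?_
      rw [lintegral_mul_const' _ _ ENNReal.ofReal_ne_top]
    · have h1 : Measurable fun p : ℝ × ℝ => ENNReal.ofReal (Real.exp (-3 * π * |p.2|) *
          ‖TG θ (e * g * r) ((j₁ * j₂ ^ 2 : ℕ) : ℤ) (p.2, p.1 * g * e)‖ ^ 2) *
          ENNReal.ofReal (p.1 ^ (1 + 2 * θ)) := by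
        refine (Measurable.ennreal_ofReal ?_).mul (Measurable.ennreal_ofReal ?_)
        · refine Measurable.mul (by fun_prop) ?_
          exact (hmeas.norm).pow_const 2
        · exact (measurable_fst.pow_const _)
      exact h1.aemeasurable
  rw [e1]
  have e2 : ∀ v : ℝ, ∫⁻ u in Ioi (0 : ℝ), ENNReal.ofReal (Real.exp (-3 * π * |v|) *
        ‖TG θ (e * g * r) ((j₁ * j₂ ^ 2 : ℕ) : ℤ) (v, u * g * e)‖ ^ 2) *
          ENNReal.ofReal (u ^ (1 + 2 * θ)) ≤
      ENNReal.ofReal (CF * CG * (1 / θ) ^ (AG + 2) * dv r ^ AG * dv j₂ ^ AG *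
        (dv g ^ AG * dv e ^ AG * ((g : ℝ) * e) ^ (-2 - 2 * θ))) * (Jm j₁ + 1) *
        ENNReal.ofReal (Real.exp (-π * |v|)) := by
    intro v
    have e3 : ∫⁻ u in Ioi (0 : ℝ), ENNReal.ofReal (Real.exp (-3 * π * |v|) *
        ‖TG θ (e * g * r) ((j₁ * j₂ ^ 2 : ℕ) : ℤ) (v, u * g * e)‖ ^ 2) *
          ENNReal.ofReal (u ^ (1 + 2 * θ)) = ENNReal.ofReal (Real.exp (-3 * π * |v|)) *
        ∫⁻ u in Ioi (0 : ℝ), ENNReal.ofReal
          (‖Tf θ v (e * g * r * j₂) j₁ (u * ((g : ℝ) * e))‖ ^ 2 * u ^ (1 + 2 * θ)) := by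
      rw [← lintegral_const_mul' _ _ ENNReal.ofReal_ne_top]
      refine setLIntegral_congr_fun measurableSet_Ioi fun u hu => ?_
      have hu : 0 < u := hu
      rw [TG_eq (by positivity), Tf_sq, ← ENNReal.ofReal_mul (by positivity),
        ← ENNReal.ofReal_mul (by positivity), ← mul_assoc, ← mul_assoc]
    rw [e3, scale _ _ (by positivity)]
    have hR : 0 < e * g * r * j₂ := by positivity
    have hd : dv (e * g * r * j₂) ^ AG ≤ dv r ^ AG * dv j₂ ^ AG * (dv g ^ AG * dv e ^ AG) := by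
      have : dv (e * g * r * j₂) ≤ dv r * dv j₂ * (dv g * dv e) := by
        calc dv (e * g * r * j₂) ≤ dv (e * g * r) * dv j₂ := dv_mul_le _ _
          _ ≤ dv (e * g) * dv r * dv j₂ := by
            gcongr
            · exact dv_nonneg _
            · exact dv_mul_le _ _
          _ ≤ dv e * dv g * dv r * dv j₂ := by
            gcongr
            · exact dv_nonneg _
            · exact dv_nonneg _
            · exact dv_mul_le _ _
          _ = dv r * dv j₂ * (dv g * dv e) := by ring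
      calc dv (e * g * r * j₂) ^ AG ≤ (dv r * dv j₂ * (dv g * dv e)) ^ AG := by
            gcongr
            exact dv_nonneg _
        _ = _ := by rw [mul_pow, mul_pow, mul_pow]
    calc ENNReal.ofReal (Real.exp (-3 * π * |v|)) * (ENNReal.ofReal (((g : ℝ) * e) ^ (-2 - 2 * θ)) *
          nrm θ (Tf θ v (e * g * r * j₂) j₁))
        ≤ ENNReal.ofReal (Real.exp (-3 * π * |v|)) * (ENNReal.ofReal (((g : ℝ) * e) ^ (-2 - 2 * θ)) *
          (ENNReal.ofReal (CG * (1 / θ) ^ AG * dv (e * g * r * j₂) ^ AG) *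
            (ENNReal.ofReal (CF * (1 / θ) ^ 2 * Real.exp (2 * π * |v|)) * (Jm j₁ + 1)))) := by
          gcongr
          exact (hG v _ hR).trans (by gcongr; exact hF v)
      _ = ENNReal.ofReal (Real.exp (-3 * π * |v|) * (((g : ℝ) * e) ^ (-2 - 2 * θ) *
          ((CG * (1 / θ) ^ AG * dv (e * g * r * j₂) ^ AG) *
            (CF * (1 / θ) ^ 2 * Real.exp (2 * π * |v|))))) * (Jm j₁ + 1) := by
          exact four_mul _ (by positivity) (by positivity)
            (by have := dv_nonneg (e * g * r * j₂); positivity)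
      _ ≤ ENNReal.ofReal (CF * CG * (1 / θ) ^ (AG + 2) * dv r ^ AG * dv j₂ ^ AG *
        (dv g ^ AG * dv e ^ AG * ((g : ℝ) * e) ^ (-2 - 2 * θ)) * Real.exp (-π * |v|)) *
          (Jm j₁ + 1) := by
          gcongr ENNReal.ofReal ?_ * _
          have hexp : Real.exp (-3 * π * |v|) * Real.exp (2 * π * |v|) = Real.exp (-π * |v|) := by
            rw [← Real.exp_add]; congr 1; ring
          calc Real.exp (-3 * π * |v|) * (((g : ℝ) * e) ^ (-2 - 2 * θ) *
            ((CG * (1 / θ) ^ AG * dv (e * g * r * j₂) ^ AG) *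
              (CF * (1 / θ) ^ 2 * Real.exp (2 * π * |v|)))) =
              (CF * CG * (1 / θ) ^ (AG + 2)) * ((g : ℝ) * e) ^ (-2 - 2 * θ) *
                (Real.exp (-3 * π * |v|) * Real.exp (2 * π * |v|)) *
                dv (e * g * r * j₂) ^ AG := by ring
            _ ≤ (CF * CG * (1 / θ) ^ (AG + 2)) * ((g : ℝ) * e) ^ (-2 - 2 * θ) *
                (Real.exp (-3 * π * |v|) * Real.exp (2 * π * |v|)) *
                (dv r ^ AG * dv j₂ ^ AG * (dv g ^ AG * dv e ^ AG)) := by gcongr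
            _ = _ := by rw [hexp]; ring
      _ = _ := by
          rw [ENNReal.ofReal_mul (p := CF * CG * (1 / θ) ^ (AG + 2) * dv r ^ AG * dv j₂ ^ AG *
            (dv g ^ AG * dv e ^ AG * ((g : ℝ) * e) ^ (-2 - 2 * θ)))
            (by have := dv_nonneg r; have := dv_nonneg j₂; have := dv_nonneg g
                have := dv_nonneg e; positivity)]
          ring
  refine (lintegral_mono e2).trans ?_
  have hne : ∀ v : ℝ, Measurable fun v : ℝ => ENNReal.ofReal (Real.exp (-π * |v|)) := by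
    intro v; fun_prop
  rw [lintegral_const_mul _ (hne 0)]
  calc ENNReal.ofReal (CF * CG * (1 / θ) ^ (AG + 2) * dv r ^ AG * dv j₂ ^ AG *
        (dv g ^ AG * dv e ^ AG * ((g : ℝ) * e) ^ (-2 - 2 * θ))) * (Jm j₁ + 1) *
        ∫⁻ v : ℝ, ENNReal.ofReal (Real.exp (-π * |v|))
      ≤ ENNReal.ofReal (CF * CG * (1 / θ) ^ (AG + 2) * dv r ^ AG * dv j₂ ^ AG *
        (dv g ^ AG * dv e ^ AG * ((g : ℝ) * e) ^ (-2 - 2 * θ))) * (Jm j₁ + 1) *
        ENNReal.ofReal M := by gcongr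
    _ = _ := by
      rw [show M * CF * CG * (1 / θ) ^ (AG + 2) * dv r ^ AG * dv j₂ ^ AG *
        (dv g ^ AG * dv e ^ AG * ((g : ℝ) * e) ^ (-2 - 2 * θ)) =
        CF * CG * (1 / θ) ^ (AG + 2) * dv r ^ AG * dv j₂ ^ AG *
        (dv g ^ AG * dv e ^ AG * ((g : ℝ) * e) ^ (-2 - 2 * θ)) * M by ring,
        ENNReal.ofReal_mul (q := M) (by have := dv_nonneg r; have := dv_nonneg j₂
                                        have := dv_nonneg g
                                        have := dv_nonneg e; positivity)]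
      ring

lemma measurable_I {θ : ℝ} (hθ : 0 < θ) (R : ℕ) (m : ℤ) (g e : ℝ) :
    Measurable fun u : ℝ => ∫⁻ v : ℝ, ENNReal.ofReal (Real.exp (-3 * π * |v|) *
        ‖TG θ R m (v, u * g * e)‖ ^ 2) := by
  have hmeas : Measurable fun p : ℝ × ℝ => TG θ R m (p.2, p.1 * g * e) := by
    have h1 := measurable_TG hθ R m
    exact h1.comp (by fun_prop)
  have h2 : Measurable fun p : ℝ × ℝ => ENNReal.ofReal (Real.exp (-3 * π * |p.2|) *
      ‖TG θ R m (p.2, p.1 * g * e)‖ ^ 2) := by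
    refine Measurable.ennreal_ofReal ?_
    refine Measurable.mul (by fun_prop) ?_
    exact (hmeas.norm).pow_const 2
  exact h2.lintegral_prod_right'

lemma weight_le {θ : ℝ} (hθ : 0 < θ) (AG : ℕ) {g e : ℕ} (hg : 0 < g) (he : 0 < e) :
    (g * dv g ^ 3 * (dv e ^ 2 * (e : ℝ) ^ (1 - 2 * θ))) *
      (dv g ^ AG * dv e ^ AG * ((g : ℝ) * e) ^ (-2 - 2 * θ)) ≤
    (dv g ^ (3 + AG) * (g : ℝ) ^ (-1 - θ)) * (dv e ^ (2 + AG) * (e : ℝ) ^ (-1 - θ)) := by
  have hg' : (1 : ℝ) ≤ g := by exact_mod_cast hg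
  have he' : (1 : ℝ) ≤ e := by exact_mod_cast he
  have e1 : (g : ℝ) * (g : ℝ) ^ (-2 - 2 * θ) ≤ (g : ℝ) ^ (-1 - θ) := by
    nth_rewrite 1 [← Real.rpow_one (g : ℝ)]
    rw [← Real.rpow_add (by linarith)]
    exact Real.rpow_le_rpow_of_exponent_le hg' (by linarith)
  have e2 : (e : ℝ) ^ (1 - 2 * θ) * (e : ℝ) ^ (-2 - 2 * θ) ≤ (e : ℝ) ^ (-1 - θ) := by
    rw [← Real.rpow_add (by linarith)]
    exact Real.rpow_le_rpow_of_exponent_le he' (by linarith)
  have hdg := dv_nonneg g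
  have hde := dv_nonneg e
  calc (g * dv g ^ 3 * (dv e ^ 2 * (e : ℝ) ^ (1 - 2 * θ))) *
      (dv g ^ AG * dv e ^ AG * ((g : ℝ) * e) ^ (-2 - 2 * θ))
      = (dv g ^ (3 + AG) * ((g : ℝ) * (g : ℝ) ^ (-2 - 2 * θ))) *
        (dv e ^ (2 + AG) * ((e : ℝ) ^ (1 - 2 * θ) * (e : ℝ) ^ (-2 - 2 * θ))) := by
        rw [Real.mul_rpow (by linarith) (by linarith), pow_add, pow_add]; ring
    _ ≤ _ := by gcongr

end H3

open H3 in
/-- Module H3. -/
theorem pfAj (hSep : StSep) (hConv : StConv) (hFrac : StFrac) (hDiv : StDiv) : StAj := by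
  obtain ⟨CS, hCS, hS⟩ := hSep
  obtain ⟨CG, hCG, AG, hG⟩ := hConv
  obtain ⟨CF, hCF, hF⟩ := hFrac
  obtain ⟨M, hM, hv⟩ := vint
  obtain ⟨C1, hC1, A1, h1⟩ := hDiv.1 (3 + AG)
  obtain ⟨C2, hC2, A2, h2⟩ := hDiv.1 (2 + AG)
  refine ⟨CS * M * CF * CG * C1 * C2, by positivity, AG + 2 + A1 + A2, ?_⟩
  intro θ hθ hθ8 H r j₁ j₂ hH hr hj₁ hj₂
  have hj₁0 : 0 < j₁ := Nat.pos_of_ne_zero hj₁.ne_zero
  set j : ℕ := j₁ * j₂ ^ 2 with hj
  have hj0 : 0 < j := by positivity
  have hj0' : (0 : ℝ) < j := by exact_mod_cast hj0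
  set B : ℝ := M * CF * CG * (1 / θ) ^ (AG + 2) * dv r ^ AG * dv j₂ ^ AG with hB
  have hdr := one_le_dv hr.ne'
  have hdj := one_le_dv hj₂.ne'
  have hB0 : 0 ≤ B := by positivity
  set w : ℕ → ℕ → ℝ≥0∞ := fun g e =>
    ENNReal.ofReal (g * dv g ^ 3 * (dv e ^ 2 * (e : ℝ) ^ (1 - 2 * θ))) with hw
  set I : ℕ → ℕ → ℝ → ℝ≥0∞ := fun g e u => ∫⁻ v : ℝ, ENNReal.ofReal (Real.exp (-3 * π * |v|) *
        ‖TG θ (e * g * r) (j : ℤ) (v, u * g * e)‖ ^ 2) with hI
  have step1 : ∀ u : ℝ, 0 < u → ENNReal.ofReal (|Aj H r (j : ℤ) u| * u ^ (1 + 2 * θ)) ≤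
      ENNReal.ofReal (CS * (j * H) ^ (-1 / 2 + θ)) * ∑' g : ℕ, ∑' e : ℕ,
        w g e * (I g e u * ENNReal.ofReal (u ^ (1 + 2 * θ))) := by
    intro u hu
    rw [ENNReal.ofReal_mul (abs_nonneg _)]
    refine (mul_le_mul_left (hS θ hθ hθ8 H r j u hH hr hj0 hu) _).trans (le_of_eq ?_)
    rw [mul_assoc]
    congr 1
    rw [← ENNReal.tsum_mul_right]
    refine tsum_congr fun g => ?_
    rw [← ENNReal.tsum_mul_right]
    refine tsum_congr fun e => ?_
    rw [mul_assoc]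
    by_cases hge : 0 < g ∧ 0 < e
    · have hg' : (0 : ℝ) < g := by exact_mod_cast hge.1
      have he' : (0 : ℝ) < e := by exact_mod_cast hge.2
      simp only [hI]
      congr 2
      refine lintegral_congr fun v => ?_
      rw [TG_eq (by positivity)]
    · have : w g e = 0 := by
        simp only [hw]
        rw [not_and_or, Nat.pos_iff_ne_zero, Nat.pos_iff_ne_zero, not_not, not_not] at hge
        rcases hge with rfl | rfl
        · simp
        · simp [dv_zero]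
      rw [this]
      simp only [hw] at this
      rw [this]; simp
  have hmI : ∀ g e : ℕ, Measurable (I g e) := fun g e => measurable_I hθ _ _ _ _
  have hmu : Measurable fun u : ℝ => ENNReal.ofReal (u ^ (1 + 2 * θ)) := by
    refine Measurable.ennreal_ofReal (measurable_id.pow_const _)
  calc ∫⁻ u in Ioi (0 : ℝ), ENNReal.ofReal (|Aj H r (j : ℤ) u| * u ^ (1 + 2 * θ))
      ≤ ∫⁻ u in Ioi (0 : ℝ), ENNReal.ofReal (CS * (j * H) ^ (-1 / 2 + θ)) * ∑' g : ℕ, ∑' e : ℕ,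
        w g e * (I g e u * ENNReal.ofReal (u ^ (1 + 2 * θ))) :=
        setLIntegral_mono' measurableSet_Ioi fun u hu => step1 u hu
    _ = ENNReal.ofReal (CS * (j * H) ^ (-1 / 2 + θ)) * ∑' g : ℕ, ∑' e : ℕ,
        w g e * ∫⁻ u in Ioi (0 : ℝ), (I g e u * ENNReal.ofReal (u ^ (1 + 2 * θ))) := by
        rw [lintegral_const_mul' _ _ ENNReal.ofReal_ne_top]
        congr 1
        rw [lintegral_tsum]
        · refine tsum_congr fun g => ?_
          rw [lintegral_tsum]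
          · refine tsum_congr fun e => ?_
            rw [lintegral_const_mul' _ _ ENNReal.ofReal_ne_top]
          · intro e
            exact (((hmI g e).mul hmu).const_mul _).aemeasurable
        · intro g
          exact (Measurable.tsum fun e => ((hmI g e).mul hmu).const_mul _).aemeasurable
    _ ≤ ENNReal.ofReal (CS * (j * H) ^ (-1 / 2 + θ)) * ∑' g : ℕ, ∑' e : ℕ,
        (ENNReal.ofReal B * (Jm j₁ + 1)) * (ENNReal.ofReal (dv g ^ (3 + AG) * (g : ℝ) ^ (-1 - θ)) *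
          ENNReal.ofReal (dv e ^ (2 + AG) * (e : ℝ) ^ (-1 - θ))) := by
        refine mul_le_mul_right (ENNReal.tsum_le_tsum fun g => ENNReal.tsum_le_tsum fun e => ?_) _
        by_cases hge : 0 < g ∧ 0 < e
        · have hg' : (0 : ℝ) < g := by exact_mod_cast hge.1
          have he' : (0 : ℝ) < e := by exact_mod_cast hge.2
          have hin := inner hθ hCF hCG (AG := AG) r j₁ j₂ hr hj₂
            (fun v => hF θ hθ hθ8 v j₁ hj₁0) (fun v R hR => hG θ hθ hθ8 v j₁ R hR) hv hge.1 hge.2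
          refine (mul_le_mul_right hin _).trans ?_
          rw [← hB]
          have hdg := dv_nonneg g
          have hde := dv_nonneg e
          calc w g e * (ENNReal.ofReal (B * (dv g ^ AG * dv e ^ AG *
                ((g : ℝ) * e) ^ (-2 - 2 * θ))) * (Jm j₁ + 1))
              = ENNReal.ofReal B * (Jm j₁ + 1) * ENNReal.ofReal
                ((g * dv g ^ 3 * (dv e ^ 2 * (e : ℝ) ^ (1 - 2 * θ))) *
                (dv g ^ AG * dv e ^ AG * ((g : ℝ) * e) ^ (-2 - 2 * θ))) := by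
                simp only [hw]
                rw [ENNReal.ofReal_mul hB0, ENNReal.ofReal_mul (p := g * dv g ^ 3 *
                  (dv e ^ 2 * (e : ℝ) ^ (1 - 2 * θ))) (by positivity)]
                ring
            _ ≤ ENNReal.ofReal B * (Jm j₁ + 1) * ENNReal.ofReal
                ((dv g ^ (3 + AG) * (g : ℝ) ^ (-1 - θ)) *
                  (dv e ^ (2 + AG) * (e : ℝ) ^ (-1 - θ))) := by
                exact mul_le_mul_right (ENNReal.ofReal_le_ofReal (weight_le hθ AG hge.1 hge.2)) _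
            _ = _ := by rw [ENNReal.ofReal_mul (p := dv g ^ (3 + AG) * (g : ℝ) ^ (-1 - θ))
                          (by positivity)]
        · have : w g e = 0 := by
            simp only [hw]
            rw [not_and_or, Nat.pos_iff_ne_zero, Nat.pos_iff_ne_zero, not_not, not_not] at hge
            rcases hge with rfl | rfl
            · simp
            · simp [dv_zero]
          rw [this]; simp
    _ = ENNReal.ofReal (CS * (j * H) ^ (-1 / 2 + θ)) * ((ENNReal.ofReal B * (Jm j₁ + 1)) *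
        ((∑' g : ℕ, ENNReal.ofReal (dv g ^ (3 + AG) * (g : ℝ) ^ (-1 - θ))) *
          ∑' e : ℕ, ENNReal.ofReal (dv e ^ (2 + AG) * (e : ℝ) ^ (-1 - θ)))) := by
        congr 1
        rw [← ENNReal.tsum_mul_right, ← ENNReal.tsum_mul_left]
        refine tsum_congr fun g => ?_
        rw [← ENNReal.tsum_mul_left, ← ENNReal.tsum_mul_left]
    _ ≤ ENNReal.ofReal (CS * (j * H) ^ (-1 / 2 + θ)) * ((ENNReal.ofReal B * (Jm j₁ + 1)) *
        (ENNReal.ofReal (C1 * (1 / θ) ^ A1) * ENNReal.ofReal (C2 * (1 / θ) ^ A2))) := by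
        gcongr
        · exact h1 θ hθ (by linarith)
        · exact h2 θ hθ (by linarith)
    _ = ENNReal.ofReal ((CS * (j * H) ^ (-1 / 2 + θ)) * (B * ((C1 * (1 / θ) ^ A1) *
        (C2 * (1 / θ) ^ A2)))) * (Jm j₁ + 1) := by
        rw [ENNReal.ofReal_mul (p := CS * (j * H) ^ (-1 / 2 + θ)) (by positivity),
          ENNReal.ofReal_mul (p := B) hB0,
          ENNReal.ofReal_mul (p := C1 * (1 / θ) ^ A1) (by positivity)]
        ring
    _ ≤ _ := by
        gcongr ENNReal.ofReal ?_ * _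
        have hθ1 : 1 ≤ 1 / θ := by rw [le_div_iff₀ hθ]; linarith
        calc (CS * (j * H) ^ (-1 / 2 + θ)) * (B * ((C1 * (1 / θ) ^ A1) * (C2 * (1 / θ) ^ A2)))
            = CS * M * CF * CG * C1 * C2 * (1 / θ) ^ (AG + 2 + A1 + A2) * dv r ^ AG * dv j₂ ^ AG *
              (j * H) ^ (-1 / 2 + θ) := by rw [hB]; ring
          _ ≤ CS * M * CF * CG * C1 * C2 * (1 / θ) ^ (AG + 2 + A1 + A2) *
              dv r ^ (AG + 2 + A1 + A2) * dv j₂ ^ (AG + 2 + A1 + A2) *
              (j * H) ^ (-1 / 2 + θ) := by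
              gcongr <;> omega
          _ = _ := by rfl

end P004
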