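import Vale.Agent.P004.Iface

/-!
# P004, module H5: the tail `j H > X² (C L)^17`
-/

open Real MeasureTheory Set Filter
open scoped ENNReal Topology

namespace P004

namespace H5

/-- crude bound for `ca` -/
lemma abs_ca_le (n : ℕ) : |(ca n : ℝ)| ≤ 9 * (n : ℝ) ^ 3 := by
  have h1 : |ca n| ≤ ∑ x ∈ Finset.Icc (-(n : ℤ)) n, ∑ y ∈ Finset.Icc (-(n : ℤ)) n, (n : ℤ) := by
    unfold ca
    refine (Finset.abs_sum_le_sum_abs _ _).trans (Finset.sum_le_sum fun x hx => ?_)
    refine (Finset.abs_sum_le_sum_abs _ _).trans (Finset.sum_le_sum fun y hy => ?_)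
    split_ifs
    · rw [Finset.mem_Icc] at hx
      exact abs_le.2 hx
    · simp
  have h2 : |ca n| ≤ (2 * n + 1) ^ 2 * n := by
    refine h1.trans ?_
    simp only [Finset.sum_const, Int.card_Icc, nsmul_eq_mul]
    have : (((n : ℤ) + 1 - -(n : ℤ)).toNat : ℤ) = 2 * n + 1 := by
      rw [Int.toNat_of_nonneg (by omega)]; ring
    rw [this]
    apply le_of_eq; ring
  have h3 : |(ca n : ℝ)| ≤ (2 * n + 1) ^ 2 * n := by exact_mod_cast h2
  rcases Nat.eq_zero_or_pos n with rfl | hn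
  · simpa using h3
  · have hn' : (1 : ℝ) ≤ n := by exact_mod_cast hn
    refine h3.trans ?_
    have : (2 * (n : ℝ) + 1) ≤ 3 * n := by linarith
    calc (2 * (n : ℝ) + 1) ^ 2 * n ≤ (3 * n) ^ 2 * n := by gcongr
      _ = 9 * (n : ℝ) ^ 3 := by ring

lemma abs_chi_le (m : ℤ) (n : ℕ) : |chi m n| ≤ 1 := by
  unfold chi
  rcases jacobiSym.trichotomy m n with h | h | h <;> rw [h] <;> simp

lemma abs_lam_le {n : ℕ} (hn : 0 < n) : |lam n| ≤ 9 * (n : ℝ) ^ 3 := by
  have hn' : (1 : ℝ) ≤ n := by exact_mod_cast hn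
  unfold lam
  rw [abs_div, abs_of_nonneg (Real.sqrt_nonneg _)]
  have h1 : (1 : ℝ) ≤ √(n : ℝ) := Real.one_le_sqrt.2 hn'
  calc |(ca n : ℝ)| / √(n : ℝ) ≤ |(ca n : ℝ)| := div_le_self (abs_nonneg _) h1
    _ ≤ _ := abs_ca_le n

/-- the kernel against the exponential -/
lemma kernel_bound (hK : StKer) : ∃ K : ℝ, 1 ≤ K ∧ ∀ P X N y u : ℝ, 1 ≤ P → 1 ≤ X → 0 < N →
    P * X ^ 2 / N ^ 2 ≤ y → 1 / (3 * X) ≤ u →
    Gk y * Real.exp (-π * N * u) ≤
      K * Real.exp (-(P ^ (1 / 17 : ℝ)) / 2) * Real.exp (-(π / 2) * N * u) := by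
  obtain ⟨C, hC, hd⟩ := hK.decay
  refine ⟨max C 5040, le_trans (by norm_num) (le_max_right _ _), ?_⟩
  intro P X N y u hP hX hN hy hu
  have hP0 : 0 < P := by linarith
  have hX0 : 0 < X := by linarith
  have hu0 : 0 < u := lt_of_lt_of_le (by positivity) hu
  have hy0 : 0 ≤ y := le_trans (by positivity) hy
  by_cases hcase : N ≤ X * P ^ (1 / 4 : ℝ)
  · have h1 : P ^ (1 / 2 : ℝ) ≤ y := by
      refine le_trans ?_ hy
      rw [le_div_iff₀ (by positivity)]
      have h2 : N ^ 2 ≤ X ^ 2 * P ^ (1 / 2 : ℝ) := by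
        calc N ^ 2 ≤ (X * P ^ (1 / 4 : ℝ)) ^ 2 := by gcongr
          _ = X ^ 2 * P ^ (1 / 2 : ℝ) := by
            rw [mul_pow, ← Real.rpow_natCast (P ^ (1 / 4 : ℝ)), ← Real.rpow_mul hP0.le]
            norm_num
      calc P ^ (1 / 2 : ℝ) * N ^ 2 ≤ P ^ (1 / 2 : ℝ) * (X ^ 2 * P ^ (1 / 2 : ℝ)) := by gcongr
        _ = (P ^ (1 / 2 : ℝ) * P ^ (1 / 2 : ℝ)) * X ^ 2 := by ring
        _ = P * X ^ 2 := by rw [← Real.rpow_add hP0]; norm_num
    have h3 : P ^ (1 / 17 : ℝ) ≤ y ^ (2 / 17 : ℝ) := by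
      calc P ^ (1 / 17 : ℝ) = (P ^ (1 / 2 : ℝ)) ^ (2 / 17 : ℝ) := by
            rw [← Real.rpow_mul hP0.le]; norm_num
        _ ≤ _ := Real.rpow_le_rpow (by positivity) h1 (by norm_num)
    have h4 : Gk y ≤ max C 5040 * Real.exp (-(P ^ (1 / 17 : ℝ)) / 2) := by
      refine (hd y hy0).trans ?_
      gcongr
      exact le_max_left _ _
    have h5 : Real.exp (-π * N * u) ≤ Real.exp (-(π / 2) * N * u) := by
      apply Real.exp_le_exp.2
      have : 0 < π * N * u := by positivity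
      nlinarith
    have h6 : 0 ≤ Gk y := hK.nonneg y
    calc Gk y * Real.exp (-π * N * u)
        ≤ (max C 5040 * Real.exp (-(P ^ (1 / 17 : ℝ)) / 2)) * Real.exp (-(π / 2) * N * u) := by
          gcongr
      _ = _ := rfl
  · push Not at hcase
    have h1 : Gk y ≤ max C 5040 := (hK.le y).trans (le_max_right _ _)
    have h2 : P ^ (1 / 17 : ℝ) / 2 ≤ (π / 2) * N * u := by
      have h3 : P ^ (1 / 17 : ℝ) ≤ P ^ (1 / 4 : ℝ) :=
        Real.rpow_le_rpow_of_exponent_le hP (by norm_num)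
      have h4 : X * P ^ (1 / 4 : ℝ) * (1 / (3 * X)) ≤ N * u := by gcongr
      have h5 : X * P ^ (1 / 4 : ℝ) * (1 / (3 * X)) = P ^ (1 / 4 : ℝ) / 3 := by
        field_simp
      rw [h5] at h4
      have h6 : 3 < π := Real.pi_gt_three
      have h7 : 0 < N * u := by positivity
      nlinarith
    have h8 : Real.exp (-π * N * u) ≤
        Real.exp (-(P ^ (1 / 17 : ℝ)) / 2) * Real.exp (-(π / 2) * N * u) := by
      rw [← Real.exp_add]
      apply Real.exp_le_exp.2
      nlinarith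
    have h6 : 0 ≤ Gk y := hK.nonneg y
    calc Gk y * Real.exp (-π * N * u)
        ≤ max C 5040 * (Real.exp (-(P ^ (1 / 17 : ℝ)) / 2) * Real.exp (-(π / 2) * N * u)) := by
          gcongr
      _ = _ := by ring

/-- the comparison function -/
noncomputable def phi (X : ℝ) (n : ℕ) : ℝ := (n : ℝ) ^ 7 * Real.exp (-(π / 24) * n / X)

lemma phi_nonneg (X : ℝ) (n : ℕ) : 0 ≤ phi X n := by unfold phi; positivity

lemma sum_phi : ∃ K : ℝ, 0 < K ∧ ∀ X : ℝ, 1 ≤ X →
    ∑' n : ℕ, ENNReal.ofReal (phi X n) ≤ ENNReal.ofReal (K * X ^ 9) := by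
  have hs : Summable fun n : ℕ => 1 / (n : ℝ) ^ 2 := Real.summable_one_div_nat_pow.2 (by norm_num)
  have hpos : 0 < ∑' n : ℕ, 1 / (n : ℝ) ^ 2 :=
    hs.tsum_pos (fun n => by positivity) 1 (by norm_num)
  refine ⟨(Nat.factorial 9 * (24 / π) ^ 9) * ∑' n : ℕ, 1 / (n : ℝ) ^ 2, by positivity, ?_⟩
  intro X hX
  have hX0 : 0 < X := by linarith
  have key : ∀ n : ℕ, phi X n ≤ (Nat.factorial 9 * (24 / π) ^ 9 * X ^ 9) * (1 / (n : ℝ) ^ 2) := by
    intro n
    rcases Nat.eq_zero_or_pos n with rfl | hn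
    · simp [phi]
    · have hn' : (0 : ℝ) < n := by exact_mod_cast hn
      have h1 := Real.pow_div_factorial_le_exp (x := (π / 24) * n / X) (by positivity) 9
      unfold phi
      rw [show -(π / 24) * n / X = -((π / 24) * n / X) by ring, Real.exp_neg]
      rw [← div_eq_mul_inv, div_le_iff₀ (by positivity)]
      calc (n : ℝ) ^ 7 = (Nat.factorial 9 * (24 / π) ^ 9 * X ^ 9) * (1 / (n : ℝ) ^ 2) *
            (((π / 24) * n / X) ^ 9 / Nat.factorial 9) := by
            have : (Nat.factorial 9 : ℝ) ≠ 0 := by positivity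
            have := Real.pi_ne_zero
            field_simp
        _ ≤ _ := by gcongr
  calc ∑' n : ℕ, ENNReal.ofReal (phi X n)
      ≤ ∑' n : ℕ, ENNReal.ofReal ((Nat.factorial 9 * (24 / π) ^ 9 * X ^ 9) * (1 / (n : ℝ) ^ 2)) :=
        ENNReal.tsum_le_tsum fun n => ENNReal.ofReal_le_ofReal (key n)
    _ = ENNReal.ofReal (∑' n : ℕ, (Nat.factorial 9 * (24 / π) ^ 9 * X ^ 9) * (1 / (n : ℝ) ^ 2)) := by
        rw [ENNReal.ofReal_tsum_of_nonneg (fun n => by positivity) (hs.mul_left _)]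
    _ = _ := by rw [tsum_mul_left]; congr 1; ring

/-- the bound for one term -/
lemma term_bound (hK : StKer) : ∃ K : ℝ, 1 ≤ K ∧ ∀ (P X H u : ℝ) (r j : ℕ) (t : ℕ × ℕ × ℕ),
    1 ≤ P → 1 ≤ X → 0 < H → 1 / (3 * X) ≤ u → 0 < j → j * H = P * X ^ 2 →
    |AjTerm H r (j : ℤ) u t| ≤ K * Real.exp (-(P ^ (1 / 17 : ℝ)) / 2) * Real.exp (-u) *
      (phi X t.1 * (phi X t.2.1 * phi X t.2.2)) := by
  obtain ⟨K, hK1, hKb⟩ := kernel_bound hK
  refine ⟨6561 * K, by linarith, ?_⟩
  rintro P X H u r j ⟨g, m₁, m₂⟩ hP hX hH hu hj hjH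
  have hX0 : 0 < X := by linarith
  have hu0 : 0 < u := lt_of_lt_of_le (by positivity) hu
  unfold AjTerm
  simp only
  split_ifs with hsq
  · have hne := hsq.1.ne_zero
    have hg : 0 < g := Nat.pos_of_ne_zero fun h => hne (by simp [h])
    have hm₁ : 0 < m₁ := Nat.pos_of_ne_zero fun h => hne (by simp [h])
    have hm₂ : 0 < m₂ := Nat.pos_of_ne_zero fun h => hne (by simp [h])
    have hg' : (1 : ℝ) ≤ g := by exact_mod_cast hg
    have hm₁' : (1 : ℝ) ≤ m₁ := by exact_mod_cast hm₁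
    have hm₂' : (1 : ℝ) ≤ m₂ := by exact_mod_cast hm₂
    set N : ℝ := g * (m₁ + m₂) with hN
    have hN0 : 0 < N := by positivity
    set D : ℝ := ∑ d ∈ g.divisors, if (d : ℤ) ∣ (j : ℤ) then
        (ArithmeticFunction.moebius d : ℝ) / d *
          Gk (|((j : ℤ) : ℝ)| * H / ((d : ℝ) ^ 2 * (m₁ * m₂))) else 0 with hD
    have hDb : |D| * Real.exp (-π * N * u) ≤
        g * (K * Real.exp (-(P ^ (1 / 17 : ℝ)) / 2) * Real.exp (-(π / 2) * N * u)) := by
      have h1 : |D| ≤ ∑ d ∈ g.divisors, Gk (j * H / ((d : ℝ) ^ 2 * (m₁ * m₂))) := by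
        rw [hD]
        refine (Finset.abs_sum_le_sum_abs _ _).trans (Finset.sum_le_sum fun d hd => ?_)
        have hdpos : 0 < d := Nat.pos_of_mem_divisors hd
        have hd1 : (1 : ℝ) ≤ d := by exact_mod_cast hdpos
        have habs : |((j : ℤ) : ℝ)| = (j : ℝ) := by
          rw [Int.cast_natCast]; exact abs_of_nonneg (by positivity)
        split_ifs with hdvd
        · rw [habs, abs_mul, abs_of_nonneg (hK.nonneg _)]
          have h2 : |(ArithmeticFunction.moebius d : ℝ) / d| ≤ 1 := by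
            rw [abs_div, div_le_one (by rw [abs_pos]; positivity)]
            have h3 : |(ArithmeticFunction.moebius d : ℝ)| ≤ 1 := by
              exact_mod_cast ArithmeticFunction.abs_moebius_le_one (n := d)
            refine h3.trans ?_
            rw [abs_of_nonneg (by positivity)]; exact hd1
          calc |(ArithmeticFunction.moebius d : ℝ) / d| * Gk (j * H / ((d : ℝ) ^ 2 * (m₁ * m₂)))
              ≤ 1 * Gk (j * H / ((d : ℝ) ^ 2 * (m₁ * m₂))) := by
                gcongr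
                exact hK.nonneg _
            _ = _ := one_mul _
        · rw [abs_zero]; exact hK.nonneg _
      calc |D| * Real.exp (-π * N * u)
          ≤ (∑ d ∈ g.divisors, Gk (j * H / ((d : ℝ) ^ 2 * (m₁ * m₂)))) *
              Real.exp (-π * N * u) := by gcongr
        _ = ∑ d ∈ g.divisors, Gk (j * H / ((d : ℝ) ^ 2 * (m₁ * m₂))) *
              Real.exp (-π * N * u) := by rw [Finset.sum_mul]
        _ ≤ ∑ d ∈ g.divisors,
              K * Real.exp (-(P ^ (1 / 17 : ℝ)) / 2) * Real.exp (-(π / 2) * N * u) := by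
            refine Finset.sum_le_sum fun d hd => ?_
            have hdpos : 0 < d := Nat.pos_of_mem_divisors hd
            have hd1 : (1 : ℝ) ≤ d := by exact_mod_cast hdpos
            have hdg : (d : ℝ) ≤ g := by
              exact_mod_cast Nat.divisor_le hd
            refine hKb P X N _ u hP hX hN0 ?_ hu
            rw [hjH]
            have h4 : (d : ℝ) ^ 2 * (m₁ * m₂) ≤ N ^ 2 := by
              have h5 : (m₁ : ℝ) * m₂ ≤ (m₁ + m₂) ^ 2 := by nlinarith
              calc (d : ℝ) ^ 2 * (m₁ * m₂) ≤ (g : ℝ) ^ 2 * (m₁ + m₂) ^ 2 := by gcongr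
                _ = N ^ 2 := by rw [hN]; ring
            have h6 : 0 < P * X ^ 2 := by positivity
            gcongr
        _ = (g.divisors.card : ℝ) *
              (K * Real.exp (-(P ^ (1 / 17 : ℝ)) / 2) * Real.exp (-(π / 2) * N * u)) := by
            rw [Finset.sum_const, nsmul_eq_mul]
        _ ≤ _ := by
            gcongr
            exact_mod_cast Nat.card_divisors_le_self g
    have hexp : Real.exp (-(π / 2) * N * u) ≤ Real.exp (-u) *
        (Real.exp (-(π / 24) * g / X) * (Real.exp (-(π / 24) * m₁ / X) *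
          Real.exp (-(π / 24) * m₂ / X))) := by
      rw [← Real.exp_add, ← Real.exp_add, ← Real.exp_add]
      apply Real.exp_le_exp.2
      have h1 : (g + m₁ + m₂ : ℝ) / 2 ≤ N := by rw [hN]; nlinarith
      have h2 : u ≤ (π / 8) * (g + m₁ + m₂) * u := by
        have : 1 ≤ (π / 8) * (g + m₁ + m₂) := by nlinarith [Real.pi_gt_three]
        nlinarith
      have h3 : (π / 24) * (g + m₁ + m₂) / X ≤ (π / 8) * (g + m₁ + m₂) * u := by
        have : (π / 24) * (g + m₁ + m₂) / X = (π / 8) * (g + m₁ + m₂) * (1 / (3 * X)) := by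
          field_simp; ring
        rw [this]
        gcongr
      have h4 : (π / 4) * (g + m₁ + m₂) * u ≤ (π / 2) * N * u := by
        have : (π / 4) * (g + m₁ + m₂) ≤ (π / 2) * N := by nlinarith [Real.pi_pos]
        gcongr
      have h5 : -u + (-(π / 24) * g / X + (-(π / 24) * m₁ / X + -(π / 24) * m₂ / X)) =
          -(u + (π / 24) * (g + m₁ + m₂) / X) := by ring
      rw [h5]
      nlinarith
    have hcg := abs_ca_le g
    have hl1 := abs_lam_le hm₁
    have hl2 := abs_lam_le hm₂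
    have hchi := abs_chi_le (j : ℤ) (m₁ * m₂)
    have e0 : -π * g * u * (m₁ + m₂) = -π * N * u := by rw [hN]; ring
    rw [e0]
    rw [abs_mul, abs_mul, abs_mul, abs_mul, abs_mul, Real.abs_exp, abs_pow]
    calc |(ca g : ℝ)| ^ 2 * (|lam m₁| * |lam m₂|) * |chi (j : ℤ) (m₁ * m₂)| * |D| *
          Real.exp (-π * N * u)
        = (|(ca g : ℝ)| ^ 2 * (|lam m₁| * |lam m₂|) * |chi (j : ℤ) (m₁ * m₂)|) * (|D| *
          Real.exp (-π * N * u)) := by ring
      _ ≤ ((9 * (g : ℝ) ^ 3) ^ 2 * ((9 * (m₁ : ℝ) ^ 3) * (9 * (m₂ : ℝ) ^ 3)) * 1) *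
          (g * (K * Real.exp (-(P ^ (1 / 17 : ℝ)) / 2) * (Real.exp (-u) *
        (Real.exp (-(π / 24) * g / X) * (Real.exp (-(π / 24) * m₁ / X) *
          Real.exp (-(π / 24) * m₂ / X)))))) := by
          have := hDb.trans (show _ ≤ g * (K * Real.exp (-(P ^ (1 / 17 : ℝ)) / 2) * (Real.exp (-u) *
            (Real.exp (-(π / 24) * g / X) * (Real.exp (-(π / 24) * m₁ / X) *
              Real.exp (-(π / 24) * m₂ / X))))) by gcongr)
          gcongr
      _ = 6561 * K * Real.exp (-(P ^ (1 / 17 : ℝ)) / 2) * Real.exp (-u) *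
          (((g : ℝ) ^ 7 * Real.exp (-(π / 24) * g / X)) *
            (((m₁ : ℝ) ^ 3 * Real.exp (-(π / 24) * m₁ / X)) *
            ((m₂ : ℝ) ^ 3 * Real.exp (-(π / 24) * m₂ / X)))) := by ring
      _ ≤ 6561 * K * Real.exp (-(P ^ (1 / 17 : ℝ)) / 2) * Real.exp (-u) *
          (((g : ℝ) ^ 7 * Real.exp (-(π / 24) * g / X)) *
            (((m₁ : ℝ) ^ 7 * Real.exp (-(π / 24) * m₁ / X)) *
            ((m₂ : ℝ) ^ 7 * Real.exp (-(π / 24) * m₂ / X)))) := by
          gcongr <;> norm_num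
      _ = _ := by unfold phi; rfl
  · rw [abs_zero]
    have := phi_nonneg X g
    have := phi_nonneg X m₁
    have := phi_nonneg X m₂
    positivity

lemma tsum_triple (φ : ℕ → ℝ≥0∞) :
    ∑' t : ℕ × ℕ × ℕ, φ t.1 * (φ t.2.1 * φ t.2.2) = (∑' n, φ n) * ((∑' n, φ n) * (∑' n, φ n)) := by
  rw [ENNReal.tsum_prod', ← ENNReal.tsum_mul_right]
  refine tsum_congr fun g => ?_
  simp only
  rw [ENNReal.tsum_mul_left]
  congr 1
  rw [ENNReal.tsum_prod', ← ENNReal.tsum_mul_right]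
  refine tsum_congr fun m => ?_
  simp only
  rw [ENNReal.tsum_mul_left]

/-- the bound for `Aj` -/
lemma Aj_bound (hK : StKer) : ∃ K : ℝ, 1 ≤ K ∧ ∀ (P X H u : ℝ) (r j : ℕ),
    1 ≤ P → 1 ≤ X → 0 < H → 1 / (3 * X) ≤ u → 0 < j → j * H = P * X ^ 2 →
    |Aj H r (j : ℤ) u| ≤ K * X ^ 27 * Real.exp (-(P ^ (1 / 17 : ℝ)) / 2) * Real.exp (-u) := by
  obtain ⟨K, hK1, hKb⟩ := term_bound hK
  obtain ⟨Kp, hKp, hKpb⟩ := sum_phi
  refine ⟨K * Kp ^ 3 + 1, by
    have : 0 < K * Kp ^ 3 := by positivity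
    linarith, ?_⟩
  intro P X H u r j hP hX hH hu hj hjH
  have hX0 : 0 < X := by linarith
  have h1 : ENNReal.ofReal |Aj H r (j : ℤ) u| ≤
      ENNReal.ofReal (K * Kp ^ 3 * X ^ 27 * Real.exp (-(P ^ (1 / 17 : ℝ)) / 2) *
        Real.exp (-u)) := by
    calc ENNReal.ofReal |Aj H r (j : ℤ) u| = ‖∑' t, AjTerm H r (j : ℤ) u t‖ₑ := by
          rw [Real.enorm_eq_ofReal_abs]; rfl
      _ ≤ ∑' t, ‖AjTerm H r (j : ℤ) u t‖ₑ := enorm_tsum_le_tsum_enorm
      _ ≤ ∑' t : ℕ × ℕ × ℕ, ENNReal.ofReal (K * Real.exp (-(P ^ (1 / 17 : ℝ)) / 2) *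
            Real.exp (-u)) * (ENNReal.ofReal (phi X t.1) * (ENNReal.ofReal (phi X t.2.1) *
              ENNReal.ofReal (phi X t.2.2))) := by
          refine ENNReal.tsum_le_tsum fun t => ?_
          rw [Real.enorm_eq_ofReal_abs, ← ENNReal.ofReal_mul (phi_nonneg _ _),
            ← ENNReal.ofReal_mul (phi_nonneg _ _), ← ENNReal.ofReal_mul (by positivity)]
          exact ENNReal.ofReal_le_ofReal (hKb P X H u r j t hP hX hH hu hj hjH)
      _ = ENNReal.ofReal (K * Real.exp (-(P ^ (1 / 17 : ℝ)) / 2) * Real.exp (-u)) *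
            ((∑' n, ENNReal.ofReal (phi X n)) * ((∑' n, ENNReal.ofReal (phi X n)) *
              (∑' n, ENNReal.ofReal (phi X n)))) := by
          rw [ENNReal.tsum_mul_left, tsum_triple (fun n => ENNReal.ofReal (phi X n))]
      _ ≤ ENNReal.ofReal (K * Real.exp (-(P ^ (1 / 17 : ℝ)) / 2) * Real.exp (-u)) *
            (ENNReal.ofReal (Kp * X ^ 9) * (ENNReal.ofReal (Kp * X ^ 9) *
              ENNReal.ofReal (Kp * X ^ 9))) := by
          have := hKpb X hX
          gcongr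
      _ = _ := by
          rw [← ENNReal.ofReal_mul (by positivity), ← ENNReal.ofReal_mul (by positivity),
            ← ENNReal.ofReal_mul (by positivity)]
          congr 1; ring
  have h2 := (ENNReal.ofReal_le_ofReal_iff (by positivity)).1 h1
  refine h2.trans ?_
  gcongr
  linarith

lemma int_bound {D θ a : ℝ} (hD : 0 ≤ D) (hθ : 0 < θ) (hθ8 : θ ≤ 1 / 8) (ha : 0 ≤ a) {f : ℝ → ℝ}
    (hf : ∀ u, a < u → |f u| ≤ D * Real.exp (-u)) :
    ∫⁻ u in Ioi a, ENNReal.ofReal (|f u| * u ^ (1 + 2 * θ)) ≤ ENNReal.ofReal (16 * D) := by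
  have key : ∀ u : ℝ, 0 < u → u ^ (1 + 2 * θ) * Real.exp (-u) ≤ 8 * Real.exp (-(1 / 2) * u) := by
    intro u hu
    have h1 : u ^ (1 + 2 * θ) ≤ u + u ^ 2 := by
      rcases le_total u 1 with h | h
      · have : u ^ (1 + 2 * θ) ≤ u ^ (1 : ℝ) :=
          Real.rpow_le_rpow_of_exponent_ge hu h (by linarith)
        rw [Real.rpow_one] at this
        nlinarith
      · have : u ^ (1 + 2 * θ) ≤ u ^ (2 : ℝ) :=
          Real.rpow_le_rpow_of_exponent_le h (by linarith)
        rw [Real.rpow_two] at this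
        linarith
    have h2 : u + u ^ 2 ≤ 8 * Real.exp (u / 2) := by
      have := Real.quadratic_le_exp_of_nonneg (x := u / 2) (by positivity)
      nlinarith
    have h3 : Real.exp (-(1 / 2) * u) = Real.exp (u / 2) * Real.exp (-u) := by
      rw [← Real.exp_add]; congr 1; ring
    rw [h3]
    calc u ^ (1 + 2 * θ) * Real.exp (-u) ≤ (8 * Real.exp (u / 2)) * Real.exp (-u) := by
          gcongr; exact h1.trans h2
      _ = _ := by ring
  have hint : IntegrableOn (fun u : ℝ => Real.exp (-(1 / 2) * u)) (Ioi 0) :=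
    exp_neg_integrableOn_Ioi 0 (by norm_num)
  have hval : ∫ u in Ioi (0 : ℝ), Real.exp (-(1 / 2) * u) = 2 := by
    rw [integral_exp_mul_Ioi (by norm_num)]; norm_num
  calc ∫⁻ u in Ioi a, ENNReal.ofReal (|f u| * u ^ (1 + 2 * θ))
      ≤ ∫⁻ u in Ioi a, ENNReal.ofReal (8 * D) * ENNReal.ofReal (Real.exp (-(1 / 2) * u)) := by
        refine setLIntegral_mono' measurableSet_Ioi fun u hu => ?_
        have hu' : a < u := hu
        have hu0 : 0 < u := by linarith
        rw [← ENNReal.ofReal_mul (by positivity)]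
        refine ENNReal.ofReal_le_ofReal ?_
        calc |f u| * u ^ (1 + 2 * θ) ≤ (D * Real.exp (-u)) * u ^ (1 + 2 * θ) := by
              gcongr; exact hf u hu'
          _ = D * (u ^ (1 + 2 * θ) * Real.exp (-u)) := by ring
          _ ≤ D * (8 * Real.exp (-(1 / 2) * u)) := mul_le_mul_of_nonneg_left (key u hu0) hD
          _ = _ := by ring
    _ ≤ ∫⁻ u in Ioi 0, ENNReal.ofReal (8 * D) * ENNReal.ofReal (Real.exp (-(1 / 2) * u)) :=
        lintegral_mono_set (Ioi_subset_Ioi ha)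
    _ = ENNReal.ofReal (8 * D) * ENNReal.ofReal 2 := by
        rw [lintegral_const_mul' _ _ ENNReal.ofReal_ne_top]
        congr 1
        rw [← ofReal_integral_eq_lintegral_ofReal hint
          (Eventually.of_forall fun u => by positivity), hval]
    _ = _ := by rw [← ENNReal.ofReal_mul (by positivity)]; congr 1; ring

end H5

open H5 in
/-- Module H5. -/
theorem pfTail (hK : StKer) : StTail := by
  obtain ⟨K, hK1, hKb⟩ := Aj_bound hK
  have hs : Summable fun n : ℕ => 1 / (n : ℝ) ^ 2 := Real.summable_one_div_nat_pow.2 (by norm_num)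
  have hpos : 0 < ∑' n : ℕ, 1 / (n : ℝ) ^ 2 :=
    hs.tsum_pos (fun n => by positivity) 1 (by norm_num)
  set Z : ℝ := ∑' n : ℕ, 1 / (n : ℝ) ^ 2 with hZ
  set K2 : ℝ := 16 * K * (Nat.factorial 34 * 4 ^ 34) * Z with hK2
  have hK20 : 0 < K2 := by positivity
  refine ⟨4 * (29 + K2), by linarith, ?_⟩
  intro L θ H X r hX hL hLX hθ hθ8 hXH hr
  set C : ℝ := 4 * (29 + K2) with hC
  have hC1 : 1 ≤ C := by linarith
  have hX' : (1 : ℝ) ≤ X := by exact_mod_cast hX
  have hX0 : (0 : ℝ) < X := by linarith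
  have hH0 : 0 < H := by linarith
  have hCL : 1 ≤ C * L := by nlinarith
  -- each term
  have hterm : ∀ j : ℕ, (if (X : ℝ) ^ 2 * (C * L) ^ 17 < j * H then
      ∫⁻ u in Ioi (1 / (3 * X) : ℝ), ENNReal.ofReal (|Aj H r j u| * u ^ (1 + 2 * θ)) else 0) ≤
      ENNReal.ofReal ((16 * K * (Nat.factorial 34 * 4 ^ 34) * (X : ℝ) ^ 29 *
        Real.exp (-(C * L) / 4)) * (1 / (j : ℝ) ^ 2)) := by
    intro j
    split_ifs with hj
    · have hjH0 : 0 < (j : ℝ) * H := lt_trans (by positivity) hj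
      have hj0 : 0 < j := by
        rcases Nat.eq_zero_or_pos j with rfl | h
        · simp at hjH0
        · exact h
      have hj1 : (1 : ℝ) ≤ j := by exact_mod_cast hj0
      set P : ℝ := j * H / X ^ 2 with hP
      have hPX : (j : ℝ) * H = P * X ^ 2 := by rw [hP]; field_simp
      have hPC : (C * L) ^ 17 ≤ P := by
        rw [hP, le_div_iff₀ (by positivity)]; nlinarith
      have hP1 : 1 ≤ P := le_trans (one_le_pow₀ hCL) hPC
      have hP0 : 0 < P := by linarith
      have hy : C * L ≤ P ^ (1 / 17 : ℝ) := by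
        have h1 : ((C * L) ^ 17) ^ (1 / 17 : ℝ) ≤ P ^ (1 / 17 : ℝ) :=
          Real.rpow_le_rpow (by positivity) hPC (by norm_num)
        have h2 : ((C * L) ^ 17) ^ (1 / 17 : ℝ) = C * L := by
          rw [← Real.rpow_natCast, ← Real.rpow_mul (by linarith)]; norm_num
        rwa [h2] at h1
      have hbound := int_bound (D := K * (X : ℝ) ^ 27 * Real.exp (-(P ^ (1 / 17 : ℝ)) / 2))
        (θ := θ) (a := 1 / (3 * X)) (f := fun u => Aj H r j u) (by positivity) hθ hθ8
        (by positivity) (fun u hu => hKb P X H u r j hP1 hX' hH0 hu.le hj0 hPX)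
      refine hbound.trans (ENNReal.ofReal_le_ofReal ?_)
      -- exp(-y/2) ≤ exp(-CL/4) * 34! 4^34 / P^2
      set y : ℝ := P ^ (1 / 17 : ℝ) with hydef
      have hy0 : 0 < y := by positivity
      have h3 : Real.exp (-y / 2) ≤ Real.exp (-(C * L) / 4) *
          ((Nat.factorial 34 * 4 ^ 34) / P ^ 2) := by
        have h4 : Real.exp (-y / 2) = Real.exp (-y / 4) * Real.exp (-(y / 4)) := by
          rw [← Real.exp_add]; congr 1; ring
        have h5 : Real.exp (-y / 4) ≤ Real.exp (-(C * L) / 4) := by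
          apply Real.exp_le_exp.2; linarith
        have h6 : Real.exp (-(y / 4)) ≤ (Nat.factorial 34 * 4 ^ 34) / P ^ 2 := by
          have h7 := Real.pow_div_factorial_le_exp (x := y / 4) (by positivity) 34
          have h8 : y ^ 34 = P ^ 2 := by
            rw [hydef, ← Real.rpow_natCast, ← Real.rpow_mul hP0.le]; norm_num
          rw [Real.exp_neg, inv_le_comm₀ (by positivity) (by positivity), inv_div]
          refine le_trans (le_of_eq ?_) h7
          rw [div_pow (y : ℝ) 4 34, h8, div_div (P ^ 2) (4 ^ 34)]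
          congr 1
          ring
        rw [h4]
        gcongr
      have h9 : 1 / P ^ 2 ≤ (X : ℝ) ^ 2 * (1 / (j : ℝ) ^ 2) := by
        have h10 : (j : ℝ) / X ≤ P := by
          rw [hP, div_le_div_iff₀ hX0 (by positivity)]
          calc (j : ℝ) * X ^ 2 = j * X * X := by ring
            _ ≤ j * H * X := by gcongr
        calc 1 / P ^ 2 ≤ 1 / ((j : ℝ) / X) ^ 2 := by gcongr
          _ = _ := by field_simp
      calc 16 * (K * (X : ℝ) ^ 27 * Real.exp (-y / 2))
          ≤ 16 * (K * (X : ℝ) ^ 27 * (Real.exp (-(C * L) / 4) *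
          ((Nat.factorial 34 * 4 ^ 34) / P ^ 2))) := by gcongr
        _ = 16 * K * (Nat.factorial 34 * 4 ^ 34) * (X : ℝ) ^ 27 * Real.exp (-(C * L) / 4) *
          (1 / P ^ 2) := by ring
        _ ≤ 16 * K * (Nat.factorial 34 * 4 ^ 34) * (X : ℝ) ^ 27 * Real.exp (-(C * L) / 4) *
          ((X : ℝ) ^ 2 * (1 / (j : ℝ) ^ 2)) := by gcongr
        _ = _ := by ring
    · exact bot_le
  calc _ ≤ ∑' j : ℕ, ENNReal.ofReal ((16 * K * (Nat.factorial 34 * 4 ^ 34) * (X : ℝ) ^ 29 *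
        Real.exp (-(C * L) / 4)) * (1 / (j : ℝ) ^ 2)) := ENNReal.tsum_le_tsum hterm
    _ = ENNReal.ofReal (∑' j : ℕ, (16 * K * (Nat.factorial 34 * 4 ^ 34) * (X : ℝ) ^ 29 *
        Real.exp (-(C * L) / 4)) * (1 / (j : ℝ) ^ 2)) := by
        rw [ENNReal.ofReal_tsum_of_nonneg (fun n => by positivity) (hs.mul_left _)]
    _ ≤ ENNReal.ofReal 1 := by
        refine ENNReal.ofReal_le_ofReal ?_
        rw [tsum_mul_left, ← hZ]
        have h1 : (X : ℝ) ^ 29 ≤ Real.exp (29 * L) := by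
          calc (X : ℝ) ^ 29 = Real.exp (Real.log X) ^ 29 := by rw [Real.exp_log hX0]
            _ = Real.exp (29 * Real.log X) := by rw [← Real.exp_nat_mul]; norm_num
            _ ≤ _ := by apply Real.exp_le_exp.2; linarith
        have h2 : Real.exp (29 * L) * Real.exp (-(C * L) / 4) ≤ 1 / K2 := by
          rw [← Real.exp_add]
          have h3 : 29 * L + -(C * L) / 4 = -(K2 * L) := by rw [hC]; ring
          rw [h3, Real.exp_neg, ← one_div]
          have h4 : K2 ≤ Real.exp (K2 * L) := by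
            have := Real.add_one_le_exp (K2 * L)
            nlinarith
          gcongr
        calc 16 * K * (Nat.factorial 34 * 4 ^ 34) * (X : ℝ) ^ 29 * Real.exp (-(C * L) / 4) * Z
            = K2 * ((X : ℝ) ^ 29 * Real.exp (-(C * L) / 4)) := by rw [hK2]; ring
          _ ≤ K2 * (Real.exp (29 * L) * Real.exp (-(C * L) / 4)) := by gcongr
          _ ≤ K2 * (1 / K2) := by gcongr
          _ = 1 := by field_simp
    _ = 1 := ENNReal.ofReal_one

end P004
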