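import Vale.Agent.P004.Iface

/-!
# P004, module I1: reduction of `sumJ` to squarefree-supported sums
-/

open Real MeasureTheory Set
open scoped ENNReal

namespace P004

namespace I1Mod

/-! ### the decomposition `n = r k` -/

lemma fact_eq {r k : ℕ} (hr : Powerful r) (hk : Squarefree k) (hc : k.Coprime r) (p : ℕ) :
    r.factorization p = (if (r * k).factorization p = 1 then 0 else (r * k).factorization p) ∧
    k.factorization p = (if (r * k).factorization p = 1 then 1 else 0) := by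
  have hk0 : k ≠ 0 := hk.ne_zero
  have hmul : (r * k).factorization p = r.factorization p + k.factorization p := by
    rw [Nat.factorization_mul hr.1 hk0]; rfl
  by_cases hp : p.Prime
  · by_cases hpk : p ∣ k
    · have h1 : r.factorization p = 0 := by
        apply Nat.factorization_eq_zero_of_not_dvd
        intro hpr
        have := Nat.dvd_gcd hpk hpr
        rw [hc] at this
        exact hp.one_lt.ne' (Nat.dvd_one.1 this)
      have h2 : k.factorization p = 1 := by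
        have h3 := (Nat.squarefree_iff_factorization_le_one hk0).1 hk p
        have h4 := (hp.dvd_iff_one_le_factorization hk0).1 hpk
        omega
      rw [hmul, h1, h2]
      simp
    · have h1 : k.factorization p = 0 := Nat.factorization_eq_zero_of_not_dvd hpk
      have h2 : r.factorization p ≠ 1 := by
        intro h
        have h3 : p ∣ r := (hp.dvd_iff_one_le_factorization hr.1).2 (by omega)
        have h4 := (hp.pow_dvd_iff_le_factorization hr.1).1 (hr.2 p hp h3)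
        omega
      rw [hmul, h1, add_zero, if_neg h2, if_neg h2]
      simp
  · have h1 : r.factorization p = 0 := Nat.factorization_eq_zero_of_not_prime _ hp
    have h2 : k.factorization p = 0 := Nat.factorization_eq_zero_of_not_prime _ hp
    rw [hmul, h1, h2]
    simp

lemma decomp_unique {r k r' k' : ℕ} (hr : Powerful r) (hk : Squarefree k) (hc : k.Coprime r)
    (hr' : Powerful r') (hk' : Squarefree k') (hc' : k'.Coprime r') (h : r * k = r' * k') :
    r = r' ∧ k = k' := by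
  constructor
  · apply Nat.eq_of_factorization_eq hr.1 hr'.1
    intro p
    rw [(fact_eq hr hk hc p).1, (fact_eq hr' hk' hc' p).1, h]
  · apply Nat.eq_of_factorization_eq hk.ne_zero hk'.ne_zero
    intro p
    rw [(fact_eq hr hk hc p).2, (fact_eq hr' hk' hc' p).2, h]

lemma decomp_exists {n : ℕ} (hn : n ≠ 0) :
    ∃ r k : ℕ, Powerful r ∧ Squarefree k ∧ k.Coprime r ∧ r * k = n := by
  classical
  set f1 : ℕ →₀ ℕ := n.factorization.filter (fun p => n.factorization p = 1) with hf1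
  set f2 : ℕ →₀ ℕ := n.factorization.filter (fun p => ¬ n.factorization p = 1) with hf2
  set k := f1.prod (fun x1 x2 => x1 ^ x2) with hk
  set r := f2.prod (fun x1 x2 => x1 ^ x2) with hr
  have hs1 : ∀ p ∈ f1.support, p.Prime := by
    intro p hp
    rw [hf1, Finsupp.support_filter, Finset.mem_filter] at hp
    exact Nat.prime_of_mem_primeFactors (by simpa using hp.1)
  have hs2 : ∀ p ∈ f2.support, p.Prime := by
    intro p hp
    rw [hf2, Finsupp.support_filter, Finset.mem_filter] at hp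
    exact Nat.prime_of_mem_primeFactors (by simpa using hp.1)
  have hkf : k.factorization = f1 := Nat.prod_pow_factorization_eq_self hs1
  have hrf : r.factorization = f2 := Nat.prod_pow_factorization_eq_self hs2
  have hmul : r * k = n := by
    rw [mul_comm, hk, hr, hf1, hf2,
      Finsupp.prod_filter_mul_prod_filter_not (fun p => n.factorization p = 1) n.factorization]
    exact Nat.prod_factorization_pow_eq_self hn
  have hk0 : k ≠ 0 := by rintro h; rw [h] at hmul; simp at hmul; exact hn hmul.symm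
  have hr0 : r ≠ 0 := by rintro h; rw [h] at hmul; simp at hmul; exact hn hmul.symm
  have hkp : ∀ p, k.factorization p = if n.factorization p = 1 then n.factorization p else 0 := by
    intro p; rw [hkf, hf1, Finsupp.filter_apply]
  have hrp : ∀ p, r.factorization p =
      if ¬ n.factorization p = 1 then n.factorization p else 0 := by
    intro p; rw [hrf, hf2, Finsupp.filter_apply]
  refine ⟨r, k, ⟨hr0, ?_⟩, ?_, ?_, hmul⟩
  · intro p hp hpr
    have h1 := (hp.dvd_iff_one_le_factorization hr0).1 hpr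
    rw [hp.pow_dvd_iff_le_factorization hr0]
    have h2 := hrp p
    split_ifs at h2 <;> omega
  · rw [Nat.squarefree_iff_factorization_le_one hk0]
    intro p
    have h2 := hkp p
    split_ifs at h2 <;> omega
  · apply Nat.coprime_of_dvd
    intro p hp hpk hpr
    have h1 := (hp.dvd_iff_one_le_factorization hr0).1 hpr
    have h3 := (hp.dvd_iff_one_le_factorization hk0).1 hpk
    have h2 := hrp p
    have h4 := hkp p
    split_ifs at h2 h4 <;> omega

/-- regrouping an absolutely convergent sum over `n ≥ 1` -/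
lemma tsum_decomp (F : ℕ → ℝ) (hF : Summable F) (h0 : F 0 = 0) :
    ∑' n : ℕ, F n = ∑' r : {r : ℕ // Powerful r}, ∑' k : ℕ,
      if Squarefree k ∧ k.Coprime r then F (r * k) else 0 := by
  classical
  set S : Set ({r : ℕ // Powerful r} × ℕ) := {p | Squarefree p.2 ∧ p.2.Coprime p.1} with hS
  set g : S → ℕ := fun p => p.1.1 * p.1.2 with hg
  have hinj : Function.Injective g := by
    rintro ⟨⟨⟨r, hr⟩, k⟩, hk, hc⟩ ⟨⟨⟨r', hr'⟩, k'⟩, hk', hc'⟩ h
    obtain ⟨h1, h2⟩ := decomp_unique hr hk hc hr' hk' hc' h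
    subst h1; subst h2; rfl
  have hsupp : Function.support F ⊆ Set.range g := by
    intro n hn
    have hn0 : n ≠ 0 := by rintro rfl; exact hn h0
    obtain ⟨r, k, hr, hk, hc, h⟩ := decomp_exists hn0
    exact ⟨⟨⟨⟨r, hr⟩, k⟩, hk, hc⟩, h⟩
  set G : {r : ℕ // Powerful r} × ℕ → ℝ := fun p => F (p.1 * p.2) with hG
  have hsumS : Summable (F ∘ g) := hF.comp_injective hinj
  have hsumI : Summable (S.indicator G) := by
    rw [← summable_subtype_iff_indicator]
    exact hsumS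
  calc ∑' n : ℕ, F n = ∑' p : S, F (g p) := (hinj.tsum_eq hsupp).symm
    _ = ∑' p : {r : ℕ // Powerful r} × ℕ, S.indicator G p := tsum_subtype S G
    _ = ∑' (r : {r : ℕ // Powerful r}) (k : ℕ), S.indicator G (r, k) := hsumI.tsum_prod
    _ = _ := by
      refine tsum_congr fun r => tsum_congr fun k => ?_
      simp only [Set.indicator, hS, Set.mem_ofPred_eq, hG]

/-! ### Cauchy–Schwarz -/

lemma cs {ι : Type*} (b x : ι → ℝ≥0∞) (hb : ∀ i, b i ≠ 0) (hb' : ∀ i, b i ≠ ⊤) :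
    (∑' i, x i) ^ 2 ≤ (∑' i, b i) * ∑' i, (b i)⁻¹ * x i ^ 2 := by
  let _ : MeasurableSpace ι := ⊤
  have h := ENNReal.lintegral_mul_le_Lp_mul_Lq (Measure.count : Measure ι)
    Real.HolderConjugate.two_two (f := fun i => b i ^ (1 / 2 : ℝ))
    (g := fun i => (b i ^ (1 / 2 : ℝ))⁻¹ * x i) measurable_from_top.aemeasurable
    measurable_from_top.aemeasurable
  rw [lintegral_count' measurable_from_top, lintegral_count' measurable_from_top,
    lintegral_count' measurable_from_top] at h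
  have e1 : ∀ i, ((fun i => b i ^ (1 / 2 : ℝ)) * fun i => (b i ^ (1 / 2 : ℝ))⁻¹ * x i) i = x i := by
    intro i
    simp only [Pi.mul_apply]
    rw [← mul_assoc, ENNReal.mul_inv_cancel, one_mul]
    · rw [Ne, ENNReal.rpow_eq_zero_iff]
      simp [hb i]
    · exact ENNReal.rpow_ne_top_of_nonneg (by norm_num) (hb' i)
  have e2 : ∀ i, (b i ^ (1 / 2 : ℝ)) ^ (2 : ℝ) = b i := by
    intro i
    rw [← ENNReal.rpow_mul]; norm_num
  have e3 : ∀ i, ((b i ^ (1 / 2 : ℝ))⁻¹ * x i) ^ (2 : ℝ) = (b i)⁻¹ * x i ^ 2 := by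
    intro i
    rw [ENNReal.mul_rpow_of_nonneg _ _ (by norm_num), ENNReal.inv_rpow, e2 i]
    norm_cast
  simp only [e1, e2, e3] at h
  calc (∑' i, x i) ^ 2 ≤ ((∑' i, b i) ^ (1 / 2 : ℝ) *
        (∑' i, (b i)⁻¹ * x i ^ 2) ^ (1 / 2 : ℝ)) ^ 2 := by gcongr
    _ = _ := by
      rw [mul_pow, ← ENNReal.rpow_natCast, ← ENNReal.rpow_natCast, ← ENNReal.rpow_mul,
        ← ENNReal.rpow_mul]
      norm_num

/-! ### basic facts -/

lemma abs_chi_le (m : ℤ) (n : ℕ) : |chi m n| ≤ 1 := by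
  unfold chi
  rcases jacobiSym.trichotomy m n with h | h | h <;> rw [h] <;> norm_num

lemma chi_mul (m : ℤ) {a b : ℕ} (ha : a ≠ 0) (hb : b ≠ 0) :
    chi m (a * b) = chi m a * chi m b := by
  unfold chi
  have : NeZero a := ⟨ha⟩
  have : NeZero b := ⟨hb⟩
  rw [jacobiSym.mul_right]
  push_cast
  ring

lemma dv_nonneg (r : ℕ) : 0 ≤ dv r := by unfold dv; positivity

lemma dv_le (n : ℕ) : dv n ≤ n := by
  unfold dv
  exact_mod_cast Nat.card_divisors_le_self n

lemma summable_F (hC : StCoef) (m : ℤ) {u : ℝ} (hu : 0 < u) :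
    Summable fun n : ℕ => (ca n : ℝ) * chi m n * Real.exp (-π * n * u) := by
  have h := Real.summable_pow_mul_exp_neg_nat_mul 2 (r := π * u) (by positivity)
  refine Summable.of_norm_bounded h fun n => ?_
  rw [norm_mul, norm_mul, Real.norm_eq_abs, Real.norm_eq_abs, Real.norm_eq_abs, Real.abs_exp]
  have h1 := hC.bound n
  have h2 := abs_chi_le m n
  have h3 : dv n * √(n : ℝ) ≤ (n : ℝ) ^ 2 := by
    rcases Nat.eq_zero_or_pos n with rfl | hn
    · simp
    have hn' : (1 : ℝ) ≤ n := by exact_mod_cast hn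
    have : √(n : ℝ) ≤ n := by
      rw [Real.sqrt_le_left (by positivity)]
      nlinarith
    calc dv n * √(n : ℝ) ≤ n * n := by
          gcongr
          exact dv_le n
      _ = (n : ℝ) ^ 2 := by ring
  calc |(ca n : ℝ)| * |chi m n| * Real.exp (-π * n * u)
      ≤ (n : ℝ) ^ 2 * 1 * Real.exp (-π * n * u) := by
        gcongr
        exact h1.trans h3
    _ = (n : ℝ) ^ 2 * Real.exp (-(π * u) * n) := by ring_nf

lemma theta_eq (hC : StCoef) (m : ℤ) {u : ℝ} (hu : 0 < u) :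
    theta m u = 4 * ∑' r : {r : ℕ // Powerful r},
      (ca r : ℝ) * chi m r * Uf m r (r * u) := by
  unfold theta
  rw [tsum_decomp _ (summable_F hC m hu) (by simp [hC.zero])]
  congr 1
  refine tsum_congr fun r => ?_
  unfold Uf
  rw [← tsum_mul_left]
  refine tsum_congr fun k => ?_
  split_ifs with h
  · have hk0 : k ≠ 0 := h.1.ne_zero
    rw [hC.mul _ _ h.2.symm, chi_mul m r.2.1 hk0]
    push_cast
    rw [show -π * ((r : ℝ) * k) * u = -π * k * (r * u) by ring]
    ring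
  · rw [mul_zero]

lemma measurable_Uf (m : ℤ) (r : ℕ) : Measurable fun u => Uf m r u := by
  unfold Uf
  apply Measurable.tsum
  intro n
  split_ifs
  · apply Measurable.mul measurable_const
    apply Real.measurable_exp.comp
    fun_prop
  · exact measurable_const

/-! ### the functional equation folds the integral -/

lemma Qm_pos {m : ℕ} (hm : 0 < m) : 0 < Qm m := by
  unfold Qm; split_ifs <;> positivity

lemma Qm_le (m : ℕ) : Qm m ≤ (3 * m : ℝ) ^ 2 := by
  unfold Qm; split_ifs <;> nlinarith [sq_nonneg (m : ℝ)]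

lemma fold (m : ℕ) (Q : ℝ) (hQ : 0 < Q) (κ : ℝ) (hκ : κ = 1 ∨ κ = -1)
    (h : ∀ u : ℝ, 0 < u → theta m u = κ / (Q * u ^ 2) * theta m (1 / (Q * u))) :
    Jm m = 2 * ∫⁻ u in Ioi (1 / √Q), ENNReal.ofReal (theta m u ^ 2 * u) := by
  set a : ℝ := 1 / √Q with ha
  have hsQ : 0 < √Q := Real.sqrt_pos.2 hQ
  have ha0 : 0 < a := by positivity
  have haa : Q * a * a = 1 := by
    rw [ha]
    field_simp
    rw [Real.sq_sqrt hQ.le]
  set f : ℝ → ℝ≥0∞ := fun u => ENNReal.ofReal (theta m u ^ 2 * u) with hf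
  have himage : (fun w : ℝ => 1 / (Q * w)) '' (Ioi a) = Ioo 0 a := by
    ext x
    simp only [Set.mem_image, Set.mem_Ioi, Set.mem_Ioo]
    constructor
    · rintro ⟨w, hw, rfl⟩
      have hw0 : 0 < w := ha0.trans hw
      refine ⟨by positivity, ?_⟩
      rw [div_lt_iff₀ (by positivity)]
      nlinarith [mul_pos hQ ha0]
    · rintro ⟨hx0, hxa⟩
      refine ⟨1 / (Q * x), ?_, ?_⟩
      · rw [lt_div_iff₀ (by positivity)]
        nlinarith [mul_pos hQ ha0]
      · field_simp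
  have hder : ∀ w ∈ Ioi a, HasDerivWithinAt (fun w : ℝ => 1 / (Q * w)) (-(1 / (Q * w ^ 2)))
      (Ioi a) w := by
    intro w hw
    have hw0 : w ≠ 0 := (ha0.trans hw).ne'
    have h1 : HasDerivAt (fun w : ℝ => (Q * w)⁻¹) (-(Q * 1) / (Q * w) ^ 2) w :=
      ((hasDerivAt_id w).const_mul Q).inv (by positivity)
    have h2 : HasDerivAt (fun w : ℝ => 1 / (Q * w)) (-(1 / (Q * w ^ 2))) w := by
      have e : (fun w : ℝ => 1 / (Q * w)) = fun w : ℝ => (Q * w)⁻¹ := by
        ext; rw [one_div]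
      rw [e]
      convert h1 using 1
      field_simp
    exact h2.hasDerivWithinAt
  have hinj : Set.InjOn (fun w : ℝ => 1 / (Q * w)) (Ioi a) := by
    intro x hx y hy hxy
    have hx0 : x ≠ 0 := (ha0.trans hx).ne'
    have hy0 : y ≠ 0 := (ha0.trans hy).ne'
    simp only at hxy
    field_simp at hxy
    exact hxy.symm
  have hcv := lintegral_image_eq_lintegral_abs_deriv_mul measurableSet_Ioi hder hinj f
  rw [himage] at hcv
  have h1 : ∫⁻ x in Ioo 0 a, f x = ∫⁻ x in Ioi a, f x := by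
    rw [hcv]
    apply setLIntegral_congr_fun measurableSet_Ioi
    intro w hw
    have hw0 : 0 < w := ha0.trans hw
    simp only [hf]
    rw [abs_neg, abs_of_pos (by positivity), ← ENNReal.ofReal_mul (by positivity)]
    congr 1
    have hκ2 : κ ^ 2 = 1 := by rcases hκ with h | h <;> rw [h] <;> norm_num
    have hfe := h w hw0
    have : theta m w ^ 2 = 1 / (Q * w ^ 2) ^ 2 * theta m (1 / (Q * w)) ^ 2 := by
      rw [hfe, mul_pow, div_pow, hκ2]
    rw [this]
    field_simp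
  have h2 : Jm m = (∫⁻ x in Ioo 0 a, f x) + ∫⁻ x in Ioi a, f x := by
    unfold Jm
    rw [← Ioc_union_Ioi_eq_Ioi ha0.le,
      lintegral_union measurableSet_Ioi (Set.Ioc_disjoint_Ioi le_rfl)]
    congr 1
    exact setLIntegral_congr (Ioo_ae_eq_Ioc (μ := volume) (a := (0 : ℝ)) (b := a)).symm
  rw [h2, h1, two_mul]

lemma Jm_le (hFE : StFE) (X m : ℕ) (hm : m ∈ sqf X) :
    Jm m ≤ 2 * ∫⁻ u in Ioi (1 / (3 * X) : ℝ), ENNReal.ofReal (theta m u ^ 2 * u) := by
  unfold sqf at hm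
  rw [Finset.mem_filter, Finset.mem_Icc] at hm
  obtain ⟨⟨h1, h2⟩, hsq⟩ := hm
  obtain ⟨κ, hκ, h⟩ := hFE m hsq
  have hQ := Qm_pos (m := m) (by omega)
  rw [fold m (Qm m) hQ κ hκ h]
  gcongr
  calc √(Qm m) ≤ √((3 * m : ℝ) ^ 2) := Real.sqrt_le_sqrt (Qm_le m)
    _ = 3 * m := Real.sqrt_sq (by positivity)
    _ ≤ 3 * X := by
      have : (m : ℝ) ≤ X := by exact_mod_cast h2
      linarith

/-! ### one `r` -/

lemma scale (X r : ℕ) (hX : 1 ≤ X) (hr : 0 < r) (θ : ℝ) (hθ : 0 < θ) (m : ℤ) :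
    ∫⁻ u in Ioi (1 / (3 * X) : ℝ), ENNReal.ofReal (Uf m r (r * u) ^ 2 * u) ≤
      ENNReal.ofReal ((3 * X : ℝ) ^ (2 * θ) * (r : ℝ) ^ (-2 - 2 * θ)) *
        ∫⁻ u in Ioi (1 / (3 * X) : ℝ), ENNReal.ofReal (Uf m r u ^ 2 * u ^ (1 + 2 * θ)) := by
  set a : ℝ := 1 / (3 * X) with ha
  have hXR : (1 : ℝ) ≤ X := by exact_mod_cast hX
  have ha0 : 0 < a := by positivity
  have hrR : (1 : ℝ) ≤ r := by exact_mod_cast hr
  have hr0 : (0 : ℝ) < r := by linarith
  set G : ℝ → ℝ≥0∞ := fun w => ENNReal.ofReal (Uf m r w ^ 2 * w ^ (1 + 2 * θ)) with hG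
  have himage : (fun u : ℝ => (r : ℝ) * u) '' (Ioi a) = Ioi ((r : ℝ) * a) := by
    rw [Set.image_mul_left_Ioi hr0]
  have hder : ∀ w ∈ Ioi a, HasDerivWithinAt (fun u : ℝ => (r : ℝ) * u) (r : ℝ) (Ioi a) w := by
    intro w _
    have := ((hasDerivAt_id w).const_mul (r : ℝ)).hasDerivWithinAt (s := Ioi a)
    simpa using this
  have hinj : Set.InjOn (fun u : ℝ => (r : ℝ) * u) (Ioi a) :=
    (mul_right_injective₀ hr0.ne').injOn
  have hcv := lintegral_image_eq_lintegral_abs_deriv_mul measurableSet_Ioi hder hinj G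
  rw [himage] at hcv
  calc ∫⁻ u in Ioi a, ENNReal.ofReal (Uf m r (r * u) ^ 2 * u)
      ≤ ∫⁻ u in Ioi a, ENNReal.ofReal ((3 * X : ℝ) ^ (2 * θ) * (r : ℝ) ^ (-2 - 2 * θ)) *
          (ENNReal.ofReal |(r : ℝ)| * G (r * u)) := by
        apply setLIntegral_mono' measurableSet_Ioi
        intro u hu
        have hu0 : 0 < u := ha0.trans hu
        simp only [hG]
        rw [abs_of_pos hr0, ← ENNReal.ofReal_mul hr0.le, ← ENNReal.ofReal_mul (by positivity)]
        apply ENNReal.ofReal_le_ofReal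
        have e1 : (r * u : ℝ) ^ (1 + 2 * θ) = r * (r : ℝ) ^ (2 * θ) * (u * u ^ (2 * θ)) := by
          rw [Real.mul_rpow hr0.le hu0.le, Real.rpow_add hr0, Real.rpow_add hu0, Real.rpow_one,
            Real.rpow_one]
        have e2 : (r : ℝ) ^ (-2 - 2 * θ) * r * (r * (r : ℝ) ^ (2 * θ)) = 1 := by
          calc (r : ℝ) ^ (-2 - 2 * θ) * r * (r * (r : ℝ) ^ (2 * θ)) =
              (r : ℝ) ^ (-2 - 2 * θ) * (r : ℝ) ^ (2 : ℝ) * (r : ℝ) ^ (2 * θ) := by
                rw [Real.rpow_two]; ring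
            _ = 1 := by
                rw [← Real.rpow_add hr0, ← Real.rpow_add hr0]
                have : -2 - 2 * θ + 2 + 2 * θ = 0 := by ring
                rw [this, Real.rpow_zero]
        have e3 : (1 : ℝ) ≤ (3 * X : ℝ) ^ (2 * θ) * u ^ (2 * θ) := by
          rw [← Real.mul_rpow (by positivity) hu0.le]
          apply Real.one_le_rpow _ (by positivity)
          have : a < u := hu
          rw [ha, div_lt_iff₀ (by positivity)] at this
          linarith
        calc Uf m r (r * u) ^ 2 * u = Uf m r (r * u) ^ 2 * u * 1 := by ring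
          _ ≤ Uf m r (r * u) ^ 2 * u * ((3 * X : ℝ) ^ (2 * θ) * u ^ (2 * θ)) := by gcongr
          _ = Uf m r (r * u) ^ 2 * u * ((3 * X : ℝ) ^ (2 * θ) * u ^ (2 * θ)) *
              ((r : ℝ) ^ (-2 - 2 * θ) * r * (r * (r : ℝ) ^ (2 * θ))) := by rw [e2, mul_one]
          _ = _ := by rw [e1]; ring
    _ = ENNReal.ofReal ((3 * X : ℝ) ^ (2 * θ) * (r : ℝ) ^ (-2 - 2 * θ)) *
          ∫⁻ u in Ioi ((r : ℝ) * a), G u := by
        rw [lintegral_const_mul' _ _ ENNReal.ofReal_ne_top, hcv]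
    _ ≤ _ := by
        gcongr
        nlinarith

/-- the pointwise bound -/
lemma pointwise (hC : StCoef) (θ : ℝ) (m : ℤ) {u : ℝ} (hu : 0 < u) :
    ENNReal.ofReal (theta m u ^ 2 * u) ≤
      (16 * ∑' r : {r : ℕ // Powerful r}, ENNReal.ofReal ((r : ℝ) ^ (-1 / 2 - θ / 2))) *
        ∑' r : {r : ℕ // Powerful r}, ENNReal.ofReal (dv r ^ 2 * (r : ℝ) ^ (3 / 2 + θ / 2)) *
          ENNReal.ofReal (Uf m r (r * u) ^ 2 * u) := by
  have hr0 : ∀ r : {r : ℕ // Powerful r}, (0 : ℝ) < r := fun r =>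
    Nat.cast_pos.2 (Nat.pos_of_ne_zero r.2.1)
  set b : {r : ℕ // Powerful r} → ℝ≥0∞ := fun r => ENNReal.ofReal ((r : ℝ) ^ (-1 / 2 - θ / 2))
    with hb
  set x : {r : ℕ // Powerful r} → ℝ≥0∞ := fun r => ‖(ca r : ℝ) * chi m r * Uf m r (r * u)‖ₑ
    with hx
  have hpos : ∀ r : {r : ℕ // Powerful r}, 0 < (r : ℝ) ^ (-1 / 2 - θ / 2) := fun r =>
    Real.rpow_pos_of_pos (hr0 r) _
  have hcs := cs b x (fun r => (ENNReal.ofReal_pos.2 (hpos r)).ne') fun r => ENNReal.ofReal_ne_top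
  have h1 : ENNReal.ofReal (theta m u ^ 2) ≤ 16 * (∑' r, x r) ^ 2 := by
    have e1 : ENNReal.ofReal (theta m u ^ 2) = ‖theta m u‖ₑ ^ 2 := by
      rw [Real.enorm_eq_ofReal_abs, ← ENNReal.ofReal_pow (abs_nonneg _), sq_abs]
    have e2 : ‖theta m u‖ₑ ≤ 4 * ∑' r, x r := by
      rw [theta_eq hC m hu, enorm_mul]
      have : ‖(4 : ℝ)‖ₑ = 4 := by
        rw [Real.enorm_eq_ofReal_abs]
        norm_num
      rw [this]
      gcongr
      exact enorm_tsum_le_tsum_enorm
    rw [e1]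
    calc ‖theta m u‖ₑ ^ 2 ≤ (4 * ∑' r, x r) ^ 2 := by gcongr
      _ = 16 * (∑' r, x r) ^ 2 := by rw [mul_pow]; norm_num
  have h2 : ∀ r, (b r)⁻¹ * x r ^ 2 ≤
      ENNReal.ofReal (dv r ^ 2 * (r : ℝ) ^ (3 / 2 + θ / 2)) *
        ENNReal.ofReal (Uf m r (r * u) ^ 2) := by
    intro r
    have hdv := dv_nonneg (r : ℕ)
    simp only [hb, hx]
    rw [← ENNReal.ofReal_inv_of_pos (hpos r), Real.enorm_eq_ofReal_abs,
      ← ENNReal.ofReal_pow (abs_nonneg _), sq_abs,
      ← ENNReal.ofReal_mul (inv_nonneg.2 (hpos r).le), ← ENNReal.ofReal_mul (by positivity)]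
    apply ENNReal.ofReal_le_ofReal
    have e1 : ((r : ℝ) ^ (-1 / 2 - θ / 2))⁻¹ = (r : ℝ) ^ (1 / 2 + θ / 2) := by
      rw [← Real.rpow_neg (hr0 r).le]
      congr 1; ring
    have e2 : (r : ℝ) ^ (3 / 2 + θ / 2) = (r : ℝ) ^ (1 / 2 + θ / 2) * r := by
      rw [← Real.rpow_add_one (hr0 r).ne']
      congr 1; ring
    have e3 : (ca r : ℝ) ^ 2 ≤ dv r ^ 2 * r := by
      have := hC.bound r
      calc (ca r : ℝ) ^ 2 = |(ca r : ℝ)| ^ 2 := (sq_abs _).symm
        _ ≤ (dv r * √(r : ℝ)) ^ 2 := by gcongr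
        _ = dv r ^ 2 * r := by rw [mul_pow, Real.sq_sqrt (hr0 r).le]
    have e4 : chi m r ^ 2 ≤ 1 := by
      have := abs_chi_le m r
      rw [← sq_abs]
      exact pow_le_one₀ (abs_nonneg _) this
    rw [e1, e2]
    calc (r : ℝ) ^ (1 / 2 + θ / 2) * ((ca r : ℝ) * chi m r * Uf m r (r * u)) ^ 2
        = (r : ℝ) ^ (1 / 2 + θ / 2) * ((ca r : ℝ) ^ 2 * chi m r ^ 2 * Uf m r (r * u) ^ 2) := by
          ring
      _ ≤ (r : ℝ) ^ (1 / 2 + θ / 2) * ((dv r ^ 2 * r) * 1 * Uf m r (r * u) ^ 2) := by gcongr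
      _ = _ := by ring
  have h3 : (∑' r : {r : ℕ // Powerful r},
        ENNReal.ofReal (dv r ^ 2 * (r : ℝ) ^ (3 / 2 + θ / 2)) *
        ENNReal.ofReal (Uf m r (r * u) ^ 2)) * ENNReal.ofReal u =
      ∑' r : {r : ℕ // Powerful r},
          ENNReal.ofReal (dv r ^ 2 * (r : ℝ) ^ (3 / 2 + θ / 2)) *
          ENNReal.ofReal (Uf m r (r * u) ^ 2 * u) := by
    rw [← ENNReal.tsum_mul_right]
    refine tsum_congr fun r => ?_
    rw [ENNReal.ofReal_mul (p := Uf m r (r * u) ^ 2) (by positivity), mul_assoc]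
  calc ENNReal.ofReal (theta m u ^ 2 * u)
      = ENNReal.ofReal (theta m u ^ 2) * ENNReal.ofReal u := ENNReal.ofReal_mul (by positivity)
    _ ≤ (16 * ((∑' r, b r) * ∑' r : {r : ℕ // Powerful r},
        ENNReal.ofReal (dv r ^ 2 * (r : ℝ) ^ (3 / 2 + θ / 2)) *
        ENNReal.ofReal (Uf m r (r * u) ^ 2))) * ENNReal.ofReal u := by
        refine mul_le_mul' (h1.trans (mul_le_mul' le_rfl (hcs.trans (mul_le_mul' le_rfl ?_)))) le_rfl
        exact ENNReal.tsum_le_tsum h2
    _ = (16 * ∑' r, b r) * ∑' r : {r : ℕ // Powerful r},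
          ENNReal.ofReal (dv r ^ 2 * (r : ℝ) ^ (3 / 2 + θ / 2)) *
          ENNReal.ofReal (Uf m r (r * u) ^ 2 * u) := by
        rw [← h3]
        ring

lemma one_m (hC : StCoef) (X : ℕ) (hX : 1 ≤ X) (θ : ℝ) (hθ : 0 < θ) (m : ℤ) :
    ∫⁻ u in Ioi (1 / (3 * X) : ℝ), ENNReal.ofReal (theta m u ^ 2 * u) ≤
      (16 * ∑' r : {r : ℕ // Powerful r}, ENNReal.ofReal ((r : ℝ) ^ (-1 / 2 - θ / 2))) *
        (ENNReal.ofReal ((3 * X : ℝ) ^ (2 * θ)) * ∑' r : {r : ℕ // Powerful r},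
          ENNReal.ofReal (dv r ^ 2 * (r : ℝ) ^ (-1 / 2 - 3 / 2 * θ)) *
          ∫⁻ u in Ioi (1 / (3 * X) : ℝ), ENNReal.ofReal (Uf m r u ^ 2 * u ^ (1 + 2 * θ))) := by
  set a : ℝ := 1 / (3 * X) with ha
  have hXR : (1 : ℝ) ≤ X := by exact_mod_cast hX
  have ha0 : 0 < a := by positivity
  have hr0 : ∀ r : {r : ℕ // Powerful r}, (0 : ℝ) < r := fun r =>
    Nat.cast_pos.2 (Nat.pos_of_ne_zero r.2.1)
  have hm : ∀ r : {r : ℕ // Powerful r}, Measurable fun u : ℝ =>
      ENNReal.ofReal (Uf m r (r * u) ^ 2 * u) := by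
    intro r
    apply ENNReal.measurable_ofReal.comp
    apply Measurable.mul
    · exact ((measurable_Uf m r).comp (measurable_const_mul (r : ℝ))).pow_const 2
    · exact measurable_id
  have hm2 : ∀ r : {r : ℕ // Powerful r}, Measurable fun u : ℝ =>
      ENNReal.ofReal (dv r ^ 2 * (r : ℝ) ^ (3 / 2 + θ / 2)) *
      ENNReal.ofReal (Uf m r (r * u) ^ 2 * u) := fun r => (hm r).const_mul _
  calc ∫⁻ u in Ioi a, ENNReal.ofReal (theta m u ^ 2 * u)
      ≤ ∫⁻ u in Ioi a,
        (16 * ∑' r : {r : ℕ // Powerful r}, ENNReal.ofReal ((r : ℝ) ^ (-1 / 2 - θ / 2))) *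
        ∑' r : {r : ℕ // Powerful r}, ENNReal.ofReal (dv r ^ 2 * (r : ℝ) ^ (3 / 2 + θ / 2)) *
          ENNReal.ofReal (Uf m r (r * u) ^ 2 * u) := by
        apply setLIntegral_mono' measurableSet_Ioi
        intro u hu
        exact pointwise hC θ m (ha0.trans hu)
    _ = (16 * ∑' r : {r : ℕ // Powerful r}, ENNReal.ofReal ((r : ℝ) ^ (-1 / 2 - θ / 2))) *
        ∑' r : {r : ℕ // Powerful r}, ENNReal.ofReal (dv r ^ 2 * (r : ℝ) ^ (3 / 2 + θ / 2)) *
          ∫⁻ u in Ioi a, ENNReal.ofReal (Uf m r (r * u) ^ 2 * u) := by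
        rw [lintegral_const_mul _ (Measurable.tsum hm2), lintegral_tsum fun r => (hm2 r).aemeasurable]
        congr 1
        refine tsum_congr fun r => ?_
        rw [lintegral_const_mul _ (hm r)]
    _ ≤ _ := by
        refine mul_le_mul' le_rfl ?_
        rw [← ENNReal.tsum_mul_left]
        refine ENNReal.tsum_le_tsum fun r => ?_
        have hdv := dv_nonneg (r : ℕ)
        have hr1 : 0 < (r : ℕ) := Nat.pos_of_ne_zero r.2.1
        refine (mul_le_mul' le_rfl (scale X r hX hr1 θ hθ m)).trans ?_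
        rw [← mul_assoc, ← mul_assoc, ← ENNReal.ofReal_mul (by positivity),
          ← ENNReal.ofReal_mul (by positivity)]
        refine mul_le_mul' (ENNReal.ofReal_le_ofReal (le_of_eq ?_)) le_rfl
        have e : (r : ℝ) ^ (3 / 2 + θ / 2) * (r : ℝ) ^ (-2 - 2 * θ) =
            (r : ℝ) ^ (-1 / 2 - 3 / 2 * θ) := by
          rw [← Real.rpow_add (hr0 r)]
          congr 1; ring
        rw [← e]
        ring

end I1Mod

open I1Mod in
/-- Module I1. -/
theorem pfDecomp (hC : StCoef) (hFE : StFE) (hDiv : StDiv) : StDecomp := by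
  obtain ⟨C, hC0, A, hA⟩ := hDiv.2 0
  refine ⟨32 * (C * 2 ^ A), by positivity, A, ?_⟩
  intro θ hθ hθ8 X hX
  set a : ℝ := 1 / (3 * X) with ha
  have hb : ∑' r : {r : ℕ // Powerful r}, ENNReal.ofReal ((r : ℝ) ^ (-1 / 2 - θ / 2)) ≤
      ENNReal.ofReal (C * 2 ^ A * (1 / θ) ^ A) := by
    have h := hA (θ / 2) (by positivity) (by linarith)
    simp only [pow_zero, one_mul] at h
    refine h.trans (le_of_eq ?_)
    congr 1
    rw [mul_assoc, ← mul_pow]
    congr 2
    field_simp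
  have hsum : ∀ r : {r : ℕ // Powerful r},
      ∑ m ∈ sqf X, ∫⁻ u in Ioi a, ENNReal.ofReal (Uf m r u ^ 2 * u ^ (1 + 2 * θ)) =
      ∫⁻ u in Ioi a, ENNReal.ofReal ((∑ m ∈ sqf X, Uf m r u ^ 2) * u ^ (1 + 2 * θ)) := by
    intro r
    rw [← lintegral_finsetSum]
    · have hXR : (1 : ℝ) ≤ X := by exact_mod_cast hX
      apply setLIntegral_congr_fun measurableSet_Ioi
      intro u hu
      have hu0 : 0 < u := lt_trans (by positivity) hu
      simp only
      rw [Finset.sum_mul, ENNReal.ofReal_sum_of_nonneg]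
      intro m _
      positivity
    · intro m _
      apply ENNReal.measurable_ofReal.comp
      apply Measurable.mul
      · exact (measurable_Uf m r).pow_const 2
      · exact measurable_id.pow_const _
  unfold sumJ
  calc ∑ m ∈ sqf X, Jm m
      ≤ ∑ m ∈ sqf X, 2 * ((16 * ENNReal.ofReal (C * 2 ^ A * (1 / θ) ^ A)) *
        (ENNReal.ofReal ((3 * X : ℝ) ^ (2 * θ)) * ∑' r : {r : ℕ // Powerful r},
          ENNReal.ofReal (dv r ^ 2 * (r : ℝ) ^ (-1 / 2 - 3 / 2 * θ)) *
          ∫⁻ u in Ioi a, ENNReal.ofReal (Uf m r u ^ 2 * u ^ (1 + 2 * θ)))) := by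
        apply Finset.sum_le_sum
        intro m hm
        refine (Jm_le hFE X m hm).trans (mul_le_mul' le_rfl ?_)
        refine (one_m hC X hX θ hθ m).trans ?_
        exact mul_le_mul' (mul_le_mul' le_rfl hb) le_rfl
    _ = (2 * (16 * ENNReal.ofReal (C * 2 ^ A * (1 / θ) ^ A)) *
          ENNReal.ofReal ((3 * X : ℝ) ^ (2 * θ))) * ∑ m ∈ sqf X, ∑' r : {r : ℕ // Powerful r},
          ENNReal.ofReal (dv r ^ 2 * (r : ℝ) ^ (-1 / 2 - 3 / 2 * θ)) *
          ∫⁻ u in Ioi a, ENNReal.ofReal (Uf m r u ^ 2 * u ^ (1 + 2 * θ)) := by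
        rw [Finset.mul_sum]
        refine Finset.sum_congr rfl fun m _ => ?_
        ring
    _ = (2 * (16 * ENNReal.ofReal (C * 2 ^ A * (1 / θ) ^ A)) *
          ENNReal.ofReal ((3 * X : ℝ) ^ (2 * θ))) * ∑' r : {r : ℕ // Powerful r},
          ENNReal.ofReal (dv r ^ 2 * (r : ℝ) ^ (-1 / 2 - 3 / 2 * θ)) *
          ∫⁻ u in Ioi a, ENNReal.ofReal ((∑ m ∈ sqf X, Uf m r u ^ 2) * u ^ (1 + 2 * θ)) := by
        rw [← Summable.tsum_finsetSum fun _ _ => ENNReal.summable]
        congr 1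
        refine tsum_congr fun r => ?_
        rw [← Finset.mul_sum, hsum r]
    _ = _ := by
        congr 1
        have h32 : (2 : ℝ≥0∞) * 16 = ENNReal.ofReal 32 := by norm_num
        rw [← mul_assoc, h32, ← ENNReal.ofReal_mul (by norm_num),
          ← ENNReal.ofReal_mul (by positivity)]
        congr 1
        ring

end P004
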