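import Vale.Agent.P004.Iface

/-!
# P004, module I2: the recursion
-/

open Real MeasureTheory Set
open scoped ENNReal

namespace P004

namespace I2Mod

lemma measurable_AjTerm (H : ℝ) (r : ℕ) (j : ℤ) (t : ℕ × ℕ × ℕ) :
    Measurable fun u => AjTerm H r j u t := by
  unfold AjTerm
  split_ifs
  · apply Measurable.mul measurable_const
    apply Real.measurable_exp.comp
    fun_prop
  · exact measurable_const

lemma measurable_Aj (H : ℝ) (r : ℕ) (j : ℤ) : Measurable fun u => Aj H r j u := by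
  unfold Aj
  exact Measurable.tsum fun t => measurable_AjTerm H r j t

lemma dv_one_le {r : ℕ} (hr : 0 < r) : 1 ≤ dv r := by
  unfold dv
  have : 0 < r.divisors.card := Finset.card_pos.2 (Nat.nonempty_divisors.2 hr.ne')
  exact_mod_cast this

lemma dv_nonneg (r : ℕ) : 0 ≤ dv r := by unfold dv; positivity

/-- the `j`-th integral on the half line -/
noncomputable def TI (H θ a : ℝ) (r : ℕ) (j : ℤ) : ℝ≥0∞ :=
  ∫⁻ u in Ioi a, ENNReal.ofReal (|Aj H r j u| * u ^ (1 + 2 * θ))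

lemma TI_mono (H θ a : ℝ) (ha : 0 ≤ a) (r : ℕ) (j : ℤ) : TI H θ a r j ≤ TI H θ 0 r j := by
  unfold TI
  exact lintegral_mono_set (Ioi_subset_Ioi ha)

/-- the positivity step integrated -/
lemma int_le (Cs : ℝ)
    (hS : ∀ (X r : ℕ) (H u : ℝ), 0 < r → 1 ≤ X → (X : ℝ) ≤ H → 0 < u →
      ENNReal.ofReal (∑ m ∈ sqf X, Uf m r u ^ 2) ≤
        ENNReal.ofReal (Cs * H) * (ENNReal.ofReal |Aj H r 0 u| +
          ∑' j : ℕ, ENNReal.ofReal |Aj H r (j + 1) u|))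
    (X r : ℕ) (H θ a : ℝ) (hr : 0 < r) (hX : 1 ≤ X) (hXH : (X : ℝ) ≤ H) (ha : 0 ≤ a) :
    ∫⁻ u in Ioi a, ENNReal.ofReal ((∑ m ∈ sqf X, Uf m r u ^ 2) * u ^ (1 + 2 * θ)) ≤
      ENNReal.ofReal (Cs * H) * (TI H θ a r 0 + ∑' j : ℕ, TI H θ a r (j + 1)) := by
  have hm : ∀ j : ℤ, Measurable fun u : ℝ => ENNReal.ofReal (|Aj H r j u| * u ^ (1 + 2 * θ)) := by
    intro j
    apply ENNReal.measurable_ofReal.comp
    apply Measurable.mul
    · exact (measurable_Aj H r j).abs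
    · exact measurable_id.pow_const _
  calc ∫⁻ u in Ioi a, ENNReal.ofReal ((∑ m ∈ sqf X, Uf m r u ^ 2) * u ^ (1 + 2 * θ))
      ≤ ∫⁻ u in Ioi a, ENNReal.ofReal (Cs * H) *
          (ENNReal.ofReal (|Aj H r 0 u| * u ^ (1 + 2 * θ)) +
            ∑' j : ℕ, ENNReal.ofReal (|Aj H r (j + 1) u| * u ^ (1 + 2 * θ))) := by
        apply setLIntegral_mono' measurableSet_Ioi
        intro u hu
        have hu0 : 0 < u := lt_of_le_of_lt ha hu
        have h := hS X r H u hr hX hXH hu0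
        have hpow : (0 : ℝ) ≤ u ^ (1 + 2 * θ) := by positivity
        rw [ENNReal.ofReal_mul' hpow]
        calc ENNReal.ofReal (∑ m ∈ sqf X, Uf m r u ^ 2) * ENNReal.ofReal (u ^ (1 + 2 * θ))
            ≤ (ENNReal.ofReal (Cs * H) * (ENNReal.ofReal |Aj H r 0 u| +
                ∑' j : ℕ, ENNReal.ofReal |Aj H r (j + 1) u|)) *
                  ENNReal.ofReal (u ^ (1 + 2 * θ)) := by gcongr
          _ = _ := by
            rw [mul_assoc, add_mul, ← ENNReal.tsum_mul_right]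
            congr 2
            · rw [ENNReal.ofReal_mul' hpow]
            · refine tsum_congr fun j => ?_
              rw [ENNReal.ofReal_mul' hpow]
    _ = ENNReal.ofReal (Cs * H) * (TI H θ a r 0 + ∑' j : ℕ, TI H θ a r (j + 1)) := by
        have hm2 : Measurable fun u : ℝ => ∑' j : ℕ,
            ENNReal.ofReal (|Aj H r (j + 1) u| * u ^ (1 + 2 * θ)) :=
          Measurable.tsum fun j : ℕ => hm (j + 1)
        have hm3 : Measurable fun u : ℝ => ENNReal.ofReal (|Aj H r 0 u| * u ^ (1 + 2 * θ)) +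
            ∑' j : ℕ, ENNReal.ofReal (|Aj H r (j + 1) u| * u ^ (1 + 2 * θ)) := (hm 0).add hm2
        rw [lintegral_const_mul _ hm3, lintegral_add_left (hm 0),
          lintegral_tsum fun j : ℕ => (hm (j + 1)).aemeasurable]
        rfl

/-- splitting the sum over `j` into a finite part and a tail -/
lemma split_sum (T F : ℕ → ℝ≥0∞) (P : ℕ → Prop) [DecidablePred P] (K : ℕ)
    (hTF : ∀ j, T j ≤ F j) (hP : ∀ j, 1 ≤ j → ¬ P j → j ≤ K) :
    ∑' j : ℕ, T (j + 1) ≤ (∑' j : ℕ, if P j then T j else 0) + ∑ j ∈ Finset.Icc 1 K, F j := by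
  have h1 : ∀ j : ℕ, T (j + 1) ≤ (if P (j + 1) then T (j + 1) else 0) +
      (if j + 1 ≤ K then F (j + 1) else 0) := by
    intro j
    by_cases hp : P (j + 1)
    · simp [hp]
    · have := hP (j + 1) (by omega) hp
      simp [hp, this, hTF]
  calc ∑' j : ℕ, T (j + 1) ≤ ∑' j : ℕ, ((if P (j + 1) then T (j + 1) else 0) +
        (if j + 1 ≤ K then F (j + 1) else 0)) := ENNReal.tsum_le_tsum h1
    _ = ∑' j : ℕ, (if P (j + 1) then T (j + 1) else 0) +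
        ∑' j : ℕ, (if j + 1 ≤ K then F (j + 1) else 0) := ENNReal.tsum_add
    _ ≤ _ := by
      apply add_le_add
      · have := tsum_eq_zero_add' (f := fun j : ℕ => if P j then T j else 0) (ENNReal.summable)
        rw [this]
        exact le_add_self
      · rw [tsum_eq_sum (s := Finset.range K)]
        · rw [Finset.range_eq_Ico, Finset.sum_Ico_add' (fun j => if j ≤ K then F j else 0) 0 K 1]
          apply le_of_eq
          rw [show Finset.Ico (0 + 1) (K + 1) = Finset.Icc 1 K by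
            ext; simp only [Finset.mem_Ico, Finset.mem_Icc]; omega]
          refine Finset.sum_congr rfl fun j hj => ?_
          rw [Finset.mem_Icc] at hj
          simp [hj.2]
        · intro j hj
          rw [Finset.mem_range, not_lt] at hj
          rw [if_neg (by omega)]

/-- regrouping `j = j₁ j₂²` -/
lemma regroup (F : ℕ → ℝ≥0∞) (K : ℕ) :
    ∑ j ∈ Finset.Icc 1 K, F j ≤ ∑ p ∈ (sqf K ×ˢ Finset.Icc 1 K).filter
      (fun p => p.1 * p.2 ^ 2 ≤ K), F (p.1 * p.2 ^ 2) := by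
  classical
  have h : ∀ j : ℕ, ∃ p : ℕ × ℕ, j ∈ Finset.Icc 1 K →
      p ∈ (sqf K ×ˢ Finset.Icc 1 K).filter (fun p => p.1 * p.2 ^ 2 ≤ K) ∧ p.1 * p.2 ^ 2 = j := by
    intro j
    by_cases hj : j ∈ Finset.Icc 1 K
    · rw [Finset.mem_Icc] at hj
      obtain ⟨a, b, ha, hb, hab, hsq⟩ := Nat.sq_mul_squarefree_of_pos (n := j) (by omega)
      refine ⟨(a, b), fun _ => ⟨?_, by rw [← hab]; ring⟩⟩
      have h1 : a * b ^ 2 = j := by rw [← hab]; ring
      have h2 : a ≤ j := by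
        rw [← h1]; exact Nat.le_mul_of_pos_right _ (by positivity)
      have h3 : b ≤ j := by
        rw [← h1]
        calc b ≤ b ^ 2 := Nat.le_self_pow (by norm_num) b
          _ ≤ a * b ^ 2 := Nat.le_mul_of_pos_left _ ha
      rw [Finset.mem_filter, Finset.mem_product]
      simp only [sqf, Finset.mem_filter, Finset.mem_Icc]
      exact ⟨⟨⟨⟨ha, h2.trans hj.2⟩, hsq⟩, ⟨hb, h3.trans hj.2⟩⟩, h1.le.trans hj.2⟩
    · exact ⟨(0, 0), fun h => absurd h hj⟩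
  choose φ hφ using h
  have hinj : Set.InjOn φ (Finset.Icc 1 K : Finset ℕ) := by
    intro x hx y hy hxy
    rw [Finset.mem_coe] at hx hy
    rw [← (hφ x hx).2, ← (hφ y hy).2, hxy]
  calc ∑ j ∈ Finset.Icc 1 K, F j = ∑ j ∈ Finset.Icc 1 K, F ((φ j).1 * (φ j).2 ^ 2) :=
        Finset.sum_congr rfl fun j hj => by rw [(hφ j hj).2]
    _ = ∑ p ∈ (Finset.Icc 1 K).image φ, F (p.1 * p.2 ^ 2) := by
        rw [Finset.sum_image hinj]
    _ ≤ _ := by
        apply Finset.sum_le_sum_of_subset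
        intro p hp
        rw [Finset.mem_image] at hp
        obtain ⟨j, hj, rfl⟩ := hp
        exact (hφ j hj).1

/-- the elementary inequality for the weights -/
lemma weight_le (θ H B : ℝ) (hθ : 0 < θ) (hH : 1 ≤ H) (j₁ j₂ : ℕ) (h1 : 1 ≤ j₁) (h2 : 1 ≤ j₂)
    (hB : ((j₁ * j₂ ^ 2 : ℕ) : ℝ) * H ≤ B) :
    (((j₁ * j₂ ^ 2 : ℕ) : ℝ) * H) ^ (-1 / 2 + θ) ≤
      B ^ (2 * θ) * (1 / √H) * ((j₂ : ℝ) ^ (-1 - θ) * (1 / √(j₁ : ℝ))) := by
  have hj1 : (1 : ℝ) ≤ j₁ := by exact_mod_cast h1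
  have hj2 : (1 : ℝ) ≤ j₂ := by exact_mod_cast h2
  set y : ℝ := ((j₁ * j₂ ^ 2 : ℕ) : ℝ) * H with hy
  have hyeq : y = j₁ * j₂ ^ 2 * H := by rw [hy]; push_cast; ring
  have hj2sq : (j₂ : ℝ) ≤ j₂ ^ 2 := by nlinarith
  have hy2 : (j₂ : ℝ) ≤ y := by
    rw [hyeq]
    calc (j₂ : ℝ) ≤ j₂ ^ 2 := hj2sq
      _ = 1 * j₂ ^ 2 * 1 := by ring
      _ ≤ j₁ * j₂ ^ 2 * H := by gcongr
  have hypos : 0 < y := by linarith
  have hBpos : 0 < B := by linarith
  have e1 : y ^ (-1 / 2 + θ) = y ^ (-1 / 2 : ℝ) * y ^ θ := Real.rpow_add hypos _ _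
  have e2 : y ^ (-1 / 2 : ℝ) = 1 / √H * ((j₂ : ℝ)⁻¹ * (1 / √(j₁ : ℝ))) := by
    rw [show (-1 / 2 : ℝ) = -(1 / 2) by ring, Real.rpow_neg hypos.le, ← Real.sqrt_eq_rpow, hyeq,
      Real.sqrt_mul (by positivity), Real.sqrt_mul (by positivity), Real.sqrt_sq (by positivity)]
    field_simp
  have e3 : (j₂ : ℝ)⁻¹ = (j₂ : ℝ) ^ (-1 - θ) * (j₂ : ℝ) ^ θ := by
    rw [← Real.rpow_add (by linarith), show -1 - θ + θ = (-1 : ℝ) by ring, Real.rpow_neg_one]
  rw [e1, e2, e3]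
  have h3 : y ^ θ ≤ B ^ θ := Real.rpow_le_rpow hypos.le hB hθ.le
  have h4 : (j₂ : ℝ) ^ θ ≤ B ^ θ := Real.rpow_le_rpow (by positivity) (hy2.trans hB) hθ.le
  have h5 : B ^ (2 * θ) = B ^ θ * B ^ θ := by
    rw [← Real.rpow_add hBpos]; congr 1; ring
  rw [h5]
  calc 1 / √H * ((j₂ : ℝ) ^ (-1 - θ) * (j₂ : ℝ) ^ θ * (1 / √(j₁ : ℝ))) * y ^ θ
      ≤ 1 / √H * ((j₂ : ℝ) ^ (-1 - θ) * B ^ θ * (1 / √(j₁ : ℝ))) * B ^ θ := by gcongr
    _ = _ := by ring

/-- the sum over the small `j` -/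
lemma small_sum (Ca Cv : ℝ) (Aa Av : ℕ) (hCa : 0 < Ca) (θ H B : ℝ) (hθ : 0 < θ)
    (hH : 1 ≤ H) (hB : 0 < B) (r : ℕ)
    (hA : ∀ (j₁ j₂ : ℕ), Squarefree j₁ → 0 < j₂ →
      TI H θ 0 r ((j₁ * j₂ ^ 2 : ℕ) : ℤ) ≤
        ENNReal.ofReal (Ca * (1 / θ) ^ Aa * dv r ^ Aa * dv j₂ ^ Aa *
          (((j₁ * j₂ ^ 2 : ℕ) : ℝ) * H) ^ (-1 / 2 + θ)) * (Jm j₁ + 1))
    (hV : ∑' n : ℕ, ENNReal.ofReal (dv n ^ Aa * (n : ℝ) ^ (-1 - θ)) ≤
      ENNReal.ofReal (Cv * (1 / θ) ^ Av)) :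
    ∑ j ∈ Finset.Icc 1 ⌊B / H⌋₊, TI H θ 0 r (j : ℤ) ≤
      ENNReal.ofReal (Ca * (1 / θ) ^ Aa * dv r ^ Aa * (B ^ (2 * θ) * (1 / √H)) *
        (Cv * (1 / θ) ^ Av)) * ∑ j ∈ sqf ⌊B / H⌋₊, ENNReal.ofReal (1 / √(j : ℝ)) * (Jm j + 1) := by
  set K := ⌊B / H⌋₊ with hK
  set c : ℝ := Ca * (1 / θ) ^ Aa * dv r ^ Aa * (B ^ (2 * θ) * (1 / √H)) with hc
  have hdr := dv_nonneg r
  have hc0 : 0 ≤ c := by positivity
  calc ∑ j ∈ Finset.Icc 1 K, TI H θ 0 r (j : ℤ)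
      ≤ ∑ p ∈ (sqf K ×ˢ Finset.Icc 1 K).filter (fun p => p.1 * p.2 ^ 2 ≤ K),
          TI H θ 0 r ((p.1 * p.2 ^ 2 : ℕ) : ℤ) := regroup (fun j => TI H θ 0 r (j : ℤ)) K
    _ ≤ ∑ p ∈ (sqf K ×ˢ Finset.Icc 1 K).filter (fun p => p.1 * p.2 ^ 2 ≤ K),
          ENNReal.ofReal c * (ENNReal.ofReal (1 / √(p.1 : ℝ)) * (Jm p.1 + 1)) *
            ENNReal.ofReal (dv p.2 ^ Aa * (p.2 : ℝ) ^ (-1 - θ)) := by
        apply Finset.sum_le_sum
        rintro ⟨j₁, j₂⟩ hp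
        simp only [Finset.mem_filter, Finset.mem_product, sqf, Finset.mem_Icc] at hp
        obtain ⟨⟨⟨⟨h1, _⟩, hsq⟩, ⟨h2, _⟩⟩, hle⟩ := hp
        refine (hA j₁ j₂ hsq (by omega)).trans ?_
        have hd2 := dv_nonneg j₂
        have hBB : ((j₁ * j₂ ^ 2 : ℕ) : ℝ) * H ≤ B := by
          rw [← le_div_iff₀ (by linarith)]
          exact (Nat.le_floor_iff (by positivity)).1 hle
        have hw := weight_le θ H B hθ hH j₁ j₂ h1 h2 hBB
        have e : ENNReal.ofReal c * (ENNReal.ofReal (1 / √(j₁ : ℝ)) * (Jm j₁ + 1)) *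
            ENNReal.ofReal (dv j₂ ^ Aa * (j₂ : ℝ) ^ (-1 - θ)) =
            ENNReal.ofReal (c * (1 / √(j₁ : ℝ)) * (dv j₂ ^ Aa * (j₂ : ℝ) ^ (-1 - θ))) *
              (Jm j₁ + 1) := by
          rw [ENNReal.ofReal_mul (p := c * (1 / √(j₁ : ℝ))) (by positivity),
            ENNReal.ofReal_mul (p := c) hc0]
          ring
        dsimp only
        rw [e]
        refine mul_le_mul' (ENNReal.ofReal_le_ofReal ?_) le_rfl
        calc Ca * (1 / θ) ^ Aa * dv r ^ Aa * dv j₂ ^ Aa *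
              (((j₁ * j₂ ^ 2 : ℕ) : ℝ) * H) ^ (-1 / 2 + θ)
            ≤ Ca * (1 / θ) ^ Aa * dv r ^ Aa * dv j₂ ^ Aa *
              (B ^ (2 * θ) * (1 / √H) * ((j₂ : ℝ) ^ (-1 - θ) * (1 / √(j₁ : ℝ)))) := by gcongr
          _ = _ := by rw [hc]; ring
    _ ≤ ∑ p ∈ sqf K ×ˢ Finset.Icc 1 K,
          ENNReal.ofReal c * (ENNReal.ofReal (1 / √(p.1 : ℝ)) * (Jm p.1 + 1)) *
            ENNReal.ofReal (dv p.2 ^ Aa * (p.2 : ℝ) ^ (-1 - θ)) :=
        Finset.sum_le_sum_of_subset (Finset.filter_subset _ _)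
    _ = (ENNReal.ofReal c * ∑ j ∈ sqf K, (ENNReal.ofReal (1 / √(j : ℝ)) * (Jm j + 1))) *
          ∑ j₂ ∈ Finset.Icc 1 K, ENNReal.ofReal (dv j₂ ^ Aa * (j₂ : ℝ) ^ (-1 - θ)) := by
        rw [Finset.sum_product, Finset.mul_sum (sqf K), Finset.sum_mul_sum]
    _ ≤ (ENNReal.ofReal c * ∑ j ∈ sqf K, (ENNReal.ofReal (1 / √(j : ℝ)) * (Jm j + 1))) *
          ENNReal.ofReal (Cv * (1 / θ) ^ Av) := by
        gcongr
        exact (ENNReal.sum_le_tsum _).trans hV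
    _ = _ := by
        rw [ENNReal.ofReal_mul (p := c) hc0]
        ring

end I2Mod

open I2Mod in
/-- Module I2. -/
theorem pfRec (hDecomp : StDecomp) (hSum : StSumS) (hAj : StAj) (hA0 : StA0) (hTail : StTail)
    (hDiv : StDiv) : StRec := by
  obtain ⟨Cd, hCd, Ad, hD⟩ := hDecomp
  obtain ⟨Cs, hCs, hS⟩ := hSum
  obtain ⟨Ca, hCa, Aa, hA⟩ := hAj
  obtain ⟨C0, hC0, A0, h0⟩ := hA0
  obtain ⟨C₁, hC₁, hT⟩ := hTail
  obtain ⟨Cv, hCv, Av, hV⟩ := hDiv.1 Aa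
  obtain ⟨Cw, hCw, Aw, hW⟩ := hDiv.2 (2 + Aa)
  set E1 : ℝ := Real.exp ((19 + 17 * Real.log C₁) / 4) with hE1
  set Z : ℝ := Cs * (C0 + 1 + Ca * E1 * Cv) with hZ
  set N : ℕ := A0 + (Aa + Av) with hN
  have hE1pos : 0 < E1 := Real.exp_pos _
  have hZpos : 0 < Z := by positivity
  refine ⟨C₁, hC₁, max 1 (Cd * Real.exp 1 * Z * Cw * 8 ^ (Ad + N + Aw)), le_max_left _ _,
    Ad + N + Aw, ?_⟩
  intro L H X hX hL hlog hXH _
  have hXR : (1 : ℝ) ≤ X := by exact_mod_cast hX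
  have hH1 : 1 ≤ H := hXR.trans hXH
  set θ : ℝ := 1 / (8 * L) with hθdef
  have hθ : 0 < θ := by positivity
  have hθ8 : θ ≤ 1 / 8 := by
    rw [hθdef]
    apply one_div_le_one_div_of_le (by norm_num)
    linarith
  have hθ1 : 1 / θ = 8 * L := by rw [hθdef, one_div_one_div]
  have hθinv : 1 ≤ 1 / θ := by rw [hθ1]; linarith
  have hlogX0 : 0 ≤ Real.log X := Real.log_nonneg hXR
  set B : ℝ := (X : ℝ) ^ 2 * (C₁ * L) ^ 17 with hB
  have hCL : 1 ≤ C₁ * L := by nlinarith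
  have hBpos : 0 < B := by positivity
  have hBE : B ^ (2 * θ) ≤ E1 := by
    rw [Real.rpow_def_of_pos hBpos, hE1]
    apply Real.exp_le_exp.2
    have hlogB : Real.log B = 2 * Real.log X + 17 * (Real.log C₁ + Real.log L) := by
      rw [hB, Real.log_mul (by positivity) (by positivity), Real.log_pow, Real.log_pow,
        Real.log_mul (by positivity) (by positivity)]
      norm_num
    have h1 : Real.log L ≤ L := (Real.log_le_sub_one_of_pos (by linarith)).trans (by linarith)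
    have h2 : 0 ≤ Real.log C₁ := Real.log_nonneg hC₁
    have h3 : Real.log B ≤ (19 + 17 * Real.log C₁) * L := by
      rw [hlogB]
      nlinarith
    calc Real.log B * (2 * θ) ≤ (19 + 17 * Real.log C₁) * L * (2 * θ) := by gcongr
      _ = (19 + 17 * Real.log C₁) / 4 := by
        rw [hθdef]; field_simp; ring
  have h3X : (3 * X : ℝ) ^ (2 * θ) ≤ Real.exp 1 := by
    rw [Real.rpow_def_of_pos (by positivity)]
    apply Real.exp_le_exp.2
    rw [Real.log_mul (by norm_num) (by positivity)]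
    have h1 : Real.log 3 ≤ 2 := by
      have := Real.log_le_sub_one_of_pos (by norm_num : (0 : ℝ) < 3)
      linarith
    calc (Real.log 3 + Real.log X) * (2 * θ) ≤ (2 + L) * (2 * θ) := by gcongr
      _ ≤ (3 * L) * (2 * θ) := by gcongr; linarith
      _ = 3 / 4 := by rw [hθdef]; field_simp; ring
      _ ≤ 1 := by norm_num
  set S₁ : ℝ≥0∞ := ∑ j ∈ sqf ⌊B / H⌋₊, ENNReal.ofReal (1 / √(j : ℝ)) * (Jm j + 1) with hS1
  set Br : ℝ≥0∞ := ENNReal.ofReal H + ENNReal.ofReal (√H) * S₁ with hBr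
  set a : ℝ := 1 / (3 * X) with ha
  have ha0 : 0 ≤ a := by positivity
  -- the bound for one `r`
  have key : ∀ r : ℕ, 0 < r →
      ∫⁻ u in Ioi a, ENNReal.ofReal ((∑ m ∈ sqf X, Uf m r u ^ 2) * u ^ (1 + 2 * θ)) ≤
        ENNReal.ofReal (Z * (1 / θ) ^ N * dv r ^ Aa) * Br := by
    intro r hr
    have hdr : 1 ≤ dv r := dv_one_le hr
    have hdrA : 1 ≤ dv r ^ Aa := one_le_pow₀ hdr
    refine (int_le Cs hS X r H θ a hr hX hXH ha0).trans ?_
    have hzero : TI H θ a r 0 ≤ ENNReal.ofReal (C0 * (1 / θ) ^ A0) :=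
      (TI_mono H θ a ha0 r 0).trans (h0 θ hθ hθ8 H r (by linarith) hr)
    have hsplit := split_sum (fun j : ℕ => TI H θ a r (j : ℤ)) (fun j : ℕ => TI H θ 0 r (j : ℤ))
      (fun j : ℕ => B < j * H) ⌊B / H⌋₊ (fun j => TI_mono H θ a ha0 r j) (by
        intro j _ hj
        rw [not_lt] at hj
        apply Nat.le_floor
        rw [le_div_iff₀ (by linarith)]
        exact hj)
    have htail : (∑' j : ℕ, if B < j * H then TI H θ a r (j : ℤ) else 0) ≤ 1 :=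
      hT L θ H X r hX hL hlog hθ hθ8 hXH hr
    have hsmall := small_sum Ca Cv Aa Av hCa θ H B hθ hH1 hBpos r
      (fun j₁ j₂ hsq hj₂ => hA θ hθ hθ8 H r j₁ j₂ (by linarith) hr hsq hj₂)
      (hV θ hθ (by linarith))
    have hsumj : ∑' j : ℕ, TI H θ a r (j + 1) ≤ 1 +
        ENNReal.ofReal (Ca * (1 / θ) ^ Aa * dv r ^ Aa * (B ^ (2 * θ) * (1 / √H)) *
        (Cv * (1 / θ) ^ Av)) * S₁ := by
      have e : ∑' j : ℕ, TI H θ a r (j + 1) = ∑' j : ℕ, TI H θ a r ((j + 1 : ℕ) : ℤ) := by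
        push_cast; rfl
      rw [e]
      exact hsplit.trans (add_le_add htail hsmall)
    calc ENNReal.ofReal (Cs * H) * (TI H θ a r 0 + ∑' j : ℕ, TI H θ a r (j + 1))
        ≤ ENNReal.ofReal (Cs * H) * (ENNReal.ofReal (C0 * (1 / θ) ^ A0) + (1 +
          ENNReal.ofReal (Ca * (1 / θ) ^ Aa * dv r ^ Aa * (B ^ (2 * θ) * (1 / √H)) *
            (Cv * (1 / θ) ^ Av)) * S₁)) := by gcongr
      _ ≤ ENNReal.ofReal (Cs * H) * (ENNReal.ofReal ((C0 + 1) * (1 / θ) ^ N * dv r ^ Aa) +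
          ENNReal.ofReal ((Ca * E1 * Cv) * (1 / θ) ^ N * dv r ^ Aa * (1 / √H)) * S₁) := by
          rw [← add_assoc]
          have i1 : ENNReal.ofReal (C0 * (1 / θ) ^ A0) + 1 ≤
              ENNReal.ofReal ((C0 + 1) * (1 / θ) ^ N * dv r ^ Aa) := by
            rw [← ENNReal.ofReal_one, ← ENNReal.ofReal_add (by positivity) (by norm_num)]
            apply ENNReal.ofReal_le_ofReal
            have h1 : (1 / θ) ^ A0 ≤ (1 / θ) ^ N := pow_le_pow_right₀ hθinv (by omega)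
            have h2 : 1 ≤ (1 / θ) ^ N := one_le_pow₀ hθinv
            calc C0 * (1 / θ) ^ A0 + 1 ≤ C0 * (1 / θ) ^ N + (1 / θ) ^ N := by gcongr
              _ = (C0 + 1) * (1 / θ) ^ N * 1 := by ring
              _ ≤ (C0 + 1) * (1 / θ) ^ N * dv r ^ Aa := by gcongr
          have i2 : ENNReal.ofReal (Ca * (1 / θ) ^ Aa * dv r ^ Aa * (B ^ (2 * θ) * (1 / √H)) *
              (Cv * (1 / θ) ^ Av)) ≤
              ENNReal.ofReal ((Ca * E1 * Cv) * (1 / θ) ^ N * dv r ^ Aa * (1 / √H)) := by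
            apply ENNReal.ofReal_le_ofReal
            have h1 : (1 / θ) ^ (Aa + Av) ≤ (1 / θ) ^ N := pow_le_pow_right₀ hθinv (by omega)
            calc Ca * (1 / θ) ^ Aa * dv r ^ Aa * (B ^ (2 * θ) * (1 / √H)) * (Cv * (1 / θ) ^ Av)
                ≤ Ca * (1 / θ) ^ Aa * dv r ^ Aa * (E1 * (1 / √H)) * (Cv * (1 / θ) ^ Av) := by
                  gcongr
              _ = Ca * E1 * Cv * (1 / θ) ^ (Aa + Av) * dv r ^ Aa * (1 / √H) := by
                  rw [pow_add]; ring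
              _ ≤ _ := by gcongr
          exact mul_le_mul' le_rfl (add_le_add i1 (mul_le_mul' i2 le_rfl))
      _ ≤ ENNReal.ofReal (Z * (1 / θ) ^ N * dv r ^ Aa) * Br := by
          have hsqrt : H * (1 / √H) = √H := by
            rw [mul_one_div, Real.div_sqrt]
          rw [hBr, mul_add, mul_add, ← mul_assoc, ← mul_assoc, ← ENNReal.ofReal_mul (by positivity),
            ← ENNReal.ofReal_mul (by positivity), ← ENNReal.ofReal_mul (by positivity),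
            ← ENNReal.ofReal_mul (by positivity)]
          refine add_le_add (ENNReal.ofReal_le_ofReal ?_)
            (mul_le_mul' (ENNReal.ofReal_le_ofReal ?_) le_rfl)
          · rw [hZ]
            have : 0 ≤ Cs * (Ca * E1 * Cv) * H * ((1 / θ) ^ N * dv r ^ Aa) := by positivity
            nlinarith
          · have e : Cs * H * (Ca * E1 * Cv * (1 / θ) ^ N * dv r ^ Aa * (1 / √H)) =
              Cs * (Ca * E1 * Cv) * ((1 / θ) ^ N * dv r ^ Aa) * (H * (1 / √H)) := by ring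
            rw [e, hsqrt, hZ]
            have : 0 ≤ Cs * (C0 + 1) * √H * ((1 / θ) ^ N * dv r ^ Aa) := by positivity
            nlinarith
  -- assembly
  have hfin := hD θ hθ hθ8 X hX
  have hr0 : ∀ r : {r : ℕ // Powerful r}, 0 < (r : ℕ) := fun r => Nat.pos_of_ne_zero r.2.1
  have hterm : ∀ r : {r : ℕ // Powerful r},
      ENNReal.ofReal (dv r ^ 2 * (r : ℝ) ^ (-1 / 2 - 3 / 2 * θ)) *
        ∫⁻ u in Ioi a, ENNReal.ofReal ((∑ m ∈ sqf X, Uf m r u ^ 2) * u ^ (1 + 2 * θ)) ≤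
      ENNReal.ofReal (Z * (1 / θ) ^ N) * Br *
        ENNReal.ofReal (dv r ^ (2 + Aa) * (r : ℝ) ^ (-1 / 2 - 3 / 2 * θ)) := by
    intro r
    have h1 : 0 ≤ dv r := dv_nonneg r
    calc ENNReal.ofReal (dv r ^ 2 * (r : ℝ) ^ (-1 / 2 - 3 / 2 * θ)) * _
        ≤ ENNReal.ofReal (dv r ^ 2 * (r : ℝ) ^ (-1 / 2 - 3 / 2 * θ)) *
          (ENNReal.ofReal (Z * (1 / θ) ^ N * dv r ^ Aa) * Br) :=
          mul_le_mul' le_rfl (key r (hr0 r))
      _ = ENNReal.ofReal (dv r ^ 2 * (r : ℝ) ^ (-1 / 2 - 3 / 2 * θ) *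
            (Z * (1 / θ) ^ N * dv r ^ Aa)) * Br := by
          rw [ENNReal.ofReal_mul (p := dv r ^ 2 * (r : ℝ) ^ (-1 / 2 - 3 / 2 * θ)) (by positivity),
            ← mul_assoc]
      _ = ENNReal.ofReal ((Z * (1 / θ) ^ N) *
            (dv r ^ (2 + Aa) * (r : ℝ) ^ (-1 / 2 - 3 / 2 * θ))) * Br := by
          congr 2
          rw [pow_add]; ring
      _ = ENNReal.ofReal (Z * (1 / θ) ^ N) * Br *
            ENNReal.ofReal (dv r ^ (2 + Aa) * (r : ℝ) ^ (-1 / 2 - 3 / 2 * θ)) := by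
          rw [ENNReal.ofReal_mul (p := Z * (1 / θ) ^ N) (by positivity)]
          ring
  have hsumr : ∑' r : {r : ℕ // Powerful r},
      ENNReal.ofReal (dv r ^ (2 + Aa) * (r : ℝ) ^ (-1 / 2 - 3 / 2 * θ)) ≤
      ENNReal.ofReal (Cw * (1 / θ) ^ Aw) := by
    refine (hW (3 / 2 * θ) (by positivity) (by linarith)).trans ?_
    apply ENNReal.ofReal_le_ofReal
    have : 1 / (3 / 2 * θ) ≤ 1 / θ := one_div_le_one_div_of_le hθ (by linarith)
    gcongr
  have hpre : ENNReal.ofReal (Cd * (1 / θ) ^ Ad * (3 * X : ℝ) ^ (2 * θ)) ≤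
      ENNReal.ofReal (Cd * (1 / θ) ^ Ad * Real.exp 1) := by
    apply ENNReal.ofReal_le_ofReal
    gcongr
  calc sumJ X ≤ _ := hfin
    _ ≤ ENNReal.ofReal (Cd * (1 / θ) ^ Ad * Real.exp 1) *
        ∑' r : {r : ℕ // Powerful r}, ENNReal.ofReal (Z * (1 / θ) ^ N) * Br *
          ENNReal.ofReal (dv r ^ (2 + Aa) * (r : ℝ) ^ (-1 / 2 - 3 / 2 * θ)) :=
        mul_le_mul' hpre (ENNReal.tsum_le_tsum hterm)
    _ = ENNReal.ofReal (Cd * (1 / θ) ^ Ad * Real.exp 1) * (ENNReal.ofReal (Z * (1 / θ) ^ N) * Br *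
        ∑' r : {r : ℕ // Powerful r},
          ENNReal.ofReal (dv r ^ (2 + Aa) * (r : ℝ) ^ (-1 / 2 - 3 / 2 * θ))) := by
        rw [ENNReal.tsum_mul_left]
    _ ≤ ENNReal.ofReal (Cd * (1 / θ) ^ Ad * Real.exp 1) * (ENNReal.ofReal (Z * (1 / θ) ^ N) * Br *
        ENNReal.ofReal (Cw * (1 / θ) ^ Aw)) :=
        mul_le_mul' le_rfl (mul_le_mul' le_rfl hsumr)
    _ = ENNReal.ofReal (Cd * (1 / θ) ^ Ad * Real.exp 1 * (Z * (1 / θ) ^ N) *
          (Cw * (1 / θ) ^ Aw)) * Br := by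
        rw [ENNReal.ofReal_mul (p := Cd * (1 / θ) ^ Ad * Real.exp 1 * (Z * (1 / θ) ^ N))
          (by positivity), ENNReal.ofReal_mul (p := Cd * (1 / θ) ^ Ad * Real.exp 1)
          (by positivity)]
        ring
    _ ≤ ENNReal.ofReal (max 1 (Cd * Real.exp 1 * Z * Cw * 8 ^ (Ad + N + Aw)) *
          L ^ (Ad + N + Aw)) * Br := by
        refine mul_le_mul' (ENNReal.ofReal_le_ofReal ?_) le_rfl
        rw [hθ1]
        have e : Cd * (8 * L) ^ Ad * Real.exp 1 * (Z * (8 * L) ^ N) * (Cw * (8 * L) ^ Aw) =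
            (Cd * Real.exp 1 * Z * Cw * 8 ^ (Ad + N + Aw)) * L ^ (Ad + N + Aw) := by
          rw [mul_pow, mul_pow, mul_pow, pow_add, pow_add, pow_add, pow_add]; ring
        rw [e]
        gcongr
        exact le_max_right _ _

end P004
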