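import Vale.Agent.P004.Iface

/-!
# P004, module I3: the trivial bound for `Jm`
-/

open Real MeasureTheory Set
open scoped ENNReal

namespace P004

namespace I3

/-- `d(n) ≤ 2 √n`. -/
lemma dv_le_sqrt (n : ℕ) : dv n ≤ 2 * √(n : ℝ) := by
  have h1 : n.divisors.card ≤ 2 * Nat.sqrt n := by
    classical
    rw [← Finset.card_filter_add_card_filter_not (s := n.divisors) (fun d => d ≤ Nat.sqrt n)]
    have h2 : (n.divisors.filter (fun d => d ≤ Nat.sqrt n)).card ≤ Nat.sqrt n := by
      have : n.divisors.filter (fun d => d ≤ Nat.sqrt n) ⊆ Finset.Icc 1 (Nat.sqrt n) := by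
        intro d hd
        rw [Finset.mem_filter] at hd
        rw [Finset.mem_Icc]
        exact ⟨Nat.pos_of_mem_divisors hd.1, hd.2⟩
      simpa using Finset.card_le_card this
    have h3 : (n.divisors.filter (fun d => ¬ d ≤ Nat.sqrt n)).card ≤ Nat.sqrt n := by
      have : (n.divisors.filter (fun d => ¬ d ≤ Nat.sqrt n)).card ≤
          (Finset.Icc 1 (Nat.sqrt n)).card := by
        apply Finset.card_le_card_of_injOn (fun d => n / d)
        · intro d hd
          rw [Finset.mem_coe, Finset.mem_filter, Nat.mem_divisors] at hd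
          obtain ⟨⟨⟨k, rfl⟩, hn⟩, hd2⟩ := hd
          have hd0 : 0 < d := Nat.pos_of_ne_zero (by rintro rfl; simp at hn)
          have hk0 : 0 < k := Nat.pos_of_ne_zero (by rintro rfl; simp at hn)
          simp only [Finset.coe_Icc, Set.mem_Icc, Nat.mul_div_cancel_left k hd0]
          refine ⟨hk0, ?_⟩
          by_contra hcon
          push Not at hcon hd2
          have h4 := Nat.lt_succ_sqrt (d * k)
          have h5 : (Nat.sqrt (d * k) + 1) * (Nat.sqrt (d * k) + 1) ≤ d * k :=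
            Nat.mul_le_mul hd2 hcon
          simp only [Nat.succ_eq_add_one] at h4
          omega
        · intro d hd d' hd' h
          rw [Finset.mem_coe, Finset.mem_filter, Nat.mem_divisors] at hd hd'
          simp only at h
          have h5 : d * (n / d) = n := Nat.mul_div_cancel' hd.1.1
          have h6 : d' * (n / d') = n := Nat.mul_div_cancel' hd'.1.1
          rw [← h] at h6
          have h7 : n / d ≠ 0 := by
            intro h0
            rw [h0, mul_zero] at h5
            exact hd.1.2 h5.symm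
          exact Nat.eq_of_mul_eq_mul_right (Nat.pos_of_ne_zero h7) (h5.trans h6.symm)
      simpa using this
    omega
  unfold dv
  have h2 : (Nat.sqrt n : ℝ) ≤ √(n : ℝ) := by
    apply Real.le_sqrt_of_sq_le
    rw [sq]
    exact_mod_cast Nat.sqrt_le n
  have h3 : (n.divisors.card : ℝ) ≤ 2 * (Nat.sqrt n : ℝ) := by exact_mod_cast h1
  linarith

lemma abs_chi_le (m : ℤ) (n : ℕ) : |chi m n| ≤ 1 := by
  unfold chi
  rcases jacobiSym.trichotomy m n with h | h | h <;> simp [h]

lemma ca_le (h1 : StCoef) (n : ℕ) : |(ca n : ℝ)| ≤ 2 * n := by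
  refine (h1.bound n).trans ?_
  calc dv n * √(n : ℝ) ≤ 2 * √(n : ℝ) * √(n : ℝ) :=
        mul_le_mul_of_nonneg_right (dv_le_sqrt n) (Real.sqrt_nonneg _)
    _ = 2 * n := by rw [mul_assoc, Real.mul_self_sqrt (Nat.cast_nonneg _)]

/-- `q / (1-q)² ≤ 1/x²` for `q = e^{-x}`. -/
lemma geom_le {x : ℝ} (hx : 0 < x) :
    Real.exp (-x) / (1 - Real.exp (-x)) ^ 2 ≤ 1 / x ^ 2 := by
  have h1 : Real.exp (-x) < 1 := by
    rw [Real.exp_lt_one_iff]
    linarith
  have h2 : x / 2 ≤ Real.sinh (x / 2) := Real.self_le_sinh_iff.2 (by positivity)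
  rw [Real.sinh_eq] at h2
  have h3 : x ≤ Real.exp (x / 2) - Real.exp (-(x / 2)) := by linarith
  have h4 : 1 - Real.exp (-x) = Real.exp (-(x / 2)) *
      (Real.exp (x / 2) - Real.exp (-(x / 2))) := by
    rw [mul_sub, ← Real.exp_add, ← Real.exp_add]
    congr 1
    · rw [neg_add_cancel, Real.exp_zero]
    · congr 1
      ring
  have h5 : Real.exp (-x) = Real.exp (-(x / 2)) ^ 2 := by
    rw [← Real.exp_nat_mul]
    congr 1
    push_cast
    ring
  have h6 : (0 : ℝ) < 1 - Real.exp (-x) := by linarith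
  rw [div_le_div_iff₀ (by positivity) (by positivity), one_mul, h4, mul_pow, ← h5]
  apply mul_le_mul_of_nonneg_left _ (Real.exp_pos _).le
  exact pow_le_pow_left₀ hx.le h3 2

lemma theta_le (h1 : StCoef) (m : ℤ) {u : ℝ} (hu : 0 < u) : |theta m u| ≤ 1 / u ^ 2 := by
  obtain ⟨q, hq⟩ : ∃ q : ℝ, q = Real.exp (-(π * u)) := ⟨_, rfl⟩
  have hpu : 0 < π * u := by positivity
  have hq1 : q < 1 := by
    rw [hq, Real.exp_lt_one_iff]
    linarith
  have hq0 : 0 < q := by rw [hq]; exact Real.exp_pos _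
  have hq2 : ‖q‖ < 1 := by rw [Real.norm_eq_abs, abs_of_pos hq0]; exact hq1
  have hs0 : HasSum (fun n : ℕ => (n : ℝ) * q ^ n) (q / (1 - q) ^ 2) :=
    hasSum_coe_mul_geometric_of_norm_lt_one hq2
  have hs : HasSum (fun n : ℕ => 2 * ((n : ℝ) * q ^ n)) (2 * (q / (1 - q) ^ 2)) :=
    hs0.mul_left 2
  have hb : ‖∑' n : ℕ, (ca n : ℝ) * chi m n * Real.exp (-π * n * u)‖ ≤ 2 * (q / (1 - q) ^ 2) := by
    apply tsum_of_norm_bounded hs
    intro n
    rw [Real.norm_eq_abs, abs_mul, abs_mul, abs_of_pos (Real.exp_pos _)]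
    have he : Real.exp (-π * n * u) = q ^ n := by
      rw [hq, ← Real.exp_nat_mul]
      congr 1
      ring
    rw [he, ← mul_assoc]
    apply mul_le_mul_of_nonneg_right _ (by positivity)
    calc |(ca n : ℝ)| * |chi m n| ≤ (2 * n) * 1 :=
          mul_le_mul (ca_le h1 n) (abs_chi_le m n) (abs_nonneg _) (by positivity)
      _ = 2 * n := mul_one _
  unfold theta
  rw [abs_mul, abs_of_pos (by norm_num : (0 : ℝ) < 4)]
  rw [Real.norm_eq_abs] at hb
  have h3 := geom_le hpu
  rw [← hq] at h3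
  have h4 : 1 / (π * u) ^ 2 ≤ 1 / 9 * (1 / u ^ 2) := by
    rw [mul_pow, one_div_mul_one_div]
    apply one_div_le_one_div_of_le (by positivity)
    have : (9 : ℝ) ≤ π ^ 2 := by nlinarith [Real.pi_gt_three]
    nlinarith [sq_nonneg u]
  have h5 : 0 ≤ 1 / u ^ 2 := by positivity
  calc 4 * |∑' n : ℕ, (ca n : ℝ) * chi m n * Real.exp (-π * n * u)|
      ≤ 4 * (2 * (q / (1 - q) ^ 2)) := by linarith
    _ ≤ 4 * (2 * (1 / 9 * (1 / u ^ 2))) := by linarith
    _ ≤ 1 / u ^ 2 := by linarith

end I3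

open I3 in
/-- Module I3. -/
theorem pfTriv (h1 : StCoef) (h2 : StFE) : StTriv := by
  refine ⟨16, by norm_num, ?_⟩
  intro m hm hsq
  obtain ⟨κ, hκ, hfe⟩ := h2 m hsq
  have hm1 : (1 : ℝ) ≤ m := by exact_mod_cast hm
  have hQ : 0 < Qm m := by
    unfold Qm
    split_ifs <;> positivity
  have hQ8 : Qm m ≤ 8 * (m : ℝ) ^ 2 := by
    unfold Qm
    split_ifs
    · exact le_rfl
    · nlinarith [sq_nonneg (m : ℝ)]
  set Q := Qm m with hQdef
  have hκ1 : |κ| = 1 := by rcases hκ with h | h <;> simp [h]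
  have hth1 : ∀ u : ℝ, 0 < u → |theta m u| ≤ 1 / u ^ 2 := fun u hu => theta_le h1 m hu
  have hth2 : ∀ u : ℝ, 0 < u → |theta m u| ≤ Q := by
    intro u hu
    rw [hfe u hu, abs_mul, abs_div, hκ1, abs_of_pos (by positivity : 0 < Q * u ^ 2)]
    have h3 := hth1 (1 / (Q * u)) (by positivity)
    calc 1 / (Q * u ^ 2) * |theta m (1 / (Q * u))|
        ≤ 1 / (Q * u ^ 2) * (1 / (1 / (Q * u)) ^ 2) :=
          mul_le_mul_of_nonneg_left h3 (by positivity)
      _ = Q := by
          field_simp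
  set c := 1 / √Q with hc
  have hc0 : 0 < c := by positivity
  have hc2 : c ^ 2 = 1 / Q := by
    rw [hc, div_pow, one_pow, Real.sq_sqrt hQ.le]
  have hsplit : Ioi (0 : ℝ) = Ioc 0 c ∪ Ioi c := (Ioc_union_Ioi_eq_Ioi hc0.le).symm
  have hA : ∫⁻ u in Ioc (0 : ℝ) c, ENNReal.ofReal (theta m u ^ 2 * u) ≤ ENNReal.ofReal Q := by
    calc ∫⁻ u in Ioc (0 : ℝ) c, ENNReal.ofReal (theta m u ^ 2 * u)
        ≤ ∫⁻ _u in Ioc (0 : ℝ) c, ENNReal.ofReal (Q ^ 2 * c) := by
          apply setLIntegral_mono' measurableSet_Ioc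
          intro u hu
          apply ENNReal.ofReal_le_ofReal
          have h3 : theta m u ^ 2 ≤ Q ^ 2 := by
            rw [← sq_abs]
            exact pow_le_pow_left₀ (abs_nonneg _) (hth2 u hu.1) 2
          exact mul_le_mul h3 hu.2 hu.1.le (by positivity)
      _ = ENNReal.ofReal (Q ^ 2 * c) * ENNReal.ofReal c := by
          rw [setLIntegral_const, Real.volume_Ioc, sub_zero]
      _ = ENNReal.ofReal Q := by
          rw [← ENNReal.ofReal_mul (by positivity)]
          congr 1
          rw [mul_assoc, ← sq, hc2]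
          field_simp
  have hB : ∫⁻ u in Ioi c, ENNReal.ofReal (theta m u ^ 2 * u) ≤ ENNReal.ofReal Q := by
    calc ∫⁻ u in Ioi c, ENNReal.ofReal (theta m u ^ 2 * u)
        ≤ ∫⁻ u in Ioi c, ENNReal.ofReal (u ^ (-3 : ℝ)) := by
          apply setLIntegral_mono' measurableSet_Ioi
          intro u hu
          have hu0 : 0 < u := hc0.trans hu
          apply ENNReal.ofReal_le_ofReal
          have h3 : theta m u ^ 2 ≤ (1 / u ^ 2) ^ 2 := by
            rw [← sq_abs]
            exact pow_le_pow_left₀ (abs_nonneg _) (hth1 u hu0) 2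
          calc theta m u ^ 2 * u ≤ (1 / u ^ 2) ^ 2 * u := mul_le_mul_of_nonneg_right h3 hu0.le
            _ = u ^ (-3 : ℝ) := by
                rw [Real.rpow_neg hu0.le]
                have : u ^ (3 : ℝ) = u ^ 3 := by exact_mod_cast Real.rpow_natCast u 3
                rw [this]
                field_simp
      _ = ENNReal.ofReal (∫ u in Ioi c, u ^ (-3 : ℝ)) := by
          rw [ofReal_integral_eq_lintegral_ofReal
            (integrableOn_Ioi_rpow_of_lt (by norm_num) hc0)]
          refine (ae_restrict_iff' measurableSet_Ioi).2 (Filter.Eventually.of_forall fun u hu => ?_)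
          have hu0 : 0 < u := hc0.trans hu
          simp only [Pi.zero_apply]
          positivity
      _ ≤ ENNReal.ofReal Q := by
          apply ENNReal.ofReal_le_ofReal
          rw [integral_Ioi_rpow_of_lt (by norm_num) hc0]
          have h3 : c ^ (-3 + 1 : ℝ) = Q := by
            rw [show (-3 + 1 : ℝ) = -((2 : ℕ) : ℝ) by norm_num, Real.rpow_neg hc0.le,
              Real.rpow_natCast, hc2]
            field_simp
          rw [h3]
          norm_num
          linarith
  calc Jm m = ∫⁻ u in Ioc (0 : ℝ) c ∪ Ioi c, ENNReal.ofReal (theta m u ^ 2 * u) := by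
        unfold Jm
        rw [← hsplit]
    _ ≤ (∫⁻ u in Ioc (0 : ℝ) c, ENNReal.ofReal (theta m u ^ 2 * u)) +
          ∫⁻ u in Ioi c, ENNReal.ofReal (theta m u ^ 2 * u) := lintegral_union_le _ _ _
    _ ≤ ENNReal.ofReal Q + ENNReal.ofReal Q := add_le_add hA hB
    _ = ENNReal.ofReal (2 * Q) := by
        rw [← ENNReal.ofReal_add hQ.le hQ.le]
        congr 1
        ring
    _ ≤ ENNReal.ofReal (16 * (m : ℝ) ^ 3) := by
        apply ENNReal.ofReal_le_ofReal
        have : (m : ℝ) ^ 2 ≤ (m : ℝ) ^ 3 := pow_le_pow_right₀ hm1 (by norm_num)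
        linarith

end P004
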