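import Vale.Agent.P004.Iface

/-!
# P004, module J: the main estimate from the recursion
-/

open Real MeasureTheory Set
open scoped ENNReal

namespace P004

namespace JMod

/-- differences of the weights `1 / √y` -/
noncomputable def dl (y : ℕ) : ℝ := 1 / √(y : ℝ) - 1 / √((y + 1 : ℕ) : ℝ)

lemma dl_nonneg {y : ℕ} (hy : 1 ≤ y) : 0 ≤ dl y := by
  unfold dl
  have h1 : (0 : ℝ) < √(y : ℝ) := Real.sqrt_pos.2 (by exact_mod_cast hy)
  have h2 : √(y : ℝ) ≤ √((y + 1 : ℕ) : ℝ) := Real.sqrt_le_sqrt (by push_cast; linarith)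
  have := one_div_le_one_div_of_le h1 h2
  linarith

lemma weight_eq {j K : ℕ} (hj : 1 ≤ j) (hK : j ≤ K) :
    ENNReal.ofReal (1 / √(j : ℝ)) =
      ∑ y ∈ Finset.Ico j K, ENNReal.ofReal (dl y) + ENNReal.ofReal (1 / √(K : ℝ)) := by
  induction K, hK using Nat.le_induction with
  | base => simp
  | succ K hK ih =>
    rw [Finset.sum_Ico_succ_top hK, ih, add_assoc]
    congr 1
    have h1 : 0 ≤ dl K := dl_nonneg (hj.trans hK)
    rw [← ENNReal.ofReal_add h1 (by positivity)]
    congr 1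
    unfold dl
    ring

lemma sum_dl_le (K : ℕ) (hK : 1 ≤ K) :
    ∑ y ∈ Finset.Ico 1 K, dl y * y ≤ √(K : ℝ) := by
  induction K, hK using Nat.le_induction with
  | base => simp
  | succ K hK ih =>
    rw [Finset.sum_Ico_succ_top hK]
    have hKpos : (0 : ℝ) < K := by exact_mod_cast hK
    have h1 : (0 : ℝ) < √(K : ℝ) := Real.sqrt_pos.2 hKpos
    have h2 : (0 : ℝ) < √((K + 1 : ℕ) : ℝ) := Real.sqrt_pos.2 (by positivity)
    have hs1 : √(K : ℝ) * √(K : ℝ) = K := Real.mul_self_sqrt hKpos.le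
    have hs2 : √((K + 1 : ℕ) : ℝ) * √((K + 1 : ℕ) : ℝ) = K + 1 := by
      rw [Real.mul_self_sqrt (by positivity)]; push_cast; ring
    -- the sharper claim needed: dl K * K ≤ √(K+1) - √K + ... 
    have key : dl K * K ≤ √((K + 1 : ℕ) : ℝ) - √(K : ℝ) := by
      unfold dl
      set a := √(K : ℝ) with ha
      set b := √((K + 1 : ℕ) : ℝ) with hb
      have hab : a ≤ b := Real.sqrt_le_sqrt (by push_cast; linarith)
      have hK' : (K : ℝ) = a * a := hs1.symm
      rw [hK']
      have e1 : (1 / a - 1 / b) * (a * a) = a * (b - a) / b := by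
        field_simp
      rw [e1, div_le_iff₀ h2]
      nlinarith
    linarith

lemma abel (F : ℕ → ℝ≥0∞) (K : ℕ) (P : ℝ) (hP : 0 ≤ P)
    (h : ∀ y ≤ K, ∑ j ∈ Finset.Icc 1 y, F j ≤ ENNReal.ofReal (P * y)) :
    ∑ j ∈ Finset.Icc 1 K, ENNReal.ofReal (1 / √(j : ℝ)) * F j ≤
      ENNReal.ofReal (2 * P * √(K : ℝ)) := by
  rcases Nat.eq_zero_or_pos K with rfl | hK
  · simp
  have e1 : ∑ j ∈ Finset.Icc 1 K, ENNReal.ofReal (1 / √(j : ℝ)) * F j =
      ∑ y ∈ Finset.Ico 1 K, ENNReal.ofReal (dl y) * ∑ j ∈ Finset.Icc 1 y, F j +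
        ENNReal.ofReal (1 / √(K : ℝ)) * ∑ j ∈ Finset.Icc 1 K, F j := by
    have : ∀ j ∈ Finset.Icc 1 K, ENNReal.ofReal (1 / √(j : ℝ)) * F j =
        ∑ y ∈ Finset.Ico j K, ENNReal.ofReal (dl y) * F j +
          ENNReal.ofReal (1 / √(K : ℝ)) * F j := by
      intro j hj
      rw [Finset.mem_Icc] at hj
      rw [weight_eq hj.1 hj.2, add_mul, Finset.sum_mul]
    rw [Finset.sum_congr rfl this, Finset.sum_add_distrib, ← Finset.mul_sum]
    congr 1
    rw [Finset.sum_comm' (t' := Finset.Ico 1 K) (s' := fun y => Finset.Icc 1 y)]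
    · refine Finset.sum_congr rfl fun y _ => ?_
      rw [Finset.mul_sum]
    · intro x y
      simp only [Finset.mem_Icc, Finset.mem_Ico]
      omega
  rw [e1]
  have hKpos : (0 : ℝ) < K := by exact_mod_cast hK
  have h1 : (0 : ℝ) < √(K : ℝ) := Real.sqrt_pos.2 hKpos
  calc ∑ y ∈ Finset.Ico 1 K, ENNReal.ofReal (dl y) * ∑ j ∈ Finset.Icc 1 y, F j +
        ENNReal.ofReal (1 / √(K : ℝ)) * ∑ j ∈ Finset.Icc 1 K, F j
      ≤ ∑ y ∈ Finset.Ico 1 K, ENNReal.ofReal (dl y) * ENNReal.ofReal (P * y) +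
        ENNReal.ofReal (1 / √(K : ℝ)) * ENNReal.ofReal (P * K) := by
        gcongr with y hy
        · rw [Finset.mem_Ico] at hy
          exact h y hy.2.le
        · exact h K le_rfl
    _ = ENNReal.ofReal (∑ y ∈ Finset.Ico 1 K, dl y * (P * y) + 1 / √(K : ℝ) * (P * K)) := by
        rw [ENNReal.ofReal_add, ENNReal.ofReal_sum_of_nonneg,
          ENNReal.ofReal_mul (p := 1 / √(K : ℝ)) (by positivity)]
        · congr 1
          refine Finset.sum_congr rfl fun y hy => ?_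
          rw [Finset.mem_Ico] at hy
          rw [ENNReal.ofReal_mul (dl_nonneg hy.1)]
        · intro y hy
          rw [Finset.mem_Ico] at hy
          have := dl_nonneg hy.1
          positivity
        · refine Finset.sum_nonneg fun y hy => ?_
          rw [Finset.mem_Ico] at hy
          have := dl_nonneg hy.1
          positivity
        · positivity
    _ ≤ ENNReal.ofReal (2 * P * √(K : ℝ)) := by
        apply ENNReal.ofReal_le_ofReal
        have e2 : ∑ y ∈ Finset.Ico 1 K, dl y * (P * y) = P * ∑ y ∈ Finset.Ico 1 K, dl y * y := by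
          rw [Finset.mul_sum]
          exact Finset.sum_congr rfl fun y _ => by ring
        have e3 : 1 / √(K : ℝ) * (P * K) = P * √(K : ℝ) := by
          have : (K : ℝ) = √(K : ℝ) * √(K : ℝ) := (Real.mul_self_sqrt hKpos.le).symm
          field_simp
          rw [sq, ← this, mul_comm]
        rw [e2, e3]
        have := mul_le_mul_of_nonneg_left (sum_dl_le K hK) hP
        linarith

lemma sum_sqf (K : ℕ) (P : ℝ) (hP : 0 ≤ P)
    (h : ∀ y ≤ K, sumJ y ≤ ENNReal.ofReal (P * y)) :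
    ∑ j ∈ sqf K, ENNReal.ofReal (1 / √(j : ℝ)) * (Jm j + 1) ≤
      ENNReal.ofReal (2 * (P + 1) * √(K : ℝ)) := by
  classical
  have e : ∑ j ∈ sqf K, ENNReal.ofReal (1 / √(j : ℝ)) * (Jm j + 1) =
      ∑ j ∈ Finset.Icc 1 K, ENNReal.ofReal (1 / √(j : ℝ)) *
        (if Squarefree j then Jm j + 1 else 0) := by
    unfold sqf
    rw [Finset.sum_filter]
    refine Finset.sum_congr rfl fun j _ => ?_
    split_ifs <;> simp
  rw [e]
  apply abel _ _ _ (by linarith)
  intro y hy
  have e2 : ∑ j ∈ Finset.Icc 1 y, (if Squarefree j then Jm j + 1 else 0) =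
      sumJ y + ((sqf y).card : ℝ≥0∞) := by
    unfold sumJ sqf
    rw [← Finset.sum_filter, Finset.sum_add_distrib]
    simp
  rw [e2]
  have h3 : ((sqf y).card : ℝ≥0∞) ≤ ENNReal.ofReal y := by
    rw [ENNReal.ofReal_natCast]
    have : (sqf y).card ≤ y := by
      calc (sqf y).card ≤ (Finset.Icc 1 y).card := Finset.card_filter_le _ _
        _ = y := by simp
    exact_mod_cast this
  calc sumJ y + ((sqf y).card : ℝ≥0∞) ≤ ENNReal.ofReal (P * y) + ENNReal.ofReal y :=
        add_le_add (h y hy) h3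
    _ = ENNReal.ofReal ((P + 1) * y) := by
        rw [← ENNReal.ofReal_add (by positivity) (by positivity)]
        congr 1; ring

lemma base (Ct : ℝ) (hCt : 1 ≤ Ct)
    (hT : ∀ m : ℕ, 0 < m → Squarefree m → Jm m ≤ ENNReal.ofReal (Ct * (m : ℝ) ^ 3))
    (Δ : ℝ) (_hΔ : 1 ≤ Δ) (Y : ℕ) (hY : (Y : ℝ) ≤ Δ) :
    sumJ Y ≤ ENNReal.ofReal (Ct * Δ ^ 3 * Y) := by
  unfold sumJ
  calc ∑ m ∈ sqf Y, Jm m ≤ ∑ m ∈ sqf Y, ENNReal.ofReal (Ct * Δ ^ 3) := by
        apply Finset.sum_le_sum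
        intro m hm
        unfold sqf at hm
        rw [Finset.mem_filter, Finset.mem_Icc] at hm
        refine (hT m hm.1.1 hm.2).trans (ENNReal.ofReal_le_ofReal ?_)
        have : (m : ℝ) ≤ Δ := le_trans (by exact_mod_cast hm.1.2) hY
        gcongr
    _ = ((sqf Y).card : ℝ≥0∞) * ENNReal.ofReal (Ct * Δ ^ 3) := by simp
    _ ≤ ENNReal.ofReal Y * ENNReal.ofReal (Ct * Δ ^ 3) := by
        gcongr
        rw [ENNReal.ofReal_natCast]
        have : (sqf Y).card ≤ Y := by
          calc (sqf Y).card ≤ (Finset.Icc 1 Y).card := Finset.card_filter_le _ _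
            _ = Y := by simp
        exact_mod_cast this
    _ = ENNReal.ofReal (Ct * Δ ^ 3 * Y) := by
        rw [← ENNReal.ofReal_mul (by positivity)]
        congr 1; ring

/-- the induction -/
lemma induct (Ct C₁ C : ℝ) (A : ℕ) (hCt : 1 ≤ Ct) (hC₁ : 1 ≤ C₁) (hC : 1 ≤ C)
    (hT : ∀ m : ℕ, 0 < m → Squarefree m → Jm m ≤ ENNReal.ofReal (Ct * (m : ℝ) ^ 3))
    (hR : ∀ (L H : ℝ) (X : ℕ), 1 ≤ X → 1 ≤ L →
      Real.log X ≤ L → (X : ℝ) ≤ H → H ≤ (X : ℝ) ^ 2 * (C₁ * L) ^ 17 →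
      sumJ X ≤ ENNReal.ofReal (C * L ^ A) * (ENNReal.ofReal H + ENNReal.ofReal (√H) *
        ∑ j ∈ sqf ⌊(X : ℝ) ^ 2 * (C₁ * L) ^ 17 / H⌋₊,
          ENNReal.ofReal (1 / √(j : ℝ)) * (Jm j + 1)))
    (L Δ : ℝ) (hL : 1 ≤ L) (hΔ : 1 ≤ Δ) (X₀ : ℕ) (hX₀ : Real.log X₀ ≤ L)
    (k : ℕ) : ∀ Y : ℕ, Y ≤ X₀ → (Y : ℝ) ≤ Δ ^ (k + 1) →
      sumJ Y ≤ ENNReal.ofReal ((5 * (C * C₁ ^ 17 * L ^ (A + 17))) ^ k * (Ct * Δ ^ 3) * Y) := by
  set M : ℝ := C * C₁ ^ 17 * L ^ (A + 17) with hM
  have hM1 : 1 ≤ M := by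
    have h1 : (1 : ℝ) ≤ C₁ ^ 17 := one_le_pow₀ hC₁
    have h2 : (1 : ℝ) ≤ L ^ (A + 17) := one_le_pow₀ hL
    calc (1 : ℝ) = 1 * 1 * 1 := by ring
      _ ≤ C * C₁ ^ 17 * L ^ (A + 17) := by gcongr
  induction k with
  | zero =>
    intro Y _ hY
    simpa using base Ct hCt hT Δ hΔ Y (by simpa using hY)
  | succ k ih =>
    intro X hXX hX
    set P : ℝ := (5 * M) ^ k * (Ct * Δ ^ 3) with hP
    have hP1 : Δ ≤ P := by
      have h1 : (1 : ℝ) ≤ (5 * M) ^ k := one_le_pow₀ (by linarith)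
      have h2 : Δ ≤ Δ ^ 3 := by nlinarith [mul_nonneg (sub_nonneg.2 hΔ) (sub_nonneg.2 hΔ)]
      calc Δ = 1 * (1 * Δ) := by ring
        _ ≤ (5 * M) ^ k * (Ct * Δ ^ 3) := by gcongr
    have hP2 : 1 ≤ P := hΔ.trans hP1
    have hnext : (5 * M) ^ (k + 1) * (Ct * Δ ^ 3) = 5 * M * P := by
      rw [hP, pow_succ]; ring
    rw [hnext]
    rcases Nat.eq_zero_or_pos X with rfl | hXpos
    · simp [sumJ, sqf]
    by_cases hXΔ : (X : ℝ) ≤ Δ
    · have := ih X hXX (hXΔ.trans (le_self_pow₀ hΔ (by omega)))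
      refine this.trans (ENNReal.ofReal_le_ofReal ?_)
      have : P ≤ 5 * M * P := by nlinarith
      gcongr
    rw [not_le] at hXΔ
    have hXR : (1 : ℝ) ≤ X := by exact_mod_cast hXpos
    have hCL : 1 ≤ (C₁ * L) ^ 17 := one_le_pow₀ (by nlinarith)
    set B : ℝ := (C₁ * L) ^ 17 with hB
    have hlogX : Real.log X ≤ L := by
      refine (Real.log_le_log (by positivity) ?_).trans hX₀
      exact_mod_cast hXX
    have hH1 : (X : ℝ) ≤ X * Δ * B := by
      calc (X : ℝ) = X * 1 * 1 := by ring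
        _ ≤ X * Δ * B := by gcongr
    have hH2 : X * Δ * B ≤ (X : ℝ) ^ 2 * B := by
      rw [sq]
      gcongr
    have h := hR L (X * Δ * B) X hXpos hL hlogX hH1 hH2
    have hquot : (X : ℝ) ^ 2 * B / (X * Δ * B) = X / Δ := by
      have : B ≠ 0 := by positivity
      field_simp
    rw [hquot] at h
    set K : ℕ := ⌊(X : ℝ) / Δ⌋₊ with hK
    have hKle : (K : ℝ) ≤ X / Δ := Nat.floor_le (by positivity)
    have hsum := sum_sqf K P (by linarith) (fun y hy => by
      apply ih y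
      · have h1 : (y : ℝ) ≤ X := by
          calc (y : ℝ) ≤ K := by exact_mod_cast hy
            _ ≤ X / Δ := hKle
            _ ≤ X := div_le_self (by positivity) hΔ
        have h2 : y ≤ X := by exact_mod_cast h1
        exact h2.trans hXX
      · calc (y : ℝ) ≤ K := by exact_mod_cast hy
            _ ≤ X / Δ := hKle
            _ ≤ Δ ^ (k + 1) := by
              rw [div_le_iff₀ (by positivity)]
              rw [← pow_succ]
              exact hX)
    calc sumJ X ≤ _ := h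
      _ ≤ ENNReal.ofReal (C * L ^ A) * (ENNReal.ofReal (X * Δ * B) +
          ENNReal.ofReal (√(X * Δ * B)) * ENNReal.ofReal (2 * (P + 1) * √(K : ℝ))) := by
          gcongr
      _ = ENNReal.ofReal (C * L ^ A * (X * Δ * B + √(X * Δ * B) * (2 * (P + 1) * √(K : ℝ)))) := by
          rw [← ENNReal.ofReal_mul (by positivity), ← ENNReal.ofReal_add (by positivity)
            (by positivity), ← ENNReal.ofReal_mul (by positivity)]
      _ ≤ ENNReal.ofReal (5 * M * P * X) := by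
          apply ENNReal.ofReal_le_ofReal
          have hs : √(X * Δ * B) * √(K : ℝ) ≤ X * B := by
            rw [← Real.sqrt_mul (by positivity)]
            rw [show (X : ℝ) * B = √((X * B) ^ 2) by rw [Real.sqrt_sq (by positivity)]]
            apply Real.sqrt_le_sqrt
            calc X * Δ * B * K ≤ X * Δ * B * (X / Δ) := by gcongr
              _ = X ^ 2 * B := by field_simp
              _ ≤ X ^ 2 * B * B := by nlinarith [mul_nonneg (sq_nonneg (X : ℝ)) (by linarith : (0:ℝ) ≤ B)]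
              _ = (X * B) ^ 2 := by ring
          have e1 : C * L ^ A * (X * Δ * B + √(X * Δ * B) * (2 * (P + 1) * √(K : ℝ))) ≤
              C * L ^ A * (X * Δ * B + 2 * (P + 1) * (X * B)) := by
            have : √(X * Δ * B) * (2 * (P + 1) * √(K : ℝ)) ≤ 2 * (P + 1) * (X * B) := by
              calc √(X * Δ * B) * (2 * (P + 1) * √(K : ℝ)) =
                  2 * (P + 1) * (√(X * Δ * B) * √(K : ℝ)) := by ring
                _ ≤ _ := by gcongr
            gcongr
          refine e1.trans ?_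
          have e2 : C * L ^ A * B = M := by
            rw [hM, hB, mul_pow, pow_add]; ring
          calc C * L ^ A * (X * Δ * B + 2 * (P + 1) * (X * B)) =
                (C * L ^ A * B) * X * (Δ + 2 * (P + 1)) := by ring
            _ = M * X * (Δ + 2 * (P + 1)) := by rw [e2]
            _ ≤ M * X * (5 * P) := by
              gcongr
              linarith
            _ = 5 * M * P * X := by ring

end JMod

open JMod in
/-- Module J. -/
theorem pfMain (hRec : StRec) (hTriv : StTriv) : StMain := by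
  obtain ⟨Ct, hCt, hT⟩ := hTriv
  obtain ⟨C₁, hC₁, C, hC, A, hR⟩ := hRec
  set D : ℝ := 5 * (C * C₁ ^ 17) with hD
  have hD1 : 1 ≤ D := by
    have h1 : (1 : ℝ) ≤ C₁ ^ 17 := one_le_pow₀ hC₁
    nlinarith
  refine ⟨Real.log D + (A + 17) + 3 + Real.log Ct + 1, ?_, ?_⟩
  · have := Real.log_nonneg hD1
    have := Real.log_nonneg hCt
    have : (0 : ℝ) ≤ A := by positivity
    linarith
  intro X hX
  have hX3 : (3 : ℝ) ≤ X := by exact_mod_cast hX
  set L : ℝ := Real.log X with hL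
  have hL1 : 1 ≤ L := by
    rw [hL, Real.le_log_iff_exp_le (by linarith)]
    have := Real.exp_one_lt_d9
    linarith
  set l2 : ℝ := Real.log (L + 2) with hl2
  have hl21 : 1 ≤ l2 := by
    rw [hl2, Real.le_log_iff_exp_le (by linarith)]
    have := Real.exp_one_lt_d9
    linarith
  have hlL : Real.log L ≤ l2 := Real.log_le_log (by linarith) (by linarith)
  set s : ℝ := √(L * l2) with hs
  have hs1 : 1 ≤ s := by
    rw [hs, Real.one_le_sqrt]
    nlinarith
  have hss : s * s = L * l2 := Real.mul_self_sqrt (by positivity)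
  set Δ : ℝ := Real.exp s with hΔ
  have hΔ1 : 1 ≤ Δ := Real.one_le_exp (by linarith)
  set k : ℕ := ⌊L / s⌋₊ with hk
  have hk1 : (k : ℝ) ≤ L / s := Nat.floor_le (by positivity)
  have hk2 : L / s < k + 1 := Nat.lt_floor_add_one _
  have hXk : (X : ℝ) ≤ Δ ^ (k + 1) := by
    rw [hΔ, ← Real.exp_nat_mul]
    rw [← Real.exp_log (by linarith : (0 : ℝ) < X)]
    apply Real.exp_le_exp.2
    rw [← hL]
    push_cast
    rw [div_lt_iff₀ (by linarith)] at hk2
    exact hk2.le
  have h := induct Ct C₁ C A hCt hC₁ hC hT hR L Δ hL1 hΔ1 X le_rfl k X le_rfl hXk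
  refine h.trans (ENNReal.ofReal_le_ofReal ?_)
  rw [mul_comm]
  gcongr
  -- (5M)^k * (Ct Δ^3) ≤ exp (...)
  have hM : 5 * (C * C₁ ^ 17 * L ^ (A + 17)) = Real.exp (Real.log D + (A + 17) * Real.log L) := by
    rw [Real.exp_add, Real.exp_log (by linarith)]
    have : Real.exp ((A + 17) * Real.log L) = L ^ (A + 17) := by
      rw [← Real.exp_log (by positivity : (0 : ℝ) < L ^ (A + 17)), Real.log_pow]
      push_cast
      rfl
    rw [this, hD]
    ring
  rw [hM, ← Real.exp_nat_mul]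
  have hCtΔ : Ct * Δ ^ 3 = Real.exp (Real.log Ct + 3 * s) := by
    rw [Real.exp_add, Real.exp_log (by linarith), hΔ, ← Real.exp_nat_mul]
    norm_num
  rw [hCtΔ, ← Real.exp_add]
  apply Real.exp_le_exp.2
  have hb : Real.log D + (A + 17) * Real.log L ≤ (Real.log D + (A + 17)) * l2 := by
    have h1 := Real.log_nonneg hD1
    have : Real.log D ≤ Real.log D * l2 := by nlinarith
    have h2 : ((A : ℝ) + 17) * Real.log L ≤ (A + 17) * l2 := by gcongr
    linarith
  have hb0 : 0 ≤ Real.log D + (A + 17) := by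
    have h1 := Real.log_nonneg hD1
    positivity
  have hkl : k * l2 ≤ s := by
    calc k * l2 ≤ L / s * l2 := by gcongr
      _ = s := by
        rw [div_mul_eq_mul_div, ← hss]
        field_simp
  calc (k : ℝ) * (Real.log D + (A + 17) * Real.log L) + (Real.log Ct + 3 * s)
      ≤ k * ((Real.log D + (A + 17)) * l2) + (Real.log Ct * s + 3 * s) := by
        have h3 := Real.log_nonneg hCt
        have : Real.log Ct ≤ Real.log Ct * s := by nlinarith
        gcongr
    _ = (Real.log D + (A + 17)) * (k * l2) + (Real.log Ct * s + 3 * s) := by ring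
    _ ≤ (Real.log D + (A + 17)) * s + (Real.log Ct * s + 3 * s) := by gcongr
    _ ≤ (Real.log D + (A + 17) + 3 + Real.log Ct + 1) * s := by nlinarith

end P004
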