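import Vale.Agent.P004.Iface

/-!
# P004, module K1: the completed `L`-function of the twist
-/

open Complex Filter Set MeasureTheory Asymptotics
open scoped Topology ENNReal

namespace P004
namespace K1

lemma abs_chi_le (m : ℤ) (n : ℕ) : |chi m n| ≤ 1 := by
  unfold chi
  rcases jacobiSym.trichotomy m n with h | h | h <;> rw [h] <;> norm_num

lemma dv_le (n : ℕ) : dv n ≤ n := by
  unfold dv
  exact_mod_cast Nat.card_divisors_le_self n

lemma ca_le (hc : StCoef) (n : ℕ) : |(ca n : ℝ)| ≤ (n : ℝ) ^ (3 / 2 : ℝ) := by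
  have hn : (0 : ℝ) ≤ n := Nat.cast_nonneg n
  calc |(ca n : ℝ)| ≤ dv n * √(n : ℝ) := hc.bound n
    _ ≤ n * √(n : ℝ) := by gcongr; exact dv_le n
    _ = (n : ℝ) ^ (3 / 2 : ℝ) := by
        rw [Real.sqrt_eq_rpow, show (3 / 2 : ℝ) = 1 + 1 / 2 by norm_num,
          Real.rpow_add_of_nonneg hn zero_le_one (by norm_num), Real.rpow_one]

lemma ca_le_sq (hc : StCoef) (n : ℕ) : |(ca n : ℝ)| ≤ (n : ℝ) ^ 2 := by
  rcases Nat.eq_zero_or_pos n with rfl | hn
  · rw [hc.zero]; simp
  · have hn1 : (1 : ℝ) ≤ n := by exact_mod_cast hn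
    refine (ca_le hc n).trans ?_
    rw [← Real.rpow_natCast]
    exact Real.rpow_le_rpow_of_exponent_le hn1 (by norm_num)

/-- the coefficient -/
noncomputable def cc (m : ℤ) (n : ℕ) : ℝ := (ca n : ℝ) * chi m n

lemma cc_le (m : ℤ) (n : ℕ) : |cc m n| ≤ |(ca n : ℝ)| := by
  unfold cc
  rw [abs_mul]
  exact mul_le_of_le_one_right (abs_nonneg _) (abs_chi_le m n)

lemma summable_exp (hc : StCoef) {u : ℝ} (hu : 0 < u) :
    Summable (fun n : ℕ => |(ca n : ℝ)| * Real.exp (-Real.pi * n * u)) := by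
  have h1 := Real.summable_pow_mul_exp_neg_nat_mul 2 (r := Real.pi * u) (by positivity)
  refine h1.of_nonneg_of_le (fun n => by positivity) (fun n => ?_)
  have e1 : -Real.pi * n * u = -(Real.pi * u) * n := by ring
  rw [e1]
  exact mul_le_mul_of_nonneg_right (ca_le_sq hc n) (Real.exp_pos _).le

lemma summable_theta (hc : StCoef) (m : ℤ) {u : ℝ} (hu : 0 < u) :
    Summable (fun n : ℕ => (ca n : ℝ) * chi m n * Real.exp (-Real.pi * n * u)) := by
  refine Summable.of_norm_bounded (summable_exp hc hu) fun n => ?_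
  rw [norm_mul, Real.norm_eq_abs, Real.norm_of_nonneg (Real.exp_pos _).le]
  exact mul_le_mul_of_nonneg_right (cc_le m n) (Real.exp_pos _).le

lemma continuousOn_theta (hc : StCoef) (m : ℤ) : ContinuousOn (theta m) (Ioi 0) := by
  intro u hu
  have hu0 : (0 : ℝ) < u := hu
  apply ContinuousAt.continuousWithinAt
  have h1 : ContinuousOn (fun u : ℝ => ∑' n : ℕ, (ca n : ℝ) * chi m n *
      Real.exp (-Real.pi * n * u)) (Ioi (u / 2)) := by
    refine continuousOn_tsum (u := fun n : ℕ => |(ca n : ℝ)| * Real.exp (-Real.pi * n * (u / 2)))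
      ?_ (summable_exp hc (by positivity)) ?_
    · intro n
      fun_prop
    · intro n x hx
      rw [norm_mul, Real.norm_eq_abs, Real.norm_of_nonneg (Real.exp_pos _).le]
      have hx' : u / 2 ≤ x := (le_of_lt hx)
      have h2 : Real.exp (-Real.pi * n * x) ≤ Real.exp (-Real.pi * n * (u / 2)) := by
        apply Real.exp_le_exp.2
        have : (0 : ℝ) ≤ Real.pi * n := by positivity
        nlinarith
      exact mul_le_mul (cc_le m n) h2 (Real.exp_pos _).le (abs_nonneg _)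
  have h2 : ContinuousOn (theta m) (Ioi (u / 2)) := by
    unfold theta
    exact continuousOn_const.mul h1
  exact h2.continuousAt (Ioi_mem_nhds (by linarith))

/-- the constant of the decay bound -/
noncomputable def C0 : ℝ := 4 * ∑' n : ℕ, |(ca n : ℝ)| * Real.exp (-Real.pi * (n - 1))

lemma summable_C0 (hc : StCoef) :
    Summable (fun n : ℕ => |(ca n : ℝ)| * Real.exp (-Real.pi * (n - 1))) := by
  have h1 := (summable_exp hc one_pos).mul_right (Real.exp Real.pi)
  refine h1.congr fun n => ?_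
  rw [mul_assoc, ← Real.exp_add]
  congr 2
  ring

lemma C0_nonneg : 0 ≤ C0 := by
  unfold C0
  exact mul_nonneg (by norm_num) (tsum_nonneg fun n => by positivity)

lemma theta_le (hc : StCoef) (m : ℤ) {u : ℝ} (hu : 1 ≤ u) :
    |theta m u| ≤ C0 * Real.exp (-Real.pi * u) := by
  have hu0 : 0 < u := by linarith
  unfold theta C0
  rw [abs_mul, abs_of_pos (by norm_num : (0 : ℝ) < 4), mul_assoc]
  apply mul_le_mul_of_nonneg_left _ (by norm_num)
  rw [← tsum_mul_right]
  have h1 : ‖∑' n : ℕ, (ca n : ℝ) * chi m n * Real.exp (-Real.pi * n * u)‖ ≤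
      ∑' n : ℕ, |(ca n : ℝ)| * Real.exp (-Real.pi * (n - 1)) * Real.exp (-Real.pi * u) := by
    refine tsum_of_norm_bounded ((summable_C0 hc).mul_right _).hasSum fun n => ?_
    rw [norm_mul, Real.norm_eq_abs, Real.norm_of_nonneg (Real.exp_pos _).le]
    rcases Nat.eq_zero_or_pos n with rfl | hn
    · have : (ca 0 : ℝ) = 0 := by rw [hc.zero]; simp
      rw [this]
      simp
    · rw [mul_assoc |(ca n : ℝ)|]
      refine mul_le_mul (cc_le m n) ?_ (Real.exp_pos _).le (abs_nonneg _)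
      rw [← Real.exp_add]
      apply Real.exp_le_exp.2
      have hn1 : (1 : ℝ) ≤ n := by exact_mod_cast hn
      have := Real.pi_pos
      nlinarith [mul_nonneg (sub_nonneg.2 hn1) (sub_nonneg.2 hu)]
  exact h1

/-! ### the functional equation pair -/

lemma Qm_pos {m : ℕ} (hm : 0 < m) : 0 < Qm m := by
  unfold Qm
  have : (0 : ℝ) < m := by exact_mod_cast hm
  split_ifs <;> positivity

lemma one_le_Qm {m : ℕ} (hm : 0 < m) : 1 ≤ Qm m := by
  unfold Qm
  have : (1 : ℝ) ≤ m := by exact_mod_cast hm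
  split_ifs <;> nlinarith

lemma Qm_le {m : ℕ} : Qm m ≤ (3 * m) ^ 2 := by
  unfold Qm
  have : (0 : ℝ) ≤ (m : ℝ) ^ 2 := sq_nonneg _
  split_ifs <;> nlinarith

/-- the rescaled theta function -/
noncomputable def fth (m : ℕ) (x : ℝ) : ℂ := (theta m (x / √(Qm m)) : ℝ)

lemma fth_cont (hc : StCoef) {m : ℕ} (hm : 0 < m) : ContinuousOn (fth m) (Ioi 0) := by
  have hq : 0 < √(Qm m) := Real.sqrt_pos.2 (Qm_pos hm)
  refine Complex.continuous_ofReal.comp_continuousOn ?_
  refine (continuousOn_theta hc m).comp (by fun_prop) ?_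
  intro x hx
  exact div_pos hx hq

lemma fth_top (hc : StCoef) {m : ℕ} (hm : 0 < m) (r : ℝ) : fth m =O[atTop] (· ^ r) := by
  have hq : 0 < √(Qm m) := Real.sqrt_pos.2 (Qm_pos hm)
  have h1 : fth m =O[atTop] fun x : ℝ => Real.exp (-(Real.pi / √(Qm m)) * x) := by
    apply IsBigO.of_bound C0
    filter_upwards [eventually_ge_atTop (√(Qm m))] with x hx
    unfold fth
    rw [Complex.norm_real, Real.norm_eq_abs, Real.norm_of_nonneg (Real.exp_pos _).le]
    have h2 : 1 ≤ x / √(Qm m) := by rwa [one_le_div hq]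
    refine (theta_le hc m h2).trans (le_of_eq ?_)
    congr 2
    field_simp
  refine h1.trans ?_
  exact (isLittleO_exp_neg_mul_rpow_atTop (by positivity) r).isBigO

/-- the pair -/
noncomputable def pair (hc : StCoef) {m : ℕ} (hm : 0 < m) {κ : ℝ} (hκ : κ ≠ 0)
    (hfe : ∀ u : ℝ, 0 < u → theta m u = κ / (Qm m * u ^ 2) * theta m (1 / (Qm m * u))) :
    WeakFEPair ℂ where
  f := fth m
  g := fth m
  k := 2
  ε := κ
  f₀ := 0
  g₀ := 0
  hf_int := (fth_cont hc hm).locallyIntegrableOn measurableSet_Ioi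
  hg_int := (fth_cont hc hm).locallyIntegrableOn measurableSet_Ioi
  hk := two_pos
  hε := by exact_mod_cast hκ
  h_feq := by
    intro x hx
    have hx0 : (0 : ℝ) < x := hx
    have hq : 0 < √(Qm m) := Real.sqrt_pos.2 (Qm_pos hm)
    have hQ : √(Qm m) ^ 2 = Qm m := Real.sq_sqrt (Qm_pos hm).le
    unfold fth
    rw [hfe (1 / x / √(Qm m)) (by positivity)]
    have e1 : 1 / (Qm m * (1 / x / √(Qm m))) = x / √(Qm m) := by
      rw [← hQ]
      field_simp
      rw [Real.sqrt_sq hq.le]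
    have e2 : κ / (Qm m * (1 / x / √(Qm m)) ^ 2) = κ * x ^ (2 : ℝ) := by
      rw [div_pow, div_pow, hQ, Real.rpow_two]
      have := (Qm_pos hm).ne'
      field_simp
    rw [e1, e2, smul_eq_mul]
    push_cast
    rfl
  hf_top := fun r => by simpa using fth_top hc hm r
  hg_top := fun r => by simpa using fth_top hc hm r

/-- the completed `L`-function -/
noncomputable def Phi (m : ℕ) : ℂ → ℂ := mellin (fun u : ℝ => ((theta m u : ℝ) : ℂ))

lemma mellin_fth {m : ℕ} (hm : 0 < m) (s : ℂ) :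
    Phi m s = (((√(Qm m))⁻¹ : ℝ) : ℂ) ^ s * mellin (fth m) s := by
  have hq : 0 < √(Qm m) := Real.sqrt_pos.2 (Qm_pos hm)
  have hq' : 0 < (√(Qm m))⁻¹ := inv_pos.2 hq
  have h1 := mellin_comp_mul_right (fun u : ℝ => ((theta m u : ℝ) : ℂ)) s hq'
  have h2 : mellin (fth m) s = (((√(Qm m))⁻¹ : ℝ) : ℂ) ^ (-s) • Phi m s := by
    rw [Phi, ← h1]
    rfl
  rw [h2, smul_eq_mul, ← mul_assoc, ← Complex.cpow_add _ _ (by exact_mod_cast hq'.ne'),
    add_neg_cancel, Complex.cpow_zero, one_mul]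

lemma Phi_props (hc : StCoef) {m : ℕ} (hm : 0 < m) {κ : ℝ} (hκ : κ = 1 ∨ κ = -1)
    (hfe : ∀ u : ℝ, 0 < u → theta m u = κ / (Qm m * u ^ 2) * theta m (1 / (Qm m * u))) :
    Differentiable ℂ (Phi m) ∧ ∀ s : ℂ, ‖Phi m (2 - s)‖ = Qm m ^ (s.re - 1) * ‖Phi m s‖ := by
  have hκ0 : κ ≠ 0 := by rcases hκ with h | h <;> rw [h] <;> norm_num
  have hκ1 : ‖(κ : ℂ)‖ = 1 := by rcases hκ with h | h <;> rw [h] <;> simp
  have hq : 0 < √(Qm m) := Real.sqrt_pos.2 (Qm_pos hm)
  have hq' : 0 < (√(Qm m))⁻¹ := inv_pos.2 hq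
  have hstr : IsStrongFEPair (pair hc hm hκ0 hfe) := ⟨rfl, rfl⟩
  have hΛ : (pair hc hm hκ0 hfe).Λ = mellin (fth m) := hstr.Λ_eq
  have hΛ' : (pair hc hm hκ0 hfe).symm.Λ = mellin (fth m) := hstr.symm_Λ_eq
  constructor
  · have h1 : Differentiable ℂ (mellin (fth m)) := hΛ ▸ hstr.differentiable_Λ
    have h2 : Phi m = fun s => (((√(Qm m))⁻¹ : ℝ) : ℂ) ^ s * mellin (fth m) s :=
      funext (mellin_fth hm)
    rw [h2]
    refine Differentiable.mul ?_ h1
    exact differentiable_id.const_cpow (Or.inl (by exact_mod_cast hq'.ne'))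
  · intro s
    have h1 := (pair hc hm hκ0 hfe).functional_equation s
    rw [hΛ, hΛ'] at h1
    have h2 : mellin (fth m) (2 - s) = κ * mellin (fth m) s := by
      have h3 : (((pair hc hm hκ0 hfe).k : ℝ) : ℂ) = 2 := by
        show ((2 : ℝ) : ℂ) = 2
        norm_num
      rw [h3] at h1
      exact h1
    rw [mellin_fth hm, mellin_fth hm s, h2, norm_mul, norm_mul, norm_mul, hκ1, one_mul,
      norm_cpow_eq_rpow_re_of_pos hq', norm_cpow_eq_rpow_re_of_pos hq', ← mul_assoc]
    congr 1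
    have h4 : ((√(Qm m))⁻¹) ^ (-2 : ℝ) = Qm m := by
      rw [Real.inv_rpow hq.le, ← Real.rpow_neg hq.le, neg_neg, Real.rpow_two,
        Real.sq_sqrt (Qm_pos hm).le]
    have h5 : Qm m ^ (s.re - 1) = ((√(Qm m))⁻¹) ^ (-2 * (s.re - 1)) := by
      rw [Real.rpow_mul hq'.le, h4]
    rw [h5, ← Real.rpow_add hq']
    congr 1
    simp
    ring

lemma summable_series (hc : StCoef) (hd : StDiv) (m : ℤ) {σ : ℝ} (hσ : 3 / 2 < σ) :
    Summable (fun n : ℕ => |cc m n| / (n : ℝ) ^ σ) := by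
  obtain ⟨C, -, A, hA⟩ := hd.1 1
  set θ : ℝ := min (σ - 3 / 2) 1 with hθ
  have hθ0 : 0 < θ := lt_min (by linarith) one_pos
  have hθ1 : θ ≤ 1 := min_le_right _ _
  have hθσ : θ ≤ σ - 3 / 2 := min_le_left _ _
  have h1 := hA θ hθ0 hθ1
  have h2 : Summable (fun n : ℕ => dv n ^ 1 * (n : ℝ) ^ (-1 - θ)) := by
    have h3 : ∀ n : ℕ, 0 ≤ dv n ^ 1 * (n : ℝ) ^ (-1 - θ) := fun n => by
      unfold dv; positivity
    have h4 : (∑' n : ℕ, ENNReal.ofReal (dv n ^ 1 * (n : ℝ) ^ (-1 - θ))) ≠ ⊤ :=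
      ne_top_of_le_ne_top ENNReal.ofReal_ne_top h1
    have h5 := ENNReal.summable_toReal h4
    refine h5.congr fun n => ?_
    rw [ENNReal.toReal_ofReal (h3 n)]
  refine h2.of_nonneg_of_le (fun n => by positivity) (fun n => ?_)
  rcases Nat.eq_zero_or_pos n with rfl | hn
  · have : cc m 0 = 0 := by unfold cc; rw [hc.zero]; simp
    rw [this]
    simp [dv]
  · have hn1 : (1 : ℝ) ≤ n := by exact_mod_cast hn
    have hn0 : (0 : ℝ) < n := by linarith
    rw [pow_one, div_le_iff₀ (by positivity)]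
    refine (cc_le m n).trans ((hc.bound n).trans ?_)
    rw [mul_assoc]
    apply mul_le_mul_of_nonneg_left _ (by unfold dv; positivity)
    rw [Real.sqrt_eq_rpow, ← Real.rpow_add hn0]
    exact Real.rpow_le_rpow_of_exponent_le hn1 (by linarith)

lemma Phi_series (hc : StCoef) (hd : StDiv) (m : ℕ) {s : ℂ} (hs : 3 / 2 < s.re) :
    HasSum (fun n : ℕ => 4 * Complex.Gamma s * (Real.pi : ℂ) ^ (-s) *
      (((ca n * chi m n : ℝ) : ℂ) / (n : ℂ) ^ s)) (Phi m s) := by
  have h1 := hasSum_mellin (a := fun n : ℕ => (4 * (cc m n : ℝ) : ℂ))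
    (p := fun n : ℕ => Real.pi * n) (F := fun u : ℝ => ((theta m u : ℝ) : ℂ)) (s := s) ?_
    (by linarith) ?_ ?_
  · have e : (fun n : ℕ => 4 * Complex.Gamma s * (Real.pi : ℂ) ^ (-s) *
        (((ca n * chi m n : ℝ) : ℂ) / (n : ℂ) ^ s)) =
        fun n : ℕ => Complex.Gamma s * (4 * (cc m n : ℝ) : ℂ) / ((Real.pi * n : ℝ) : ℂ) ^ s := by
      ext n
      rcases Nat.eq_zero_or_pos n with rfl | hn
      · have : cc m 0 = 0 := by unfold cc; rw [hc.zero]; simp
        rw [this, hc.zero]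
        simp
      · have hn0 : (0 : ℝ) < n := by exact_mod_cast hn
        have e1 : ((Real.pi * n : ℝ) : ℂ) ^ s = (Real.pi : ℂ) ^ s * (n : ℂ) ^ s := by
          rw [Complex.ofReal_mul, mul_cpow_ofReal_nonneg Real.pi_pos.le hn0.le]
          norm_cast
        have e2 : (Real.pi : ℂ) ^ s ≠ 0 := by
          rw [Ne, cpow_eq_zero_iff]
          have := Real.pi_ne_zero
          simp [this]
        have e3 : (n : ℂ) ^ s ≠ 0 := by
          rw [Ne, cpow_eq_zero_iff]
          have := hn.ne'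
          simp [this]
        rw [e1, Complex.cpow_neg]
        unfold cc
        push_cast
        field_simp
    rw [e]
    exact h1
  · intro n
    rcases Nat.eq_zero_or_pos n with rfl | hn
    · left
      unfold cc; rw [hc.zero]; simp
    · right
      have : (0 : ℝ) < n := by exact_mod_cast hn
      positivity
  · intro u hu
    have h2 := ((summable_theta hc m hu).hasSum.mul_left 4)
    have h3 := Complex.hasSum_ofReal.2 h2
    have e : (fun n : ℕ => (4 * (cc m n : ℝ) : ℂ) * ((Real.exp (-(Real.pi * n) * u) : ℝ) : ℂ)) =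
        fun n : ℕ => ((4 * ((ca n : ℝ) * chi m n * Real.exp (-Real.pi * n * u)) : ℝ) : ℂ) := by
      ext n
      unfold cc
      push_cast
      have : (-(Real.pi : ℂ) * n * u) = -((Real.pi : ℂ) * n) * u := by ring
      rw [this]
      ring
    rw [e]
    exact h3
  · have h2 := (summable_series hc hd m hs).mul_left (4 / Real.pi ^ s.re)
    refine h2.congr fun n => ?_
    rcases Nat.eq_zero_or_pos n with rfl | hn
    · have : cc m 0 = 0 := by unfold cc; rw [hc.zero]; simp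
      rw [this]
      simp
    · have hn0 : (0 : ℝ) < n := by exact_mod_cast hn
      rw [Real.mul_rpow Real.pi_pos.le hn0.le, norm_mul, Complex.norm_real, Real.norm_eq_abs]
      have : ‖(4 : ℂ)‖ = 4 := by simp
      rw [this]
      field_simp

/-! ### the value at `3` -/

lemma tel (k : ℕ) : ((4 * k + 5 : ℕ) : ℝ) ^ (-(3 / 2) : ℝ) ≤
    1 / 2 * (1 / √((4 * k + 1 : ℕ) : ℝ)) - 1 / 2 * (1 / √((4 * (k + 1) + 1 : ℕ) : ℝ)) := by
  have e1 : ((4 * (k + 1) + 1 : ℕ) : ℝ) = ((4 * k + 5 : ℕ) : ℝ) := by push_cast; ring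
  rw [e1]
  set a : ℝ := √((4 * k + 1 : ℕ) : ℝ) with ha
  set b : ℝ := √((4 * k + 5 : ℕ) : ℝ) with hb
  have ha0 : 0 < a := Real.sqrt_pos.2 (by positivity)
  have hb0 : 0 < b := Real.sqrt_pos.2 (by positivity)
  have ha2 : a ^ 2 = 4 * k + 1 := by
    rw [ha, Real.sq_sqrt (by positivity)]; push_cast; ring
  have hb2 : b ^ 2 = 4 * k + 5 := by
    rw [hb, Real.sq_sqrt (by positivity)]; push_cast; ring
  have hab : a ≤ b := by
    rw [ha, hb]
    apply Real.sqrt_le_sqrt
    push_cast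
    linarith
  have e2 : ((4 * k + 5 : ℕ) : ℝ) ^ (-(3 / 2) : ℝ) = 1 / b ^ 3 := by
    rw [Real.rpow_neg (by positivity), hb, Real.sqrt_eq_rpow, ← Real.rpow_natCast,
      ← Real.rpow_mul (by positivity), one_div]
    norm_num
  rw [e2]
  have e3 : 1 / 2 * (1 / a) - 1 / 2 * (1 / b) = (b - a) / (2 * a * b) := by
    field_simp
  rw [e3, div_le_div_iff₀ (by positivity) (by positivity)]
  have e4 : (b - a) * (b + a) = 4 := by
    have : (b - a) * (b + a) = b ^ 2 - a ^ 2 := by ring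
    rw [this, ha2, hb2]; ring
  -- `2 a b ≤ (b - a) b ^ 3`
  have e5 : 4 * (2 * a * b) ≤ (b - a) * (b + a) * (2 * b * b) := by
    rw [e4]
    have : a * b ≤ b * b := mul_le_mul_of_nonneg_right hab hb0.le
    linarith
  have e6 : (b - a) * (b + a) * (2 * b * b) ≤ (b - a) * (2 * b) * (2 * b * b) := by
    have h1 : 0 ≤ b - a := by linarith
    have h2 : b + a ≤ 2 * b := by linarith
    have h3 : 0 ≤ 2 * b * b := by positivity
    gcongr
  nlinarith

lemma sum_tel (K : ℕ) : ∑ k ∈ Finset.range K, ((4 * k + 5 : ℕ) : ℝ) ^ (-(3 / 2) : ℝ) ≤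
    1 / 2 - 1 / 2 * (1 / √((4 * K + 1 : ℕ) : ℝ)) := by
  induction K with
  | zero => simp
  | succ K ih =>
    rw [Finset.sum_range_succ]
    have := tel K
    linarith

lemma series_three (hc : StCoef) (hd : StDiv) (m : ℕ) :
    1 / 2 ≤ ∑' n : ℕ, cc m n / (n : ℝ) ^ (3 : ℝ) := by
  have hs0 := summable_series hc hd m (σ := 3) (by norm_num)
  have hs : Summable (fun n : ℕ => cc m n / (n : ℝ) ^ (3 : ℝ)) := by
    refine Summable.of_norm_bounded hs0 fun n => ?_
    rw [norm_div, Real.norm_eq_abs, Real.norm_of_nonneg (by positivity)]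
  have h1 := Nat.sumByResidueClasses hs 4
  have hz : ∀ n : ℕ, n % 4 ≠ 1 → cc m n = 0 := by
    intro n hn
    unfold cc
    rw [hc.mod_four n hn]
    simp
  have h2 : ∑ j : ZMod 4, ∑' k : ℕ, cc m (j.val + 4 * k) / ((j.val + 4 * k : ℕ) : ℝ) ^ (3 : ℝ) =
      ∑' k : ℕ, cc m (1 + 4 * k) / ((1 + 4 * k : ℕ) : ℝ) ^ (3 : ℝ) := by
    rw [Finset.sum_eq_single (1 : ZMod 4)]
    · rfl
    · intro j _ hj
      have : ∀ k : ℕ, cc m (j.val + 4 * k) / ((j.val + 4 * k : ℕ) : ℝ) ^ (3 : ℝ) = 0 := by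
        intro k
        rw [hz, zero_div]
        rw [Nat.add_mul_mod_self_left]
        intro h
        apply hj
        have h3 : j.val < 4 := ZMod.val_lt j
        have h4 : j.val = 1 := by omega
        have h5 : ((j.val : ℕ) : ZMod 4) = j := ZMod.natCast_zmod_val j
        rw [h4] at h5
        simpa using h5.symm
      exact (tsum_congr this).trans tsum_zero
    · intro h
      exact absurd (Finset.mem_univ _) h
  rw [h1, h2]
  have hs3 : Summable (fun k : ℕ => cc m (1 + 4 * k) / ((1 + 4 * k : ℕ) : ℝ) ^ (3 : ℝ)) := by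
    refine hs.comp_injective (i := fun k => 1 + 4 * k) ?_
    intro a b h
    simpa using h
  rw [hs3.tsum_eq_zero_add]
  have h3 : cc m (1 + 4 * 0) / ((1 + 4 * 0 : ℕ) : ℝ) ^ (3 : ℝ) = 1 := by
    unfold cc chi
    simp [hc.one]
  rw [h3]
  have h4 : |∑' k : ℕ, cc m (1 + 4 * (k + 1)) / ((1 + 4 * (k + 1) : ℕ) : ℝ) ^ (3 : ℝ)| ≤ 1 / 2 := by
    have hb : ∀ k : ℕ, ‖cc m (1 + 4 * (k + 1)) / ((1 + 4 * (k + 1) : ℕ) : ℝ) ^ (3 : ℝ)‖ ≤
        ((4 * k + 5 : ℕ) : ℝ) ^ (-(3 / 2) : ℝ) := by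
      intro k
      have e1 : 1 + 4 * (k + 1) = 4 * k + 5 := by ring
      rw [e1, norm_div, Real.norm_eq_abs, Real.norm_of_nonneg (by positivity),
        div_le_iff₀ (by positivity)]
      refine (cc_le m _).trans ((ca_le hc _).trans (le_of_eq ?_))
      rw [← Real.rpow_add (by positivity)]
      norm_num
    have hsum : Summable (fun k : ℕ => ((4 * k + 5 : ℕ) : ℝ) ^ (-(3 / 2) : ℝ)) := by
      refine summable_of_sum_range_le (c := 1 / 2) (fun k => by positivity) (fun K => ?_)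
      refine (sum_tel K).trans ?_
      have : 0 ≤ 1 / 2 * (1 / √((4 * K + 1 : ℕ) : ℝ)) := by positivity
      linarith
    have h5 := tsum_of_norm_bounded hsum.hasSum hb
    refine h5.trans ?_
    refine Real.tsum_le_of_sum_range_le (fun k => by positivity) (fun K => ?_)
    refine (sum_tel K).trans ?_
    have : 0 ≤ 1 / 2 * (1 / √((4 * K + 1 : ℕ) : ℝ)) := by positivity
    linarith
  have h5 := (abs_le.1 h4).1
  linarith

lemma Phi_three (hc : StCoef) (hd : StDiv) (m : ℕ) : 1 / 10 ≤ ‖Phi m 3‖ := by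
  have h1 := (Phi_series hc hd m (s := 3) (by norm_num)).tsum_eq
  rw [← h1, tsum_mul_left]
  have h2 : ∑' n : ℕ, (((ca n * chi m n : ℝ) : ℂ) / (n : ℂ) ^ (3 : ℂ)) =
      ((∑' n : ℕ, cc m n / (n : ℝ) ^ (3 : ℝ) : ℝ) : ℂ) := by
    rw [Complex.ofReal_tsum]
    congr 1
    ext n
    rw [Complex.ofReal_div, Complex.ofReal_cpow (Nat.cast_nonneg n)]
    unfold cc
    push_cast
    rfl
  rw [h2, norm_mul, norm_mul, norm_mul]
  have h3 : ‖Complex.Gamma 3‖ = 2 := by
    have : Complex.Gamma 3 = 2 := by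
      have h := Complex.Gamma_nat_eq_factorial 2
      have e : ((2 : ℕ) : ℂ) + 1 = 3 := by norm_num
      rw [e] at h
      rw [h]
      norm_num [Nat.factorial]
    rw [this]; simp
  have h4 : ‖(Real.pi : ℂ) ^ (-3 : ℂ)‖ = 1 / Real.pi ^ 3 := by
    rw [norm_cpow_eq_rpow_re_of_pos Real.pi_pos]
    have : ((-3 : ℂ)).re = -3 := by norm_num
    rw [this, Real.rpow_neg Real.pi_pos.le, one_div]
    norm_cast
  have h5 : ‖(4 : ℂ)‖ = 4 := by simp
  rw [h3, h4, h5, Complex.norm_real, Real.norm_eq_abs]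
  have h6 := series_three hc hd m
  have h7 : 1 / 2 ≤ |∑' n : ℕ, cc m n / (n : ℝ) ^ (3 : ℝ)| := h6.trans (le_abs_self _)
  have hpi : Real.pi ^ 3 ≤ 40 := by
    have h8 := Real.pi_lt_d2
    have h9 := Real.pi_pos
    calc Real.pi ^ 3 ≤ 3.15 ^ 3 := by gcongr
      _ ≤ 40 := by norm_num
  have h8 : 1 / 40 ≤ 1 / Real.pi ^ 3 := one_div_le_one_div_of_le (by positivity) hpi
  calc (1 / 10 : ℝ) = 4 * 2 * (1 / 40) * (1 / 2) := by norm_num
    _ ≤ 4 * 2 * (1 / Real.pi ^ 3) * |∑' n : ℕ, cc m n / (n : ℝ) ^ (3 : ℝ)| := by gcongr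

/-! ### the bound in the strip -/

section bound

variable {m : ℕ} {κ : ℝ}

lemma theta_small (hc : StCoef) (hm : 0 < m) (hκ : κ = 1 ∨ κ = -1)
    (hfe : ∀ u : ℝ, 0 < u → theta m u = κ / (Qm m * u ^ 2) * theta m (1 / (Qm m * u)))
    {u : ℝ} (hu : 0 < u) (hu1 : u ≤ 1 / Qm m) : |theta m u| ≤ C0 * Qm m := by
  have hQ := Qm_pos hm
  have hκ1 : |κ| = 1 := by rcases hκ with h | h <;> rw [h] <;> simp
  set w : ℝ := 1 / (Qm m * u) with hw
  have hw1 : 1 ≤ w := by
    rw [hw, one_le_div (by positivity)]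
    rw [le_div_iff₀ hQ] at hu1
    linarith
  have hw0 : 0 < w := by linarith
  have e1 : κ / (Qm m * u ^ 2) = κ * (Qm m * w ^ 2) := by
    rw [hw]
    field_simp
  rw [hfe u hu, e1, abs_mul, abs_mul, hκ1, one_mul, abs_of_pos (by positivity)]
  have h1 := theta_le hc m hw1
  have h2 : w ^ 2 * Real.exp (-Real.pi * w) ≤ 1 := by
    have h3 := Real.quadratic_le_exp_of_nonneg (x := Real.pi * w) (by positivity)
    have h4 : w ^ 2 ≤ Real.exp (Real.pi * w) := by
      have h5 : w ^ 2 ≤ (Real.pi * w) ^ 2 / 2 := by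
        rw [mul_pow]
        have : (2 : ℝ) ≤ Real.pi ^ 2 := by nlinarith [Real.pi_gt_three]
        have h6 : 0 ≤ w ^ 2 := sq_nonneg w
        nlinarith
      have h7 : 0 ≤ Real.pi * w := by positivity
      linarith
    rw [neg_mul, Real.exp_neg, ← div_eq_mul_inv, div_le_one (Real.exp_pos _)]
    exact h4
  calc Qm m * w ^ 2 * |theta m w| ≤ Qm m * w ^ 2 * (C0 * Real.exp (-Real.pi * w)) := by gcongr
    _ = C0 * Qm m * (w ^ 2 * Real.exp (-Real.pi * w)) := by ring
    _ ≤ C0 * Qm m * 1 := by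
        apply mul_le_mul_of_nonneg_left h2
        exact mul_nonneg C0_nonneg hQ.le
    _ = _ := mul_one _

lemma theta_aesm (hc : StCoef) (m : ℤ) {S : Set ℝ} (hS : MeasurableSet S) (hS0 : S ⊆ Ioi 0) :
    AEStronglyMeasurable (theta m) (volume.restrict S) :=
  ((continuousOn_theta hc m).mono hS0).aestronglyMeasurable hS

lemma Ioc_sub {Q : ℝ} (hQ : 0 < Q) : Icc (1 / Q) 1 ⊆ Ioi (0 : ℝ) := fun _ hx =>
  lt_of_lt_of_le (by positivity : (0 : ℝ) < 1 / Q) hx.1

lemma union_eq {Q : ℝ} (hQ : 1 ≤ Q) : Ioi (0 : ℝ) = Ioc 0 (1 / Q) ∪ (Ioc (1 / Q) 1 ∪ Ioi 1) := by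
  have hQ0 : 0 < 1 / Q := by positivity
  have hQ1 : 1 / Q ≤ 1 := by rw [div_le_one (by linarith)]; exact hQ
  rw [Ioc_union_Ioi_eq_Ioi hQ1, Ioc_union_Ioi_eq_Ioi hQ0.le]

lemma J_int (hc : StCoef) (hm : 0 < m) (hκ : κ = 1 ∨ κ = -1)
    (hfe : ∀ u : ℝ, 0 < u → theta m u = κ / (Qm m * u ^ 2) * theta m (1 / (Qm m * u))) :
    IntegrableOn (fun u => theta m u ^ 2 * u) (Ioi 0) := by
  have hQ := Qm_pos hm
  have hQ1 := one_le_Qm hm
  have hcont : ContinuousOn (fun u => theta m u ^ 2 * u) (Ioi 0) :=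
    ((continuousOn_theta hc m).pow 2).mul continuousOn_id
  rw [union_eq hQ1]
  refine IntegrableOn.union ?_ (IntegrableOn.union ?_ ?_)
  · have hconst : IntegrableOn (fun _ : ℝ => (C0 * Qm m) ^ 2) (Ioc 0 (1 / Qm m)) :=
      (continuous_const.continuousOn.integrableOn_compact isCompact_Icc).mono_set
        Ioc_subset_Icc_self
    refine hconst.mono' ?_ ?_
    · exact (hcont.mono fun x hx => hx.1).aestronglyMeasurable measurableSet_Ioc
    · filter_upwards [ae_restrict_mem measurableSet_Ioc] with u hu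
      have hu0 : 0 < u := hu.1
      have hu1 : u ≤ 1 := hu.2.trans (by rw [div_le_one hQ]; exact hQ1)
      rw [Real.norm_of_nonneg (by positivity), ← sq_abs (theta m u)]
      have h1 := theta_small hc hm hκ hfe hu0 hu.2
      calc |theta m u| ^ 2 * u ≤ (C0 * Qm m) ^ 2 * 1 := by gcongr
        _ = _ := mul_one _
  · have h1 : ContinuousOn (fun u => theta m u ^ 2 * u) (Icc (1 / Qm m) 1) :=
      hcont.mono (Ioc_sub hQ)
    exact (h1.integrableOn_compact isCompact_Icc).mono_set Ioc_subset_Icc_self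
  · have h0 : IntegrableOn (fun u : ℝ => C0 ^ 2 * (u ^ (1 : ℝ) * Real.exp (-Real.pi * u ^ (1 : ℝ))))
        (Ioi 0) :=
      (integrableOn_rpow_mul_exp_neg_mul_rpow (s := 1) (by norm_num) one_pos Real.pi_pos).const_mul _
    have h1 := h0.mono_set (Ioi_subset_Ioi (zero_le_one (α := ℝ)))
    refine h1.mono' ?_ ?_
    · exact (hcont.mono (Ioi_subset_Ioi zero_le_one)).aestronglyMeasurable measurableSet_Ioi
    · filter_upwards [ae_restrict_mem measurableSet_Ioi] with u hu
      have hu1 : (1 : ℝ) < u := hu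
      rw [Real.norm_of_nonneg (by positivity), ← sq_abs (theta m u), Real.rpow_one]
      have h2 := theta_le hc m hu1.le
      have h3 : Real.exp (-Real.pi * u) ≤ 1 := by
        rw [Real.exp_le_one_iff]
        have := Real.pi_pos
        nlinarith
      have h4 : 0 ≤ C0 * Real.exp (-Real.pi * u) := mul_nonneg C0_nonneg (Real.exp_pos _).le
      calc |theta m u| ^ 2 * u ≤ (C0 * Real.exp (-Real.pi * u)) ^ 2 * u := by gcongr
        _ = C0 ^ 2 * (u * Real.exp (-Real.pi * u)) * Real.exp (-Real.pi * u) := by ring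
        _ ≤ C0 ^ 2 * (u * Real.exp (-Real.pi * u)) * 1 := by gcongr
        _ = _ := mul_one _

lemma J_toReal (hc : StCoef) : (Jm m).toReal = ∫ u in Ioi (0 : ℝ), theta m u ^ 2 * u := by
  rw [integral_eq_lintegral_of_nonneg_ae]
  · rfl
  · filter_upwards [ae_restrict_mem measurableSet_Ioi] with u hu
    have hu0 : (0 : ℝ) < u := hu
    simp only [Pi.zero_apply]
    positivity
  · exact (((continuousOn_theta hc m).pow 2).mul continuousOn_id).aestronglyMeasurable
      measurableSet_Ioi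

lemma middle (hc : StCoef) (hm : 0 < m) (hκ : κ = 1 ∨ κ = -1)
    (hfe : ∀ u : ℝ, 0 < u → theta m u = κ / (Qm m * u ^ 2) * theta m (1 / (Qm m * u))) :
    ∫ u in Ioc (1 / Qm m) 1, |theta m u| ≤ √((Jm m).toReal * Real.log (Qm m)) := by
  have hQ := Qm_pos hm
  have hQ1 := one_le_Qm hm
  have hle : 1 / Qm m ≤ 1 := by rw [div_le_one hQ]; exact hQ1
  have hth : ContinuousOn (theta m) (Icc (1 / Qm m) 1) := (continuousOn_theta hc m).mono (Ioc_sub hQ)
  have i1 : IntegrableOn (fun u => theta m u ^ 2 * u) (Ioc (1 / Qm m) 1) :=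
    ((hth.pow 2).mul continuousOn_id).integrableOn_compact isCompact_Icc |>.mono_set
      Ioc_subset_Icc_self
  have i2 : IntegrableOn (fun u => |theta m u|) (Ioc (1 / Qm m) 1) :=
    (hth.abs.integrableOn_compact isCompact_Icc).mono_set Ioc_subset_Icc_self
  have i3 : IntegrableOn (fun u : ℝ => 1 / u) (Ioc (1 / Qm m) 1) := by
    have : ContinuousOn (fun u : ℝ => 1 / u) (Icc (1 / Qm m) 1) :=
      continuousOn_const.div continuousOn_id fun x hx => ne_of_gt (Ioc_sub hQ hx)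
    exact (this.integrableOn_compact isCompact_Icc).mono_set Ioc_subset_Icc_self
  have h3 : ∫ u in Ioc (1 / Qm m) 1, 1 / u = Real.log (Qm m) := by
    rw [← intervalIntegral.integral_of_le hle, integral_one_div_of_pos (by positivity) one_pos]
    congr 1
    field_simp
  set J2 := ∫ u in Ioc (1 / Qm m) 1, theta m u ^ 2 * u with hJ2
  set X := ∫ u in Ioc (1 / Qm m) 1, |theta m u| with hX
  have hJ : J2 ≤ (Jm m).toReal := by
    rw [J_toReal hc]
    refine setIntegral_mono_set (J_int hc hm hκ hfe) ?_ ?_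
    · filter_upwards [ae_restrict_mem measurableSet_Ioi] with u hu
      have hu0 : (0 : ℝ) < u := hu
      simp only [Pi.zero_apply]
      positivity
    · have hsub : Ioc (1 / Qm m) 1 ⊆ Ioi (0 : ℝ) := fun u hu =>
        lt_trans (by positivity : (0 : ℝ) < 1 / Qm m) hu.1
      exact hsub.eventuallyLE
  have hX0 : 0 ≤ X := setIntegral_nonneg measurableSet_Ioc fun u _ => abs_nonneg _
  have hquad : ∀ l : ℝ, 0 ≤ J2 * (l * l) + (-2 * X) * l + Real.log (Qm m) := by
    intro l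
    have h4 : 0 ≤ ∫ u in Ioc (1 / Qm m) 1, ((l * l) * (theta m u ^ 2 * u) +
        (-2 * l) * |theta m u| + 1 / u) := by
      refine setIntegral_nonneg measurableSet_Ioc fun u hu => ?_
      have hu0 : (0 : ℝ) < u := lt_trans (by positivity : (0:ℝ) < 1 / Qm m) hu.1
      have h5 : (l * l) * (theta m u ^ 2 * u) + (-2 * l) * |theta m u| + 1 / u =
          (l * |theta m u| * u - 1) ^ 2 / u := by
        rw [← sq_abs (theta m u)]
        field_simp
        ring
      rw [h5]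
      positivity
    rw [integral_add, integral_add, integral_const_mul, integral_const_mul, h3] at h4
    · rw [← hJ2, ← hX] at h4
      linarith
    · exact i1.const_mul _
    · exact i2.const_mul _
    · exact (i1.const_mul _).add (i2.const_mul _)
    · exact i3
  have hdis := discrim_le_zero hquad
  unfold discrim at hdis
  have hlog : 0 ≤ Real.log (Qm m) := Real.log_nonneg hQ1
  apply Real.le_sqrt_of_sq_le
  have h6 : J2 * Real.log (Qm m) ≤ (Jm m).toReal * Real.log (Qm m) :=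
    mul_le_mul_of_nonneg_right hJ hlog
  nlinarith

lemma Phi_bound (hc : StCoef) (hm : 0 < m) (hκ : κ = 1 ∨ κ = -1)
    (hfe : ∀ u : ℝ, 0 < u → theta m u = κ / (Qm m * u ^ 2) * theta m (1 / (Qm m * u)))
    {s : ℂ} (hs1 : 1 ≤ s.re) (hs5 : s.re ≤ 5) :
    ‖Phi m s‖ ≤ 2 * C0 + √((Jm m).toReal * Real.log (Qm m)) := by
  have hQ := Qm_pos hm
  have hQ1 := one_le_Qm hm
  have hle : 1 / Qm m ≤ 1 := by rw [div_le_one hQ]; exact hQ1
  have hmeas : ∀ S : Set ℝ, MeasurableSet S → S ⊆ Ioi 0 →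
      AEStronglyMeasurable (fun u : ℝ => |theta m u| * u ^ (s.re - 1)) (volume.restrict S) := by
    intro S hS hS0
    refine ContinuousOn.aestronglyMeasurable ?_ hS
    refine ((continuousOn_theta hc m).mono hS0).abs.mul ?_
    intro u hu
    exact (Real.continuousAt_rpow_const u _ (Or.inl (ne_of_gt (hS0 hu)))).continuousWithinAt
  -- the three pieces
  have b1 : ∀ᵐ u ∂(volume.restrict (Ioc 0 (1 / Qm m))),
      ‖|theta m u| * u ^ (s.re - 1)‖ ≤ C0 * Qm m := by
    filter_upwards [ae_restrict_mem measurableSet_Ioc] with u hu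
    have hu0 : 0 < u := hu.1
    have hu1 : u ≤ 1 := hu.2.trans hle
    rw [Real.norm_of_nonneg (by positivity)]
    have h1 := theta_small hc hm hκ hfe hu0 hu.2
    have h2 : u ^ (s.re - 1) ≤ 1 := Real.rpow_le_one hu0.le hu1 (by linarith)
    have h3 : 0 ≤ C0 * Qm m := mul_nonneg C0_nonneg hQ.le
    calc |theta m u| * u ^ (s.re - 1) ≤ (C0 * Qm m) * 1 := by gcongr
      _ = _ := mul_one _
  have i1 : IntegrableOn (fun u : ℝ => |theta m u| * u ^ (s.re - 1)) (Ioc 0 (1 / Qm m)) := by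
    have hconst : IntegrableOn (fun _ : ℝ => C0 * Qm m) (Ioc 0 (1 / Qm m)) :=
      (continuous_const.continuousOn.integrableOn_compact isCompact_Icc).mono_set
        Ioc_subset_Icc_self
    exact hconst.mono' (hmeas _ measurableSet_Ioc fun x hx => hx.1) b1
  have hth : ContinuousOn (theta m) (Icc (1 / Qm m) 1) := (continuousOn_theta hc m).mono (Ioc_sub hQ)
  have i2' : IntegrableOn (fun u => |theta m u|) (Ioc (1 / Qm m) 1) :=
    (hth.abs.integrableOn_compact isCompact_Icc).mono_set Ioc_subset_Icc_self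
  have b2 : ∀ u ∈ Ioc (1 / Qm m) 1, |theta m u| * u ^ (s.re - 1) ≤ |theta m u| := by
    intro u hu
    have hu0 : (0 : ℝ) < u := lt_trans (by positivity : (0:ℝ) < 1 / Qm m) hu.1
    exact mul_le_of_le_one_right (abs_nonneg _) (Real.rpow_le_one hu0.le hu.2 (by linarith))
  have i2 : IntegrableOn (fun u : ℝ => |theta m u| * u ^ (s.re - 1)) (Ioc (1 / Qm m) 1) := by
    refine i2'.mono' (hmeas _ measurableSet_Ioc fun x hx =>
      lt_trans (by positivity : (0:ℝ) < 1 / Qm m) hx.1) ?_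
    filter_upwards [ae_restrict_mem measurableSet_Ioc] with u hu
    have hu0 : (0 : ℝ) < u := lt_trans (by positivity : (0:ℝ) < 1 / Qm m) hu.1
    rw [Real.norm_of_nonneg (by positivity)]
    exact b2 u hu
  have b3 : ∀ u ∈ Ioi (1 : ℝ), |theta m u| * u ^ (s.re - 1) ≤
      C0 * (u ^ (4 : ℝ) * Real.exp (-Real.pi * u ^ (1 : ℝ))) := by
    intro u hu
    have hu1 : (1 : ℝ) < u := hu
    have h1 := theta_le hc m hu1.le
    have h2 : u ^ (s.re - 1) ≤ u ^ (4 : ℝ) :=
      Real.rpow_le_rpow_of_exponent_le hu1.le (by linarith)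
    have h4 : 0 ≤ C0 * Real.exp (-Real.pi * u) := mul_nonneg C0_nonneg (Real.exp_pos _).le
    calc |theta m u| * u ^ (s.re - 1) ≤ (C0 * Real.exp (-Real.pi * u)) * u ^ (4 : ℝ) := by gcongr
      _ = _ := by rw [Real.rpow_one]; ring
  have i3' : IntegrableOn (fun u : ℝ => C0 * (u ^ (4 : ℝ) * Real.exp (-Real.pi * u ^ (1 : ℝ))))
      (Ioi 0) :=
    (integrableOn_rpow_mul_exp_neg_mul_rpow (s := 4) (by norm_num) one_pos Real.pi_pos).const_mul _
  have i3 : IntegrableOn (fun u : ℝ => |theta m u| * u ^ (s.re - 1)) (Ioi 1) := by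
    refine (i3'.mono_set (Ioi_subset_Ioi zero_le_one)).mono'
      (hmeas _ measurableSet_Ioi (Ioi_subset_Ioi zero_le_one)) ?_
    filter_upwards [ae_restrict_mem measurableSet_Ioi] with u hu
    have hu1 : (1 : ℝ) < u := hu
    rw [Real.norm_of_nonneg (by positivity)]
    exact b3 u hu
  -- the norm
  have h0 : ‖Phi m s‖ ≤ ∫ u in Ioi (0 : ℝ), |theta m u| * u ^ (s.re - 1) := by
    rw [Phi, mellin]
    refine (norm_integral_le_integral_norm _).trans (le_of_eq ?_)
    apply setIntegral_congr_fun measurableSet_Ioi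
    intro u hu
    simp only
    rw [norm_smul, norm_cpow_eq_rpow_re_of_pos hu, Complex.norm_real, Real.norm_eq_abs, mul_comm]
    simp
  refine h0.trans ?_
  rw [union_eq hQ1, setIntegral_union _ (measurableSet_Ioc.union measurableSet_Ioi) i1 (i2.union i3),
    setIntegral_union _ measurableSet_Ioi i2 i3]
  · have p1 : ∫ u in Ioc 0 (1 / Qm m), |theta m u| * u ^ (s.re - 1) ≤ C0 := by
      have h1 := norm_setIntegral_le_of_norm_le_const_ae' (μ := volume) (s := Ioc 0 (1 / Qm m))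
        (f := fun u : ℝ => |theta m u| * u ^ (s.re - 1)) (C := C0 * Qm m) (by simp)
        (by rw [← ae_restrict_iff' measurableSet_Ioc]; exact b1)
      have h2 : volume.real (Ioc 0 (1 / Qm m)) = 1 / Qm m := by
        rw [Real.volume_real_Ioc_of_le (by positivity)]; ring
      rw [h2] at h1
      refine (le_abs_self _).trans (h1.trans (le_of_eq ?_))
      field_simp
    have p2 : ∫ u in Ioc (1 / Qm m) 1, |theta m u| * u ^ (s.re - 1) ≤
        √((Jm m).toReal * Real.log (Qm m)) :=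
      (setIntegral_mono_on i2 i2' measurableSet_Ioc b2).trans (middle hc hm hκ hfe)
    have p3 : ∫ u in Ioi 1, |theta m u| * u ^ (s.re - 1) ≤ C0 := by
      have h1 := setIntegral_mono_on i3 (i3'.mono_set (Ioi_subset_Ioi zero_le_one))
        measurableSet_Ioi b3
      have h2 : ∫ u in Ioi (1 : ℝ), C0 * (u ^ (4 : ℝ) * Real.exp (-Real.pi * u ^ (1 : ℝ))) ≤
          ∫ u in Ioi (0 : ℝ), C0 * (u ^ (4 : ℝ) * Real.exp (-Real.pi * u ^ (1 : ℝ))) := by
        refine setIntegral_mono_set i3' ?_ (Ioi_subset_Ioi zero_le_one).eventuallyLE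
        filter_upwards [ae_restrict_mem measurableSet_Ioi] with u hu
        have hu0 : (0 : ℝ) < u := hu
        have := C0_nonneg
        simp only [Pi.zero_apply]
        positivity
      have h3 : ∫ u in Ioi (0 : ℝ), C0 * (u ^ (4 : ℝ) * Real.exp (-Real.pi * u ^ (1 : ℝ))) ≤ C0 := by
        rw [integral_const_mul,
          _root_.integral_rpow_mul_exp_neg_mul_rpow one_pos (by norm_num) Real.pi_pos]
        have h4 : Real.Gamma ((4 + 1) / 1) = 24 := by
          have := Real.Gamma_nat_eq_factorial 4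
          have e : ((4 : ℕ) : ℝ) + 1 = (4 + 1) / 1 := by norm_num
          rw [e] at this
          rw [this]
          norm_num [Nat.factorial]
        have h5 : Real.pi ^ (-(4 + 1) / 1 : ℝ) = 1 / Real.pi ^ 5 := by
          rw [show (-(4 + 1) / 1 : ℝ) = -((5 : ℕ) : ℝ) by norm_num, Real.rpow_neg Real.pi_pos.le,
            Real.rpow_natCast, one_div]
        rw [h4, h5]
        have h6 : (24 : ℝ) ≤ Real.pi ^ 5 := by
          have := Real.pi_gt_three
          calc (24 : ℝ) ≤ 3 ^ 5 := by norm_num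
            _ ≤ Real.pi ^ 5 := by gcongr
        have h7 : 1 / Real.pi ^ 5 * (1 / 1) * 24 ≤ 1 := by
          rw [div_one, mul_one, one_div, inv_mul_le_iff₀ (by positivity), mul_one]
          exact h6
        calc C0 * (1 / Real.pi ^ 5 * (1 / 1) * 24) ≤ C0 * 1 :=
              mul_le_mul_of_nonneg_left h7 C0_nonneg
          _ = C0 := mul_one _
      linarith
    linarith
  · exact Set.disjoint_left.2 fun x h1 h2 => absurd h1.2 (not_le.2 h2)
  · refine Set.disjoint_left.2 fun x h1 h2 => ?_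
    rcases h2 with h2 | h2
    · exact absurd h1.2 (not_le.2 h2.1)
    · exact absurd (h1.2.trans hle) (not_le.2 h2)

end bound

end K1

theorem pfEnt (hc : StCoef) (hd : StDiv) (hfe : StFE) : StEnt := by
  have hC0 := K1.C0_nonneg
  refine ⟨2 * K1.C0 + 10, by linarith, fun m hm hsq => ?_⟩
  obtain ⟨κ, hκ, hκfe⟩ := hfe m hsq
  obtain ⟨hΦ1, hΦ2⟩ := K1.Phi_props hc hm hκ hκfe
  refine ⟨K1.Phi m, hΦ1, ?_, ?_, hΦ2, ?_⟩
  · intro s hs
    have := (K1.Phi_series hc hd m hs).tsum_eq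
    rw [tsum_mul_left] at this
    exact this.symm
  · intro s hs1 hs5
    refine (K1.Phi_bound hc hm hκ hκfe hs1 hs5).trans ?_
    have hm1 : (1 : ℝ) ≤ m := by exact_mod_cast hm
    have h1 : Real.log (Qm m) ≤ 2 * Real.log (3 * m) := by
      have h2 := Real.log_le_log (K1.Qm_pos hm) (K1.Qm_le (m := m))
      rwa [Real.log_pow, Nat.cast_ofNat] at h2
    have hJ0 : 0 ≤ (Jm m).toReal := ENNReal.toReal_nonneg
    have h3 : √((Jm m).toReal * Real.log (Qm m)) ≤
        2 * √((Jm m).toReal * Real.log (3 * m)) := by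
      have h4 : (Jm m).toReal * Real.log (Qm m) ≤ 2 ^ 2 * ((Jm m).toReal * Real.log (3 * m)) := by
        have h5 : 0 ≤ Real.log (3 * m) := Real.log_nonneg (by linarith)
        have h6 : (Jm m).toReal * Real.log (Qm m) ≤ (Jm m).toReal * (2 * Real.log (3 * m)) :=
          mul_le_mul_of_nonneg_left h1 hJ0
        have h7 : 0 ≤ (Jm m).toReal * Real.log (3 * m) := mul_nonneg hJ0 h5
        linarith
      calc √((Jm m).toReal * Real.log (Qm m)) ≤
            √(2 ^ 2 * ((Jm m).toReal * Real.log (3 * m))) := Real.sqrt_le_sqrt h4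
        _ = 2 * √((Jm m).toReal * Real.log (3 * m)) := by
            rw [Real.sqrt_mul (by norm_num), Real.sqrt_sq (by norm_num)]
    have h8 : 0 ≤ √((Jm m).toReal * Real.log (3 * m)) := Real.sqrt_nonneg _
    nlinarith
  · refine le_trans ?_ (K1.Phi_three hc hd m)
    apply one_div_le_one_div_of_le (by norm_num)
    linarith

end P004
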