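import Vale.Agent.P004.Iface

/-!
# Module L1: the Euler product of the twists
-/

open Finset

namespace P004

section Frob

variable {p : ℕ} [Fact p.Prime]


/-- number of square roots -/
theorem card_sq_eq (hp : p ≠ 2) (a : ZMod p) :
    (Nat.card {y : ZMod p // y ^ 2 = a} : ℤ) = (quadraticChar (ZMod p)) a + 1 := by
  have h := quadraticChar_card_sqrts (F := ZMod p) (by rw [ZMod.ringChar_zmod_n]; exact hp) a
  rw [← h]
  congr 1
  rw [Nat.card_eq_fintype_card, Set.toFinset_card]
  rfl

/-- the number of affine points of `D y² = x³ - x` -/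
theorem card_points (hp : p ≠ 2) {D : ZMod p} (hD : D ≠ 0) :
    (Nat.card {q : ZMod p × ZMod p // D * q.2 ^ 2 = q.1 ^ 3 - q.1} : ℤ) =
      p + (quadraticChar (ZMod p)) D * ∑ x : ZMod p, (quadraticChar (ZMod p)) (x ^ 3 - x) := by
  have e : {q : ZMod p × ZMod p // D * q.2 ^ 2 = q.1 ^ 3 - q.1} ≃
      (Σ x : ZMod p, {y : ZMod p // y ^ 2 = D⁻¹ * (x ^ 3 - x)}) :=
    { toFun := fun q => ⟨q.1.1, ⟨q.1.2, by
        rw [← q.2, inv_mul_cancel_left₀ hD]⟩⟩
      invFun := fun q => ⟨(q.1, q.2.1), by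
        have := q.2.2
        simp only []
        rw [this, mul_inv_cancel_left₀ hD]⟩
      left_inv := fun q => rfl
      right_inv := fun q => rfl }
  rw [Nat.card_congr e, Nat.card_sigma]
  push_cast
  rw [Finset.sum_congr rfl fun x _ => card_sq_eq hp _, Finset.sum_add_distrib, Finset.sum_const,
    Finset.card_univ, ZMod.card, nsmul_eq_mul, mul_one, add_comm]
  congr 1
  rw [Finset.mul_sum]
  refine Finset.sum_congr rfl fun x _ => ?_
  rw [map_mul]
  congr 1
  have h1 : (quadraticChar (ZMod p)) D⁻¹ * (quadraticChar (ZMod p)) D = 1 := by rw [← map_mul, inv_mul_cancel₀ hD, map_one]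
  have h2 : (quadraticChar (ZMod p)) D ^ 2 = 1 := quadraticChar_sq_one hD
  calc (quadraticChar (ZMod p)) D⁻¹ = (quadraticChar (ZMod p)) D⁻¹ * ((quadraticChar (ZMod p)) D ^ 2) := by rw [h2, mul_one]
    _ = ((quadraticChar (ZMod p)) D⁻¹ * (quadraticChar (ZMod p)) D) * (quadraticChar (ZMod p)) D := by ring
    _ = (quadraticChar (ZMod p)) D := by rw [h1, one_mul]

theorem frobTrace_eq (hpt : StPt) (hp : p ≠ 2) {D : ℤ} (hD : ¬ (p : ℤ) ∣ D) :
    frobTrace D p = (quadraticChar (ZMod p)) (D : ZMod p) * ca p := by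
  have hD0 : (D : ZMod p) ≠ 0 := by
    rw [Ne, ZMod.intCast_zmod_eq_zero_iff_dvd]; exact hD
  unfold frobTrace
  rw [card_points hp hD0, hpt p hp]
  ring

end Frob

/-- generating function of a linear recursion of order two -/
theorem gen_fun {b : ℕ → ℂ} {t q z : ℂ} (h0 : b 0 = 1) (h1 : b 1 = t)
    (hrec : ∀ k, b (k + 2) = t * b (k + 1) - q * b k) (hs : Summable fun k => b k * z ^ k) :
    ∑' k, b k * z ^ k = (1 - t * z + q * z ^ 2)⁻¹ := by
  have hs1 : Summable fun k => b (k + 1) * z ^ (k + 1) := (summable_nat_add_iff 1).mpr hs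
  have e1 : ∑' k, b k * z ^ k = 1 + ∑' k, b (k + 1) * z ^ (k + 1) := by
    rw [hs.tsum_eq_zero_add]; simp [h0]
  have e2 : ∑' k, b (k + 1) * z ^ (k + 1) = t * z + ∑' k, b (k + 2) * z ^ (k + 2) := by
    rw [hs1.tsum_eq_zero_add]; simp [h1]
  have e3 : ∑' k, b (k + 2) * z ^ (k + 2) =
      t * z * (∑' k, b (k + 1) * z ^ (k + 1)) - q * z ^ 2 * ∑' k, b k * z ^ k := by
    rw [← tsum_mul_left, ← tsum_mul_left, ← (hs1.mul_left _).tsum_sub (hs.mul_left _)]
    refine tsum_congr fun k => ?_
    rw [hrec]; ring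
  apply eq_inv_of_mul_eq_one_left
  set F := ∑' k, b k * z ^ k
  set G := ∑' k, b (k + 1) * z ^ (k + 1)
  rw [e3] at e2
  have hG : G = F - 1 := by rw [e1]; ring
  rw [hG] at e2
  linear_combination e2

/-- divisor sum -/
theorem summable_dv {σ : ℝ} (hσ : 1 < σ) : Summable fun n : ℕ => dv n * (n : ℝ) ^ (-σ) := by
  have h1 : LSeriesSummable 1 (σ : ℂ) := LSeriesSummable_one_iff.mpr (by simpa using hσ)
  have h2 := h1.convolution h1
  have h3 : Summable fun n : ℕ => ‖LSeries.term (LSeries.convolution 1 1) (σ : ℂ) n‖ := h2.norm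
  refine h3.congr fun n => ?_
  rw [LSeries.norm_term_eq]
  split_ifs with hn
  · subst hn; simp [dv]
  · rw [LSeries.convolution_def]
    simp only [Pi.one_apply, mul_one, Finset.sum_const, nsmul_eq_mul, Complex.ofReal_re]
    rw [Real.rpow_neg (Nat.cast_nonneg n), div_eq_mul_inv, Complex.norm_natCast]
    congr 2
    rw [← Nat.map_div_right_divisors, Finset.card_map]

/-- the Dirichlet coefficients with `n^{-s}` -/
noncomputable def fterm (m : ℕ) (s : ℂ) (n : ℕ) : ℂ :=
  ((ca n * chi m n : ℝ) : ℂ) / (n : ℂ) ^ s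

theorem abs_chi_leL (m : ℤ) (n : ℕ) : |chi m n| ≤ 1 := by
  unfold chi
  rcases jacobiSym.trichotomy m n with h | h | h <;> rw [h] <;> norm_num

theorem chi_mul (m : ℤ) (a b : ℕ) (hab : a.Coprime b) : chi m (a * b) = chi m a * chi m b := by
  unfold chi
  rcases Nat.eq_zero_or_pos a with rfl | ha
  · have : b = 1 := by simpa using hab
    subst this; simp
  rcases Nat.eq_zero_or_pos b with rfl | hb
  · have : a = 1 := by simpa using hab
    subst this; simp
  haveI : NeZero a := ⟨ha.ne'⟩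
  haveI : NeZero b := ⟨hb.ne'⟩
  rw [jacobiSym.mul_right]; push_cast; ring

theorem chi_pow (m : ℤ) (a e : ℕ) : chi m (a ^ e) = chi m a ^ e := by
  unfold chi; rw [jacobiSym.pow_right]; push_cast; ring

theorem summable_fterm (hc : StCoef) (m : ℕ) {s : ℂ} (hs : 3 / 2 < s.re) :
    Summable fun n => ‖fterm m s n‖ := by
  have h := summable_dv (σ := s.re - 1 / 2) (by linarith)
  refine Summable.of_nonneg_of_le (fun n => norm_nonneg _) (fun n => ?_) h
  rcases Nat.eq_zero_or_pos n with rfl | hn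
  · simp [fterm, hc.zero, dv]
  have hn' : (0 : ℝ) < n := by exact_mod_cast hn
  unfold fterm
  rw [norm_div, Complex.norm_real, Real.norm_eq_abs, abs_mul, Complex.norm_natCast_cpow_of_pos hn,
    div_eq_mul_inv, ← Real.rpow_neg hn'.le]
  calc |(ca n : ℝ)| * |chi m n| * (n : ℝ) ^ (-s.re)
      ≤ (dv n * √(n : ℝ)) * 1 * (n : ℝ) ^ (-s.re) := by
        have h0 : (0 : ℝ) ≤ (n : ℝ) ^ (-s.re) := Real.rpow_nonneg hn'.le _
        exact mul_le_mul_of_nonneg_right (mul_le_mul (hc.bound n) (abs_chi_leL m n) (abs_nonneg _)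
          (mul_nonneg (Nat.cast_nonneg _) (Real.sqrt_nonneg _))) h0
    _ = dv n * (n : ℝ) ^ (-(s.re - 1 / 2)) := by
        rw [Real.sqrt_eq_rpow, mul_one, mul_assoc, ← Real.rpow_add hn']
        congr 2; ring

theorem natCast_pow_cpow (p e : ℕ) (s : ℂ) : ((p ^ e : ℕ) : ℂ) ^ s = ((p : ℂ) ^ s) ^ e := by
  induction e with
  | zero => simp
  | succ e ih =>
    rw [pow_succ, pow_succ, Nat.cast_mul, Complex.natCast_mul_natCast_cpow, ih]

theorem fterm_mul (hc : StCoef) (m : ℕ) (s : ℂ) {a b : ℕ} (hab : a.Coprime b) :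
    fterm m s (a * b) = fterm m s a * fterm m s b := by
  unfold fterm
  rw [hc.mul a b hab, chi_mul _ _ _ hab, Nat.cast_mul, Complex.natCast_mul_natCast_cpow]
  push_cast
  rw [div_mul_div_comm]; ring

theorem fterm_pow (m : ℕ) (s : ℂ) (p e : ℕ) :
    fterm m s (p ^ e) = ((ca (p ^ e) : ℂ) * (chi m p : ℂ) ^ e) * ((p : ℂ) ^ (-s)) ^ e := by
  unfold fterm
  rw [chi_pow, natCast_pow_cpow, Complex.cpow_neg, inv_pow, div_eq_mul_inv]
  push_cast
  ring

theorem fterm_one (hc : StCoef) (m : ℕ) (s : ℂ) : fterm m s 1 = 1 := by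
  unfold fterm; simp [hc.one, chi]

theorem chi_prime (p : ℕ) [Fact p.Prime] (m : ℤ) :
    chi m p = (quadraticChar (ZMod p) (m : ZMod p) : ℤ) := by
  unfold chi
  rw [← jacobiSym.legendreSym.to_jacobiSym]
  rfl

theorem chi_eq_zero_of_dvd {p : ℕ} (hp : p.Prime) {m : ℤ} (h : (p : ℤ) ∣ m) : chi m p = 0 := by
  haveI : Fact p.Prime := ⟨hp⟩
  rw [chi_prime, (ZMod.intCast_zmod_eq_zero_iff_dvd m p).mpr h]
  simp

theorem local_eq (hc : StCoef) (hpt : StPt) {D u : ℤ} {m : ℕ}
    (hu : u = 1 ∨ u = -1 ∨ u = 4 ∨ u = -4) (hD : D = u * m) (hD2 : D ≠ 0) {s : ℂ}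
    (hs : 3 / 2 < s.re) {p : ℕ} (hp : p.Prime) :
    localFactor D p s = ∑' e, fterm m s (p ^ e) := by
  haveI : Fact p.Prime := ⟨hp⟩
  have hsum : Summable fun e => fterm m s (p ^ e) :=
    (summable_fterm hc m hs).of_norm.comp_injective (Nat.pow_right_injective hp.two_le)
  have hone : (∀ e, e ≠ 0 → fterm m s (p ^ e) = 0) → ∑' e, fterm m s (p ^ e) = 1 := by
    intro h
    rw [tsum_eq_single 0 h, pow_zero, fterm_one hc]
  by_cases hp2 : p = 2
  · subst hp2
    unfold localFactor
    rw [if_pos (by push_cast; exact Dvd.intro _ rfl), hone]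
    intro e he
    unfold fterm
    rw [hc.mod_four (2 ^ e) (by
      obtain ⟨k, rfl⟩ := Nat.exists_eq_succ_of_ne_zero he
      rw [Nat.succ_eq_add_one, pow_succ]; omega)]
    simp
  · have hpu : ¬ (p : ℤ) ∣ u := by
      intro h
      have h4 : (p : ℤ) ∣ 4 := by
        rcases hu with rfl | rfl | rfl | rfl
        · exact h.trans (by norm_num)
        · exact h.trans (by norm_num)
        · exact h
        · exact h.trans (by norm_num)
      have h4' : p ∣ 2 ^ 2 := by exact_mod_cast h4
      exact hp2 ((Nat.prime_dvd_prime_iff_eq hp Nat.prime_two).mp (hp.dvd_of_dvd_pow h4'))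
    by_cases hpD : (p : ℤ) ∣ D
    · unfold localFactor
      rw [if_pos (hpD.mul_left 2), hone]
      intro e he
      have hpm : (p : ℤ) ∣ (m : ℤ) := by
        rw [hD] at hpD
        exact ((Nat.prime_iff_prime_int.mp hp).dvd_or_dvd hpD).resolve_left hpu
      rw [fterm_pow, chi_eq_zero_of_dvd hp hpm]
      simp [he]
    · have hp2D : ¬ (p : ℤ) ∣ 2 * D := by
        intro h
        rcases (Nat.prime_iff_prime_int.mp hp).dvd_or_dvd h with h | h
        · have : p ∣ 2 := by exact_mod_cast h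
          exact hp2 ((Nat.prime_dvd_prime_iff_eq hp Nat.prime_two).mp this)
        · exact hpD h
      unfold localFactor
      rw [if_neg hp2D, frobTrace_eq hpt hp2 hpD]
      have hpm : ¬ (p : ℤ) ∣ (m : ℤ) := by
        intro h; apply hpD; rw [hD]; exact h.mul_left u
      have hm0 : ((m : ℤ) : ZMod p) ≠ 0 := by
        rw [Ne, ZMod.intCast_zmod_eq_zero_iff_dvd]; exact hpm
      have hch : ((quadraticChar (ZMod p) (D : ZMod p) : ℤ) : ℂ) * ca p = (chi m p : ℂ) * ca p := by
        rw [chi_prime]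
        have hodd : p % 2 = 1 := hp.eq_two_or_odd.resolve_left hp2
        have hcases : p % 4 = 1 ∨ p % 4 = 3 := by omega
        rcases hcases with h4 | h4
        · have hneg : quadraticChar (ZMod p) (-1) = 1 := by
            rw [quadraticChar_neg_one (by rw [ZMod.ringChar_zmod_n]; exact hp2), ZMod.card]
            exact_mod_cast ZMod.χ₄_nat_one_mod_four h4
          have h20 : (2 : ZMod p) ≠ 0 := by
            intro h
            have : ((2 : ℕ) : ZMod p) = 0 := by exact_mod_cast h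
            rw [ZMod.natCast_eq_zero_iff] at this
            exact hp2 ((Nat.prime_dvd_prime_iff_eq hp Nat.prime_two).mp this)
          have hfour : quadraticChar (ZMod p) 4 = 1 := by
            rw [show (4 : ZMod p) = 2 ^ 2 by norm_num]
            exact quadraticChar_sq_one' h20
          have hu1 : quadraticChar (ZMod p) (u : ZMod p) = 1 := by
            rcases hu with rfl | rfl | rfl | rfl
            · simp
            · push_cast; exact hneg
            · push_cast; exact hfour
            · push_cast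
              rw [show (-4 : ZMod p) = (-1) * 4 by ring, map_mul, hneg, hfour, one_mul]
          rw [hD]
          push_cast
          rw [map_mul, hu1, one_mul]
        · rw [hc.three_mod_four p hp h4]; simp
      push_cast
      rw [hch]
      have hz : (p : ℂ) ^ (1 - 2 * s) = p * ((p : ℂ) ^ (-s)) ^ 2 := by
        rw [sub_eq_add_neg, Complex.cpow_add _ _ (by exact_mod_cast hp.ne_zero), Complex.cpow_one,
          ← Complex.cpow_nat_mul]
        congr 2; push_cast; ring
      rw [hz]
      have hε : (chi m p : ℂ) ^ 2 = 1 := by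
        rw [chi_prime]
        have := quadraticChar_sq_one (F := ZMod p) hm0
        exact_mod_cast this
      have hgf := gen_fun (b := fun e => (ca (p ^ e) : ℂ) * (chi m p : ℂ) ^ e)
        (t := (chi m p : ℂ) * ca p) (q := p) (z := (p : ℂ) ^ (-s)) (by simp [hc.one])
        (by simp [mul_comm]) (fun k => by
          rw [hc.hecke p k hp hp2]
          push_cast
          linear_combination (-((p : ℂ) * ca (p ^ k) * (chi m p : ℂ) ^ k)) * hε)
        (by simpa only [fterm_pow] using hsum)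
      rw [← hgf]
      refine tsum_congr fun e => ?_
      rw [fterm_pow]

/-- Module L1. -/
theorem pfStEuler (hc : StCoef) (hpt : StPt) : StEuler := by
  intro D hD
  have key : ∃ (m : ℕ) (u : ℤ), 0 < m ∧ Squarefree m ∧ (D.natAbs = m ∨ D.natAbs = 4 * m) ∧
      (u = 1 ∨ u = -1 ∨ u = 4 ∨ u = -4) ∧ D = u * m ∧ D ≠ 0 := by
    obtain ⟨-, ⟨h1, h2⟩ | ⟨d, hd, h1, h2⟩⟩ := hD
    · refine ⟨D.natAbs, D.sign, ?_, Int.squarefree_natAbs.mpr h2, Or.inl rfl, ?_, ?_, by omega⟩
      · omega
      · rcases lt_trichotomy D 0 with h | h | h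
        · right; left; exact Int.sign_eq_neg_one_of_neg h
        · omega
        · left; exact Int.sign_eq_one_of_pos h
      · exact (Int.sign_mul_natAbs D).symm
    · refine ⟨d.natAbs, 4 * d.sign, ?_, Int.squarefree_natAbs.mpr h2, Or.inr ?_, ?_, ?_, by omega⟩
      · omega
      · omega
      · rcases lt_trichotomy d 0 with h | h | h
        · right; right; right; rw [Int.sign_eq_neg_one_of_neg h]; norm_num
        · omega
        · right; right; left; rw [Int.sign_eq_one_of_pos h]; norm_num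
      · rw [hd, mul_assoc, Int.sign_mul_natAbs d]
  obtain ⟨m, u, hm, hsq, hnat, hu, hDu, hD0⟩ := key
  refine ⟨m, hm, hsq, hnat, fun s hs => ?_⟩
  have h := EulerProduct.eulerProduct_hasProd (f := fterm m s) (fterm_one hc m s)
    (fun {a b} hab => fterm_mul hc m s hab) (summable_fterm hc m hs) (by simp [fterm, hc.zero])
  have e : (fun p : Nat.Primes => localFactor D p s) =
      fun p : Nat.Primes => ∑' e, fterm m s ((p : ℕ) ^ e) := by
    funext p
    exact local_eq hc hpt hu hDu hD0 hs p.2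
  rw [e]
  exact h

end P004
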