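import Vale.Agent.P004.L2Iface

/-!
# Module L2, part b: the exponential moment of the ranks
-/

open Real MeasureTheory Set
open scoped ENNReal

namespace P004

namespace L2

/-- the discriminants belonging to `m` -/
def SD (m : ℕ) : Finset ℤ := {(m : ℤ), -(m : ℤ), 4 * (m : ℤ), -(4 * (m : ℤ))}

theorem card_SD (m : ℕ) : (SD m).card ≤ 4 := by
  unfold SD
  refine (Finset.card_insert_le _ _).trans ?_
  have h1 := Finset.card_insert_le (-(m : ℤ)) {4 * (m : ℤ), -(4 * (m : ℤ))}
  have h2 := Finset.card_insert_le (4 * (m : ℤ)) {-(4 * (m : ℤ))}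
  have h3 := Finset.card_singleton (-(4 * (m : ℤ)))
  omega

theorem mem_SD {m : ℕ} {D : ℤ} (h : D.natAbs = m ∨ D.natAbs = 4 * m) : D ∈ SD m := by
  unfold SD
  simp only [Finset.mem_insert, Finset.mem_singleton]
  omega

theorem mem_Fam {X : ℕ} {D : ℤ} (h : D ∈ Fam X) : IsFund D ∧ D.natAbs ≤ X := by
  classical
  unfold Fam at h
  rw [Finset.mem_filter, Finset.mem_Icc] at h
  exact ⟨h.2, by omega⟩

theorem sum_fam_le {X : ℕ} (f : ℤ → ℝ) (g : ℕ → ℝ) (hg : ∀ m, 0 ≤ g m)
    (h : ∀ D ∈ Fam X, ∃ m ∈ sqf X, (D.natAbs = m ∨ D.natAbs = 4 * m) ∧ f D ≤ g m) :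
    ∑ D ∈ Fam X, f D ≤ 4 * ∑ m ∈ sqf X, g m := by
  classical
  have h1 : ∀ D ∈ Fam X, f D ≤ ∑ m ∈ sqf X, if D ∈ SD m then g m else 0 := by
    intro D hD
    obtain ⟨m, hm, hnat, hf⟩ := h D hD
    refine hf.trans ?_
    have h2 := Finset.single_le_sum (f := fun m => if D ∈ SD m then g m else 0)
      (fun m _ => by split_ifs; exacts [hg m, le_rfl]) hm
    simp only [if_pos (mem_SD hnat)] at h2
    exact h2
  refine (Finset.sum_le_sum h1).trans ?_
  rw [Finset.sum_comm, Finset.mul_sum]
  refine Finset.sum_le_sum fun m _ => ?_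
  rw [← Finset.sum_filter, Finset.sum_const, nsmul_eq_mul]
  refine mul_le_mul_of_nonneg_right ?_ (hg m)
  have h3 : ((Fam X).filter fun D => D ∈ SD m) ⊆ SD m := fun D hD => (Finset.mem_filter.mp hD).2
  have h4 := (Finset.card_le_card h3).trans (card_SD m)
  exact_mod_cast h4

end L2

/-- the exponential moment -/
theorem pfExp (h : StRk) (hM : StMain) : StExp := by
  obtain ⟨C, hC, hrk⟩ := h
  obtain ⟨C', hC', hmain⟩ := hM
  have hC0 : 0 < C := by linarith
  refine ⟨C' + 6, 1 / (2 * C), by linarith, by positivity, fun X hX => ?_⟩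
  have hX3 : (3 : ℝ) ≤ X := by exact_mod_cast hX
  have hX0 : (0 : ℝ) < X := by linarith
  set l := Real.log X with hl
  have hl1 : 1 ≤ l := by
    rw [hl, Real.le_log_iff_exp_le hX0]
    have := Real.exp_one_lt_d9
    linarith
  set E := √(l * Real.log (l + 2)) with hE
  have hJtot := hmain X hX
  have hJX : sumJ X ≠ ∞ := ne_top_of_le_ne_top ENNReal.ofReal_ne_top hJtot
  have hJm : ∀ m ∈ sqf X, Jm m ≠ ∞ := by
    intro m hm
    refine ne_top_of_le_ne_top hJX ?_
    unfold sumJ
    exact Finset.single_le_sum (fun _ _ => bot_le) hm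
  have hsum : ∑ m ∈ sqf X, (Jm m).toReal ≤ X * Real.exp (C' * E) := by
    rw [← ENNReal.toReal_sum hJm]
    have := ENNReal.toReal_mono ENNReal.ofReal_ne_top hJtot
    rwa [ENNReal.toReal_ofReal (by positivity)] at this
  have hcard : ((sqf X).card : ℝ) ≤ X := by
    have : (sqf X).card ≤ (Finset.Icc 1 X).card := Finset.card_filter_le _ _
    rw [Nat.card_Icc] at this
    exact_mod_cast (by omega : (sqf X).card ≤ X)
  have hmainsum := L2.sum_fam_le (X := X)
    (fun D => Real.exp (1 / (2 * C) * (aRank D : ℝ) ^ 2 / l))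
    (fun m => Real.exp 1 * (1 + 2 * l) * (1 + (Jm m).toReal))
    (fun m => by
      have : 0 ≤ (Jm m).toReal := ENNReal.toReal_nonneg
      positivity) (by
      intro D hD
      obtain ⟨hfund, habs⟩ := L2.mem_Fam hD
      obtain ⟨m, hm, hsq, hnat, hJtop, hb⟩ := hrk D hfund
      have hmX : m ≤ X := by omega
      refine ⟨m, ?_, hnat, ?_⟩
      · unfold sqf
        rw [Finset.mem_filter, Finset.mem_Icc]
        exact ⟨⟨hm, hmX⟩, hsq⟩
      · have hm1 : (1 : ℝ) ≤ m := by exact_mod_cast hm
        have hmX' : (m : ℝ) ≤ X := by exact_mod_cast hmX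
        have hJ0 : 0 ≤ (Jm m).toReal := ENNReal.toReal_nonneg
        have hT : Real.log (3 * m) ≤ 2 * l := by
          calc Real.log (3 * m) ≤ Real.log (X * X) := by
                apply Real.log_le_log (by positivity)
                exact mul_le_mul hX3 hmX' (by positivity) (by positivity)
            _ = 2 * l := by rw [Real.log_mul hX0.ne' hX0.ne']; ring
        have hT0 : 0 ≤ Real.log (3 * m) := Real.log_nonneg (by linarith)
        set W := 1 + Real.log (1 + Real.log (3 * m)) + Real.log (1 + (Jm m).toReal) with hW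
        have hW0 : 0 ≤ W := by
          have e1 : 0 ≤ Real.log (1 + Real.log (3 * m)) := Real.log_nonneg (by linarith)
          have e2 : 0 ≤ Real.log (1 + (Jm m).toReal) := Real.log_nonneg (by linarith)
          rw [hW]; linarith
        have e3 : 1 / (2 * C) * (aRank D : ℝ) ^ 2 / l ≤ W := by
          rw [div_le_iff₀ (by linarith)]
          calc 1 / (2 * C) * (aRank D : ℝ) ^ 2 ≤ 1 / (2 * C) * (C * Real.log (3 * m) * W) :=
                mul_le_mul_of_nonneg_left hb (by positivity)
            _ = Real.log (3 * m) / 2 * W := by field_simp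
            _ ≤ l * W := mul_le_mul_of_nonneg_right (by linarith) hW0
            _ = W * l := by ring
        calc Real.exp (1 / (2 * C) * (aRank D : ℝ) ^ 2 / l) ≤ Real.exp W := Real.exp_le_exp.mpr e3
          _ = Real.exp 1 * (1 + Real.log (3 * m)) * (1 + (Jm m).toReal) := by
              rw [hW, Real.exp_add, Real.exp_add, Real.exp_log (by linarith),
                Real.exp_log (by linarith)]
          _ ≤ Real.exp 1 * (1 + 2 * l) * (1 + (Jm m).toReal) := by
              gcongr)
  refine hmainsum.trans ?_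
  rw [← Finset.mul_sum, Finset.sum_add_distrib, Finset.sum_const, nsmul_eq_mul, mul_one]
  have hE0 : 0 ≤ E := Real.sqrt_nonneg _
  have hexp1 : 1 ≤ Real.exp (C' * E) := Real.one_le_exp (by positivity)
  have h1 : ((sqf X).card : ℝ) + ∑ m ∈ sqf X, (Jm m).toReal ≤ 2 * (X * Real.exp (C' * E)) := by
    have : (X : ℝ) ≤ X * Real.exp (C' * E) := le_mul_of_one_le_right hX0.le hexp1
    linarith
  set t := √l with ht
  have ht1 : 1 ≤ t := by rw [ht]; exact Real.one_le_sqrt.mpr hl1
  have htl : t ^ 2 = l := Real.sq_sqrt (by linarith)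
  have htE : t ≤ E := by
    rw [ht, hE]
    apply Real.sqrt_le_sqrt
    have : 1 ≤ Real.log (l + 2) := by
      rw [Real.le_log_iff_exp_le (by linarith)]
      have := Real.exp_one_lt_d9
      linarith
    nlinarith
  have h2 : 1 + 2 * l ≤ Real.exp (2 * t) := by
    have := Real.quadratic_le_exp_of_nonneg (x := 2 * t) (by linarith)
    nlinarith
  have h3 : 8 * Real.exp 1 ≤ Real.exp (4 * t) := by
    have e1 : Real.exp 4 ≤ Real.exp (4 * t) := Real.exp_le_exp.mpr (by linarith)
    have e2 : Real.exp 4 = Real.exp 1 * Real.exp 1 * Real.exp 1 * Real.exp 1 := by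
      rw [← Real.exp_add, ← Real.exp_add, ← Real.exp_add]; norm_num
    have e3 : 2 ≤ Real.exp 1 := by
      have := Real.exp_one_gt_d9
      linarith
    have e4 : 8 * Real.exp 1 ≤ Real.exp 4 := by
      rw [e2]
      have e5 : 8 ≤ Real.exp 1 * Real.exp 1 * Real.exp 1 := by nlinarith
      nlinarith
    linarith
  calc 4 * (Real.exp 1 * (1 + 2 * l) * (((sqf X).card : ℝ) + ∑ m ∈ sqf X, (Jm m).toReal))
      ≤ 4 * (Real.exp 1 * (1 + 2 * l) * (2 * (X * Real.exp (C' * E)))) := by gcongr
    _ = (8 * Real.exp 1) * (1 + 2 * l) * (X * Real.exp (C' * E)) := by ring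
    _ ≤ Real.exp (4 * t) * Real.exp (2 * t) * (X * Real.exp (C' * E)) := by gcongr
    _ = X * Real.exp (6 * t + C' * E) := by
        rw [← Real.exp_add, mul_left_comm, ← Real.exp_add]
        congr 2; ring
    _ ≤ X * Real.exp ((C' + 6) * E) := by
        apply mul_le_mul_of_nonneg_left _ hX0.le
        apply Real.exp_le_exp.mpr
        nlinarith

end P004
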