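import Vale.Agent.P004.L2Iface

/-!
# Module L2, part c: tails and moments
-/

open Real MeasureTheory Set
open scoped ENNReal

namespace P004

namespace L2

theorem pow_le_aux {c C : ℝ} (hc : 0 < c) (hC : 0 < C) (k : ℕ) {y E : ℝ} (hy : 0 ≤ y)
    (hE : 1 ≤ E) :
    y ^ k ≤ (1 + C / c) ^ k + (1 + (k.factorial : ℝ) / c ^ k) * Real.exp C *
      Real.exp (c * y ^ 2 * E - C * E) := by
  rcases le_or_gt (c * y ^ 2) C with h | h
  · have h1 : y ^ 2 ≤ C / c := by rw [le_div_iff₀ hc]; linarith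
    have h2 : y ≤ 1 + C / c := by
      have : 0 ≤ C / c := by positivity
      nlinarith [sq_nonneg (y - 1)]
    have h3 := pow_le_pow_left₀ hy h2 k
    have h4 : 0 ≤ (1 + (k.factorial : ℝ) / c ^ k) * Real.exp C *
      Real.exp (c * y ^ 2 * E - C * E) := by positivity
    linarith
  · have h1 : Real.exp (c * y ^ 2 - C) ≤ Real.exp (c * y ^ 2 * E - C * E) := by
      apply Real.exp_le_exp.mpr
      nlinarith
    have h2 : (c * y ^ 2) ^ k / (k.factorial : ℝ) ≤ Real.exp (c * y ^ 2) :=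
      Real.pow_div_factorial_le_exp _ (by positivity) k
    have hk : (0 : ℝ) < (k.factorial : ℝ) := by exact_mod_cast k.factorial_pos
    have hck : 0 < c ^ k := by positivity
    have h3 : (y ^ 2) ^ k ≤ (k.factorial : ℝ) / c ^ k * Real.exp (c * y ^ 2) := by
      rw [div_le_iff₀ hk, mul_pow] at h2
      rw [div_mul_eq_mul_div, le_div_iff₀ hck]
      linarith
    have h4 : y ^ k ≤ 1 + (y ^ 2) ^ k := by
      have e : (y ^ 2) ^ k = (y ^ k) ^ 2 := by rw [← pow_mul, ← pow_mul, mul_comm]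
      rw [e]
      nlinarith [sq_nonneg (y ^ k - 1)]
    have h5 : 1 ≤ Real.exp (c * y ^ 2) := Real.one_le_exp (by positivity)
    have h6 : y ^ k ≤ (1 + (k.factorial : ℝ) / c ^ k) * Real.exp (c * y ^ 2) := by
      rw [add_mul, one_mul]; linarith
    have h7 : (1 + (k.factorial : ℝ) / c ^ k) * Real.exp (c * y ^ 2) =
        (1 + (k.factorial : ℝ) / c ^ k) * Real.exp C * Real.exp (c * y ^ 2 - C) := by
      rw [mul_assoc, ← Real.exp_add]; congr 2; ring
    have h8 : 0 ≤ (1 + C / c) ^ k := by positivity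
    calc y ^ k ≤ (1 + (k.factorial : ℝ) / c ^ k) * Real.exp C * Real.exp (c * y ^ 2 - C) := by
          rw [← h7]; exact h6
      _ ≤ (1 + (k.factorial : ℝ) / c ^ k) * Real.exp C * Real.exp (c * y ^ 2 * E - C * E) :=
          mul_le_mul_of_nonneg_left h1 (by positivity)
      _ ≤ _ := by linarith

theorem log_ge_one {X : ℕ} (hX : 3 ≤ X) : 1 ≤ Real.log X := by
  have hX3 : (3 : ℝ) ≤ X := by exact_mod_cast hX
  rw [Real.le_log_iff_exp_le (by linarith)]
  have := Real.exp_one_lt_d9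
  linarith

end L2

theorem pfTailMom (h : StExp) (hC : StCount) :
    (∃ C c : ℝ, 0 < C ∧ 0 < c ∧ ∀ X : ℕ, 3 ≤ X → ∀ z : ℝ, 0 ≤ z →
      (((Fam X).filter (fun D => z ≤ (aRank D : ℝ))).card : ℝ) ≤
        X * Real.exp (C * √(Real.log X * Real.log (Real.log X + 2)) - c * z ^ 2 / Real.log X)) ∧
    (∀ k : ℕ, ∃ C : ℝ, 0 < C ∧ ∀ X : ℕ, 3 ≤ X →
      ∑ D ∈ Fam X, (aRank D : ℝ) ^ k ≤
        C * ((Fam X).card : ℝ) *
          ((Real.log X) ^ (3 / 4 : ℝ) * (Real.log (Real.log X + 2)) ^ (1 / 4 : ℝ)) ^ k) := by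
  obtain ⟨C, c, hC0, hc0, hexp⟩ := h
  obtain ⟨c3, hc3, hcount⟩ := hC
  refine ⟨⟨C, c, hC0, hc0, fun X hX z hz => ?_⟩, fun k => ?_⟩
  · have hl := L2.log_ge_one hX
    have h1 := hexp X hX
    set l := Real.log X
    have h2 : (((Fam X).filter (fun D => z ≤ (aRank D : ℝ))).card : ℝ) * Real.exp (c * z ^ 2 / l) ≤
        ∑ D ∈ Fam X, Real.exp (c * (aRank D : ℝ) ^ 2 / l) := by
      rw [← nsmul_eq_mul, ← Finset.sum_const]
      refine (Finset.sum_le_sum (f := fun _ => Real.exp (c * z ^ 2 / l))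
        (g := fun D => Real.exp (c * (aRank D : ℝ) ^ 2 / l)) fun D hD => ?_).trans
        (Finset.sum_le_sum_of_subset_of_nonneg (Finset.filter_subset _ _)
          fun _ _ _ => (Real.exp_pos _).le)
      have hz2 := (Finset.mem_filter.mp hD).2
      apply Real.exp_le_exp.mpr
      have : z ^ 2 ≤ (aRank D : ℝ) ^ 2 := pow_le_pow_left₀ hz hz2 2
      gcongr
    have h3 := h2.trans h1
    rw [Real.exp_sub, mul_div_assoc']
    rw [le_div_iff₀ (Real.exp_pos _)]
    exact h3
  · refine ⟨(1 + C / c) ^ k + (1 + (k.factorial : ℝ) / c ^ k) * Real.exp C / c3, by positivity,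
      fun X hX => ?_⟩
    have hl := L2.log_ge_one hX
    have h1 := hexp X hX
    have hX0 : (0 : ℝ) < X := by exact_mod_cast (by omega : 0 < X)
    have hcnt := hcount X hX
    set l := Real.log X
    set E := √(l * Real.log (l + 2)) with hE
    have hll : 1 ≤ Real.log (l + 2) := by
      rw [Real.le_log_iff_exp_le (by linarith)]
      have := Real.exp_one_lt_d9
      linarith
    have hE1 : 1 ≤ E := by
      rw [hE, Real.one_le_sqrt]; nlinarith
    set S := l ^ (3 / 4 : ℝ) * (Real.log (l + 2)) ^ (1 / 4 : ℝ) with hS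
    have hS0 : 0 < S := by positivity
    have hSE : S ^ 2 = l * E := by
      rw [hS, hE, mul_pow, ← Real.rpow_natCast, ← Real.rpow_natCast, ← Real.rpow_mul (by linarith),
        ← Real.rpow_mul (by linarith), Real.sqrt_eq_rpow, Real.mul_rpow (by linarith) (by linarith),
        ← mul_assoc]
      congr 1
      · nth_rewrite 2 [← Real.rpow_one l]
        rw [← Real.rpow_add (by linarith)]
        congr 1; norm_num
      · congr 1; norm_num
    have hpt : ∀ D : ℤ, (aRank D : ℝ) ^ k ≤ S ^ k * ((1 + C / c) ^ k +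
        (1 + (k.factorial : ℝ) / c ^ k) * Real.exp C *
          (Real.exp (-(C * E)) * Real.exp (c * (aRank D : ℝ) ^ 2 / l))) := by
      intro D
      have h2 := L2.pow_le_aux hc0 hC0 k (y := (aRank D : ℝ) / S) (E := E) (by positivity) hE1
      have e1 : c * ((aRank D : ℝ) / S) ^ 2 * E = c * (aRank D : ℝ) ^ 2 / l := by
        rw [div_pow, hSE]
        have : E ≠ 0 := by positivity
        have : l ≠ 0 := by positivity
        field_simp
      rw [e1] at h2
      have e2 : Real.exp (c * (aRank D : ℝ) ^ 2 / l - C * E) =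
          Real.exp (-(C * E)) * Real.exp (c * (aRank D : ℝ) ^ 2 / l) := by
        rw [← Real.exp_add]; congr 1; ring
      rw [e2, div_pow, div_le_iff₀ (by positivity)] at h2
      linarith
    refine (Finset.sum_le_sum fun D _ => hpt D).trans ?_
    rw [← Finset.mul_sum, Finset.sum_add_distrib, Finset.sum_const, nsmul_eq_mul, ← Finset.mul_sum,
      ← Finset.mul_sum]
    have h4 : Real.exp (-(C * E)) * ∑ D ∈ Fam X, Real.exp (c * (aRank D : ℝ) ^ 2 / l) ≤ X := by
      calc Real.exp (-(C * E)) * ∑ D ∈ Fam X, Real.exp (c * (aRank D : ℝ) ^ 2 / l)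
          ≤ Real.exp (-(C * E)) * (X * Real.exp (C * E)) :=
            mul_le_mul_of_nonneg_left h1 (Real.exp_pos _).le
        _ = X * (Real.exp (-(C * E)) * Real.exp (C * E)) := by ring
        _ = X := by rw [← Real.exp_add, neg_add_cancel, Real.exp_zero, mul_one]
    have h5 : (X : ℝ) ≤ ((Fam X).card : ℝ) / c3 := by rw [le_div_iff₀ hc3]; linarith
    have hM : 0 ≤ (1 + (k.factorial : ℝ) / c ^ k) * Real.exp C := by positivity
    calc S ^ k * (((Fam X).card : ℝ) * (1 + C / c) ^ k + (1 + (k.factorial : ℝ) / c ^ k) *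
          Real.exp C * (Real.exp (-(C * E)) * ∑ D ∈ Fam X, Real.exp (c * (aRank D : ℝ) ^ 2 / l)))
        ≤ S ^ k * (((Fam X).card : ℝ) * (1 + C / c) ^ k + (1 + (k.factorial : ℝ) / c ^ k) *
          Real.exp C * (((Fam X).card : ℝ) / c3)) := by
          apply mul_le_mul_of_nonneg_left _ (by positivity)
          have := mul_le_mul_of_nonneg_left (h4.trans h5) hM
          linarith
      _ = _ := by ring

end P004
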