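import Vale.Agent.P004.L2a
import Vale.Agent.P004.L2b
import Vale.Agent.P004.L2c

/-!
# Module L2: the final statement from the modules
-/

namespace P004

/-- Module L2. -/
theorem pfFin (hM : StMain) (hE : StEnt) (hO : StOrd) (hEu : StEuler) (hC : StCount)
    (hT : StTriv) : StFin :=
  have h := pfTailMom (pfExp (pfRk hE hEu hO hT) hM) hC
  ⟨pfLfun hE hEu, h.1, h.2⟩

end P004
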