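import Vale.Agent.P004.Iface

/-!
# P004, module L3: fundamental discriminants have positive lower density
-/

open Finset

namespace P004

namespace L3

/-- the odd squarefree numbers `2k+1`, `k < N`, by their index `k` -/
def good (N : ℕ) : Finset ℕ := (range N).filter (fun k => Squarefree (2 * k + 1))

lemma card_mult (N i : ℕ) :
    (((range N).filter (fun k => (2 * i + 1) ^ 2 ∣ 2 * k + 1)).card : ℕ) ≤
      N / (2 * i + 1) ^ 2 + 1 := by
  set d := (2 * i + 1) ^ 2 with hd
  have hdpos : 0 < d := by positivity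
  have hodd : Nat.Coprime d 2 := by
    rw [hd]
    apply Nat.Coprime.pow_left
    rw [Nat.coprime_two_right]
    exact ⟨i, rfl⟩
  have : ((range N).filter (fun k => d ∣ 2 * k + 1)).card ≤ (range (N / d + 1)).card := by
    apply Finset.card_le_card_of_injOn (fun k => k / d)
    · intro k hk
      simp only [coe_filter, mem_range, Set.mem_ofPred_eq] at hk
      simp only [coe_range, Set.mem_Iio]
      have := Nat.div_le_div_right (c := d) hk.1.le
      omega
    · intro k hk k' hk' h
      simp only [coe_filter, mem_range, Set.mem_ofPred_eq] at hk hk'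
      simp only at h
      have h1 : (2 * k + 1) ≡ (2 * k' + 1) [MOD d] :=
        ((Nat.modEq_zero_iff_dvd).2 hk.2).trans ((Nat.modEq_zero_iff_dvd).2 hk'.2).symm
      have h2 : 2 * k ≡ 2 * k' [MOD d] := Nat.ModEq.add_right_cancel' 1 h1
      have h3 : k ≡ k' [MOD d] := Nat.ModEq.cancel_left_of_coprime hodd h2
      have h4 : k % d = k' % d := h3
      rw [← Nat.div_add_mod k d, ← Nat.div_add_mod k' d, h, h4]
  simpa using this

lemma sum_inv (n : ℕ) : ∑ i ∈ Finset.Icc 1 n, (1 : ℝ) / (2 * (i : ℝ) + 1) ^ 2 ≤ 1 / 4 := by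
  have key : ∀ n : ℕ, ∑ i ∈ Finset.Icc 1 n, (1 : ℝ) / (2 * (i : ℝ) + 1) ^ 2 ≤
      1 / 4 - 1 / (4 * ((n : ℝ) + 1)) := by
    intro n
    induction n with
    | zero => simp
    | succ n ih =>
      rw [Finset.sum_Icc_succ_top (by omega)]
      have h : (1 : ℝ) / (2 * ((n + 1 : ℕ) : ℝ) + 1) ^ 2 ≤
          1 / (4 * ((n : ℝ) + 1)) - 1 / (4 * (((n + 1 : ℕ) : ℝ) + 1)) := by
        push_cast
        rw [div_sub_div _ _ (by positivity) (by positivity), div_le_div_iff₀ (by positivity)
          (by positivity)]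
        nlinarith [sq_nonneg (n : ℝ), (Nat.cast_nonneg n : (0 : ℝ) ≤ n)]
      linarith
  refine (key n).trans ?_
  have : (0 : ℝ) ≤ 1 / (4 * ((n : ℝ) + 1)) := by positivity
  linarith

lemma good_card (N : ℕ) : 3 / 4 * (N : ℝ) - √(N : ℝ) ≤ ((good N).card : ℝ) := by
  classical
  have hsub : (range N).filter (fun k => ¬ Squarefree (2 * k + 1)) ⊆
      (Finset.Icc 1 (Nat.sqrt N)).biUnion
        (fun i => (range N).filter (fun k => (2 * i + 1) ^ 2 ∣ 2 * k + 1)) := by
    intro k hk
    simp only [mem_filter, mem_range] at hk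
    obtain ⟨hkN, hns⟩ := hk
    rw [Nat.squarefree_iff_prime_squarefree] at hns
    push Not at hns
    obtain ⟨p, hp, hpd⟩ := hns
    have hodd : Odd p := by
      rcases hp.eq_two_or_odd' with h | h
      · subst h
        exfalso
        have : 2 ∣ 2 * k + 1 := (Dvd.intro _ rfl).trans hpd
        omega
      · exact h
    obtain ⟨i, rfl⟩ := hodd
    simp only [mem_biUnion, Finset.mem_Icc, mem_filter, mem_range]
    refine ⟨i, ⟨?_, ?_⟩, hkN, by rw [sq]; exact hpd⟩
    · rcases Nat.eq_zero_or_pos i with h | h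
      · subst h; exact absurd hp (by norm_num)
      · exact h
    · rw [Nat.le_sqrt]
      have := Nat.le_of_dvd (by omega) hpd
      nlinarith
  have h1 : ((range N).filter (fun k => ¬ Squarefree (2 * k + 1))).card ≤
      ∑ i ∈ Finset.Icc 1 (Nat.sqrt N), (N / (2 * i + 1) ^ 2 + 1) :=
    (Finset.card_le_card hsub).trans (Finset.card_biUnion_le.trans
      (Finset.sum_le_sum fun i _ => card_mult N i))
  have h2 : (good N).card + ((range N).filter (fun k => ¬ Squarefree (2 * k + 1))).card = N := by
    have := Finset.card_filter_add_card_filter_not (s := range N)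
      (fun k => Squarefree (2 * k + 1))
    rw [Finset.card_range] at this
    exact this
  have h3 : ((∑ i ∈ Finset.Icc 1 (Nat.sqrt N), (N / (2 * i + 1) ^ 2 + 1) : ℕ) : ℝ) ≤
      1 / 4 * (N : ℝ) + √(N : ℝ) := by
    push_cast
    rw [Finset.sum_add_distrib]
    apply add_le_add
    · calc ∑ i ∈ Finset.Icc 1 (Nat.sqrt N), ((N / (2 * i + 1) ^ 2 : ℕ) : ℝ)
          ≤ ∑ i ∈ Finset.Icc 1 (Nat.sqrt N), (N : ℝ) * (1 / (2 * (i : ℝ) + 1) ^ 2) := by
            apply Finset.sum_le_sum
            intro i _
            have := @Nat.cast_div_le ℝ _ _ _ N ((2 * i + 1) ^ 2)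
            push_cast at this
            rw [mul_one_div]
            exact this
        _ = (N : ℝ) * ∑ i ∈ Finset.Icc 1 (Nat.sqrt N), (1 / (2 * (i : ℝ) + 1) ^ 2) := by
            rw [Finset.mul_sum]
        _ ≤ (N : ℝ) * (1 / 4) := by
            apply mul_le_mul_of_nonneg_left (sum_inv _) (Nat.cast_nonneg _)
        _ = 1 / 4 * (N : ℝ) := by ring
    · simp only [sum_const, Nat.card_Icc, add_tsub_cancel_right, nsmul_eq_mul, mul_one]
      apply Real.le_sqrt_of_sq_le
      have := Nat.sqrt_le N
      rw [sq]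
      exact_mod_cast this
  have h4 : ((good N).card : ℝ) +
      ((((range N).filter (fun k => ¬ Squarefree (2 * k + 1))).card : ℕ) : ℝ) = N := by
    exact_mod_cast h2
  have h5 : ((((range N).filter (fun k => ¬ Squarefree (2 * k + 1))).card : ℕ) : ℝ) ≤
      1 / 4 * (N : ℝ) + √(N : ℝ) := by
    refine le_trans ?_ h3
    exact_mod_cast h1
  linarith

/-- the fundamental discriminant `± (2k+1)` -/
def disc (k : ℕ) : ℤ := if k % 2 = 0 then (2 * k + 1 : ℤ) else -(2 * k + 1 : ℤ)

lemma fam_card (X : ℕ) : (good ((X + 1) / 2)).card ≤ (Fam X).card + 1 := by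
  classical
  have : ((good ((X + 1) / 2)).erase 0).card ≤ (Fam X).card := by
    apply Finset.card_le_card_of_injOn disc
    · intro k hk
      simp only [good, coe_erase, coe_filter, mem_range, Set.mem_sdiff, Set.mem_ofPred_eq,
        Set.mem_singleton_iff] at hk
      obtain ⟨⟨hkN, hsq⟩, hk0⟩ := hk
      simp only [Fam, coe_filter, Finset.mem_Icc, Set.mem_ofPred_eq]
      have hsq' : Squarefree ((2 * k + 1 : ℕ) : ℤ) := Int.squarefree_natCast.2 hsq
      push_cast at hsq'
      unfold disc IsFund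
      split_ifs with h
      · refine ⟨⟨by omega, by omega⟩, by omega, Or.inl ⟨by omega, hsq'⟩⟩
      · refine ⟨⟨by omega, by omega⟩, by omega, Or.inl ⟨by omega, ?_⟩⟩
        rw [← Int.squarefree_natAbs, Int.natAbs_neg, Int.squarefree_natAbs]
        exact hsq'
    · intro k _ k' _ h
      unfold disc at h
      split_ifs at h <;> omega
  have h2 := Finset.pred_card_le_card_erase (s := good ((X + 1) / 2)) (a := 0)
  omega

end L3

/-- Module L3. -/
theorem pfCount : StCount := by
  classical
  refine ⟨1 / 32, by norm_num, ?_⟩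
  intro X hX
  by_cases hN : (X + 1) / 2 < 16
  · have h1 : 1 ≤ (Fam X).card := by
      rw [Nat.one_le_iff_ne_zero, Ne, Finset.card_eq_zero, ← Ne, ← Finset.nonempty_iff_ne_empty]
      refine ⟨-3, ?_⟩
      simp only [Fam, Finset.mem_filter, Finset.mem_Icc, IsFund]
      refine ⟨⟨by omega, by omega⟩, by norm_num, Or.inl ⟨by norm_num, ?_⟩⟩
      rw [← Int.squarefree_natAbs]
      exact Nat.prime_three.prime.squarefree
    have h2 : (X : ℝ) ≤ 32 := by
      have : X ≤ 32 := by omega
      exact_mod_cast this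
    have h3 : (1 : ℝ) ≤ ((Fam X).card : ℝ) := by exact_mod_cast h1
    linarith
  · push Not at hN
    set N := (X + 1) / 2 with hNdef
    have h1 := L3.good_card N
    have h2 : ((L3.good N).card : ℝ) ≤ ((Fam X).card : ℝ) + 1 := by
      exact_mod_cast L3.fam_card X
    have h3 : (X : ℝ) ≤ 2 * N := by
      have : X ≤ 2 * N := by omega
      exact_mod_cast this
    have h4 : (16 : ℝ) ≤ N := by exact_mod_cast hN
    have h5 : √(N : ℝ) ≤ N / 4 := by
      rw [Real.sqrt_le_left (by positivity)]
      nlinarith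
    linarith

end P004
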