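import Vale.Agent.P004.A1
import Vale.Agent.P004.A2
import Vale.Agent.P004.B
import Vale.Agent.P004.C
import Vale.Agent.P004.C0
import Vale.Agent.P004.D
import Vale.Agent.P004.D2
import Vale.Agent.P004.E
import Vale.Agent.P004.F
import Vale.Agent.P004.G
import Vale.Agent.P004.H1
import Vale.Agent.P004.H2
import Vale.Agent.P004.H3
import Vale.Agent.P004.H4
import Vale.Agent.P004.H5
import Vale.Agent.P004.I1
import Vale.Agent.P004.I2
import Vale.Agent.P004.I3
import Vale.Agent.P004.J
import Vale.Agent.P004.K1
import Vale.Agent.P004.K2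
import Vale.Agent.P004.L1
import Vale.Agent.P004.L2
import Vale.Agent.P004.L3

/-!
# P004: the final statement, all modules assembled
-/

namespace P004

theorem final : StFin :=
  have hC : StCoef := pfStCoef
  have hD : StDiv := pfDiv
  have hFE : StFE := pfFE
  have hK : StKer := pfKer
  have hSum : StSumS := H1.pfSumS hC (pfPair (pfPois pfTw)) hK
  have hT : StTriv := pfTriv hC hFE
  have hAj : StAj := pfAj (pfStSep hC hK) (pfConv hC hD) (pfStFrac hC) hD
  have hRec : StRec := pfRec (pfDecomp hC hFE hD) hSum hAj (pfA0 hC hD) (pfTail hK) hD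
  pfFin (pfMain hRec hT) (pfEnt hC hD hFE) pfOrd (pfStEuler hC pfStPt) pfCount hT

end P004
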