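import Vale.Agent.P004.Iface2
import Vale.Agent.P004.I1

/-!
# P004, module V1: reduction of the far mass to squarefree-supported sums
-/

open Real MeasureTheory Set
open scoped ENNReal

namespace P004

open I1Mod in
/-- Module V1. -/
theorem pfDecF (hC : StCoef) (hDiv : StDiv) : StDecF := by
  obtain ⟨C, hC0, A, hA⟩ := hDiv.2 0
  refine ⟨16 * (C * 2 ^ A), by positivity, A, ?_⟩
  intro θ hθ hθ8 X N hX hN
  set a : ℝ := 1 / (3 * N) with ha
  have hb : ∑' r : {r : ℕ // Powerful r}, ENNReal.ofReal ((r : ℝ) ^ (-1 / 2 - θ / 2)) ≤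
      ENNReal.ofReal (C * 2 ^ A * (1 / θ) ^ A) := by
    have h := hA (θ / 2) (by positivity) (by linarith)
    simp only [pow_zero, one_mul] at h
    refine h.trans (le_of_eq ?_)
    congr 1
    rw [mul_assoc, ← mul_pow]
    congr 2
    field_simp
  have hsum : ∀ r : {r : ℕ // Powerful r},
      ∑ m ∈ sqf X, ∫⁻ u in Ioi a, ENNReal.ofReal (Uf m r u ^ 2 * u ^ (1 + 2 * θ)) =
      ∫⁻ u in Ioi a, ENNReal.ofReal ((∑ m ∈ sqf X, Uf m r u ^ 2) * u ^ (1 + 2 * θ)) := by
    intro r
    rw [← lintegral_finsetSum]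
    · have hNR : (1 : ℝ) ≤ N := by exact_mod_cast hN
      apply setLIntegral_congr_fun measurableSet_Ioi
      intro u hu
      have hu0 : 0 < u := lt_trans (by positivity) hu
      simp only
      rw [Finset.sum_mul, ENNReal.ofReal_sum_of_nonneg]
      intro m _
      positivity
    · intro m _
      apply ENNReal.measurable_ofReal.comp
      apply Measurable.mul
      · exact (measurable_Uf m r).pow_const 2
      · exact measurable_id.pow_const _
  calc ∑ m ∈ sqf X, Jf a m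
      ≤ ∑ m ∈ sqf X, ((16 * ENNReal.ofReal (C * 2 ^ A * (1 / θ) ^ A)) *
        (ENNReal.ofReal ((3 * N : ℝ) ^ (2 * θ)) * ∑' r : {r : ℕ // Powerful r},
          ENNReal.ofReal (dv r ^ 2 * (r : ℝ) ^ (-1 / 2 - 3 / 2 * θ)) *
          ∫⁻ u in Ioi a, ENNReal.ofReal (Uf m r u ^ 2 * u ^ (1 + 2 * θ)))) := by
        apply Finset.sum_le_sum
        intro m hm
        unfold Jf
        refine (one_m hC N hN θ hθ m).trans ?_
        exact mul_le_mul' (mul_le_mul' le_rfl hb) le_rfl
    _ = ((16 * ENNReal.ofReal (C * 2 ^ A * (1 / θ) ^ A)) *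
          ENNReal.ofReal ((3 * N : ℝ) ^ (2 * θ))) * ∑ m ∈ sqf X, ∑' r : {r : ℕ // Powerful r},
          ENNReal.ofReal (dv r ^ 2 * (r : ℝ) ^ (-1 / 2 - 3 / 2 * θ)) *
          ∫⁻ u in Ioi a, ENNReal.ofReal (Uf m r u ^ 2 * u ^ (1 + 2 * θ)) := by
        rw [Finset.mul_sum]
        refine Finset.sum_congr rfl fun m _ => ?_
        ring
    _ = ((16 * ENNReal.ofReal (C * 2 ^ A * (1 / θ) ^ A)) *
          ENNReal.ofReal ((3 * N : ℝ) ^ (2 * θ))) * ∑' r : {r : ℕ // Powerful r},
          ENNReal.ofReal (dv r ^ 2 * (r : ℝ) ^ (-1 / 2 - 3 / 2 * θ)) *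
          ∫⁻ u in Ioi a, ENNReal.ofReal ((∑ m ∈ sqf X, Uf m r u ^ 2) * u ^ (1 + 2 * θ)) := by
        rw [← Summable.tsum_finsetSum fun _ _ => ENNReal.summable]
        congr 1
        refine tsum_congr fun r => ?_
        rw [← Finset.mul_sum, hsum r]
    _ = _ := by
        congr 1
        have h32 : (16 : ℝ≥0∞) = ENNReal.ofReal 16 := by norm_num
        rw [h32, ← ENNReal.ofReal_mul (by norm_num),
          ← ENNReal.ofReal_mul (by positivity)]
        congr 1
        ring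

end P004
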