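import Vale.Agent.P004.Final

/-!
# P004: frozen statements of the upgrade (mean analytic rank `≪ √(log X loglog X)`)
-/

open Real MeasureTheory Set
open scoped ENNReal

namespace P004

/-- the mass of `theta m` beyond `u₁` -/
noncomputable def Jf (u₁ : ℝ) (m : ℕ) : ℝ≥0∞ :=
  ∫⁻ u in Ioi u₁, ENNReal.ofReal (theta m u ^ 2 * u)

/-- Module V1 : like `StDecomp`, for the masses beyond `1/(3N)` (no functional equation). -/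
def StDecF : Prop :=
  ∃ C : ℝ, 0 < C ∧ ∃ A : ℕ, ∀ θ : ℝ, 0 < θ → θ ≤ 1 / 8 → ∀ X N : ℕ, 1 ≤ X → 1 ≤ N →
    ∑ m ∈ sqf X, Jf (1 / (3 * N) : ℝ) m ≤
      ENNReal.ofReal (C * (1 / θ) ^ A * (3 * N : ℝ) ^ (2 * θ)) *
      ∑' r : {r : ℕ // Powerful r}, ENNReal.ofReal (dv r ^ 2 * (r : ℝ) ^ (-1 / 2 - 3 / 2 * θ)) *
        ∫⁻ u in Ioi (1 / (3 * N) : ℝ),
          ENNReal.ofReal ((∑ m ∈ sqf X, Uf m r u ^ 2) * u ^ (1 + 2 * θ))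

/-- Module V2 : like `StRec`, for the masses beyond `1/(3N)`, `N ≤ X`. -/
def StRecF : Prop :=
  ∃ C₁ : ℝ, 1 ≤ C₁ ∧ ∃ C : ℝ, 1 ≤ C ∧ ∃ A : ℕ, ∀ (L H : ℝ) (X N : ℕ), 1 ≤ N → N ≤ X → 1 ≤ L →
    Real.log X ≤ L → (X : ℝ) ≤ H → H ≤ (X : ℝ) ^ 2 * (C₁ * L) ^ 17 →
    ∑ m ∈ sqf X, Jf (1 / (3 * N) : ℝ) m ≤
      ENNReal.ofReal (C * L ^ A) * (ENNReal.ofReal H + ENNReal.ofReal (√H) *
      ∑ j ∈ sqf ⌊(N : ℝ) ^ 2 * (C₁ * L) ^ 17 / H⌋₊, ENNReal.ofReal (1 / √(j : ℝ)) * (Jm j + 1))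

/-- Module V3 : away from the centre the second moment is a power of `log X`. -/
def StFarMain : Prop :=
  ∃ C₂ : ℝ, 1 ≤ C₂ ∧ ∃ C : ℝ, 1 ≤ C ∧ ∃ A : ℕ, ∀ X N : ℕ, 3 ≤ X → 1 ≤ N →
    (N : ℝ) * Real.exp (C₂ * √(Real.log X * Real.log (Real.log X + 2))) ≤ X →
    ∑ m ∈ sqf X, Jf (1 / (3 * N) : ℝ) m ≤ ENNReal.ofReal (C * X * Real.log X ^ A)

/-- Module V4 : `StEnt` with a bound to the right of the centre in terms of the far mass. -/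
def StEnt2 : Prop :=
  ∃ C : ℝ, 1 ≤ C ∧ ∀ m : ℕ, 0 < m → Squarefree m → ∃ Φ : ℂ → ℂ, Differentiable ℂ Φ ∧
    (∀ s : ℂ, 3 / 2 < s.re → Φ s = 4 * Complex.Gamma s * (π : ℂ) ^ (-s) *
      ∑' n : ℕ, ((ca n * chi m n : ℝ) : ℂ) / (n : ℂ) ^ s) ∧
    (∀ s : ℂ, 1 ≤ s.re → s.re ≤ 5 →
      ‖Φ s‖ ≤ C * (1 + √((Jm m).toReal * Real.log (3 * m)))) ∧
    (∀ s : ℂ, ‖Φ (2 - s)‖ = Qm m ^ (s.re - 1) * ‖Φ s‖) ∧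
    1 / C ≤ ‖Φ 3‖ ∧
    (∀ (N : ℕ) (ρ : ℝ) (s : ℂ), 1 ≤ N → 0 ≤ ρ → 1 + ρ ≤ s.re → s.re ≤ 5 →
      ‖Φ s‖ ≤ C * (1 + √((Jf (1 / (3 * N) : ℝ) m).toReal * Real.log (3 * N)) +
        (3 * N : ℝ) ^ (-ρ) * √((Jm m).toReal * Real.log (3 * m))))

/-- Module V5 : order of vanishing, with a good bound `P` only on `Re s ≥ 1 + ρ₀`. -/
def StOrd2 : Prop :=
  ∃ C : ℝ, 1 ≤ C ∧ ∀ (Φ : ℂ → ℂ) (T B P ρ₀ c₀ : ℝ) (a : ℕ), Differentiable ℂ Φ → 1 ≤ T →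
    0 < c₀ → c₀ ≤ 1 → 1 ≤ B → 1 ≤ P → 0 ≤ ρ₀ → ρ₀ ≤ 1 / 20 →
    (∀ s : ℂ, 1 + ρ₀ ≤ s.re → s.re ≤ 5 → ‖Φ s‖ ≤ P) →
    (∀ s : ℂ, 1 ≤ s.re → s.re ≤ 5 → ‖Φ s‖ ≤ B) →
    (∀ s : ℂ, 0 ≤ s.re → s.re ≤ 1 → ‖Φ s‖ ≤ B * Real.exp (2 * T * (1 - s.re))) →
    c₀ ≤ ‖Φ 3‖ → (a : ℕ∞) ≤ analyticOrderAt Φ 1 →
    (a : ℝ) ≤ C * (T * ρ₀ + Real.log B + 1) +
      C * √((T + Real.log (P / c₀) + 1) * (Real.log (P / c₀) + 1))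

/-- The upgraded final statement: large analytic ranks in the family of quadratic twists of
`y² = x³ - x` have a Gaussian tail at height `√(log X)`, and the mean analytic rank is
`≪ √(log X loglog X)`; all moments likewise. -/
def StFin2 : Prop :=
  (∀ D : ℤ, IsFund D → IsLFunction D (LTwist D) ∧ (∀ L, IsLFunction D L → L = LTwist D) ∧
    analyticOrderAt (LTwist D) 1 = (aRank D : ℕ∞)) ∧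
  (∃ C c : ℝ, 0 < C ∧ 0 < c ∧ ∃ A : ℕ, ∀ X : ℕ, 3 ≤ X → ∀ z : ℝ, 0 ≤ z →
    (((Fam X).filter (fun D => z ≤ (aRank D : ℝ))).card : ℝ) ≤
      C * X * Real.log X ^ A * Real.exp (-c * z ^ 2 / Real.log X)) ∧
  (∀ k : ℕ, ∃ C : ℝ, 0 < C ∧ ∀ X : ℕ, 3 ≤ X →
    ∑ D ∈ Fam X, (aRank D : ℝ) ^ k ≤
      C * ((Fam X).card : ℝ) * (√(Real.log X * Real.log (Real.log X + 2))) ^ k)

end P004
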