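import Vale.Agent.P004.I2
import Vale.Agent.P004.Iface2

/-!
# P004, module V2: the recursion away from the centre
-/

open Real MeasureTheory Set
open scoped ENNReal

namespace P004

open I2Mod in
/-- Module V2. -/
theorem pfRecF (hDecomp : StDecF) (hSum : StSumS) (hAj : StAj) (hA0 : StA0) (hTail : StTail)
    (hDiv : StDiv) : StRecF := by
  obtain ⟨Cd, hCd, Ad, hD⟩ := hDecomp
  obtain ⟨Cs, hCs, hS⟩ := hSum
  obtain ⟨Ca, hCa, Aa, hA⟩ := hAj
  obtain ⟨C0, hC0, A0, h0⟩ := hA0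
  obtain ⟨C₁, hC₁, hT⟩ := hTail
  obtain ⟨Cv, hCv, Av, hV⟩ := hDiv.1 Aa
  obtain ⟨Cw, hCw, Aw, hW⟩ := hDiv.2 (2 + Aa)
  set E1 : ℝ := Real.exp ((19 + 17 * Real.log C₁) / 4) with hE1
  set Z : ℝ := Cs * (C0 + 1 + Ca * E1 * Cv) with hZ
  set NN : ℕ := A0 + (Aa + Av) with hN
  have hE1pos : 0 < E1 := Real.exp_pos _
  have hZpos : 0 < Z := by positivity
  refine ⟨C₁, hC₁, max 1 (Cd * Real.exp 1 * Z * Cw * 8 ^ (Ad + NN + Aw)), le_max_left _ _,
    Ad + NN + Aw, ?_⟩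
  intro L H X N hN1 hNX hL hlogX hXH _
  have hX : 1 ≤ X := hN1.trans hNX
  have hXR : (1 : ℝ) ≤ X := by exact_mod_cast hX
  have hNR : (1 : ℝ) ≤ N := by exact_mod_cast hN1
  have hNXR : (N : ℝ) ≤ X := by exact_mod_cast hNX
  have hNH : (N : ℝ) ≤ H := hNXR.trans hXH
  have hlog : Real.log N ≤ L := (Real.log_le_log (by linarith) hNXR).trans hlogX
  have hH1 : 1 ≤ H := hXR.trans hXH
  set θ : ℝ := 1 / (8 * L) with hθdef
  have hθ : 0 < θ := by positivity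
  have hθ8 : θ ≤ 1 / 8 := by
    rw [hθdef]
    apply one_div_le_one_div_of_le (by norm_num)
    linarith
  have hθ1 : 1 / θ = 8 * L := by rw [hθdef, one_div_one_div]
  have hθinv : 1 ≤ 1 / θ := by rw [hθ1]; linarith
  have hlogX0 : 0 ≤ Real.log N := Real.log_nonneg hNR
  set B : ℝ := (N : ℝ) ^ 2 * (C₁ * L) ^ 17 with hB
  have hCL : 1 ≤ C₁ * L := by nlinarith
  have hBpos : 0 < B := by positivity
  have hBE : B ^ (2 * θ) ≤ E1 := by
    rw [Real.rpow_def_of_pos hBpos, hE1]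
    apply Real.exp_le_exp.2
    have hlogB : Real.log B = 2 * Real.log N + 17 * (Real.log C₁ + Real.log L) := by
      rw [hB, Real.log_mul (by positivity) (by positivity), Real.log_pow, Real.log_pow,
        Real.log_mul (by positivity) (by positivity)]
      norm_num
    have h1 : Real.log L ≤ L := (Real.log_le_sub_one_of_pos (by linarith)).trans (by linarith)
    have h2 : 0 ≤ Real.log C₁ := Real.log_nonneg hC₁
    have h3 : Real.log B ≤ (19 + 17 * Real.log C₁) * L := by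
      rw [hlogB]
      nlinarith
    calc Real.log B * (2 * θ) ≤ (19 + 17 * Real.log C₁) * L * (2 * θ) := by gcongr
      _ = (19 + 17 * Real.log C₁) / 4 := by
        rw [hθdef]; field_simp; ring
  have h3X : (3 * N : ℝ) ^ (2 * θ) ≤ Real.exp 1 := by
    rw [Real.rpow_def_of_pos (by positivity)]
    apply Real.exp_le_exp.2
    rw [Real.log_mul (by norm_num) (by positivity)]
    have h1 : Real.log 3 ≤ 2 := by
      have := Real.log_le_sub_one_of_pos (by norm_num : (0 : ℝ) < 3)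
      linarith
    calc (Real.log 3 + Real.log N) * (2 * θ) ≤ (2 + L) * (2 * θ) := by gcongr
      _ ≤ (3 * L) * (2 * θ) := by gcongr; linarith
      _ = 3 / 4 := by rw [hθdef]; field_simp; ring
      _ ≤ 1 := by norm_num
  set S₁ : ℝ≥0∞ := ∑ j ∈ sqf ⌊B / H⌋₊, ENNReal.ofReal (1 / √(j : ℝ)) * (Jm j + 1) with hS1
  set Br : ℝ≥0∞ := ENNReal.ofReal H + ENNReal.ofReal (√H) * S₁ with hBr
  set a : ℝ := 1 / (3 * N) with ha
  have ha0 : 0 ≤ a := by positivity
  -- the bound for one `r`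
  have key : ∀ r : ℕ, 0 < r →
      ∫⁻ u in Ioi a, ENNReal.ofReal ((∑ m ∈ sqf X, Uf m r u ^ 2) * u ^ (1 + 2 * θ)) ≤
        ENNReal.ofReal (Z * (1 / θ) ^ NN * dv r ^ Aa) * Br := by
    intro r hr
    have hdr : 1 ≤ dv r := dv_one_le hr
    have hdrA : 1 ≤ dv r ^ Aa := one_le_pow₀ hdr
    refine (int_le Cs hS X r H θ a hr hX hXH ha0).trans ?_
    have hzero : TI H θ a r 0 ≤ ENNReal.ofReal (C0 * (1 / θ) ^ A0) :=
      (TI_mono H θ a ha0 r 0).trans (h0 θ hθ hθ8 H r (by linarith) hr)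
    have hsplit := split_sum (fun j : ℕ => TI H θ a r (j : ℤ)) (fun j : ℕ => TI H θ 0 r (j : ℤ))
      (fun j : ℕ => B < j * H) ⌊B / H⌋₊ (fun j => TI_mono H θ a ha0 r j) (by
        intro j _ hj
        rw [not_lt] at hj
        apply Nat.le_floor
        rw [le_div_iff₀ (by linarith)]
        exact hj)
    have htail : (∑' j : ℕ, if B < j * H then TI H θ a r (j : ℤ) else 0) ≤ 1 :=
      hT L θ H N r hN1 hL hlog hθ hθ8 hNH hr
    have hsmall := small_sum Ca Cv Aa Av hCa θ H B hθ hH1 hBpos r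
      (fun j₁ j₂ hsq hj₂ => hA θ hθ hθ8 H r j₁ j₂ (by linarith) hr hsq hj₂)
      (hV θ hθ (by linarith))
    have hsumj : ∑' j : ℕ, TI H θ a r (j + 1) ≤ 1 +
        ENNReal.ofReal (Ca * (1 / θ) ^ Aa * dv r ^ Aa * (B ^ (2 * θ) * (1 / √H)) *
        (Cv * (1 / θ) ^ Av)) * S₁ := by
      have e : ∑' j : ℕ, TI H θ a r (j + 1) = ∑' j : ℕ, TI H θ a r ((j + 1 : ℕ) : ℤ) := by
        push_cast; rfl
      rw [e]
      exact hsplit.trans (add_le_add htail hsmall)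
    calc ENNReal.ofReal (Cs * H) * (TI H θ a r 0 + ∑' j : ℕ, TI H θ a r (j + 1))
        ≤ ENNReal.ofReal (Cs * H) * (ENNReal.ofReal (C0 * (1 / θ) ^ A0) + (1 +
          ENNReal.ofReal (Ca * (1 / θ) ^ Aa * dv r ^ Aa * (B ^ (2 * θ) * (1 / √H)) *
            (Cv * (1 / θ) ^ Av)) * S₁)) := by gcongr
      _ ≤ ENNReal.ofReal (Cs * H) * (ENNReal.ofReal ((C0 + 1) * (1 / θ) ^ NN * dv r ^ Aa) +
          ENNReal.ofReal ((Ca * E1 * Cv) * (1 / θ) ^ NN * dv r ^ Aa * (1 / √H)) * S₁) := by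
          rw [← add_assoc]
          have i1 : ENNReal.ofReal (C0 * (1 / θ) ^ A0) + 1 ≤
              ENNReal.ofReal ((C0 + 1) * (1 / θ) ^ NN * dv r ^ Aa) := by
            rw [← ENNReal.ofReal_one, ← ENNReal.ofReal_add (by positivity) (by norm_num)]
            apply ENNReal.ofReal_le_ofReal
            have h1 : (1 / θ) ^ A0 ≤ (1 / θ) ^ NN := pow_le_pow_right₀ hθinv (by omega)
            have h2 : 1 ≤ (1 / θ) ^ NN := one_le_pow₀ hθinv
            calc C0 * (1 / θ) ^ A0 + 1 ≤ C0 * (1 / θ) ^ NN + (1 / θ) ^ NN := by gcongr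
              _ = (C0 + 1) * (1 / θ) ^ NN * 1 := by ring
              _ ≤ (C0 + 1) * (1 / θ) ^ NN * dv r ^ Aa := by gcongr
          have i2 : ENNReal.ofReal (Ca * (1 / θ) ^ Aa * dv r ^ Aa * (B ^ (2 * θ) * (1 / √H)) *
              (Cv * (1 / θ) ^ Av)) ≤
              ENNReal.ofReal ((Ca * E1 * Cv) * (1 / θ) ^ NN * dv r ^ Aa * (1 / √H)) := by
            apply ENNReal.ofReal_le_ofReal
            have h1 : (1 / θ) ^ (Aa + Av) ≤ (1 / θ) ^ NN := pow_le_pow_right₀ hθinv (by omega)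
            calc Ca * (1 / θ) ^ Aa * dv r ^ Aa * (B ^ (2 * θ) * (1 / √H)) * (Cv * (1 / θ) ^ Av)
                ≤ Ca * (1 / θ) ^ Aa * dv r ^ Aa * (E1 * (1 / √H)) * (Cv * (1 / θ) ^ Av) := by
                  gcongr
              _ = Ca * E1 * Cv * (1 / θ) ^ (Aa + Av) * dv r ^ Aa * (1 / √H) := by
                  rw [pow_add]; ring
              _ ≤ _ := by gcongr
          exact mul_le_mul' le_rfl (add_le_add i1 (mul_le_mul' i2 le_rfl))
      _ ≤ ENNReal.ofReal (Z * (1 / θ) ^ NN * dv r ^ Aa) * Br := by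
          have hsqrt : H * (1 / √H) = √H := by
            rw [mul_one_div, Real.div_sqrt]
          rw [hBr, mul_add, mul_add, ← mul_assoc, ← mul_assoc, ← ENNReal.ofReal_mul (by positivity),
            ← ENNReal.ofReal_mul (by positivity), ← ENNReal.ofReal_mul (by positivity),
            ← ENNReal.ofReal_mul (by positivity)]
          refine add_le_add (ENNReal.ofReal_le_ofReal ?_)
            (mul_le_mul' (ENNReal.ofReal_le_ofReal ?_) le_rfl)
          · have h0 : 0 ≤ Cs * (Ca * E1 * Cv) * H * ((1 / θ) ^ NN * dv r ^ Aa) := by positivity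
            have e : Z * (1 / θ) ^ NN * dv r ^ Aa * H =
                Cs * H * ((C0 + 1) * (1 / θ) ^ NN * dv r ^ Aa) +
                Cs * (Ca * E1 * Cv) * H * ((1 / θ) ^ NN * dv r ^ Aa) := by rw [hZ]; ring
            rw [e]
            exact le_add_of_nonneg_right h0
          · have h0 : 0 ≤ Cs * (C0 + 1) * √H * ((1 / θ) ^ NN * dv r ^ Aa) := by positivity
            have e : Cs * H * (Ca * E1 * Cv * (1 / θ) ^ NN * dv r ^ Aa * (1 / √H)) =
              Cs * (Ca * E1 * Cv) * ((1 / θ) ^ NN * dv r ^ Aa) * (H * (1 / √H)) := by ring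
            have e2 : Z * (1 / θ) ^ NN * dv r ^ Aa * √H =
                Cs * (Ca * E1 * Cv) * ((1 / θ) ^ NN * dv r ^ Aa) * √H +
                Cs * (C0 + 1) * √H * ((1 / θ) ^ NN * dv r ^ Aa) := by rw [hZ]; ring
            rw [e, hsqrt, e2]
            exact le_add_of_nonneg_right h0
  -- assembly
  have hfin := hD θ hθ hθ8 X N hX hN1
  have hr0 : ∀ r : {r : ℕ // Powerful r}, 0 < (r : ℕ) := fun r => Nat.pos_of_ne_zero r.2.1
  have hterm : ∀ r : {r : ℕ // Powerful r},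
      ENNReal.ofReal (dv r ^ 2 * (r : ℝ) ^ (-1 / 2 - 3 / 2 * θ)) *
        ∫⁻ u in Ioi a, ENNReal.ofReal ((∑ m ∈ sqf X, Uf m r u ^ 2) * u ^ (1 + 2 * θ)) ≤
      ENNReal.ofReal (Z * (1 / θ) ^ NN) * Br *
        ENNReal.ofReal (dv r ^ (2 + Aa) * (r : ℝ) ^ (-1 / 2 - 3 / 2 * θ)) := by
    intro r
    have h1 : 0 ≤ dv r := dv_nonneg r
    calc ENNReal.ofReal (dv r ^ 2 * (r : ℝ) ^ (-1 / 2 - 3 / 2 * θ)) * _
        ≤ ENNReal.ofReal (dv r ^ 2 * (r : ℝ) ^ (-1 / 2 - 3 / 2 * θ)) *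
          (ENNReal.ofReal (Z * (1 / θ) ^ NN * dv r ^ Aa) * Br) :=
          mul_le_mul' le_rfl (key r (hr0 r))
      _ = ENNReal.ofReal (dv r ^ 2 * (r : ℝ) ^ (-1 / 2 - 3 / 2 * θ) *
            (Z * (1 / θ) ^ NN * dv r ^ Aa)) * Br := by
          rw [ENNReal.ofReal_mul (p := dv r ^ 2 * (r : ℝ) ^ (-1 / 2 - 3 / 2 * θ)) (by positivity),
            ← mul_assoc]
      _ = ENNReal.ofReal ((Z * (1 / θ) ^ NN) *
            (dv r ^ (2 + Aa) * (r : ℝ) ^ (-1 / 2 - 3 / 2 * θ))) * Br := by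
          congr 2
          rw [pow_add]; ring
      _ = ENNReal.ofReal (Z * (1 / θ) ^ NN) * Br *
            ENNReal.ofReal (dv r ^ (2 + Aa) * (r : ℝ) ^ (-1 / 2 - 3 / 2 * θ)) := by
          rw [ENNReal.ofReal_mul (p := Z * (1 / θ) ^ NN) (by positivity)]
          ring
  have hsumr : ∑' r : {r : ℕ // Powerful r},
      ENNReal.ofReal (dv r ^ (2 + Aa) * (r : ℝ) ^ (-1 / 2 - 3 / 2 * θ)) ≤
      ENNReal.ofReal (Cw * (1 / θ) ^ Aw) := by
    refine (hW (3 / 2 * θ) (by positivity) (by linarith)).trans ?_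
    apply ENNReal.ofReal_le_ofReal
    have : 1 / (3 / 2 * θ) ≤ 1 / θ := one_div_le_one_div_of_le hθ (by linarith)
    gcongr
  have hpre : ENNReal.ofReal (Cd * (1 / θ) ^ Ad * (3 * N : ℝ) ^ (2 * θ)) ≤
      ENNReal.ofReal (Cd * (1 / θ) ^ Ad * Real.exp 1) := by
    apply ENNReal.ofReal_le_ofReal
    gcongr
  calc ∑ m ∈ sqf X, Jf (1 / (3 * N) : ℝ) m ≤ _ := hfin
    _ ≤ ENNReal.ofReal (Cd * (1 / θ) ^ Ad * Real.exp 1) *
        ∑' r : {r : ℕ // Powerful r}, ENNReal.ofReal (Z * (1 / θ) ^ NN) * Br *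
          ENNReal.ofReal (dv r ^ (2 + Aa) * (r : ℝ) ^ (-1 / 2 - 3 / 2 * θ)) :=
        mul_le_mul' hpre (ENNReal.tsum_le_tsum hterm)
    _ = ENNReal.ofReal (Cd * (1 / θ) ^ Ad * Real.exp 1) * (ENNReal.ofReal (Z * (1 / θ) ^ NN) * Br *
        ∑' r : {r : ℕ // Powerful r},
          ENNReal.ofReal (dv r ^ (2 + Aa) * (r : ℝ) ^ (-1 / 2 - 3 / 2 * θ))) := by
        rw [ENNReal.tsum_mul_left]
    _ ≤ ENNReal.ofReal (Cd * (1 / θ) ^ Ad * Real.exp 1) * (ENNReal.ofReal (Z * (1 / θ) ^ NN) * Br *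
        ENNReal.ofReal (Cw * (1 / θ) ^ Aw)) :=
        mul_le_mul' le_rfl (mul_le_mul' le_rfl hsumr)
    _ = ENNReal.ofReal (Cd * (1 / θ) ^ Ad * Real.exp 1 * (Z * (1 / θ) ^ NN) *
          (Cw * (1 / θ) ^ Aw)) * Br := by
        rw [ENNReal.ofReal_mul (p := Cd * (1 / θ) ^ Ad * Real.exp 1 * (Z * (1 / θ) ^ NN))
          (by positivity), ENNReal.ofReal_mul (p := Cd * (1 / θ) ^ Ad * Real.exp 1)
          (by positivity)]
        ring
    _ ≤ ENNReal.ofReal (max 1 (Cd * Real.exp 1 * Z * Cw * 8 ^ (Ad + NN + Aw)) *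
          L ^ (Ad + NN + Aw)) * Br := by
        refine mul_le_mul' (ENNReal.ofReal_le_ofReal ?_) le_rfl
        rw [hθ1]
        have e : Cd * (8 * L) ^ Ad * Real.exp 1 * (Z * (8 * L) ^ NN) * (Cw * (8 * L) ^ Aw) =
            (Cd * Real.exp 1 * Z * Cw * 8 ^ (Ad + NN + Aw)) * L ^ (Ad + NN + Aw) := by
          rw [mul_pow, mul_pow, mul_pow, pow_add, pow_add, pow_add, pow_add]; ring
        rw [e]
        gcongr
        exact le_max_right _ _

end P004
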