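import Vale.Agent.P004.J
import Vale.Agent.P004.Iface2

/-!
# P004, module V3: away from the centre the second moment is a power of `log X`
-/

open Real MeasureTheory Set
open scoped ENNReal

namespace P004

namespace V3Mod

lemma final_le {C Ct C₁ L X N K e E : ℝ} (A : ℕ) (hC : 1 ≤ C) (hCt : 1 ≤ Ct) (hC₁ : 1 ≤ C₁)
    (hL : 1 ≤ L) (hX : 1 ≤ X) (hN : 1 ≤ N) (he : 1 ≤ e) (heE : e ≤ E)
    (hNE : N * E ≤ X) (hK0 : 0 ≤ K) (hK : K ≤ N ^ 2 * (C₁ * L) ^ 17 / X) :
    C * L ^ A * (X + √X * (2 * (27 * Ct * e + 1) * √K)) ≤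
      C * (1 + 108 * Ct * C₁ ^ 9) * X * L ^ (A + 9) := by
  have hCL : 1 ≤ C₁ * L := by nlinarith
  have hsq : √X * √K ≤ N * (C₁ * L) ^ 9 := by
    rw [← Real.sqrt_mul (by positivity)]
    apply Real.sqrt_le_iff.2
    refine ⟨by positivity, ?_⟩
    calc X * K ≤ X * (N ^ 2 * (C₁ * L) ^ 17 / X) := by gcongr
      _ = N ^ 2 * (C₁ * L) ^ 17 := by field_simp
      _ ≤ N ^ 2 * (C₁ * L) ^ 18 := by
        have : (C₁ * L) ^ 17 ≤ (C₁ * L) ^ 18 := pow_le_pow_right₀ hCL (by norm_num)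
        gcongr
      _ = _ := by ring
  have hP1 : 1 ≤ 27 * Ct * e := by nlinarith
  have hPN : 2 * (27 * Ct * e + 1) * N ≤ 108 * Ct * X := by
    calc 2 * (27 * Ct * e + 1) * N ≤ 2 * (27 * Ct * e + 27 * Ct * e) * N := by gcongr
      _ = 108 * Ct * (N * e) := by ring
      _ ≤ 108 * Ct * (N * E) := by gcongr
      _ ≤ 108 * Ct * X := by gcongr
  have e1 : √X * (2 * (27 * Ct * e + 1) * √K) ≤ 108 * Ct * C₁ ^ 9 * X * L ^ 9 := by
    calc √X * (2 * (27 * Ct * e + 1) * √K) = 2 * (27 * Ct * e + 1) * (√X * √K) := by ring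
      _ ≤ 2 * (27 * Ct * e + 1) * (N * (C₁ * L) ^ 9) := by gcongr
      _ = (2 * (27 * Ct * e + 1) * N) * (C₁ * L) ^ 9 := by ring
      _ ≤ (108 * Ct * X) * (C₁ * L) ^ 9 := by gcongr
      _ = _ := by ring
  have e2 : X ≤ X * L ^ 9 := by
    have : (1 : ℝ) ≤ L ^ 9 := one_le_pow₀ hL
    nlinarith
  calc C * L ^ A * (X + √X * (2 * (27 * Ct * e + 1) * √K))
      ≤ C * L ^ A * (X * L ^ 9 + 108 * Ct * C₁ ^ 9 * X * L ^ 9) := by gcongr
    _ = _ := by rw [pow_add]; ring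

end V3Mod

open JMod in
/-- Module V3. -/
theorem pfFarMain (hRec : StRecF) (hMain : StMain) (hTriv : StTriv) : StFarMain := by
  obtain ⟨Ct, hCt, hT⟩ := hTriv
  obtain ⟨C₁, hC₁, C, hC, A, hR⟩ := hRec
  obtain ⟨Cm, hCm, hM⟩ := hMain
  have hlC1 : 0 ≤ Real.log C₁ := Real.log_nonneg hC₁
  refine ⟨Cm + 17 * (Real.log C₁ + 1), by nlinarith, C * (1 + 108 * Ct * C₁ ^ 9), ?_, A + 9, ?_⟩
  · have h1 : (1 : ℝ) ≤ C₁ ^ 9 := one_le_pow₀ hC₁
    have h2 : (0 : ℝ) ≤ 108 * Ct * C₁ ^ 9 := by positivity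
    nlinarith
  intro X N hX hN hNX
  set C₂ : ℝ := Cm + 17 * (Real.log C₁ + 1) with hC₂
  have hX3 : (3 : ℝ) ≤ X := by exact_mod_cast hX
  have hN1 : (1 : ℝ) ≤ N := by exact_mod_cast hN
  set L : ℝ := Real.log X with hL
  have hL1 : 1 ≤ L := by
    rw [hL, Real.le_log_iff_exp_le (by linarith)]
    have := Real.exp_one_lt_d9
    linarith
  set l2 : ℝ := Real.log (L + 2) with hl2
  have hl21 : 1 ≤ l2 := by
    rw [hl2, Real.le_log_iff_exp_le (by linarith)]
    have := Real.exp_one_lt_d9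
    linarith
  have hlL : Real.log L ≤ l2 := Real.log_le_log (by linarith) (by linarith)
  have hlL0 : 0 ≤ Real.log L := Real.log_nonneg hL1
  set s : ℝ := √(L * l2) with hs
  have hs1 : 1 ≤ s := by
    rw [hs, Real.one_le_sqrt]
    nlinarith
  have hlogLs : Real.log L ≤ s := by
    rw [hs]
    apply Real.le_sqrt_of_sq_le
    have : Real.log L ≤ L := (Real.log_le_sub_one_of_pos (by linarith)).trans (by linarith)
    rw [sq]
    gcongr
  set E : ℝ := Real.exp (C₂ * s) with hE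
  have hEpos : 0 < E := Real.exp_pos _
  set B : ℝ := (C₁ * L) ^ 17 with hB
  have hCL : 1 ≤ C₁ * L := by nlinarith
  have hB1 : 1 ≤ B := one_le_pow₀ hCL
  -- `B ≤ E`
  have hBE : B ≤ E := by
    rw [hB, hE, ← Real.exp_log (by linarith : (0 : ℝ) < C₁ * L), ← Real.exp_nat_mul]
    apply Real.exp_le_exp.2
    rw [Real.log_mul (by linarith) (by linarith), hC₂]
    push_cast
    have h1 : Real.log C₁ ≤ Real.log C₁ * s := by nlinarith
    have h2 : 0 ≤ Cm * s := by positivity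
    nlinarith
  have hE1 : 1 ≤ E := hB1.trans hBE
  -- `exp (Cm s) ≤ E`
  have hPE : Real.exp (Cm * s) ≤ E := by
    apply Real.exp_le_exp.2
    rw [hC₂]
    have : 0 ≤ 17 * (Real.log C₁ + 1) * s := by positivity
    nlinarith
  have hNleX : (N : ℝ) ≤ X := by
    calc (N : ℝ) = N * 1 := by ring
      _ ≤ N * E := by gcongr
      _ ≤ X := hNX
  have hNX' : N ≤ X := by exact_mod_cast hNleX
  have hXX : (X : ℝ) ≤ (X : ℝ) ^ 2 * (C₁ * L) ^ 17 := by
    calc (X : ℝ) = X * 1 * 1 := by ring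
      _ ≤ X * X * B := by gcongr; linarith
      _ = _ := by rw [hB]; ring
  have h := hR L X X N hN hNX' hL1 le_rfl le_rfl hXX
  set K : ℕ := ⌊(N : ℝ) ^ 2 * (C₁ * L) ^ 17 / X⌋₊ with hK
  have hKle : (K : ℝ) ≤ (N : ℝ) ^ 2 * B / X := Nat.floor_le (by positivity)
  have hKX : (K : ℝ) ≤ X := by
    refine hKle.trans ?_
    rw [div_le_iff₀ (by linarith)]
    calc (N : ℝ) ^ 2 * B ≤ (N : ℝ) ^ 2 * E := by gcongr
      _ ≤ (N : ℝ) ^ 2 * (E * E) := by gcongr; nlinarith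
      _ = (N * E) * (N * E) := by ring
      _ ≤ X * X := by gcongr
  set P : ℝ := 27 * Ct * Real.exp (Cm * s) with hP
  have hexp1 : 1 ≤ Real.exp (Cm * s) := Real.one_le_exp (by positivity)
  have hP1 : 1 ≤ P := by rw [hP]; nlinarith
  have hsum := sum_sqf K P (by linarith) (fun y hy => by
    by_cases hy3 : 3 ≤ y
    · refine (hM y hy3).trans (ENNReal.ofReal_le_ofReal ?_)
      rw [mul_comm]
      have hy3' : (3 : ℝ) ≤ y := by exact_mod_cast hy3
      have hyX : (y : ℝ) ≤ X := le_trans (by exact_mod_cast hy) hKX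
      have hly : Real.log y ≤ L := Real.log_le_log (by linarith) hyX
      have hly1 : 0 ≤ Real.log y := Real.log_nonneg (by linarith)
      have h1 : √(Real.log y * Real.log (Real.log y + 2)) ≤ s := by
        rw [hs]
        apply Real.sqrt_le_sqrt
        have h2 : Real.log (Real.log y + 2) ≤ l2 := Real.log_le_log (by linarith) (by linarith)
        have h3 : 0 ≤ Real.log (Real.log y + 2) := Real.log_nonneg (by linarith)
        gcongr
      have h2 : Real.exp (Cm * √(Real.log y * Real.log (Real.log y + 2))) ≤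
          Real.exp (Cm * s) := Real.exp_le_exp.2 (by gcongr)
      calc Real.exp (Cm * √(Real.log y * Real.log (Real.log y + 2))) * y
          ≤ Real.exp (Cm * s) * y := by gcongr
        _ ≤ P * y := by
          have : Real.exp (Cm * s) ≤ P := by rw [hP]; nlinarith
          gcongr
    · have hy3' : (y : ℝ) ≤ 3 := by exact_mod_cast (not_le.1 hy3).le
      refine (base Ct hCt hT 3 (by norm_num) y hy3').trans (ENNReal.ofReal_le_ofReal ?_)
      have : Ct * 3 ^ 3 ≤ P := by rw [hP]; nlinarith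
      gcongr)
  calc ∑ m ∈ sqf X, Jf (1 / (3 * N) : ℝ) m ≤ _ := h
    _ ≤ ENNReal.ofReal (C * L ^ A) * (ENNReal.ofReal X +
        ENNReal.ofReal (√(X : ℝ)) * ENNReal.ofReal (2 * (P + 1) * √(K : ℝ))) := by
        gcongr
    _ = ENNReal.ofReal (C * L ^ A * (X + √(X : ℝ) * (2 * (P + 1) * √(K : ℝ)))) := by
        rw [← ENNReal.ofReal_mul (by positivity), ← ENNReal.ofReal_add (by positivity)
          (by positivity), ← ENNReal.ofReal_mul (by positivity)]
    _ ≤ ENNReal.ofReal (C * (1 + 108 * Ct * C₁ ^ 9) * X * L ^ (A + 9)) :=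
        ENNReal.ofReal_le_ofReal (V3Mod.final_le A hC hCt hC₁ hL1 (by linarith) hN1 hexp1 hPE hNX
          (Nat.cast_nonneg K) hKle)

end P004
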