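import Vale.Agent.P004.Iface2
import Vale.Agent.P004.K1

/-!
# P004, module V4: the completed `L`-function, with a bound to the right of the centre in terms
of the far mass
-/

open Complex Filter Set MeasureTheory Asymptotics
open scoped Topology ENNReal

namespace P004
namespace V4

variable {m : ℕ} {κ : ℝ}

lemma Jf_toReal (hc : StCoef) {u₁ : ℝ} (hu : 0 ≤ u₁) :
    (Jf u₁ m).toReal = ∫ u in Ioi u₁, theta m u ^ 2 * u := by
  rw [integral_eq_lintegral_of_nonneg_ae]
  · rfl
  · filter_upwards [ae_restrict_mem measurableSet_Ioi] with u hu1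
    have hu0 : (0 : ℝ) < u := lt_of_le_of_lt hu hu1
    simp only [Pi.zero_apply]
    positivity
  · exact ((((K1.continuousOn_theta hc m).mono (Ioi_subset_Ioi hu)).pow 2).mul
      continuousOn_id).aestronglyMeasurable measurableSet_Ioi

lemma cs (hc : StCoef) {a : ℝ} (ha : 0 < a) (ha1 : a ≤ 1) :
    ∫ u in Ioc a 1, |theta m u| ≤ √((∫ u in Ioc a 1, theta m u ^ 2 * u) * Real.log (1 / a)) := by
  have hsub : Icc a 1 ⊆ Ioi (0 : ℝ) := fun x hx => lt_of_lt_of_le ha hx.1
  have hth : ContinuousOn (theta m) (Icc a 1) := (K1.continuousOn_theta hc m).mono hsub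
  have i1 : IntegrableOn (fun u => theta m u ^ 2 * u) (Ioc a 1) :=
    ((hth.pow 2).mul continuousOn_id).integrableOn_compact isCompact_Icc |>.mono_set
      Ioc_subset_Icc_self
  have i2 : IntegrableOn (fun u => |theta m u|) (Ioc a 1) :=
    (hth.abs.integrableOn_compact isCompact_Icc).mono_set Ioc_subset_Icc_self
  have i3 : IntegrableOn (fun u : ℝ => 1 / u) (Ioc a 1) := by
    have : ContinuousOn (fun u : ℝ => 1 / u) (Icc a 1) :=
      continuousOn_const.div continuousOn_id fun x hx => ne_of_gt (hsub hx)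
    exact (this.integrableOn_compact isCompact_Icc).mono_set Ioc_subset_Icc_self
  have h3 : ∫ u in Ioc a 1, 1 / u = Real.log (1 / a) := by
    rw [← intervalIntegral.integral_of_le ha1, integral_one_div_of_pos ha one_pos]
  set J2 := ∫ u in Ioc a 1, theta m u ^ 2 * u with hJ2
  set X := ∫ u in Ioc a 1, |theta m u| with hX
  have hX0 : 0 ≤ X := setIntegral_nonneg measurableSet_Ioc fun u _ => abs_nonneg _
  have hquad : ∀ l : ℝ, 0 ≤ J2 * (l * l) + (-2 * X) * l + Real.log (1 / a) := by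
    intro l
    have h4 : 0 ≤ ∫ u in Ioc a 1, ((l * l) * (theta m u ^ 2 * u) +
        (-2 * l) * |theta m u| + 1 / u) := by
      refine setIntegral_nonneg measurableSet_Ioc fun u hu => ?_
      have hu0 : (0 : ℝ) < u := lt_trans ha hu.1
      have h5 : (l * l) * (theta m u ^ 2 * u) + (-2 * l) * |theta m u| + 1 / u =
          (l * |theta m u| * u - 1) ^ 2 / u := by
        rw [← sq_abs (theta m u)]
        field_simp
        ring
      rw [h5]
      positivity
    rw [integral_add, integral_add, integral_const_mul, integral_const_mul, h3] at h4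
    · rw [← hJ2, ← hX] at h4
      linarith
    · exact i1.const_mul _
    · exact i2.const_mul _
    · exact (i1.const_mul _).add (i2.const_mul _)
    · exact i3
  have hdis := discrim_le_zero hquad
  unfold discrim at hdis
  apply Real.le_sqrt_of_sq_le
  nlinarith

lemma far_middle (hc : StCoef) (hm : 0 < m) (hκ : κ = 1 ∨ κ = -1)
    (hfe : ∀ u : ℝ, 0 < u → theta m u = κ / (Qm m * u ^ 2) * theta m (1 / (Qm m * u)))
    {a : ℝ} (ha : 0 < a) (ha1 : a ≤ 1) :
    ∫ u in Ioc a 1, |theta m u| ≤ √((Jf a m).toReal * Real.log (1 / a)) := by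
  refine (cs hc ha ha1).trans (Real.sqrt_le_sqrt ?_)
  have h1 : ∫ u in Ioc a 1, theta m u ^ 2 * u ≤ (Jf a m).toReal := by
    rw [Jf_toReal hc ha.le]
    refine setIntegral_mono_set ((K1.J_int hc hm hκ hfe).mono_set (Ioi_subset_Ioi ha.le)) ?_
      (Ioc_subset_Ioi_self).eventuallyLE
    filter_upwards [ae_restrict_mem measurableSet_Ioi] with u hu
    have hu0 : (0 : ℝ) < u := lt_trans ha hu
    simp only [Pi.zero_apply]
    positivity
  apply mul_le_mul_of_nonneg_right h1
  apply Real.log_nonneg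
  rw [one_le_div ha]
  exact ha1

lemma Phi_bound2 (hc : StCoef) (hm : 0 < m) (hκ : κ = 1 ∨ κ = -1)
    (hfe : ∀ u : ℝ, 0 < u → theta m u = κ / (Qm m * u ^ 2) * theta m (1 / (Qm m * u)))
    {N : ℕ} (hN : 1 ≤ N) {ρ : ℝ} (hρ : 0 ≤ ρ) {s : ℂ} (hs1 : 1 + ρ ≤ s.re) (hs5 : s.re ≤ 5) :
    ‖K1.Phi m s‖ ≤ 2 * K1.C0 + √((Jf (1 / (3 * N) : ℝ) m).toReal * Real.log (3 * N)) +
      (3 * N : ℝ) ^ (-ρ) * √((Jm m).toReal * Real.log (Qm m)) := by
  have hQ := K1.Qm_pos hm
  have hQ1 := K1.one_le_Qm hm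
  have hN1 : (1 : ℝ) ≤ N := by exact_mod_cast hN
  have hN0 : (0 : ℝ) < 3 * N := by linarith
  have ha0 : (0 : ℝ) < 1 / (3 * N) := by positivity
  have ha1 : (1 : ℝ) / (3 * N) ≤ 1 := by rw [div_le_one hN0]; linarith
  have hle : 1 / Qm m ≤ 1 := by rw [div_le_one hQ]; exact hQ1
  have hmeas : ∀ S : Set ℝ, MeasurableSet S → S ⊆ Ioi 0 →
      AEStronglyMeasurable (fun u : ℝ => |theta m u| * u ^ (s.re - 1)) (volume.restrict S) := by
    intro S hS hS0
    refine ContinuousOn.aestronglyMeasurable ?_ hS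
    refine ((K1.continuousOn_theta hc m).mono hS0).abs.mul ?_
    intro u hu
    exact (Real.continuousAt_rpow_const u _ (Or.inl (ne_of_gt (hS0 hu)))).continuousWithinAt
  have b1 : ∀ᵐ u ∂(volume.restrict (Ioc 0 (1 / Qm m))),
      ‖|theta m u| * u ^ (s.re - 1)‖ ≤ K1.C0 * Qm m := by
    filter_upwards [ae_restrict_mem measurableSet_Ioc] with u hu
    have hu0 : 0 < u := hu.1
    have hu1 : u ≤ 1 := hu.2.trans hle
    rw [Real.norm_of_nonneg (by positivity)]
    have h1 := K1.theta_small hc hm hκ hfe hu0 hu.2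
    have h2 : u ^ (s.re - 1) ≤ 1 := Real.rpow_le_one hu0.le hu1 (by linarith)
    have h3 : 0 ≤ K1.C0 * Qm m := mul_nonneg K1.C0_nonneg hQ.le
    calc |theta m u| * u ^ (s.re - 1) ≤ (K1.C0 * Qm m) * 1 := by gcongr
      _ = _ := mul_one _
  have i1 : IntegrableOn (fun u : ℝ => |theta m u| * u ^ (s.re - 1)) (Ioc 0 (1 / Qm m)) := by
    have hconst : IntegrableOn (fun _ : ℝ => K1.C0 * Qm m) (Ioc 0 (1 / Qm m)) :=
      (continuous_const.continuousOn.integrableOn_compact isCompact_Icc).mono_set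
        Ioc_subset_Icc_self
    exact hconst.mono' (hmeas _ measurableSet_Ioc fun x hx => hx.1) b1
  have hth : ContinuousOn (theta m) (Icc (1 / Qm m) 1) :=
    (K1.continuousOn_theta hc m).mono (K1.Ioc_sub hQ)
  have i2' : IntegrableOn (fun u => |theta m u|) (Ioc (1 / Qm m) 1) :=
    (hth.abs.integrableOn_compact isCompact_Icc).mono_set Ioc_subset_Icc_self
  have b2 : ∀ u ∈ Ioc (1 / Qm m) 1, |theta m u| * u ^ (s.re - 1) ≤ |theta m u| := by
    intro u hu
    have hu0 : (0 : ℝ) < u := lt_trans (by positivity : (0:ℝ) < 1 / Qm m) hu.1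
    exact mul_le_of_le_one_right (abs_nonneg _) (Real.rpow_le_one hu0.le hu.2 (by linarith))
  have i2 : IntegrableOn (fun u : ℝ => |theta m u| * u ^ (s.re - 1)) (Ioc (1 / Qm m) 1) := by
    refine i2'.mono' (hmeas _ measurableSet_Ioc fun x hx =>
      lt_trans (by positivity : (0:ℝ) < 1 / Qm m) hx.1) ?_
    filter_upwards [ae_restrict_mem measurableSet_Ioc] with u hu
    have hu0 : (0 : ℝ) < u := lt_trans (by positivity : (0:ℝ) < 1 / Qm m) hu.1
    rw [Real.norm_of_nonneg (by positivity)]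
    exact b2 u hu
  have b3 : ∀ u ∈ Ioi (1 : ℝ), |theta m u| * u ^ (s.re - 1) ≤
      K1.C0 * (u ^ (4 : ℝ) * Real.exp (-Real.pi * u ^ (1 : ℝ))) := by
    intro u hu
    have hu1 : (1 : ℝ) < u := hu
    have h1 := K1.theta_le hc m hu1.le
    have h2 : u ^ (s.re - 1) ≤ u ^ (4 : ℝ) :=
      Real.rpow_le_rpow_of_exponent_le hu1.le (by linarith)
    have h4 : 0 ≤ K1.C0 * Real.exp (-Real.pi * u) := mul_nonneg K1.C0_nonneg (Real.exp_pos _).le
    calc |theta m u| * u ^ (s.re - 1) ≤ (K1.C0 * Real.exp (-Real.pi * u)) * u ^ (4 : ℝ) := by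
          gcongr
      _ = _ := by rw [Real.rpow_one]; ring
  have i3' : IntegrableOn (fun u : ℝ => K1.C0 * (u ^ (4 : ℝ) * Real.exp (-Real.pi * u ^ (1 : ℝ))))
      (Ioi 0) :=
    (integrableOn_rpow_mul_exp_neg_mul_rpow (s := 4) (by norm_num) one_pos Real.pi_pos).const_mul _
  have i3 : IntegrableOn (fun u : ℝ => |theta m u| * u ^ (s.re - 1)) (Ioi 1) := by
    refine (i3'.mono_set (Ioi_subset_Ioi zero_le_one)).mono'
      (hmeas _ measurableSet_Ioi (Ioi_subset_Ioi zero_le_one)) ?_
    filter_upwards [ae_restrict_mem measurableSet_Ioi] with u hu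
    have hu1 : (1 : ℝ) < u := hu
    rw [Real.norm_of_nonneg (by positivity)]
    exact b3 u hu
  have h0 : ‖K1.Phi m s‖ ≤ ∫ u in Ioi (0 : ℝ), |theta m u| * u ^ (s.re - 1) := by
    rw [K1.Phi, mellin]
    refine (norm_integral_le_integral_norm _).trans (le_of_eq ?_)
    apply setIntegral_congr_fun measurableSet_Ioi
    intro u hu
    simp only
    rw [norm_smul, norm_cpow_eq_rpow_re_of_pos hu, Complex.norm_real, Real.norm_eq_abs, mul_comm]
    simp
  refine h0.trans ?_
  rw [K1.union_eq hQ1, setIntegral_union _ (measurableSet_Ioc.union measurableSet_Ioi) i1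
    (i2.union i3), setIntegral_union _ measurableSet_Ioi i2 i3]
  · have p1 : ∫ u in Ioc 0 (1 / Qm m), |theta m u| * u ^ (s.re - 1) ≤ K1.C0 := by
      have h1 := norm_setIntegral_le_of_norm_le_const_ae' (μ := volume) (s := Ioc 0 (1 / Qm m))
        (f := fun u : ℝ => |theta m u| * u ^ (s.re - 1)) (C := K1.C0 * Qm m) (by simp)
        (by rw [← ae_restrict_iff' measurableSet_Ioc]; exact b1)
      have h2 : volume.real (Ioc 0 (1 / Qm m)) = 1 / Qm m := by
        rw [Real.volume_real_Ioc_of_le (by positivity)]; ring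
      rw [h2] at h1
      refine (le_abs_self _).trans (h1.trans (le_of_eq ?_))
      field_simp
    have p2 : ∫ u in Ioc (1 / Qm m) 1, |theta m u| * u ^ (s.re - 1) ≤
        √((Jf (1 / (3 * N) : ℝ) m).toReal * Real.log (3 * N)) +
          (3 * N : ℝ) ^ (-ρ) * √((Jm m).toReal * Real.log (Qm m)) := by
      have hcut : IntegrableOn (fun u => |theta m u|) (Ioc (1 / (3 * N) : ℝ) 1) := by
        have h1 : ContinuousOn (theta m) (Icc (1 / (3 * N) : ℝ) 1) :=
          (K1.continuousOn_theta hc m).mono fun x hx => lt_of_lt_of_le ha0 hx.1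
        exact (h1.abs.integrableOn_compact isCompact_Icc).mono_set Ioc_subset_Icc_self
      have hind : Integrable (fun u : ℝ => (Ioc (1 / (3 * N) : ℝ) 1).indicator
          (fun u => |theta m u|) u) (volume.restrict (Ioc (1 / Qm m) 1)) :=
        ((integrable_indicator_iff measurableSet_Ioc).2 hcut).restrict
      have e1 : ∫ u in Ioc (1 / Qm m) 1, |theta m u| * u ^ (s.re - 1) ≤
          ∫ u in Ioc (1 / Qm m) 1, ((Ioc (1 / (3 * N) : ℝ) 1).indicator
            (fun u => |theta m u|) u + (3 * N : ℝ) ^ (-ρ) * |theta m u|) := by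
        apply setIntegral_mono_on i2 (hind.add (i2'.const_mul _)) measurableSet_Ioc
        intro u hu
        have hu0 : (0 : ℝ) < u := lt_trans (by positivity : (0:ℝ) < 1 / Qm m) hu.1
        show |theta m u| * u ^ (s.re - 1) ≤ (Ioc (1 / (3 * N) : ℝ) 1).indicator
            (fun u => |theta m u|) u + (3 * N : ℝ) ^ (-ρ) * |theta m u|
        by_cases hua : 1 / (3 * N : ℝ) < u
        · rw [indicator_of_mem (show u ∈ Ioc (1 / (3 * N) : ℝ) 1 from ⟨hua, hu.2⟩)]
          have : 0 ≤ (3 * N : ℝ) ^ (-ρ) * |theta m u| := by positivity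
          have h2 := b2 u hu
          linarith
        · push Not at hua
          rw [indicator_of_notMem (fun h => absurd h.1 (not_lt.2 hua)), zero_add, mul_comm]
          apply mul_le_mul_of_nonneg_right _ (abs_nonneg _)
          calc u ^ (s.re - 1) ≤ u ^ ρ :=
                Real.rpow_le_rpow_of_exponent_ge hu0 hu.2 (by linarith)
            _ ≤ (1 / (3 * N : ℝ)) ^ ρ := Real.rpow_le_rpow hu0.le hua hρ
            _ = (3 * N : ℝ) ^ (-ρ) := by
                rw [Real.rpow_neg hN0.le, one_div, Real.inv_rpow hN0.le]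
      refine e1.trans ?_
      rw [integral_add hind (i2'.const_mul _), integral_const_mul]
      apply add_le_add
      · have e2 : ∫ u in Ioc (1 / Qm m) 1, (Ioc (1 / (3 * N) : ℝ) 1).indicator
            (fun u => |theta m u|) u ≤ ∫ u in Ioc (1 / (3 * N) : ℝ) 1, |theta m u| := by
          rw [← integral_indicator measurableSet_Ioc (s := Ioc (1 / (3 * N) : ℝ) 1)]
          apply setIntegral_le_integral ((integrable_indicator_iff measurableSet_Ioc).2 hcut)
          filter_upwards with u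
          exact indicator_nonneg (fun _ _ => abs_nonneg _) _
        refine e2.trans ((far_middle hc hm hκ hfe ha0 ha1).trans (le_of_eq ?_))
        rw [one_div_one_div]
      · exact mul_le_mul_of_nonneg_left (K1.middle hc hm hκ hfe) (by positivity)
    have p3 : ∫ u in Ioi 1, |theta m u| * u ^ (s.re - 1) ≤ K1.C0 := by
      have h1 := setIntegral_mono_on i3 (i3'.mono_set (Ioi_subset_Ioi zero_le_one))
        measurableSet_Ioi b3
      have h2 : ∫ u in Ioi (1 : ℝ), K1.C0 * (u ^ (4 : ℝ) * Real.exp (-Real.pi * u ^ (1 : ℝ))) ≤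
          ∫ u in Ioi (0 : ℝ), K1.C0 * (u ^ (4 : ℝ) * Real.exp (-Real.pi * u ^ (1 : ℝ))) := by
        refine setIntegral_mono_set i3' ?_ (Ioi_subset_Ioi zero_le_one).eventuallyLE
        filter_upwards [ae_restrict_mem measurableSet_Ioi] with u hu
        have hu0 : (0 : ℝ) < u := hu
        have := K1.C0_nonneg
        simp only [Pi.zero_apply]
        positivity
      have h3 : ∫ u in Ioi (0 : ℝ), K1.C0 * (u ^ (4 : ℝ) * Real.exp (-Real.pi * u ^ (1 : ℝ))) ≤
          K1.C0 := by
        rw [integral_const_mul,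
          _root_.integral_rpow_mul_exp_neg_mul_rpow one_pos (by norm_num) Real.pi_pos]
        have h4 : Real.Gamma ((4 + 1) / 1) = 24 := by
          have := Real.Gamma_nat_eq_factorial 4
          have e : ((4 : ℕ) : ℝ) + 1 = (4 + 1) / 1 := by norm_num
          rw [e] at this
          rw [this]
          norm_num [Nat.factorial]
        have h5 : Real.pi ^ (-(4 + 1) / 1 : ℝ) = 1 / Real.pi ^ 5 := by
          rw [show (-(4 + 1) / 1 : ℝ) = -((5 : ℕ) : ℝ) by norm_num, Real.rpow_neg Real.pi_pos.le,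
            Real.rpow_natCast, one_div]
        rw [h4, h5]
        have h6 : (24 : ℝ) ≤ Real.pi ^ 5 := by
          have := Real.pi_gt_three
          calc (24 : ℝ) ≤ 3 ^ 5 := by norm_num
            _ ≤ Real.pi ^ 5 := by gcongr
        have h7 : 1 / Real.pi ^ 5 * (1 / 1) * 24 ≤ 1 := by
          rw [div_one, mul_one, one_div, inv_mul_le_iff₀ (by positivity), mul_one]
          exact h6
        calc K1.C0 * (1 / Real.pi ^ 5 * (1 / 1) * 24) ≤ K1.C0 * 1 :=
              mul_le_mul_of_nonneg_left h7 K1.C0_nonneg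
          _ = K1.C0 := mul_one _
      linarith
    linarith
  · exact Set.disjoint_left.2 fun x h1 h2 => absurd h1.2 (not_le.2 h2)
  · refine Set.disjoint_left.2 fun x h1 h2 => ?_
    rcases h2 with h2 | h2
    · exact absurd h1.2 (not_le.2 h2.1)
    · exact absurd (h1.2.trans hle) (not_le.2 h2)

lemma sqrt_log {m : ℕ} (hm : 0 < m) :
    √((Jm m).toReal * Real.log (Qm m)) ≤ 2 * √((Jm m).toReal * Real.log (3 * m)) := by
  have hm1 : (1 : ℝ) ≤ m := by exact_mod_cast hm
  have h1 : Real.log (Qm m) ≤ 2 * Real.log (3 * m) := by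
    have h2 := Real.log_le_log (K1.Qm_pos hm) (K1.Qm_le (m := m))
    rwa [Real.log_pow, Nat.cast_ofNat] at h2
  have hJ0 : 0 ≤ (Jm m).toReal := ENNReal.toReal_nonneg
  have h4 : (Jm m).toReal * Real.log (Qm m) ≤ 2 ^ 2 * ((Jm m).toReal * Real.log (3 * m)) := by
    have h5 : 0 ≤ Real.log (3 * m) := Real.log_nonneg (by linarith)
    have h6 : (Jm m).toReal * Real.log (Qm m) ≤ (Jm m).toReal * (2 * Real.log (3 * m)) :=
      mul_le_mul_of_nonneg_left h1 hJ0
    have h7 : 0 ≤ (Jm m).toReal * Real.log (3 * m) := mul_nonneg hJ0 h5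
    linarith
  calc √((Jm m).toReal * Real.log (Qm m)) ≤
        √(2 ^ 2 * ((Jm m).toReal * Real.log (3 * m))) := Real.sqrt_le_sqrt h4
    _ = 2 * √((Jm m).toReal * Real.log (3 * m)) := by
        rw [Real.sqrt_mul (by norm_num), Real.sqrt_sq (by norm_num)]

end V4

theorem pfEnt2 (hc : StCoef) (hd : StDiv) (hfe : StFE) : StEnt2 := by
  have hC0 := K1.C0_nonneg
  refine ⟨2 * K1.C0 + 10, by linarith, fun m hm hsq => ?_⟩
  obtain ⟨κ, hκ, hκfe⟩ := hfe m hsq
  obtain ⟨hΦ1, hΦ2⟩ := K1.Phi_props hc hm hκ hκfe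
  refine ⟨K1.Phi m, hΦ1, ?_, ?_, hΦ2, ?_, ?_⟩
  · intro s hs
    have := (K1.Phi_series hc hd m hs).tsum_eq
    rw [tsum_mul_left] at this
    exact this.symm
  · intro s hs1 hs5
    refine (K1.Phi_bound hc hm hκ hκfe hs1 hs5).trans ?_
    have h3 := V4.sqrt_log hm
    have h8 : 0 ≤ √((Jm m).toReal * Real.log (3 * m)) := Real.sqrt_nonneg _
    nlinarith
  · refine le_trans ?_ (K1.Phi_three hc hd m)
    apply one_div_le_one_div_of_le (by norm_num)
    linarith
  · intro N ρ s hN hρ hs1 hs5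
    refine (V4.Phi_bound2 hc hm hκ hκfe hN hρ hs1 hs5).trans ?_
    have h3 := V4.sqrt_log hm
    set a := √((Jf (1 / (3 * N) : ℝ) m).toReal * Real.log (3 * N)) with ha
    set b := √((Jm m).toReal * Real.log (3 * m)) with hb
    set c := √((Jm m).toReal * Real.log (Qm m)) with hcc
    set e := (3 * N : ℝ) ^ (-ρ) with he
    have h8 : 0 ≤ b := Real.sqrt_nonneg _
    have h9 : 0 ≤ a := Real.sqrt_nonneg _
    have h10 : 0 ≤ e := by positivity
    have h11 : e * c ≤ 2 * (e * b) := by
      calc e * c ≤ e * (2 * b) := mul_le_mul_of_nonneg_left h3 h10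
        _ = _ := by ring
    have h12 : 0 ≤ e * b := mul_nonneg h10 h8
    nlinarith [mul_nonneg hC0 h9, mul_nonneg hC0 h12]

end P004
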