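import Vale.Agent.P004.Iface

/-!
# P004, module K2: a bound for the order of vanishing
-/

open Complex Filter Set
open scoped Topology

namespace P004

/-- division by the zero at `1` -/
lemma K2.ord_factor {Φ : ℂ → ℂ} (hΦ : Differentiable ℂ Φ) {a : ℕ}
    (ha : (a : ℕ∞) ≤ analyticOrderAt Φ 1) :
    ∃ g : ℂ → ℂ, Differentiable ℂ g ∧ ∀ z, Φ z = (z - 1) ^ a * g z := by
  classical
  obtain ⟨g, hg, hgΦ⟩ := (natCast_le_analyticOrderAt (hΦ.analyticAt 1)).1 ha
  refine ⟨fun z => if z = 1 then g 1 else Φ z / (z - 1) ^ a, ?_, ?_⟩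
  · intro z
    by_cases hz : z = 1
    · subst hz
      have h1 : (fun z => if z = 1 then g 1 else Φ z / (z - 1) ^ a) =ᶠ[𝓝 1] g := by
        filter_upwards [hgΦ] with w hw
        by_cases hw1 : w = 1
        · simp [hw1]
        · rw [if_neg hw1, hw, smul_eq_mul, mul_div_cancel_left₀]
          exact pow_ne_zero _ (sub_ne_zero.2 hw1)
      exact hg.differentiableAt.congr_of_eventuallyEq h1
    · have h1 : (fun z => if z = 1 then g 1 else Φ z / (z - 1) ^ a) =ᶠ[𝓝 z]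
          fun z => Φ z / (z - 1) ^ a := by
        filter_upwards [isOpen_ne.mem_nhds hz] with w hw
        rw [if_neg hw]
      refine DifferentiableAt.congr_of_eventuallyEq ?_ h1
      exact (hΦ z).div (by fun_prop) (pow_ne_zero _ (sub_ne_zero.2 hz))
  · intro z
    by_cases hz : z = 1
    · subst hz
      simp only [if_true]
      simpa using hgΦ.self_of_nhds
    · simp only [if_neg hz]
      have : (z - 1) ^ a ≠ 0 := pow_ne_zero _ (sub_ne_zero.2 hz)
      field_simp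

lemma K2.small_disc {Φ : ℂ → ℂ} (hΦ : Differentiable ℂ Φ) {T B ρ : ℝ} {a : ℕ}
    (hB : 1 ≤ B) (hT : 0 ≤ T) (hρ0 : 0 < ρ) (hρ1 : ρ ≤ 1) (hρT : 2 * T * ρ ≤ a / 2)
    (h1 : ∀ s : ℂ, 1 ≤ s.re → s.re ≤ 5 → ‖Φ s‖ ≤ B)
    (h2 : ∀ s : ℂ, 0 ≤ s.re → s.re ≤ 1 → ‖Φ s‖ ≤ B * Real.exp (2 * T * (1 - s.re)))
    (ha : (a : ℕ∞) ≤ analyticOrderAt Φ 1) (s : ℂ) (hs : ‖s - 1‖ ≤ ρ / Real.exp 2) :
    ‖Φ s‖ ≤ B * Real.exp (-(3 / 2) * a) := by
  obtain ⟨g, hg, hgΦ⟩ := K2.ord_factor hΦ ha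
  have hb : ∀ z : ℂ, ‖z - 1‖ ≤ ρ → ‖Φ z‖ ≤ B * Real.exp (a / 2) := by
    intro z hz
    have hre : |(z - 1).re| ≤ ρ := (Complex.abs_re_le_norm _).trans hz
    rw [Complex.sub_re, Complex.one_re, abs_le] at hre
    by_cases hz1 : 1 ≤ z.re
    · refine (h1 z hz1 (by linarith [hre.2])).trans ?_
      have : 1 ≤ Real.exp ((a : ℝ) / 2) := Real.one_le_exp (by positivity)
      nlinarith
    · push Not at hz1
      refine (h2 z (by linarith [hre.1]) hz1.le).trans ?_
      gcongr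
      have h3 : 2 * T * (1 - z.re) ≤ 2 * T * ρ := by
        apply mul_le_mul_of_nonneg_left _ (by positivity)
        linarith [hre.1]
      linarith
  have hgb : ∀ z ∈ frontier (Metric.ball (1 : ℂ) ρ), ‖g z‖ ≤ B * Real.exp (a / 2) / ρ ^ a := by
    intro z hz
    rw [frontier_ball _ hρ0.ne', mem_sphere_iff_norm] at hz
    rw [le_div_iff₀ (by positivity)]
    have h3 := hb z hz.le
    rw [hgΦ, norm_mul, norm_pow, hz] at h3
    linarith
  have hcl : s ∈ closure (Metric.ball (1 : ℂ) ρ) := by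
    rw [closure_ball _ hρ0.ne', mem_closedBall_iff_norm]
    refine hs.trans ?_
    apply div_le_self hρ0.le
    exact Real.one_le_exp (by norm_num)
  have hgs := Complex.norm_le_of_forall_mem_frontier_norm_le Metric.isBounded_ball
    hg.diffContOnCl hgb hcl
  rw [hgΦ, norm_mul, norm_pow]
  calc ‖s - 1‖ ^ a * ‖g s‖ ≤ (ρ / Real.exp 2) ^ a * (B * Real.exp (a / 2) / ρ ^ a) := by
        gcongr
    _ = B * (Real.exp (a / 2) / Real.exp 2 ^ a) := by
        rw [div_pow]
        field_simp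
    _ = B * Real.exp (-(3 / 2) * a) := by
        rw [← Real.exp_nat_mul, ← Real.exp_sub]
        congr 2
        ring

/-- the auxiliary function -/
noncomputable def K2.hf (r : ℝ) (s : ℂ) : ℂ := r / (s - 1 + r) - (r / 2) / (s - 1 + 4 * r)

lemma K2.re_div (x y c : ℝ) : ((c : ℂ) / (x + y * I)).re = c * x / (x ^ 2 + y ^ 2) := by
  rw [Complex.div_re]
  simp [Complex.normSq_apply]
  ring_nf

lemma K2.hf_re (r : ℝ) (s : ℂ) : (K2.hf r s).re =
    r * (s.re - 1 + r) / ((s.re - 1 + r) ^ 2 + s.im ^ 2) -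
      (r / 2) * (s.re - 1 + 4 * r) / ((s.re - 1 + 4 * r) ^ 2 + s.im ^ 2) := by
  unfold K2.hf
  have e1 : s - 1 + (r : ℂ) = ((s.re - 1 + r : ℝ) : ℂ) + (s.im : ℝ) * I := by
    apply Complex.ext <;> simp
  have e2 : s - 1 + 4 * (r : ℂ) = ((s.re - 1 + 4 * r : ℝ) : ℂ) + (s.im : ℝ) * I := by
    apply Complex.ext <;> simp
  rw [e1, e2, Complex.sub_re, K2.re_div]
  have e3 : ((r : ℂ) / 2) = ((r / 2 : ℝ) : ℂ) := by push_cast; ring
  rw [e3, K2.re_div]

lemma K2.right_bound {r y : ℝ} (hr0 : 0 < r) (hr1 : r ≤ 1 / 28) :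
    r * (5 - 1 + r) / ((5 - 1 + r) ^ 2 + y ^ 2) -
      (r / 2) * (5 - 1 + 4 * r) / ((5 - 1 + 4 * r) ^ 2 + y ^ 2) ≤ 7 / 50 * r := by
  have hy : 0 ≤ y ^ 2 := sq_nonneg y
  have hD : 0 < 16 + y ^ 2 := by linarith
  have e1 : r * (5 - 1 + r) / ((5 - 1 + r) ^ 2 + y ^ 2) ≤ r * (4 + 1 / 28) / (16 + y ^ 2) := by
    apply div_le_div₀ (by positivity) _ hD
    · nlinarith
    · apply mul_le_mul_of_nonneg_left _ hr0.le
      linarith
  have e2 : r * (56 / 29) / (16 + y ^ 2) ≤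
      (r / 2) * (5 - 1 + 4 * r) / ((5 - 1 + 4 * r) ^ 2 + y ^ 2) := by
    have e3 : (r / 2) * (5 - 1 + 4 * r) / ((1 + r) ^ 2 * (16 + y ^ 2)) ≤
        (r / 2) * (5 - 1 + 4 * r) / ((5 - 1 + 4 * r) ^ 2 + y ^ 2) := by
      apply div_le_div_of_nonneg_left (by positivity) (by positivity)
      have : (1 : ℝ) ≤ (1 + r) ^ 2 := by nlinarith
      have h5 : y ^ 2 ≤ (1 + r) ^ 2 * y ^ 2 := le_mul_of_one_le_left hy this
      linarith
    refine le_trans ?_ e3
    have e4 : (r / 2) * (5 - 1 + 4 * r) / ((1 + r) ^ 2 * (16 + y ^ 2)) =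
        r * (2 / (1 + r)) / (16 + y ^ 2) := by
      field_simp
      ring
    rw [e4]
    apply div_le_div_of_nonneg_right _ hD.le
    apply mul_le_mul_of_nonneg_left _ hr0.le
    rw [le_div_iff₀ (by linarith)]
    linarith
  have e3 : r * (4 + 1 / 28) / (16 + y ^ 2) - r * (56 / 29) / (16 + y ^ 2) ≤ 7 / 50 * r := by
    rw [← sub_div, div_le_iff₀ hD]
    have : 0 ≤ r * y ^ 2 := by positivity
    linarith
  linarith

lemma K2.left_bound {r y : ℝ} (hr0 : 0 < r) (hy : 14 * r ^ 2 ≤ y ^ 2) :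
    r * (1 - 1 + r) / ((1 - 1 + r) ^ 2 + y ^ 2) -
      (r / 2) * (1 - 1 + 4 * r) / ((1 - 1 + 4 * r) ^ 2 + y ^ 2) ≤ 0 := by
  have hp1 : 0 < (1 - 1 + r) ^ 2 + y ^ 2 := by positivity
  have hp2 : 0 < (1 - 1 + 4 * r) ^ 2 + y ^ 2 := by positivity
  rw [sub_nonpos, div_le_div_iff₀ hp1 hp2]
  have : 0 ≤ r ^ 2 * (y ^ 2 - 14 * r ^ 2) := by
    apply mul_nonneg (by positivity); linarith
  linarith

lemma K2.left_bound' {r y : ℝ} (hr0 : 0 < r) :
    r * (1 - 1 + r) / ((1 - 1 + r) ^ 2 + y ^ 2) -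
      (r / 2) * (1 - 1 + 4 * r) / ((1 - 1 + 4 * r) ^ 2 + y ^ 2) ≤ 1 := by
  have hp1 : 0 < (1 - 1 + r) ^ 2 + y ^ 2 := by positivity
  have e1 : r * (1 - 1 + r) / ((1 - 1 + r) ^ 2 + y ^ 2) ≤ 1 := by
    rw [div_le_one hp1]
    have := sq_nonneg y
    linarith
  have e2 : 0 ≤ (r / 2) * (1 - 1 + 4 * r) / ((1 - 1 + 4 * r) ^ 2 + y ^ 2) := by
    have : 0 ≤ (r / 2) * (1 - 1 + 4 * r) := by
      apply mul_nonneg <;> linarith
    positivity
  linarith

lemma K2.mid_bound {r : ℝ} (hr0 : 0 < r) (hr1 : r ≤ 1 / 28) :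
    6 / 25 * r ≤ r * (3 - 1 + r) / ((3 - 1 + r) ^ 2 + 0 ^ 2) -
      (r / 2) * (3 - 1 + 4 * r) / ((3 - 1 + 4 * r) ^ 2 + 0 ^ 2) := by
  have e1 : r * (3 - 1 + r) / ((3 - 1 + r) ^ 2 + 0 ^ 2) = r * (1 / (2 + r)) := by
    have : (3 - 1 + r) ≠ 0 := by linarith
    field_simp
    ring
  have e2 : (r / 2) * (3 - 1 + 4 * r) / ((3 - 1 + 4 * r) ^ 2 + 0 ^ 2) = r * (1 / (4 + 8 * r)) := by
    have : (3 - 1 + 4 * r) ≠ 0 := by linarith
    field_simp
    ring
  rw [e1, e2, ← mul_sub, mul_comm]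
  apply mul_le_mul_of_nonneg_left _ hr0.le
  have e3 : 28 / 57 ≤ 1 / (2 + r) := by
    rw [le_div_iff₀ (by linarith)]
    linarith
  have e4 : 1 / (4 + 8 * r) ≤ 1 / 4 := by
    apply one_div_le_one_div_of_le (by norm_num)
    linarith
  linarith

theorem pfOrd : StOrd := by
  refine ⟨40000, by norm_num, ?_⟩
  intro Φ T B c₀ a hΦ hT hc0 hc1 hB h1 h2 h3 ha
  set L := Real.log (B / c₀) with hL
  have hBc : 1 ≤ B / c₀ := by
    rw [le_div_iff₀ hc0]; linarith
  have hL0 : 0 ≤ L := Real.log_nonneg hBc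
  rcases Nat.eq_zero_or_pos a with rfl | hapos
  · have : (0 : ℝ) ≤ 40000 * (T + L + 1) * (L + 1) := by positivity
    simpa using this
  have ha1 : (1 : ℝ) ≤ a := by exact_mod_cast hapos
  have ha0 : (0 : ℝ) < a := by linarith
  set ρ : ℝ := min 1 (a / (4 * T)) with hρ
  have hρ0 : 0 < ρ := lt_min one_pos (by positivity)
  have hρ1 : ρ ≤ 1 := min_le_left _ _
  have hρT : 2 * T * ρ ≤ a / 2 := by
    have h4 : ρ ≤ a / (4 * T) := min_le_right _ _
    calc 2 * T * ρ ≤ 2 * T * (a / (4 * T)) := by gcongr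
      _ = a / 2 := by field_simp; ring
  have hsmall := K2.small_disc hΦ hB (by linarith) hρ0 hρ1 hρT h1 h2 ha
  -- the auxiliary function
  set r : ℝ := ρ / 28 with hr
  have hr0 : 0 < r := by positivity
  have hr1 : r ≤ 1 / 28 := by rw [hr]; linarith
  set G : ℂ → ℂ := fun s => Φ s * Complex.exp ((3 / 2 * a : ℝ) * K2.hf r s) with hG
  have hGn : ∀ s, ‖G s‖ = ‖Φ s‖ * Real.exp (3 / 2 * a * (K2.hf r s).re) := by
    intro s
    rw [hG]
    simp only
    rw [norm_mul, Complex.norm_exp, Complex.re_ofReal_mul]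
  have hGd : ∀ s : ℂ, 1 ≤ s.re → DifferentiableAt ℂ G s := by
    intro s hs
    have e1 : s - 1 + (r : ℂ) ≠ 0 := by
      intro h
      have := congrArg Complex.re h
      simp at this
      linarith
    have e2 : s - 1 + 4 * (r : ℂ) ≠ 0 := by
      intro h
      have := congrArg Complex.re h
      simp at this
      linarith
    refine (hΦ s).mul (DifferentiableAt.cexp (DifferentiableAt.const_mul ?_ _))
    unfold K2.hf
    have d1 : DifferentiableAt ℂ (fun s : ℂ => s - 1 + (r : ℂ)) s := by fun_prop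
    have d2 : DifferentiableAt ℂ (fun s : ℂ => s - 1 + 4 * (r : ℂ)) s := by fun_prop
    exact ((differentiableAt_const _).fun_div d1 e1).fun_sub
      ((differentiableAt_const _).fun_div d2 e2)
  set M : ℝ := B * Real.exp (3 / 2 * a * (7 / 50 * r)) with hM
  have hBM : B ≤ M := by
    have : 1 ≤ Real.exp (3 / 2 * a * (7 / 50 * r)) := Real.one_le_exp (by positivity)
    rw [hM]
    nlinarith
  -- left boundary
  have hleft : ∀ s : ℂ, s.re = 1 → ‖G s‖ ≤ M := by
    intro s hs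
    refine le_trans ?_ hBM
    rw [hGn]
    by_cases hy : 14 * r ^ 2 ≤ s.im ^ 2
    · have h4 : (K2.hf r s).re ≤ 0 := by
        rw [K2.hf_re, hs]
        exact K2.left_bound hr0 hy
      have h5 : Real.exp (3 / 2 * a * (K2.hf r s).re) ≤ 1 := by
        rw [Real.exp_le_one_iff]
        exact mul_nonpos_of_nonneg_of_nonpos (by positivity) h4
      have h6 := h1 s hs.ge (by linarith)
      calc ‖Φ s‖ * Real.exp (3 / 2 * a * (K2.hf r s).re) ≤ B * 1 :=
            mul_le_mul h6 h5 (Real.exp_pos _).le (by linarith)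
        _ = B := mul_one B
    · push Not at hy
      have h4 : (K2.hf r s).re ≤ 1 := by
        rw [K2.hf_re, hs]
        exact K2.left_bound' hr0
      have h5 : ‖s - 1‖ ≤ ρ / Real.exp 2 := by
        have e1 : s - 1 = (s.im : ℂ) * I := by
          apply Complex.ext <;> simp [hs]
        rw [e1, norm_mul, Complex.norm_I, mul_one, Complex.norm_real, Real.norm_eq_abs]
        have e2 : Real.exp 2 < 7.4 := by
          have h7 := Real.exp_one_lt_d9
          have h8 : Real.exp 2 = Real.exp 1 ^ 2 := by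
            rw [← Real.exp_nat_mul]; norm_num
          rw [h8]
          have h9 := Real.exp_pos 1
          nlinarith
        rw [le_div_iff₀ (Real.exp_pos 2)]
        have e3 : |s.im| ≤ 3.75 * r := by
          apply abs_le_of_sq_le_sq _ (by positivity)
          have : 0 ≤ r ^ 2 := sq_nonneg r
          linarith
        calc |s.im| * Real.exp 2 ≤ (3.75 * r) * 7.4 := by gcongr
          _ ≤ ρ := by rw [hr]; linarith
      have h6 := hsmall s h5
      calc ‖Φ s‖ * Real.exp (3 / 2 * a * (K2.hf r s).re) ≤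
            (B * Real.exp (-(3 / 2) * a)) * Real.exp (3 / 2 * a * 1) := by
              gcongr
        _ = B := by
            rw [mul_assoc, ← Real.exp_add]
            have : -(3 / 2) * (a : ℝ) + 3 / 2 * a * 1 = 0 := by ring
            rw [this, Real.exp_zero, mul_one]
  -- right boundary
  have hright : ∀ s : ℂ, s.re = 5 → ‖G s‖ ≤ M := by
    intro s hs
    rw [hGn]
    have h4 : (K2.hf r s).re ≤ 7 / 50 * r := by
      rw [K2.hf_re, hs]
      exact K2.right_bound hr0 hr1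
    have h5 := h1 s (by linarith) hs.le
    rw [hM]
    gcongr
  -- the strip
  have hclos : closure (re ⁻¹' Ioo (1 : ℝ) 5) ⊆ {s : ℂ | 1 ≤ s.re ∧ s.re ≤ 5} := by
    apply closure_minimal
    · intro s hs
      exact ⟨hs.1.le, hs.2.le⟩
    · exact (isClosed_le continuous_const Complex.continuous_re).inter
        (isClosed_le Complex.continuous_re continuous_const)
  have hfd : DiffContOnCl ℂ G (re ⁻¹' Ioo (1 : ℝ) 5) := by
    apply DifferentiableOn.diffContOnCl
    intro s hs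
    exact (hGd s (hclos hs).1).differentiableWithinAt
  have hgrow : ∀ s : ℂ, 1 ≤ s.re → s.re ≤ 5 → ‖G s‖ ≤ B * Real.exp (3 / 2 * a) := by
    intro s hs1 hs5
    rw [hGn]
    have h4 : (K2.hf r s).re ≤ 1 := by
      rw [K2.hf_re]
      have hx : 0 < s.re - 1 + r := by linarith
      have hx2 : 0 < s.re - 1 + 4 * r := by linarith
      have e1 : r * (s.re - 1 + r) / ((s.re - 1 + r) ^ 2 + s.im ^ 2) ≤ 1 := by
        rw [div_le_one (by positivity)]
        have : r * (s.re - 1 + r) ≤ (s.re - 1 + r) * (s.re - 1 + r) :=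
          mul_le_mul_of_nonneg_right (by linarith) hx.le
        have := sq_nonneg s.im
        linarith
      have e2 : 0 ≤ (r / 2) * (s.re - 1 + 4 * r) / ((s.re - 1 + 4 * r) ^ 2 + s.im ^ 2) := by
        positivity
      linarith
    have h5 := h1 s hs1 hs5
    have h6 : 3 / 2 * (a : ℝ) * (K2.hf r s).re ≤ 3 / 2 * a := by
      calc 3 / 2 * (a : ℝ) * (K2.hf r s).re ≤ 3 / 2 * (a : ℝ) * 1 := by gcongr
        _ = _ := by ring
    gcongr
  have hO : ∃ c < Real.pi / (5 - 1), ∃ B', G =O[comap (_root_.abs ∘ im) atTop ⊓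
      𝓟 (re ⁻¹' Ioo (1 : ℝ) 5)] fun z ↦ Real.exp (B' * Real.exp (c * |z.im|)) := by
    refine ⟨0, by positivity, 0, ?_⟩
    apply Asymptotics.IsBigO.of_bound (B * Real.exp (3 / 2 * a))
    rw [eventually_inf_principal]
    filter_upwards with s hs
    rw [zero_mul, Real.exp_zero, norm_one, mul_one]
    exact hgrow s hs.1.le hs.2.le
  have hfin : ‖G 3‖ ≤ M := by
    apply PhragmenLindelof.vertical_strip hfd hO hleft hright <;> norm_num
  rw [hGn] at hfin
  have hmid : 6 / 25 * r ≤ (K2.hf r 3).re := by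
    rw [K2.hf_re]
    have := K2.mid_bound hr0 hr1
    simpa using this
  have hfin2 : c₀ * Real.exp (3 / 2 * a * (6 / 25 * r)) ≤ M := by
    refine le_trans ?_ hfin
    gcongr
  have hfin3 : 3 / 2 * a * (1 / 10 * r) ≤ L := by
    rw [hM] at hfin2
    have h4 : Real.exp (3 / 2 * a * (1 / 10 * r)) ≤ B / c₀ := by
      rw [le_div_iff₀ hc0]
      have e1 : Real.exp (3 / 2 * a * (6 / 25 * r)) =
          Real.exp (3 / 2 * a * (1 / 10 * r)) * Real.exp (3 / 2 * a * (7 / 50 * r)) := by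
        rw [← Real.exp_add]
        congr 1
        ring
      rw [e1, ← mul_assoc] at hfin2
      have := le_of_mul_le_mul_right hfin2 (Real.exp_pos _)
      linarith
    have h5 := Real.log_le_log (Real.exp_pos _) h4
    rwa [Real.log_exp] at h5
  have hfin4 : a * ρ ≤ 200 * L := by
    have e1 : 3 / 2 * (a : ℝ) * (1 / 10 * r) = a * ρ * (3 / 560) := by
      rw [hr]; ring
    rw [e1] at hfin3
    linarith
  rcases min_choice 1 ((a : ℝ) / (4 * T)) with h | h
  · rw [← hρ] at h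
    rw [h, mul_one] at hfin4
    calc (a : ℝ) ^ 2 ≤ (200 * L) ^ 2 := by gcongr
      _ = 40000 * L * L := by ring
      _ ≤ 40000 * (T + L + 1) * (L + 1) := by
          gcongr <;> linarith
  · rw [← hρ] at h
    have e1 : (a : ℝ) ^ 2 = 4 * T * (a * ρ) := by
      rw [h]
      field_simp
    rw [e1]
    calc 4 * T * (a * ρ) ≤ 4 * T * (200 * L) := by gcongr
      _ = 800 * T * L := by ring
      _ ≤ 40000 * (T + L + 1) * (L + 1) := by
          gcongr <;> linarith

end P004
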