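import Vale.Agent.P004.Iface2
import Vale.Agent.P004.K2

/-!
# P004, module V5: the order of vanishing with a good bound only to the right of the centre
-/

open Complex Filter Set
open scoped Topology

namespace P004

lemma V5.right_bound {r y w : ℝ} (hr0 : 0 < r) (hr1 : r ≤ 1 / 56) (hw : 79 / 20 ≤ w) :
    r * (w + r) / ((w + r) ^ 2 + y ^ 2) -
      (r / 2) * (w + 4 * r) / ((w + 4 * r) ^ 2 + y ^ 2) ≤ 7 / 50 * r := by
  have hy : 0 ≤ y ^ 2 := sq_nonneg y
  have hw0 : 0 < w := by linarith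
  have hD : 0 < w ^ 2 + y ^ 2 := by positivity
  have e1 : r * (w + r) / ((w + r) ^ 2 + y ^ 2) ≤ r * (w * (1 + 1 / 200)) / (w ^ 2 + y ^ 2) := by
    apply div_le_div₀ (by positivity) _ hD
    · nlinarith
    · apply mul_le_mul_of_nonneg_left _ hr0.le
      nlinarith
  have e2 : r * (w * (12 / 25)) / (w ^ 2 + y ^ 2) ≤
      (r / 2) * (w + 4 * r) / ((w + 4 * r) ^ 2 + y ^ 2) := by
    rw [div_le_div_iff₀ hD (by positivity)]
    have e3 : (w + 4 * r) ^ 2 + y ^ 2 ≤ (1 + 1 / 50) ^ 2 * (w ^ 2 + y ^ 2) := by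
      have h1 : w + 4 * r ≤ (1 + 1 / 50) * w := by nlinarith
      have h2 : (w + 4 * r) ^ 2 ≤ ((1 + 1 / 50) * w) ^ 2 := by
        apply pow_le_pow_left₀ (by positivity) h1
      nlinarith
    have e4 : r * (w * (12 / 25)) * ((w + 4 * r) ^ 2 + y ^ 2) ≤
        r * (w * (12 / 25)) * ((1 + 1 / 50) ^ 2 * (w ^ 2 + y ^ 2)) := by
      apply mul_le_mul_of_nonneg_left e3 (by positivity)
    refine e4.trans ?_
    have e5 : r * (w * (12 / 25)) * (1 + 1 / 50) ^ 2 ≤ (r / 2) * (w + 4 * r) := by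
      have : 0 ≤ r * w := by positivity
      nlinarith
    calc r * (w * (12 / 25)) * ((1 + 1 / 50) ^ 2 * (w ^ 2 + y ^ 2)) =
        (r * (w * (12 / 25)) * (1 + 1 / 50) ^ 2) * (w ^ 2 + y ^ 2) := by ring
      _ ≤ _ := mul_le_mul_of_nonneg_right e5 hD.le
  have e3 : r * (w * (1 + 1 / 200)) / (w ^ 2 + y ^ 2) - r * (w * (12 / 25)) / (w ^ 2 + y ^ 2) ≤
      7 / 50 * r := by
    rw [← sub_div, div_le_iff₀ hD]
    have h1 : 0 ≤ r * y ^ 2 := by positivity
    have h2 : r * (w * (1 + 1 / 200)) - r * (w * (12 / 25)) = r * w * (21 / 40) := by ring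
    rw [h2]
    have h3 : r * w * (21 / 40) ≤ 7 / 50 * r * w ^ 2 := by
      have : w * (21 / 40) ≤ 7 / 50 * w ^ 2 := by nlinarith
      nlinarith
    nlinarith
  linarith

lemma V5.mid_bound {r x : ℝ} (hr0 : 0 < r) (hr1 : r ≤ 1 / 56) (hx : 39 / 20 ≤ x) (hx2 : x ≤ 2) :
    23 / 100 * r ≤ r * (x + r) / ((x + r) ^ 2 + 0 ^ 2) -
      (r / 2) * (x + 4 * r) / ((x + 4 * r) ^ 2 + 0 ^ 2) := by
  have e1 : r * (x + r) / ((x + r) ^ 2 + 0 ^ 2) = r * (1 / (x + r)) := by
    have : (x + r) ≠ 0 := by linarith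
    field_simp
    ring
  have e2 : (r / 2) * (x + 4 * r) / ((x + 4 * r) ^ 2 + 0 ^ 2) = r * (1 / (2 * (x + 4 * r))) := by
    have : (x + 4 * r) ≠ 0 := by linarith
    field_simp
    ring
  rw [e1, e2, ← mul_sub, mul_comm]
  apply mul_le_mul_of_nonneg_left _ hr0.le
  have e3 : 56 / 113 ≤ 1 / (x + r) := by
    rw [le_div_iff₀ (by linarith)]
    linarith
  have e4 : 1 / (2 * (x + 4 * r)) ≤ 10 / 39 := by
    rw [div_le_iff₀ (by linarith)]
    linarith
  linarith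

/-- the analytic core -/
theorem V5.core {Φ : ℂ → ℂ} {T B P ρ₀ c₀ ρ : ℝ} {a : ℕ} (hΦ : Differentiable ℂ Φ)
    (hT : 1 ≤ T) (hc0 : 0 < c₀) (hc1 : c₀ ≤ 1) (hB : 1 ≤ B) (hP : 1 ≤ P) (hρ00 : 0 ≤ ρ₀)
    (hρ01 : ρ₀ ≤ 1 / 20) (hρ0 : 0 < ρ) (hρ1 : ρ ≤ 1) (hρT : 2 * T * ρ ≤ a / 2)
    (hρρ : ρ₀ ≤ ρ / 20) (hBa : Real.log B ≤ a / 2)
    (hPb : ∀ s : ℂ, 1 + ρ₀ ≤ s.re → s.re ≤ 5 → ‖Φ s‖ ≤ P)
    (h1 : ∀ s : ℂ, 1 ≤ s.re → s.re ≤ 5 → ‖Φ s‖ ≤ B)
    (h2 : ∀ s : ℂ, 0 ≤ s.re → s.re ≤ 1 → ‖Φ s‖ ≤ B * Real.exp (2 * T * (1 - s.re)))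
    (h3 : c₀ ≤ ‖Φ 3‖) (ha : (a : ℕ∞) ≤ analyticOrderAt Φ 1) :
    a * ρ ≤ 625 * Real.log (P / c₀) := by
  have hsmall := K2.small_disc hΦ hB (by linarith) hρ0 hρ1 hρT h1 h2 ha
  set r : ℝ := ρ / 56 with hr
  have hr0 : 0 < r := by positivity
  have hr1 : r ≤ 1 / 56 := by rw [hr]; linarith
  have hacast : (0 : ℝ) ≤ a := Nat.cast_nonneg a
  set Ψ : ℂ → ℂ := fun s => Φ (s + ρ₀) with hΨ
  have hΨd : Differentiable ℂ Ψ := by
    intro s
    exact (hΦ (s + ρ₀)).comp s (by fun_prop)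
  set G : ℂ → ℂ := fun s => Ψ s * Complex.exp ((a : ℝ) * K2.hf r s) with hG
  have hGn : ∀ s, ‖G s‖ = ‖Ψ s‖ * Real.exp (a * (K2.hf r s).re) := by
    intro s
    rw [hG]
    simp only
    rw [norm_mul, Complex.norm_exp, Complex.re_ofReal_mul]
  have hGd : ∀ s : ℂ, 1 ≤ s.re → DifferentiableAt ℂ G s := by
    intro s hs
    have e1 : s - 1 + (r : ℂ) ≠ 0 := by
      intro h
      have := congrArg Complex.re h
      simp at this
      linarith
    have e2 : s - 1 + 4 * (r : ℂ) ≠ 0 := by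
      intro h
      have := congrArg Complex.re h
      simp at this
      linarith
    refine (hΨd s).mul (DifferentiableAt.cexp (DifferentiableAt.const_mul ?_ _))
    unfold K2.hf
    have d1 : DifferentiableAt ℂ (fun s : ℂ => s - 1 + (r : ℂ)) s := by fun_prop
    have d2 : DifferentiableAt ℂ (fun s : ℂ => s - 1 + 4 * (r : ℂ)) s := by fun_prop
    exact ((differentiableAt_const _).fun_div d1 e1).fun_sub
      ((differentiableAt_const _).fun_div d2 e2)
  set M : ℝ := P * Real.exp (a * (7 / 50 * r)) with hM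
  have hPM : P ≤ M := by
    have : 1 ≤ Real.exp (a * (7 / 50 * r)) := Real.one_le_exp (by positivity)
    rw [hM]
    nlinarith
  have hshre : ∀ s : ℂ, (s + (ρ₀ : ℂ)).re = s.re + ρ₀ := by intro s; simp
  -- left boundary
  have hleft : ∀ s : ℂ, s.re = 1 → ‖G s‖ ≤ M := by
    intro s hs
    refine le_trans ?_ hPM
    rw [hGn]
    have h6 : ‖Ψ s‖ ≤ P := hPb _ (by rw [hshre, hs]) (by rw [hshre, hs]; linarith)
    by_cases hy : 14 * r ^ 2 ≤ s.im ^ 2
    · have h4 : (K2.hf r s).re ≤ 0 := by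
        rw [K2.hf_re, hs]
        exact K2.left_bound hr0 hy
      have h5 : Real.exp (a * (K2.hf r s).re) ≤ 1 := by
        rw [Real.exp_le_one_iff]
        exact mul_nonpos_of_nonneg_of_nonpos (by positivity) h4
      calc ‖Ψ s‖ * Real.exp (a * (K2.hf r s).re) ≤ P * 1 :=
            mul_le_mul h6 h5 (Real.exp_pos _).le (by linarith)
        _ = P := mul_one P
    · push Not at hy
      have h4 : (K2.hf r s).re ≤ 1 := by
        rw [K2.hf_re, hs]
        exact K2.left_bound' hr0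
      have h5 : ‖s + (ρ₀ : ℂ) - 1‖ ≤ ρ / Real.exp 2 := by
        have e1 : s + (ρ₀ : ℂ) - 1 = (ρ₀ : ℂ) + (s.im : ℂ) * I := by
          apply Complex.ext <;> simp [hs]
        rw [e1]
        refine (norm_add_le _ _).trans ?_
        rw [norm_mul, Complex.norm_I, mul_one, Complex.norm_real, Complex.norm_real,
          Real.norm_eq_abs, Real.norm_eq_abs, abs_of_nonneg hρ00]
        have e2 : Real.exp 2 < 7.4 := by
          have h7 := Real.exp_one_lt_d9
          have h8 : Real.exp 2 = Real.exp 1 ^ 2 := by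
            rw [← Real.exp_nat_mul]; norm_num
          rw [h8]
          have h9 := Real.exp_pos 1
          nlinarith
        rw [le_div_iff₀ (Real.exp_pos 2)]
        have e3 : |s.im| ≤ 3.75 * r := by
          apply abs_le_of_sq_le_sq _ (by positivity)
          have : 0 ≤ r ^ 2 := sq_nonneg r
          linarith
        calc (ρ₀ + |s.im|) * Real.exp 2 ≤ (ρ / 20 + 3.75 * r) * 7.4 := by gcongr
          _ ≤ ρ := by rw [hr]; linarith
      have h7 := hsmall (s + ρ₀) h5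
      have h8 : B = Real.exp (Real.log B) := (Real.exp_log (by linarith)).symm
      calc ‖Ψ s‖ * Real.exp (a * (K2.hf r s).re) ≤
            (B * Real.exp (-(3 / 2) * a)) * Real.exp (a * 1) := by
              gcongr
        _ = Real.exp (Real.log B + -(3 / 2) * a + a * 1) := by
            rw [Real.exp_add, Real.exp_add, ← h8]
        _ ≤ 1 := by
            rw [Real.exp_le_one_iff]
            linarith
        _ ≤ P := hP
  -- right boundary
  have hright : ∀ s : ℂ, s.re = 5 - ρ₀ → ‖G s‖ ≤ M := by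
    intro s hs
    rw [hGn]
    have h4 : (K2.hf r s).re ≤ 7 / 50 * r := by
      rw [K2.hf_re]
      have := V5.right_bound (y := s.im) (w := s.re - 1) hr0 hr1 (by rw [hs]; linarith)
      exact this
    have h5 : ‖Ψ s‖ ≤ P := hPb _ (by rw [hshre, hs]; linarith) (by rw [hshre, hs]; linarith)
    rw [hM]
    gcongr
  -- the strip
  have hlt : (1 : ℝ) < 5 - ρ₀ := by linarith
  have hclos : closure (re ⁻¹' Ioo (1 : ℝ) (5 - ρ₀)) ⊆ {s : ℂ | 1 ≤ s.re ∧ s.re ≤ 5 - ρ₀} := by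
    apply closure_minimal
    · intro s hs
      exact ⟨hs.1.le, hs.2.le⟩
    · exact (isClosed_le continuous_const Complex.continuous_re).inter
        (isClosed_le Complex.continuous_re continuous_const)
  have hfd : DiffContOnCl ℂ G (re ⁻¹' Ioo (1 : ℝ) (5 - ρ₀)) := by
    apply DifferentiableOn.diffContOnCl
    intro s hs
    exact (hGd s (hclos hs).1).differentiableWithinAt
  have hgrow : ∀ s : ℂ, 1 ≤ s.re → s.re ≤ 5 - ρ₀ → ‖G s‖ ≤ P * Real.exp a := by
    intro s hs1 hs5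
    rw [hGn]
    have h4 : (K2.hf r s).re ≤ 1 := by
      rw [K2.hf_re]
      have hx : 0 < s.re - 1 + r := by linarith
      have hx2 : 0 < s.re - 1 + 4 * r := by linarith
      have e1 : r * (s.re - 1 + r) / ((s.re - 1 + r) ^ 2 + s.im ^ 2) ≤ 1 := by
        rw [div_le_one (by positivity)]
        have : r * (s.re - 1 + r) ≤ (s.re - 1 + r) * (s.re - 1 + r) :=
          mul_le_mul_of_nonneg_right (by linarith) hx.le
        have := sq_nonneg s.im
        linarith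
      have e2 : 0 ≤ (r / 2) * (s.re - 1 + 4 * r) / ((s.re - 1 + 4 * r) ^ 2 + s.im ^ 2) := by
        positivity
      linarith
    have h5 : ‖Ψ s‖ ≤ P := hPb _ (by rw [hshre]; linarith) (by rw [hshre]; linarith)
    have h6 : (a : ℝ) * (K2.hf r s).re ≤ a := by
      calc (a : ℝ) * (K2.hf r s).re ≤ (a : ℝ) * 1 := by gcongr
        _ = _ := by ring
    gcongr
  have hO : ∃ c < Real.pi / (5 - ρ₀ - 1), ∃ B', G =O[comap (_root_.abs ∘ im) atTop ⊓
      𝓟 (re ⁻¹' Ioo (1 : ℝ) (5 - ρ₀))] fun z ↦ Real.exp (B' * Real.exp (c * |z.im|)) := by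
    refine ⟨0, div_pos Real.pi_pos (by linarith), 0, ?_⟩
    apply Asymptotics.IsBigO.of_bound (P * Real.exp a)
    rw [eventually_inf_principal]
    filter_upwards with s hs
    rw [zero_mul, Real.exp_zero, norm_one, mul_one]
    exact hgrow s hs.1.le hs.2.le
  have hp : ((3 - ρ₀ : ℝ) : ℂ).re = 3 - ρ₀ := Complex.ofReal_re _
  have hfin : ‖G ((3 - ρ₀ : ℝ) : ℂ)‖ ≤ M := by
    apply PhragmenLindelof.vertical_strip hfd hO hleft hright
    · rw [hp]; linarith
    · rw [hp]; linarith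
  rw [hGn] at hfin
  have hmid : 23 / 100 * r ≤ (K2.hf r ((3 - ρ₀ : ℝ) : ℂ)).re := by
    rw [K2.hf_re, hp, Complex.ofReal_im]
    have := V5.mid_bound (x := 3 - ρ₀ - 1) hr0 hr1 (by linarith) (by linarith)
    exact this
  have hΨ3 : c₀ ≤ ‖Ψ ((3 - ρ₀ : ℝ) : ℂ)‖ := by
    have : ((3 - ρ₀ : ℝ) : ℂ) + (ρ₀ : ℂ) = 3 := by push_cast; ring
    rw [hΨ]
    simp only
    rw [this]
    exact h3
  have hfin2 : c₀ * Real.exp (a * (23 / 100 * r)) ≤ M := by
    refine le_trans ?_ hfin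
    gcongr
  have hfin3 : a * (9 / 100 * r) ≤ Real.log (P / c₀) := by
    rw [hM] at hfin2
    have h4 : Real.exp (a * (9 / 100 * r)) ≤ P / c₀ := by
      rw [le_div_iff₀ hc0]
      have e1 : Real.exp (a * (23 / 100 * r)) =
          Real.exp (a * (9 / 100 * r)) * Real.exp (a * (7 / 50 * r)) := by
        rw [← Real.exp_add]
        congr 1
        ring
      rw [e1, ← mul_assoc] at hfin2
      have := le_of_mul_le_mul_right hfin2 (Real.exp_pos _)
      linarith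
    have h5 := Real.log_le_log (Real.exp_pos _) h4
    rwa [Real.log_exp] at h5
  have e1 : (a : ℝ) * (9 / 100 * r) = a * ρ * (9 / 5600) := by
    rw [hr]; ring
  rw [e1] at hfin3
  have : 0 ≤ (a : ℝ) * ρ := by positivity
  linarith

theorem pfOrd2 : StOrd2 := by
  refine ⟨1000, by norm_num, ?_⟩
  intro Φ T B P ρ₀ c₀ a hΦ hT hc0 hc1 hB hP hρ0 hρ1 hPb h1 h2 h3 ha
  set L := Real.log (P / c₀) with hL
  have hBc : 1 ≤ P / c₀ := by
    rw [le_div_iff₀ hc0]; linarith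
  have hL0 : 0 ≤ L := Real.log_nonneg hBc
  have hlB : 0 ≤ Real.log B := Real.log_nonneg hB
  have hsq : 0 ≤ √((T + L + 1) * (L + 1)) := Real.sqrt_nonneg _
  have hfirst : 0 ≤ T * ρ₀ := by positivity
  rcases le_or_gt (a : ℝ) (1000 * (T * ρ₀ + Real.log B + 1)) with hle | hgt
  · linarith
  have ha1 : (1000 : ℝ) < a := by linarith
  have ha0 : (0 : ℝ) < a := by linarith
  set ρ : ℝ := min 1 (a / (4 * T)) with hρ
  have hρ0' : 0 < ρ := lt_min one_pos (by positivity)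
  have hρ1' : ρ ≤ 1 := min_le_left _ _
  have hρT : 2 * T * ρ ≤ a / 2 := by
    have h4 : ρ ≤ a / (4 * T) := min_le_right _ _
    calc 2 * T * ρ ≤ 2 * T * (a / (4 * T)) := by gcongr
      _ = a / 2 := by field_simp; ring
  have hρρ : ρ₀ ≤ ρ / 20 := by
    rw [le_div_iff₀ (by norm_num)]
    apply le_min
    · linarith
    · rw [le_div_iff₀ (by positivity)]
      nlinarith
  have hcore := V5.core hΦ hT hc0 hc1 hB hP hρ0 hρ1 hρ0' hρ1' hρT hρρ (by linarith) hPb h1 h2 h3 ha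
  have hmain : (a : ℝ) ^ 2 ≤ (1000 * √((T + L + 1) * (L + 1))) ^ 2 := by
    rw [mul_pow, Real.sq_sqrt (by positivity)]
    have hT0 : 0 ≤ T := by linarith
    rcases min_choice 1 ((a : ℝ) / (4 * T)) with h | h
    · rw [← hρ] at h
      rw [h, mul_one] at hcore
      calc (a : ℝ) ^ 2 ≤ (625 * L) ^ 2 := by gcongr
        _ ≤ 1000 ^ 2 * ((T + L + 1) * (L + 1)) := by nlinarith [mul_nonneg hT0 hL0]
    · rw [← hρ] at h
      have e1 : (a : ℝ) ^ 2 = 4 * T * (a * ρ) := by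
        rw [h]
        field_simp
      rw [e1]
      calc 4 * T * (a * ρ) ≤ 4 * T * (625 * L) := by gcongr
        _ ≤ 1000 ^ 2 * ((T + L + 1) * (L + 1)) := by nlinarith [mul_nonneg hT0 hL0]
  have := abs_le_of_sq_le_sq' hmain (by positivity)
  linarith [this.2]

end P004
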