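import Vale.Agent.P004.V6a
import Vale.Agent.P004.L2b

/-!
# P004, upgrade, module V6b: the Gaussian tail and the moments
-/

open Real MeasureTheory Set
open scoped ENNReal

namespace P004

/-- the Gaussian tail -/
def StTail2 : Prop :=
  ∃ C c : ℝ, 0 < C ∧ 0 < c ∧ ∃ A : ℕ, ∀ X : ℕ, 3 ≤ X → ∀ z : ℝ, 0 ≤ z →
    (((Fam X).filter (fun D => z ≤ (aRank D : ℝ))).card : ℝ) ≤
      C * X * Real.log X ^ A * Real.exp (-c * z ^ 2 / Real.log X)

namespace V6

/-- Markov -/
theorem markov {S : Finset ℕ} (f : ℕ → ℝ≥0∞) {t M : ℝ} (hM : 0 ≤ M)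
    (h : ∑ m ∈ S, f m ≤ ENNReal.ofReal M) :
    ((S.filter fun m => ¬ f m ≤ ENNReal.ofReal (Real.exp t)).card : ℝ) ≤ M * Real.exp (-t) := by
  classical
  have h1 : ((S.filter fun m => ¬ f m ≤ ENNReal.ofReal (Real.exp t)).card : ℝ≥0∞) *
      ENNReal.ofReal (Real.exp t) ≤ ENNReal.ofReal M := by
    refine le_trans ?_ h
    calc ((S.filter fun m => ¬ f m ≤ ENNReal.ofReal (Real.exp t)).card : ℝ≥0∞) *
          ENNReal.ofReal (Real.exp t)
        = ∑ m ∈ S.filter fun m => ¬ f m ≤ ENNReal.ofReal (Real.exp t),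
            ENNReal.ofReal (Real.exp t) := by
          rw [Finset.sum_const, nsmul_eq_mul]
      _ ≤ ∑ m ∈ S.filter fun m => ¬ f m ≤ ENNReal.ofReal (Real.exp t), f m := by
          refine Finset.sum_le_sum fun m hm => ?_
          have := (Finset.mem_filter.mp hm).2
          exact (not_le.mp this).le
      _ ≤ ∑ m ∈ S, f m := Finset.sum_le_sum_of_subset (Finset.filter_subset _ _)
  rw [← ENNReal.ofReal_natCast, ← ENNReal.ofReal_mul (Nat.cast_nonneg _),
    ENNReal.ofReal_le_ofReal_iff hM] at h1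
  rw [Real.exp_neg, ← div_eq_mul_inv, le_div_iff₀ (Real.exp_pos _)]
  exact h1

theorem card_fam_le (X : ℕ) (hX : 3 ≤ X) : ((Fam X).card : ℝ) ≤ 3 * X := by
  classical
  have h1 : (Fam X).card ≤ (Finset.Icc (-(X : ℤ)) X).card := Finset.card_filter_le _ _
  rw [Int.card_Icc] at h1
  have h2 : (Fam X).card ≤ 3 * X := by omega
  exact_mod_cast h2

/-- the counting step, for `z` in the middle range -/
theorem middle {c₁ c₂ C K Cm C₂ CF : ℝ} {AF : ℕ} (hc₁ : 0 < c₁) (hc₂ : 0 < c₂) (hC : 1 ≤ C)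
    (hK : 1 ≤ K) (hCm : 1 ≤ Cm) (hC₂ : 1 ≤ C₂) (hCF : 1 ≤ CF)
    (hpw : ∀ D : ℤ, IsFund D →
      ∃ m : ℕ, 0 < m ∧ Squarefree m ∧ (D.natAbs = m ∨ D.natAbs = 4 * m) ∧
      ∀ (X N : ℕ) (z : ℝ), 3 ≤ X → m ≤ X → 1 ≤ N → N ≤ X →
        Real.log X / 2 ≤ Real.log (3 * N) →
        C * √(Real.log X * Real.log (Real.log X + 2)) ≤ z → z ≤ K * Real.log X →
        Jm m ≤ ENNReal.ofReal (Real.exp (c₁ * z)) →
        Jf (1 / (3 * N) : ℝ) m ≤ ENNReal.ofReal (Real.exp (c₂ * z ^ 2 / Real.log X)) →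
        (aRank D : ℝ) < z)
    (hmain : ∀ X : ℕ, 3 ≤ X →
      sumJ X ≤ ENNReal.ofReal (X * Real.exp (Cm * √(Real.log X * Real.log (Real.log X + 2)))))
    (hfar : ∀ X N : ℕ, 3 ≤ X → 1 ≤ N →
      (N : ℝ) * Real.exp (C₂ * √(Real.log X * Real.log (Real.log X + 2))) ≤ X →
      ∑ m ∈ sqf X, Jf (1 / (3 * N) : ℝ) m ≤ ENNReal.ofReal (CF * X * Real.log X ^ AF))
    {X : ℕ} (hX : 3 ≤ X) {z : ℝ}
    (hz1 : (C + 2 * Cm / c₁ + 2 * C₂ * K) * √(Real.log X * Real.log (Real.log X + 2)) ≤ z)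
    (hz2 : z ≤ K * Real.log X) :
    (((Fam X).filter (fun D => z ≤ (aRank D : ℝ))).card : ℝ) ≤
      4 * (X * Real.exp (-(c₁ / (2 * K)) * z ^ 2 / Real.log X)) +
      4 * (CF * X * Real.log X ^ AF * Real.exp (-(c₂ * z ^ 2 / Real.log X))) := by
  classical
  have hL := V6.log_ge_one hX
  have hX3 : (3 : ℝ) ≤ X := by exact_mod_cast hX
  have hX0 : (0 : ℝ) < X := by linarith
  set L := Real.log X with hLdef
  obtain ⟨hs2, hs1, hl2s⟩ := V6.sq_facts hL
  set s := √(L * Real.log (L + 2)) with hs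
  have hL0 : 0 < L := by linarith
  have hK0 : 0 < K := by linarith
  have hC₂0 : 0 < C₂ := by linarith
  have hCm0 : 0 < Cm := by linarith
  have hs0 : 0 < s := by linarith
  have t1 : C * s ≤ z := by
    refine le_trans ?_ hz1
    have : 0 ≤ (2 * Cm / c₁ + 2 * C₂ * K) * s := by positivity
    nlinarith
  have t2 : Cm * s ≤ c₁ * z / 2 := by
    have e1 : (2 * Cm / c₁) * s ≤ z := by
      refine le_trans ?_ hz1
      have : 0 ≤ (C + 2 * C₂ * K) * s := by positivity
      nlinarith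
    have e2 : c₁ * ((2 * Cm / c₁) * s) ≤ c₁ * z := mul_le_mul_of_nonneg_left e1 hc₁.le
    have e3 : c₁ * ((2 * Cm / c₁) * s) = 2 * (Cm * s) := by field_simp
    linarith
  have t3 : C₂ * s ≤ L / 2 := by
    have e1 : (2 * C₂ * K) * s ≤ z := by
      refine le_trans ?_ hz1
      have : 0 ≤ (C + 2 * Cm / c₁) * s := by positivity
      nlinarith
    have e2 : K * (2 * (C₂ * s)) ≤ K * L := by linarith
    have := le_of_mul_le_mul_left e2 hK0
    linarith
  have hz0 : 0 < z := lt_of_lt_of_le (by positivity) t1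
  -- the cut-off
  set N := ⌊(X : ℝ) * Real.exp (-(C₂ * s))⌋₊ with hN
  have hXe : (X : ℝ) = Real.exp L := by rw [hLdef, Real.exp_log hX0]
  have hbig : Real.exp (L / 2) ≤ (X : ℝ) * Real.exp (-(C₂ * s)) := by
    rw [hXe, ← Real.exp_add]
    apply Real.exp_le_exp.mpr
    linarith
  have hN1 : 1 ≤ N := by
    rw [hN, Nat.one_le_floor_iff]
    exact le_trans (Real.one_le_exp (by linarith)) hbig
  have hN1' : (1 : ℝ) ≤ N := by exact_mod_cast hN1
  have hNle : (N : ℝ) ≤ (X : ℝ) * Real.exp (-(C₂ * s)) := Nat.floor_le (by positivity)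
  have hNX : N ≤ X := by
    have : (N : ℝ) ≤ X := by
      refine hNle.trans ?_
      have : Real.exp (-(C₂ * s)) ≤ 1 := by
        rw [Real.exp_le_one_iff]; linarith [mul_pos hC₂0 hs0]
      exact mul_le_of_le_one_right hX0.le this
    exact_mod_cast this
  have hNcut : (N : ℝ) * Real.exp (C₂ * s) ≤ X := by
    calc (N : ℝ) * Real.exp (C₂ * s) ≤ (X : ℝ) * Real.exp (-(C₂ * s)) * Real.exp (C₂ * s) :=
          mul_le_mul_of_nonneg_right hNle (Real.exp_pos _).le
      _ = X := by rw [mul_assoc, ← Real.exp_add, neg_add_cancel, Real.exp_zero, mul_one]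
  have hlN : L / 2 ≤ Real.log (3 * N) := by
    rw [Real.le_log_iff_exp_le (by positivity)]
    have : (X : ℝ) * Real.exp (-(C₂ * s)) < N + 1 := Nat.lt_floor_add_one _
    linarith
  have hM1 := markov (fun m => Jm m) (t := c₁ * z) (by positivity) (hmain X hX)
  have hM2 := markov (fun m => Jf (1 / (3 * N) : ℝ) m) (t := c₂ * z ^ 2 / L) (by positivity)
    (hfar X N hX hN1 hNcut)
  have hsum := L2.sum_fam_le (X := X) (fun D => if z ≤ (aRank D : ℝ) then 1 else 0)
    (fun m => (if ¬ Jm m ≤ ENNReal.ofReal (Real.exp (c₁ * z)) then 1 else 0) +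
      (if ¬ Jf (1 / (3 * N) : ℝ) m ≤ ENNReal.ofReal (Real.exp (c₂ * z ^ 2 / L)) then 1 else 0))
    (fun m => by positivity) (by
      intro D hD
      obtain ⟨hfund, habs⟩ := L2.mem_Fam hD
      obtain ⟨m, hm, hsq, hnat, hb⟩ := hpw D hfund
      have hmX : m ≤ X := by omega
      refine ⟨m, ?_, hnat, ?_⟩
      · unfold sqf
        rw [Finset.mem_filter, Finset.mem_Icc]
        exact ⟨⟨hm, hmX⟩, hsq⟩
      · by_cases h1 : Jm m ≤ ENNReal.ofReal (Real.exp (c₁ * z))
        · by_cases h2 : Jf (1 / (3 * N) : ℝ) m ≤ ENNReal.ofReal (Real.exp (c₂ * z ^ 2 / L))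
          · have := hb X N z hX hmX hN1 hNX hlN t1 hz2 h1 h2
            rw [if_neg (not_le.mpr this)]
            positivity
          · rw [if_pos h2]
            split_ifs <;> norm_num
        · rw [if_pos h1]
          split_ifs <;> norm_num)
  rw [← Finset.sum_filter, Finset.sum_const, nsmul_eq_mul, mul_one, Finset.sum_add_distrib,
    ← Finset.sum_filter, ← Finset.sum_filter, Finset.sum_const, Finset.sum_const, nsmul_eq_mul,
    nsmul_eq_mul, mul_one, mul_one] at hsum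
  have hM1' : (X : ℝ) * Real.exp (Cm * s) * Real.exp (-(c₁ * z)) ≤
      X * Real.exp (-(c₁ / (2 * K)) * z ^ 2 / L) := by
    rw [mul_assoc, ← Real.exp_add]
    apply mul_le_mul_of_nonneg_left _ hX0.le
    apply Real.exp_le_exp.mpr
    have e1 : c₁ / (2 * K) * z ^ 2 / L ≤ c₁ * z / 2 := by
      rw [div_le_iff₀ hL0]
      calc c₁ / (2 * K) * z ^ 2 = c₁ / (2 * K) * z * z := by ring
        _ ≤ c₁ / (2 * K) * z * (K * L) := mul_le_mul_of_nonneg_left hz2 (by positivity)
        _ = c₁ * z / 2 * L := by field_simp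
    have e2 : -(c₁ / (2 * K)) * z ^ 2 / L = -(c₁ / (2 * K) * z ^ 2 / L) := by ring
    rw [e2]
    linarith
  have hM1'' := hM1.trans hM1'
  linarith

end V6

theorem pfTail2 (hPw : StPw) (hTr : StTrivRk) (hM : StMain) (hF : StFarMain) : StTail2 := by
  obtain ⟨K, hK, htriv⟩ := hTr
  obtain ⟨c₁, c₂, C, hc₁, hc₂, hC, hpw⟩ := hPw K hK
  obtain ⟨Cm, hCm, hmain⟩ := hM
  obtain ⟨C₂, hC₂, CF, hCF, AF, hfar⟩ := hF
  have hK0 : 0 < K := by linarith
  have hC₂0 : 0 < C₂ := by linarith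
  have hCm0 : 0 < Cm := by linarith
  have hC0 : 0 < C := by linarith
  have hCF0 : 0 < CF := by linarith
  set M := C + 2 * Cm / c₁ + 2 * C₂ * K with hMdef
  have hM0 : 0 < M := by positivity
  set c := min c₂ (c₁ / (2 * K)) with hc
  have hcpos : 0 < c := lt_min hc₂ (by positivity)
  obtain ⟨A₀, hA₀⟩ := exists_nat_ge (c * M ^ 2)
  refine ⟨3 * 3 ^ A₀ + 4 + 4 * CF, c, by positivity, hcpos, max AF A₀, fun X hX z hz => ?_⟩
  have hL := V6.log_ge_one hX
  have hX3 : (3 : ℝ) ≤ X := by exact_mod_cast hX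
  have hX0 : (0 : ℝ) < X := by linarith
  set L := Real.log X with hLdef
  have hL0 : 0 < L := by linarith
  obtain ⟨hs2, hs1, hl2s⟩ := V6.sq_facts hL
  set s := √(L * Real.log (L + 2)) with hs
  have hLA : L ^ A₀ ≤ L ^ (max AF A₀) := pow_le_pow_right₀ hL (le_max_right _ _)
  have hLF : L ^ AF ≤ L ^ (max AF A₀) := pow_le_pow_right₀ hL (le_max_left _ _)
  have hLm : 1 ≤ L ^ (max AF A₀) := one_le_pow₀ hL
  set Y := L ^ (max AF A₀) with hY
  have hY0 : 0 < Y := by linarith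
  set E := Real.exp (-c * z ^ 2 / L) with hE
  have hE0 : 0 < E := Real.exp_pos _
  rcases lt_or_ge z (M * s) with h | h
  · -- small z
    have h1 : (((Fam X).filter (fun D => z ≤ (aRank D : ℝ))).card : ℝ) ≤ 3 * X := by
      refine le_trans ?_ (V6.card_fam_le X hX)
      exact_mod_cast Finset.card_filter_le _ _
    have h2 : 1 ≤ 3 ^ A₀ * L ^ A₀ * E := by
      have e1 : z ^ 2 ≤ (M * s) ^ 2 := pow_le_pow_left₀ hz h.le 2
      have e2 : c * z ^ 2 / L ≤ c * M ^ 2 * Real.log (L + 2) := by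
        rw [div_le_iff₀ hL0]
        calc c * z ^ 2 ≤ c * (M * s) ^ 2 := mul_le_mul_of_nonneg_left e1 hcpos.le
          _ = c * M ^ 2 * Real.log (L + 2) * L := by rw [mul_pow, hs2]; ring
      have hl2 := V6.ll_ge_one hL
      have e3 : c * z ^ 2 / L ≤ A₀ * Real.log (3 * L) := by
        refine e2.trans ?_
        have : Real.log (L + 2) ≤ Real.log (3 * L) :=
          Real.log_le_log (by linarith) (by linarith)
        apply mul_le_mul hA₀ this (by linarith) (by positivity)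
      rw [← mul_pow, hE]
      have e4 : ((3 * L) ^ A₀ : ℝ) = Real.exp (A₀ * Real.log (3 * L)) := by
        rw [mul_comm (A₀ : ℝ), ← Real.rpow_def_of_pos (by positivity), Real.rpow_natCast]
      rw [e4, ← Real.exp_add]
      apply Real.one_le_exp
      have e5 : -c * z ^ 2 / L = -(c * z ^ 2 / L) := by ring
      rw [e5]; linarith
    calc (((Fam X).filter (fun D => z ≤ (aRank D : ℝ))).card : ℝ) ≤ 3 * X * 1 := by linarith
      _ ≤ 3 * X * (3 ^ A₀ * L ^ A₀ * E) := mul_le_mul_of_nonneg_left h2 (by positivity)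
      _ ≤ 3 * X * (3 ^ A₀ * Y * E) := by gcongr
      _ = (3 * 3 ^ A₀) * X * Y * E := by ring
      _ ≤ (3 * 3 ^ A₀ + 4 + 4 * CF) * X * Y * E := by
          have : (3 * 3 ^ A₀ : ℝ) ≤ 3 * 3 ^ A₀ + 4 + 4 * CF := by linarith
          gcongr
  · rcases le_or_gt z (K * L) with h' | h'
    · have h1 := V6.middle hc₁ hc₂ hC hK hCm hC₂ hCF hpw hmain hfar hX h h'
      have e1 : Real.exp (-(c₁ / (2 * K)) * z ^ 2 / L) ≤ E := by
        rw [hE]
        apply Real.exp_le_exp.mpr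
        have : c ≤ c₁ / (2 * K) := min_le_right _ _
        have h3 : -(c₁ / (2 * K)) * z ^ 2 ≤ -c * z ^ 2 := by nlinarith [sq_nonneg z]
        gcongr
      have e2 : Real.exp (-(c₂ * z ^ 2 / L)) ≤ E := by
        rw [hE]
        apply Real.exp_le_exp.mpr
        have : c ≤ c₂ := min_le_left _ _
        have h3 : -(c₂ * z ^ 2) ≤ -c * z ^ 2 := by nlinarith [sq_nonneg z]
        rw [← neg_div]
        gcongr
      calc (((Fam X).filter (fun D => z ≤ (aRank D : ℝ))).card : ℝ)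
          ≤ 4 * (X * Real.exp (-(c₁ / (2 * K)) * z ^ 2 / L)) +
            4 * (CF * X * L ^ AF * Real.exp (-(c₂ * z ^ 2 / L))) := h1
        _ ≤ 4 * (X * E) + 4 * (CF * X * Y * E) := by gcongr
        _ ≤ 4 * (X * (Y * E)) + 4 * (CF * X * Y * E) := by
            have : E ≤ Y * E := le_mul_of_one_le_left hE0.le hLm
            gcongr
        _ = (4 + 4 * CF) * X * Y * E := by ring
        _ ≤ (3 * 3 ^ A₀ + 4 + 4 * CF) * X * Y * E := by
            have : (4 + 4 * CF : ℝ) ≤ 3 * 3 ^ A₀ + 4 + 4 * CF := by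
              have : (0 : ℝ) < 3 * 3 ^ A₀ := by positivity
              linarith
            gcongr
    · have h1 : (Fam X).filter (fun D => z ≤ (aRank D : ℝ)) = ∅ := by
        rw [Finset.filter_eq_empty_iff]
        intro D hD h2
        obtain ⟨hfund, habs⟩ := L2.mem_Fam hD
        have := htriv X hX D hfund habs
        linarith
      rw [h1]
      simp only [Finset.card_empty, Nat.cast_zero]
      positivity

/-- the moments -/
theorem pfMom2 (hTl : StTail2) (hTr : StTrivRk) (hCt : StCount) :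
    ∀ k : ℕ, ∃ C : ℝ, 0 < C ∧ ∀ X : ℕ, 3 ≤ X →
      ∑ D ∈ Fam X, (aRank D : ℝ) ^ k ≤
        C * ((Fam X).card : ℝ) * (√(Real.log X * Real.log (Real.log X + 2))) ^ k := by
  classical
  obtain ⟨K, hK, htriv⟩ := hTr
  obtain ⟨C, c, hC, hc, A, htail⟩ := hTl
  obtain ⟨c3, hc3, hcount⟩ := hCt
  intro k
  have hK0 : 0 < K := by linarith
  set M := ((k : ℝ) + A) / c + 1 with hM
  have hM1 : 1 ≤ M := by
    have : 0 ≤ ((k : ℝ) + A) / c := by positivity
    linarith
  have hM2 : (k : ℝ) + A ≤ c * M ^ 2 := by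
    have e1 : (k : ℝ) + A ≤ c * M := by
      rw [hM, mul_add, mul_div_cancel₀ _ hc.ne']; linarith
    nlinarith [mul_le_mul_of_nonneg_left (show M ≤ M ^ 2 by nlinarith) hc.le]
  refine ⟨M ^ k + K ^ k * C / c3, by positivity, fun X hX => ?_⟩
  have hL := V6.log_ge_one hX
  have hX3 : (3 : ℝ) ≤ X := by exact_mod_cast hX
  have hX0 : (0 : ℝ) < X := by linarith
  have hcnt := hcount X hX
  have htl := htail X hX
  have htr := htriv X hX
  set L := Real.log X with hLdef
  have hL0 : 0 < L := by linarith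
  obtain ⟨hs2, hs1, hl2s⟩ := V6.sq_facts hL
  set s := √(L * Real.log (L + 2)) with hs
  have hs0 : 0 < s := by linarith
  have h1 := htl (M * s) (by positivity)
  set T := (((Fam X).filter (fun D => M * s ≤ (aRank D : ℝ))).card : ℝ) with hT
  have h2 : L ^ A * Real.exp (-c * (M * s) ^ 2 / L) ≤ 1 / L ^ k := by
    have e1 : -c * (M * s) ^ 2 / L = -(c * M ^ 2 * Real.log (L + 2)) := by
      rw [mul_pow, hs2]; field_simp
    have hlL : 0 ≤ Real.log L := Real.log_nonneg hL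
    have e2 : ((k : ℝ) + A) * Real.log L ≤ c * M ^ 2 * Real.log (L + 2) := by
      apply mul_le_mul hM2 (Real.log_le_log hL0 (by linarith)) hlL (by positivity)
    have e3 : (L ^ A : ℝ) = Real.exp (A * Real.log L) := by
      rw [mul_comm (A : ℝ), ← Real.rpow_def_of_pos hL0, Real.rpow_natCast]
    have e4 : (L ^ k : ℝ) = Real.exp (k * Real.log L) := by
      rw [mul_comm (k : ℝ), ← Real.rpow_def_of_pos hL0, Real.rpow_natCast]
    rw [e1, e3, e4, ← Real.exp_add, one_div, ← Real.exp_neg]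
    apply Real.exp_le_exp.mpr
    linarith
  have h3 : T ≤ C * X / L ^ k := by
    calc T ≤ C * X * L ^ A * Real.exp (-c * (M * s) ^ 2 / L) := h1
      _ = C * X * (L ^ A * Real.exp (-c * (M * s) ^ 2 / L)) := by ring
      _ ≤ C * X * (1 / L ^ k) := mul_le_mul_of_nonneg_left h2 (by positivity)
      _ = C * X / L ^ k := by ring
  have h4 : ∑ D ∈ Fam X, (aRank D : ℝ) ^ k ≤
      ∑ D ∈ Fam X, ((M * s) ^ k + if M * s ≤ (aRank D : ℝ) then (K * L) ^ k else 0) := by
    refine Finset.sum_le_sum fun D hD => ?_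
    obtain ⟨hfund, habs⟩ := L2.mem_Fam hD
    have e1 := htr D hfund habs
    split_ifs with h
    · have := pow_le_pow_left₀ (Nat.cast_nonneg _) e1 k
      have : 0 ≤ (M * s) ^ k := by positivity
      linarith
    · have := pow_le_pow_left₀ (Nat.cast_nonneg _) (not_le.mp h).le k
      linarith
  have hXc : (X : ℝ) ≤ ((Fam X).card : ℝ) / c3 := by rw [le_div_iff₀ hc3]; linarith
  have hsk : 1 ≤ s ^ k := one_le_pow₀ hs1
  calc ∑ D ∈ Fam X, (aRank D : ℝ) ^ k
      ≤ ∑ D ∈ Fam X, ((M * s) ^ k + if M * s ≤ (aRank D : ℝ) then (K * L) ^ k else 0) := h4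
    _ = ((Fam X).card : ℝ) * (M * s) ^ k + T * (K * L) ^ k := by
        rw [Finset.sum_add_distrib, Finset.sum_const, nsmul_eq_mul, ← Finset.sum_filter,
          Finset.sum_const, nsmul_eq_mul]
    _ ≤ ((Fam X).card : ℝ) * (M * s) ^ k + C * X / L ^ k * (K * L) ^ k := by gcongr
    _ = ((Fam X).card : ℝ) * (M * s) ^ k + K ^ k * C * X := by
        rw [mul_pow K L]
        have : L ^ k ≠ 0 := by positivity
        field_simp
    _ ≤ ((Fam X).card : ℝ) * (M * s) ^ k + K ^ k * C * (((Fam X).card : ℝ) / c3) := by gcongr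
    _ ≤ ((Fam X).card : ℝ) * (M * s) ^ k +
        K ^ k * C * (((Fam X).card : ℝ) / c3) * s ^ k := by
        have := le_mul_of_one_le_right
          (show 0 ≤ K ^ k * C * (((Fam X).card : ℝ) / c3) by positivity) hsk
        linarith
    _ = (M ^ k + K ^ k * C / c3) * ((Fam X).card : ℝ) * s ^ k := by
        rw [mul_pow]; ring

end P004
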