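import Vale.Agent.P004.V6a
import Vale.Agent.P004.V6b

/-!
# P004, upgrade, module V6: the upgraded final statement from the modules
-/

namespace P004

/-- Module V6. -/
theorem pfFin2 (hM : StMain) (hF : StFarMain) (hE : StEnt2) (hO : StOrd) (hO2 : StOrd2)
    (hEu : StEuler) (hC : StCount) (hT : StTriv) : StFin2 :=
  have hE1 : StEnt := V6.ent2_ent hE
  have hTr : StTrivRk := pfTrivRk (pfRk hE1 hEu hO hT) hT
  have hTl : StTail2 := pfTail2 (pfPw hE hEu hO2) hTr hM hF
  ⟨pfLfun hE1 hEu, hTl, pfMom2 hTl hTr hC⟩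

end P004
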