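import Vale.Agent.P004.All
import Vale.Agent.P004.V1
import Vale.Agent.P004.V2
import Vale.Agent.P004.V3
import Vale.Agent.P004.V4
import Vale.Agent.P004.V5
import Vale.Agent.P004.V6

/-!
# P004: the upgraded final statement, all modules assembled
-/

namespace P004

theorem final2 : StFin2 :=
  have hC : StCoef := pfStCoef
  have hD : StDiv := pfDiv
  have hFE : StFE := pfFE
  have hK : StKer := pfKer
  have hSum : StSumS := H1.pfSumS hC (pfPair (pfPois pfTw)) hK
  have hT : StTriv := pfTriv hC hFE
  have hAj : StAj := pfAj (pfStSep hC hK) (pfConv hC hD) (pfStFrac hC) hD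
  have hA0 : StA0 := pfA0 hC hD
  have hTl : StTail := pfTail hK
  have hRec : StRec := pfRec (pfDecomp hC hFE hD) hSum hAj hA0 hTl hD
  have hMain : StMain := pfMain hRec hT
  have hRecF : StRecF := pfRecF (pfDecF hC hD) hSum hAj hA0 hTl hD
  have hFar : StFarMain := pfFarMain hRecF hMain hT
  pfFin2 hMain hFar (pfEnt2 hC hD hFE) pfOrd pfOrd2 (pfStEuler hC pfStPt) pfCount hT

end P004
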