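import Vale.Agent.P004.C0

/-!
# Module C, part 1: two-dimensional Poisson summation
-/

open Real MeasureTheory Set
open scoped ENNReal

namespace P004

theorem summable_gauss_even {t : ℝ} (ht : 0 < t) :
    Summable (fun n : ℤ => Real.exp (-π * (n : ℝ) ^ 2 * t)) := by
  have := (HurwitzZeta.hasSum_int_evenKernel 0 ht).summable
  simpa using this

theorem summable_gauss_odd {t : ℝ} (ht : 0 < t) :
    Summable (fun n : ℤ => |(n : ℝ)| * Real.exp (-π * (n : ℝ) ^ 2 * t)) := by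
  have := (HurwitzZeta.hasSum_int_oddKernel 0 ht).summable.norm
  refine this.congr ?_
  intro n
  simp [abs_of_pos (Real.exp_pos _)]

theorem exp_split (t : ℝ) (x y : ℤ) : Real.exp (-π * ((x : ℝ) ^ 2 + (y : ℝ) ^ 2) * t) =
    Real.exp (-π * (x : ℝ) ^ 2 * t) * Real.exp (-π * (y : ℝ) ^ 2 * t) := by
  rw [← Real.exp_add]
  ring_nf

/-- product summability -/
theorem summable_prod_gauss {t t' : ℝ} (ht : 0 < t) (ht' : 0 < t') (c : ℤ × ℤ → ℂ) (B : ℝ)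
    (hc : ∀ p, ‖c p‖ ≤ B) :
    Summable (fun p : ℤ × ℤ => c p *
      (((p.1 : ℝ) * Real.exp (-π * (p.1 : ℝ) ^ 2 * t) *
        Real.exp (-π * (p.2 : ℝ) ^ 2 * t') : ℝ) : ℂ)) := by
  have h1 : Summable (fun p : ℤ × ℤ =>
      (|(p.1 : ℝ)| * Real.exp (-π * (p.1 : ℝ) ^ 2 * t)) * Real.exp (-π * (p.2 : ℝ) ^ 2 * t')) :=
    (summable_gauss_odd ht).mul_of_nonneg (summable_gauss_even ht')
      (fun _ => by positivity) (fun _ => by positivity)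
  refine Summable.of_norm_bounded (h1.mul_left B) ?_
  intro p
  rw [norm_mul, Complex.norm_real, Real.norm_eq_abs, abs_mul, abs_mul,
    abs_of_pos (Real.exp_pos _), abs_of_pos (Real.exp_pos _)]
  gcongr
  exact hc p

/-- the basic two-dimensional summability -/
theorem summable_two {t : ℝ} (ht : 0 < t) (c : ℤ × ℤ → ℂ) (B : ℝ) (hc : ∀ p, ‖c p‖ ≤ B) :
    Summable (fun p : ℤ × ℤ => c p *
      (((p.1 : ℝ) * Real.exp (-π * ((p.1 : ℝ) ^ 2 + (p.2 : ℝ) ^ 2) * t) : ℝ) : ℂ)) := by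
  refine (summable_prod_gauss ht ht c B hc).congr ?_
  intro p
  rw [exp_split, mul_assoc (p.1 : ℝ)]

theorem bdd_two {M : ℕ} [NeZero M] (f : ZMod M → ZMod M → ℂ) :
    ∃ B : ℝ, ∀ a b : ZMod M, ‖f a b‖ ≤ B := by
  refine ⟨∑ a : ZMod M, ∑ b : ZMod M, ‖f a b‖, fun a b => ?_⟩
  calc ‖f a b‖ ≤ ∑ b : ZMod M, ‖f a b‖ :=
        Finset.single_le_sum (f := fun b => ‖f a b‖) (fun _ _ => norm_nonneg _)
          (Finset.mem_univ b)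
    _ ≤ _ := Finset.single_le_sum (f := fun a => ∑ b : ZMod M, ‖f a b‖)
          (fun _ _ => Finset.sum_nonneg fun _ _ => norm_nonneg _) (Finset.mem_univ a)

/-- the partial transform -/
noncomputable def dft1 (M : ℕ) [NeZero M] (f : ZMod M → ZMod M → ℂ) (a l : ZMod M) : ℂ :=
  ∑ b : ZMod M, f a b * ZMod.stdAddChar (b * l)

/-- the two-dimensional finite Fourier transform -/
noncomputable def dft2 (M : ℕ) [NeZero M] (f : ZMod M → ZMod M → ℂ) (k l : ZMod M) : ℂ :=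
  ∑ a : ZMod M, dft1 M f a l * ZMod.stdAddChar (a * k)

theorem poisson2_step1 (M : ℕ) [NeZero M] (f : ZMod M → ZMod M → ℂ) {u : ℝ} (hu : 0 < u)
    (x : ℤ) :
    ∑' y : ℤ, f x y *
      (((x : ℝ) * Real.exp (-π * ((x : ℝ) ^ 2 + (y : ℝ) ^ 2) * u) : ℝ) : ℂ) =
      (1 / (M * √u : ℝ) : ℂ) * ∑' l : ℤ, (dft1 M f x l *
        (((x : ℝ) * Real.exp (-π * (x : ℝ) ^ 2 * u) *
          Real.exp (-π * (l : ℝ) ^ 2 * (1 / (M ^ 2 * u))) : ℝ) : ℂ)) := by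
  have h1 := (pfTw M (f x) u hu).1
  have h2 : ∑' y : ℤ, f x y *
      (((x : ℝ) * Real.exp (-π * ((x : ℝ) ^ 2 + (y : ℝ) ^ 2) * u) : ℝ) : ℂ) =
      (∑' y : ℤ, f x y * (Real.exp (-π * (y : ℝ) ^ 2 * u) : ℂ)) *
        (((x : ℝ) * Real.exp (-π * (x : ℝ) ^ 2 * u) : ℝ) : ℂ) := by
    rw [← tsum_mul_right]
    refine tsum_congr fun y => ?_
    rw [exp_split]
    push_cast
    ring
  rw [h2, h1, mul_assoc, ← tsum_mul_right]
  congr 1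
  refine tsum_congr fun l => ?_
  have e1 : -π * (l : ℝ) ^ 2 / (M ^ 2 * u) = -π * (l : ℝ) ^ 2 * (1 / (M ^ 2 * u)) := by ring
  rw [e1, dft1, Complex.ofReal_mul, Complex.ofReal_mul, Complex.ofReal_mul]
  ring

theorem poisson2_step2 (M : ℕ) [NeZero M] (f : ZMod M → ZMod M → ℂ) {u : ℝ} (hu : 0 < u)
    (l : ℤ) :
    ∑' x : ℤ, dft1 M f x l *
        (((x : ℝ) * Real.exp (-π * (x : ℝ) ^ 2 * u) *
          Real.exp (-π * (l : ℝ) ^ 2 * (1 / (M ^ 2 * u))) : ℝ) : ℂ) =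
      (-Complex.I / (M ^ 2 * (u * √u) : ℝ) : ℂ) * ∑' k : ℤ, dft2 M f k l *
      (((k : ℝ) * Real.exp (-π * ((k : ℝ) ^ 2 + (l : ℝ) ^ 2) * (1 / (M ^ 2 * u))) : ℝ) : ℂ) := by
  have h1 := (pfTw M (fun x => dft1 M f x l) u hu).2
  have h2 : ∑' x : ℤ, dft1 M f x l *
      (((x : ℝ) * Real.exp (-π * (x : ℝ) ^ 2 * u) *
          Real.exp (-π * (l : ℝ) ^ 2 * (1 / (M ^ 2 * u))) : ℝ) : ℂ) =
      (Real.exp (-π * (l : ℝ) ^ 2 * (1 / (M ^ 2 * u))) : ℂ) *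
      (∑' x : ℤ, dft1 M f x l * (((x : ℝ) * Real.exp (-π * (x : ℝ) ^ 2 * u) : ℝ) : ℂ)) := by
    rw [← tsum_mul_left]
    refine tsum_congr fun x => ?_
    rw [Complex.ofReal_mul (_ * _)]
    ring
  rw [h2, h1, mul_left_comm, ← tsum_mul_left]
  congr 1
  refine tsum_congr fun k => ?_
  have e1 : -π * (k : ℝ) ^ 2 / (M ^ 2 * u) = -π * (k : ℝ) ^ 2 * (1 / (M ^ 2 * u)) := by ring
  rw [exp_split, dft2, e1, Complex.ofReal_mul, Complex.ofReal_mul, Complex.ofReal_mul]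
  ring

theorem poisson2 (M : ℕ) [NeZero M] (f : ZMod M → ZMod M → ℂ) {u : ℝ} (hu : 0 < u) :
    ∑' p : ℤ × ℤ, f p.1 p.2 *
      (((p.1 : ℝ) * Real.exp (-π * ((p.1 : ℝ) ^ 2 + (p.2 : ℝ) ^ 2) * u) : ℝ) : ℂ) =
    (-Complex.I / (M ^ 3 * u ^ 2 : ℝ) : ℂ) * ∑' p : ℤ × ℤ, dft2 M f p.1 p.2 *
      (((p.1 : ℝ) * Real.exp (-π * ((p.1 : ℝ) ^ 2 + (p.2 : ℝ) ^ 2) * (1 / (M ^ 2 * u))) : ℝ) : ℂ)
      := by
  have hM0 : (0 : ℝ) < M := by exact_mod_cast Nat.pos_of_ne_zero (NeZero.ne M)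
  have ht : 0 < 1 / ((M : ℝ) ^ 2 * u) := by positivity
  obtain ⟨B, hB⟩ := bdd_two f
  obtain ⟨B', hB'⟩ := bdd_two (dft1 M f)
  obtain ⟨B'', hB''⟩ := bdd_two (dft2 M f)
  have hS1 := summable_two hu (fun p => f p.1 p.2) B (fun p => hB _ _)
  have hS2 := summable_two ht (fun p => dft2 M f p.1 p.2) B'' (fun p => hB'' _ _)
  have hS3 := summable_prod_gauss hu ht (fun p => dft1 M f p.1 p.2) B' (fun p => hB' _ _)
  have hconst : (1 / (M * √u : ℝ) : ℂ) * (-Complex.I / (M ^ 2 * (u * √u) : ℝ) : ℂ) =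
      (-Complex.I / (M ^ 3 * u ^ 2 : ℝ) : ℂ) := by
    have e1 : ((M ^ 3 * u ^ 2 : ℝ) : ℂ) = ((M * √u : ℝ) : ℂ) * ((M ^ 2 * (u * √u) : ℝ) : ℂ) := by
      rw [← Complex.ofReal_mul]
      congr 1
      have : √u * √u = u := Real.mul_self_sqrt hu.le
      calc (M : ℝ) ^ 3 * u ^ 2 = M ^ 3 * u * (√u * √u) := by rw [this]; ring
        _ = _ := by ring
    rw [e1, div_mul_div_comm, one_mul]
  calc _ = ∑' x : ℤ, ∑' y : ℤ, f x y *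
      (((x : ℝ) * Real.exp (-π * ((x : ℝ) ^ 2 + (y : ℝ) ^ 2) * u) : ℝ) : ℂ) := hS1.tsum_prod
    _ = ∑' x : ℤ, (1 / (M * √u : ℝ) : ℂ) * ∑' l : ℤ, (dft1 M f x l *
        (((x : ℝ) * Real.exp (-π * (x : ℝ) ^ 2 * u) *
          Real.exp (-π * (l : ℝ) ^ 2 * (1 / (M ^ 2 * u))) : ℝ) : ℂ)) :=
        tsum_congr fun x => poisson2_step1 M f hu x
    _ = (1 / (M * √u : ℝ) : ℂ) * ∑' x : ℤ, ∑' l : ℤ, (dft1 M f x l *
        (((x : ℝ) * Real.exp (-π * (x : ℝ) ^ 2 * u) *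
          Real.exp (-π * (l : ℝ) ^ 2 * (1 / (M ^ 2 * u))) : ℝ) : ℂ)) := tsum_mul_left
    _ = (1 / (M * √u : ℝ) : ℂ) * ∑' l : ℤ, ∑' x : ℤ, (dft1 M f x l *
        (((x : ℝ) * Real.exp (-π * (x : ℝ) ^ 2 * u) *
          Real.exp (-π * (l : ℝ) ^ 2 * (1 / (M ^ 2 * u))) : ℝ) : ℂ)) := by
        congr 1
        exact (hS3.tsum_comm (f := fun x l : ℤ => (dft1 M f x l *
          (((x : ℝ) * Real.exp (-π * (x : ℝ) ^ 2 * u) *
          Real.exp (-π * (l : ℝ) ^ 2 * (1 / (M ^ 2 * u))) : ℝ) : ℂ)))).symm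
    _ = (1 / (M * √u : ℝ) : ℂ) * ∑' l : ℤ,
        ((-Complex.I / (M ^ 2 * (u * √u) : ℝ) : ℂ) * ∑' k : ℤ, dft2 M f k l *
      (((k : ℝ) * Real.exp (-π * ((k : ℝ) ^ 2 + (l : ℝ) ^ 2) * (1 / (M ^ 2 * u))) : ℝ) : ℂ)) := by
        congr 1
        exact tsum_congr fun l => poisson2_step2 M f hu l
    _ = (-Complex.I / (M ^ 3 * u ^ 2 : ℝ) : ℂ) * ∑' l : ℤ, ∑' k : ℤ, dft2 M f k l *
      (((k : ℝ) * Real.exp (-π * ((k : ℝ) ^ 2 + (l : ℝ) ^ 2) * (1 / (M ^ 2 * u))) : ℝ) : ℂ) := by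
        rw [tsum_mul_left, ← mul_assoc, hconst]
    _ = _ := by
        congr 1
        rw [hS2.tsum_prod]
        exact hS2.tsum_comm (f := fun k l : ℤ => dft2 M f k l *
          (((k : ℝ) * Real.exp (-π * ((k : ℝ) ^ 2 + (l : ℝ) ^ 2) * (1 / (M ^ 2 * u))) : ℝ) : ℂ))

end P004
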