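import Vale.Agent.P004.C1

/-!
# Module C, part 2: finite character sums
-/

open Real MeasureTheory Set
open scoped ENNReal

namespace P004

/-! ### the prime case -/

section prime

variable {p : ℕ} [Fact p.Prime]

/-- quadratic character with complex values -/
noncomputable def qc (p : ℕ) [Fact p.Prime] : MulChar (ZMod p) ℂ :=
  (quadraticChar (ZMod p)).ringHomComp (Int.castRingHom ℂ)

theorem qc_apply (a : ZMod p) : qc p a = ((quadraticChar (ZMod p) a : ℤ) : ℂ) := rfl

theorem qc_zero : qc p 0 = 0 := by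
  rw [qc_apply]; simp

theorem qc_ne_one (hp : p ≠ 2) : qc p ≠ 1 := by
  have h := quadraticChar_ne_one (F := ZMod p) (by rwa [ZMod.ringChar_zmod_n])
  intro h2
  apply h
  ext a
  have := congrArg (fun f : MulChar (ZMod p) ℂ => f a) h2
  simp only [qc_apply] at this
  rw [MulChar.one_apply_coe] at this ⊢
  exact_mod_cast this

theorem qc_quad : (qc p).IsQuadratic := (quadraticChar_isQuadratic _).comp _

/-- the Gauss sum -/
noncomputable def gs (p : ℕ) [Fact p.Prime] : ℂ := gaussSum (qc p) (ZMod.stdAddChar (N := p))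

theorem gs_sq (hp : p ≠ 2) : gs p ^ 2 = qc p (-1) * p := by
  have := gaussSum_sq (qc_ne_one hp) qc_quad (ψ := ZMod.stdAddChar (N := p))
    (ZMod.isPrimitive_stdAddChar p)
  rw [ZMod.card] at this
  exact this

theorem qc_neg_one_sq : qc p (-1) * qc p (-1) = 1 := by
  rw [← map_mul]
  simp

theorem gs_ne_zero (hp : p ≠ 2) : gs p ≠ 0 := by
  intro h
  have h1 := gs_sq hp
  rw [h] at h1
  have h2 : (0 : ℂ) = p := by
    calc (0 : ℂ) = qc p (-1) * (0 ^ 2) := by ring
      _ = (qc p (-1) * qc p (-1)) * p := by rw [h1]; ring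
      _ = p := by rw [qc_neg_one_sq, one_mul]
  have h3 : (p : ℂ) ≠ 0 := by exact_mod_cast (Fact.out : p.Prime).ne_zero
  exact h3 h2.symm

/-- `∑ χ(t) ψ(t a) = χ(a) g` for every `a` -/
theorem sum_qc_mul (hp : p ≠ 2) (a : ZMod p) :
    ∑ t : ZMod p, qc p t * ZMod.stdAddChar (t * a) = qc p a * gs p := by
  by_cases ha : a = 0
  · subst ha
    simp only [mul_zero, AddChar.map_zero_eq_one, mul_one]
    rw [MulChar.sum_eq_zero_of_ne_one (qc_ne_one hp), qc_zero, zero_mul]
  · have hu : IsUnit a := isUnit_iff_ne_zero.2 ha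
    obtain ⟨b, rfl⟩ := hu
    have h1 := gaussSum_mulShift (qc p) (ZMod.stdAddChar (N := p)) b
    have h2 : gaussSum (qc p) ((ZMod.stdAddChar (N := p)).mulShift b) =
        ∑ t : ZMod p, qc p t * ZMod.stdAddChar (t * (b : ZMod p)) := by
      unfold gaussSum
      refine Finset.sum_congr rfl fun t _ => ?_
      rw [AddChar.mulShift_apply, mul_comm]
      ring_nf
    rw [← h2]
    have h3 : qc p (b : ZMod p) * qc p b = 1 := by
      rw [← map_mul, ← sq, qc_apply, quadraticChar_sq_one' (by simp)]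
      simp
    calc gaussSum (qc p) ((ZMod.stdAddChar (N := p)).mulShift b)
        = (qc p b * qc p b) * gaussSum (qc p) ((ZMod.stdAddChar (N := p)).mulShift b) := by
          rw [h3, one_mul]
      _ = qc p b * gs p := by rw [mul_assoc, h1]; rfl

/-- `∑ ψ(t x²) = χ(t) g` for `t ≠ 0` -/
theorem sum_sq (hp : p ≠ 2) {t : ZMod p} (ht : t ≠ 0) :
    ∑ x : ZMod p, (ZMod.stdAddChar (t * x ^ 2) : ℂ) = qc p t * gs p := by
  have h1 : ∑ x : ZMod p, (ZMod.stdAddChar (t * x ^ 2) : ℂ) =
      ∑ n : ZMod p, ((1 : ℂ) + qc p n) * ZMod.stdAddChar (n * t) := by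
    rw [← Finset.sum_fiberwise (s := Finset.univ) (g := fun x : ZMod p => x ^ 2)]
    refine Finset.sum_congr rfl fun n _ => ?_
    have h2 := quadraticChar_card_sqrts (F := ZMod p) (by rwa [ZMod.ringChar_zmod_n]) n
    have h3 : ∑ x ∈ Finset.univ.filter (fun x : ZMod p => x ^ 2 = n),
        (ZMod.stdAddChar (t * x ^ 2) : ℂ) =
        ∑ x ∈ Finset.univ.filter (fun x : ZMod p => x ^ 2 = n),
        (ZMod.stdAddChar (n * t) : ℂ) := by
      refine Finset.sum_congr rfl fun x hx => ?_
      rw [(Finset.mem_filter.1 hx).2, mul_comm]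
    rw [h3, Finset.sum_const, nsmul_eq_mul]
    congr 1
    have h4 : ({x : ZMod p | x ^ 2 = n} : Set (ZMod p)).toFinset =
        Finset.univ.filter (fun x : ZMod p => x ^ 2 = n) := by
      ext x; simp
    rw [← h4]
    have h5 : (((({x : ZMod p | x ^ 2 = n} : Set (ZMod p)).toFinset.card : ℕ) : ℤ) : ℂ) =
        ((quadraticChar (ZMod p) n + 1 : ℤ) : ℂ) := by rw [h2]
    push_cast at h5
    rw [h5, qc_apply]
    ring
  rw [h1]
  simp_rw [add_mul, one_mul]
  rw [Finset.sum_add_distrib, sum_qc_mul hp]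
  have h6 : ∑ n : ZMod p, (ZMod.stdAddChar (n * t) : ℂ) = 0 := by
    have := (ZMod.isPrimitive_stdAddChar p) ht
    have h7 := AddChar.sum_eq_zero_of_ne_one this
    rw [← h7]
    refine Finset.sum_congr rfl fun n _ => ?_
    rw [AddChar.mulShift_apply, mul_comm]
  rw [h6, zero_add]

/-- completing the square -/
theorem sum_sq_lin (hp : p ≠ 2) {t : ZMod p} (ht : t ≠ 0) (k : ZMod p) :
    ∑ x : ZMod p, (ZMod.stdAddChar (t * x ^ 2) * ZMod.stdAddChar (x * k) : ℂ) =
      ZMod.stdAddChar (-(4 * t)⁻¹ * k ^ 2) * (qc p t * gs p) := by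
  have h2 : (2 : ZMod p) ≠ 0 := by
    intro h
    have : ((2 : ℕ) : ZMod p) = 0 := by exact_mod_cast h
    rw [ZMod.natCast_eq_zero_iff] at this
    exact hp ((Nat.prime_dvd_prime_iff_eq Fact.out Nat.prime_two).1 this)
  have h4 : (4 : ZMod p) ≠ 0 := by
    have : (4 : ZMod p) = 2 * 2 := by norm_num
    rw [this]
    exact mul_ne_zero h2 h2
  rw [← sum_sq hp ht, Finset.mul_sum]
  refine Fintype.sum_equiv (Equiv.addRight (k * (2 * t)⁻¹)) _ _ fun x => ?_
  rw [← AddChar.map_add_eq_mul, ← AddChar.map_add_eq_mul]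
  congr 1
  simp only [Equiv.coe_addRight]
  field_simp
  ring

/-- the two-dimensional character sum modulo a prime -/
theorem sum_two_prime (hp : p ≠ 2) (k l : ZMod p) :
    ∑ x : ZMod p, ∑ y : ZMod p, qc p (x ^ 2 + y ^ 2) *
      (ZMod.stdAddChar (x * k) * ZMod.stdAddChar (y * l)) = p * qc p (k ^ 2 + l ^ 2) := by
  have h2 : (2 : ZMod p) ≠ 0 := by
    intro h
    have : ((2 : ℕ) : ZMod p) = 0 := by exact_mod_cast h
    rw [ZMod.natCast_eq_zero_iff] at this
    exact hp ((Nat.prime_dvd_prime_iff_eq Fact.out Nat.prime_two).1 this)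
  have h4 : (4 : ZMod p) ≠ 0 := by
    have : (4 : ZMod p) = 2 * 2 := by norm_num
    rw [this]
    exact mul_ne_zero h2 h2
  have hg := gs_ne_zero hp
  have key : (∑ x : ZMod p, ∑ y : ZMod p, qc p (x ^ 2 + y ^ 2) *
      (ZMod.stdAddChar (x * k) * ZMod.stdAddChar (y * l))) * gs p =
      (p * qc p (k ^ 2 + l ^ 2)) * gs p := by
    calc (∑ x : ZMod p, ∑ y : ZMod p, qc p (x ^ 2 + y ^ 2) *
      (ZMod.stdAddChar (x * k) * ZMod.stdAddChar (y * l))) * gs p
        = ∑ x : ZMod p, ∑ y : ZMod p, ∑ t : ZMod p, qc p t *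
          ((ZMod.stdAddChar (t * x ^ 2) * ZMod.stdAddChar (x * k)) *
            (ZMod.stdAddChar (t * y ^ 2) * ZMod.stdAddChar (y * l))) := by
          rw [Finset.sum_mul]
          refine Finset.sum_congr rfl fun x _ => ?_
          rw [Finset.sum_mul]
          refine Finset.sum_congr rfl fun y _ => ?_
          rw [mul_right_comm, ← sum_qc_mul hp, Finset.sum_mul]
          refine Finset.sum_congr rfl fun t _ => ?_
          rw [mul_add, AddChar.map_add_eq_mul]
          ring
      _ = ∑ t : ZMod p, qc p t *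
          ((∑ x : ZMod p, (ZMod.stdAddChar (t * x ^ 2) * ZMod.stdAddChar (x * k) : ℂ)) *
            (∑ y : ZMod p, (ZMod.stdAddChar (t * y ^ 2) * ZMod.stdAddChar (y * l) : ℂ))) := by
          simp_rw [Finset.sum_mul_sum, Finset.mul_sum]
          calc _ = ∑ x : ZMod p, ∑ t : ZMod p, ∑ y : ZMod p, qc p t *
              ((ZMod.stdAddChar (t * x ^ 2) * ZMod.stdAddChar (x * k)) *
              (ZMod.stdAddChar (t * y ^ 2) * ZMod.stdAddChar (y * l))) :=
                Finset.sum_congr rfl fun x _ => Finset.sum_comm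
            _ = _ := Finset.sum_comm
      _ = ∑ t : ZMod p, (qc p (-1) * gs p ^ 2) * (qc p (-(4 * t)⁻¹) *
            ZMod.stdAddChar (-(4 * t)⁻¹ * (k ^ 2 + l ^ 2))) := by
          refine Finset.sum_congr rfl fun t _ => ?_
          by_cases ht : t = 0
          · subst ht
            simp [qc_zero]
          · rw [sum_sq_lin hp ht, sum_sq_lin hp ht, mul_add (-(4 * t)⁻¹), AddChar.map_add_eq_mul]
            have e1 : qc p t * qc p t = 1 := by
              rw [← map_mul, ← sq, qc_apply, quadraticChar_sq_one' ht]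
              simp
            have e2 : qc p (-(4 * t)⁻¹) = qc p (-1) * qc p t := by
              have e3 : -(4 * t)⁻¹ = (-1) * t * ((2 * t)⁻¹) ^ 2 := by
                field_simp
                norm_num
              rw [e3, map_mul, map_mul]
              have e4 : qc p ((2 * t)⁻¹ ^ 2) = 1 := by
                rw [qc_apply, quadraticChar_sq_one' (inv_ne_zero (mul_ne_zero h2 ht))]
                simp
              rw [e4, mul_one]
            rw [e2]
            have e5 := qc_neg_one_sq (p := p)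
            calc qc p t * (ZMod.stdAddChar (-(4 * t)⁻¹ * k ^ 2) * (qc p t * gs p) *
                (ZMod.stdAddChar (-(4 * t)⁻¹ * l ^ 2) * (qc p t * gs p)))
                = (qc p t * qc p t) * (gs p ^ 2 * (qc p t * (ZMod.stdAddChar (-(4 * t)⁻¹ * k ^ 2) *
                ZMod.stdAddChar (-(4 * t)⁻¹ * l ^ 2)))) := by ring
              _ = (qc p (-1) * qc p (-1)) * (gs p ^ 2 *
                  (qc p t * (ZMod.stdAddChar (-(4 * t)⁻¹ * k ^ 2) *
                ZMod.stdAddChar (-(4 * t)⁻¹ * l ^ 2)))) := by rw [e1, e5]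
              _ = _ := by ring
      _ = (qc p (-1) * gs p ^ 2) * ∑ s : ZMod p, qc p s *
            ZMod.stdAddChar (s * (k ^ 2 + l ^ 2)) := by
          rw [← Finset.mul_sum]
          congr 1
          refine Fintype.sum_bijective (fun t : ZMod p => -(4 * t)⁻¹) ?_ _ _ fun t => rfl
          apply Function.Involutive.bijective
          intro t
          by_cases ht : t = 0
          · simp [ht]
          · field_simp
      _ = _ := by
          rw [sum_qc_mul hp, gs_sq hp]
          calc qc p (-1) * (qc p (-1) * p) * (qc p (k ^ 2 + l ^ 2) * gs p)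
              = (qc p (-1) * qc p (-1)) * (p * qc p (k ^ 2 + l ^ 2) * gs p) := by ring
            _ = _ := by rw [qc_neg_one_sq, one_mul]
  exact mul_right_cancel₀ hg key

end prime

end P004
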