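import Vale.Agent.P004.C2

/-!
# Module C, part 3: multiplicativity of the finite character sums
-/

open Real MeasureTheory Set
open scoped ENNReal

namespace P004

section crt

variable (A B : ℕ) [NeZero A] [NeZero B]

/-- the CRT parametrisation -/
def crtMap (x : ZMod A × ZMod B) : ZMod (A * B) := ((B * x.1.val + A * x.2.val : ℕ) : ZMod (A * B))

theorem crtMap_fst (x : ZMod A × ZMod B) :
    ZMod.castHom (dvd_mul_right A B) (ZMod A) (crtMap A B x) = B * x.1 := by
  unfold crtMap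
  rw [map_natCast]
  push_cast
  simp

theorem crtMap_snd (x : ZMod A × ZMod B) :
    ZMod.castHom (dvd_mul_left B A) (ZMod B) (crtMap A B x) = A * x.2 := by
  unfold crtMap
  rw [map_natCast]
  push_cast
  simp

theorem crtMap_bij (h : Nat.Coprime A B) : Function.Bijective (crtMap A B) := by
  rw [Fintype.bijective_iff_injective_and_card]
  constructor
  · rintro ⟨a, b⟩ ⟨a', b'⟩ hh
    have h1 : (B : ZMod A) * a = B * a' := by
      rw [← crtMap_fst A B (a, b), hh, crtMap_fst A B (a', b')]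
    have h2 : (A : ZMod B) * b = A * b' := by
      rw [← crtMap_snd A B (a, b), hh, crtMap_snd A B (a', b')]
    have u1 : IsUnit (B : ZMod A) := (ZMod.isUnit_iff_coprime B A).2 h.symm
    have u2 : IsUnit (A : ZMod B) := (ZMod.isUnit_iff_coprime A B).2 h
    ext
    · exact u1.mul_left_cancel h1
    · exact u2.mul_left_cancel h2
  · rw [Fintype.card_prod, ZMod.card, ZMod.card, ZMod.card]

theorem crt_sum (h : Nat.Coprime A B) (F : ZMod (A * B) → ℂ) :
    ∑ a, F a = ∑ β : ZMod A, ∑ γ : ZMod B, F (crtMap A B (β, γ)) := by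
  rw [← Fintype.sum_prod_type' (f := fun β γ => F (crtMap A B (β, γ)))]
  exact ((crtMap_bij A B h).sum_comp F).symm

theorem stdAddChar_crt (x : ZMod A × ZMod B) (k : ℤ) :
    (ZMod.stdAddChar (crtMap A B x * (k : ZMod (A * B))) : ℂ) =
      ZMod.stdAddChar (x.1 * (k : ZMod A)) * ZMod.stdAddChar (x.2 * (k : ZMod B)) := by
  have hA : (A : ℂ) ≠ 0 := by exact_mod_cast NeZero.ne A
  have hB : (B : ℂ) ≠ 0 := by exact_mod_cast NeZero.ne B
  have h1 : crtMap A B x * (k : ZMod (A * B)) =
      (((B * x.1.val + A * x.2.val : ℕ) * k : ℤ) : ZMod (A * B)) := by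
    unfold crtMap
    push_cast
    ring
  have h2 : x.1 * (k : ZMod A) = (((x.1.val : ℤ) * k : ℤ) : ZMod A) := by
    push_cast
    simp
  have h3 : x.2 * (k : ZMod B) = (((x.2.val : ℤ) * k : ℤ) : ZMod B) := by
    push_cast
    simp
  rw [h1, h2, h3, ZMod.stdAddChar_coe, ZMod.stdAddChar_coe, ZMod.stdAddChar_coe,
    ← Complex.exp_add]
  congr 1
  push_cast
  field_simp

theorem dft2_crt (h : Nat.Coprime A B) (f : ZMod (A * B) → ZMod (A * B) → ℂ)
    (fA : ZMod A → ZMod A → ℂ) (fB : ZMod B → ZMod B → ℂ)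
    (hf : ∀ x y : ZMod A × ZMod B, f (crtMap A B x) (crtMap A B y) = fA x.1 y.1 * fB x.2 y.2)
    (k l : ℤ) : dft2 (A * B) f k l = dft2 A fA k l * dft2 B fB k l := by
  unfold dft2 dft1
  rw [crt_sum A B h]
  have h1 : ∀ (β : ZMod A) (γ : ZMod B),
      (∑ b : ZMod (A * B), f (crtMap A B (β, γ)) b * ZMod.stdAddChar (b * (l : ZMod (A * B)))) *
        ZMod.stdAddChar (crtMap A B (β, γ) * (k : ZMod (A * B))) =
      ((∑ b : ZMod A, fA β b * ZMod.stdAddChar (b * (l : ZMod A))) *
        ZMod.stdAddChar (β * (k : ZMod A))) *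
      ((∑ b : ZMod B, fB γ b * ZMod.stdAddChar (b * (l : ZMod B))) *
        ZMod.stdAddChar (γ * (k : ZMod B))) := by
    intro β γ
    rw [crt_sum A B h, stdAddChar_crt]
    have h2 : ∑ β' : ZMod A, ∑ γ' : ZMod B, f (crtMap A B (β, γ)) (crtMap A B (β', γ')) *
        ZMod.stdAddChar (crtMap A B (β', γ') * (l : ZMod (A * B))) =
        (∑ b : ZMod A, fA β b * ZMod.stdAddChar (b * (l : ZMod A))) *
        (∑ b : ZMod B, fB γ b * ZMod.stdAddChar (b * (l : ZMod B))) := by
      rw [Finset.sum_mul_sum]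
      refine Finset.sum_congr rfl fun β' _ => Finset.sum_congr rfl fun γ' _ => ?_
      rw [hf, stdAddChar_crt]
      ring
    rw [h2]
    ring
  simp_rw [h1]
  rw [Finset.sum_mul_sum]

end crt

/-! ### the quadratic form modulo an odd squarefree number -/

/-- `((x² + y²) / n)` -/
noncomputable def eta (n : ℕ) (x y : ZMod n) : ℂ := (jacobiSym ((x.val : ℤ) ^ 2 + (y.val : ℤ) ^ 2) n : ℂ)

theorem jac_congr {n : ℕ} {a b : ℤ} (h : (a : ZMod n) = (b : ZMod n)) :
    jacobiSym a n = jacobiSym b n := by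
  apply jacobiSym.mod_left'
  exact (ZMod.intCast_eq_intCast_iff a b n).1 h

theorem eta_int {n : ℕ} [NeZero n] (x y : ℤ) :
    eta n (x : ZMod n) (y : ZMod n) = (jacobiSym (x ^ 2 + y ^ 2) n : ℂ) := by
  unfold eta
  congr 1
  apply jac_congr
  push_cast
  simp

theorem eta_eq {n : ℕ} [NeZero n] (x y : ZMod n) (a b : ℤ) (hx : (a : ZMod n) = x)
    (hy : (b : ZMod n) = y) : eta n x y = (jacobiSym (a ^ 2 + b ^ 2) n : ℂ) := by
  subst hx hy
  exact eta_int a b

/-- scaling by a unit -/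
theorem eta_smul {n : ℕ} [NeZero n] (c : ℕ) (hc : Nat.Coprime c n) (x y : ZMod n) :
    eta n (c * x) (c * y) = eta n x y := by
  rw [eta_eq ((c : ZMod n) * x) ((c : ZMod n) * y) ((c : ℤ) * x.val) ((c : ℤ) * y.val)
    (by push_cast; simp) (by push_cast; simp)]
  unfold eta
  congr 1
  have h1 : ((c : ℤ) * x.val) ^ 2 + (c * y.val) ^ 2 = (c : ℤ) ^ 2 * ((x.val : ℤ) ^ 2 + y.val ^ 2) := by
    ring
  rw [h1, jacobiSym.mul_left, jacobiSym.sq_one', one_mul]
  rw [Int.gcd_natCast_natCast]
  exact hc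

theorem eta_crt {A B : ℕ} [NeZero A] [NeZero B] (h : Nat.Coprime A B) (x y : ZMod A × ZMod B) :
    eta (A * B) (crtMap A B x) (crtMap A B y) = eta A x.1 y.1 * eta B x.2 y.2 := by
  have h1 : eta (A * B) (crtMap A B x) (crtMap A B y) =
      (jacobiSym (((crtMap A B x).val : ℤ) ^ 2 + ((crtMap A B y).val : ℤ) ^ 2) A : ℂ) *
      (jacobiSym (((crtMap A B x).val : ℤ) ^ 2 + ((crtMap A B y).val : ℤ) ^ 2) B : ℂ) := by
    unfold eta
    rw [jacobiSym.mul_right]
    push_cast
    ring
  rw [h1]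
  congr 1
  · rw [← eta_smul B h.symm x.1 y.1]
    refine (eta_eq _ _ _ _ ?_ ?_).symm
    · rw [← crtMap_fst A B x]
      simp
    · rw [← crtMap_fst A B y]
      simp
  · rw [← eta_smul A h x.2 y.2]
    refine (eta_eq _ _ _ _ ?_ ?_).symm
    · rw [← crtMap_snd A B x]
      simp
    · rw [← crtMap_snd A B y]
      simp

theorem dft2_eta_prime (p : ℕ) [Fact p.Prime] (hp : p ≠ 2) (k l : ℤ) :
    dft2 p (eta p) k l = p * (jacobiSym (k ^ 2 + l ^ 2) p : ℂ) := by
  have h1 := sum_two_prime hp (k : ZMod p) (l : ZMod p)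
  have h2 : ∀ x y : ZMod p, eta p x y = qc p (x ^ 2 + y ^ 2) := by
    intro x y
    unfold eta
    rw [← jacobiSym.legendreSym.to_jacobiSym, legendreSym, qc_apply]
    congr 2
    push_cast
    simp
  have h3 : qc p ((k : ZMod p) ^ 2 + (l : ZMod p) ^ 2) = (jacobiSym (k ^ 2 + l ^ 2) p : ℂ) := by
    rw [← jacobiSym.legendreSym.to_jacobiSym, legendreSym, qc_apply]
    push_cast
    rfl
  rw [← h3, ← h1]
  unfold dft2 dft1
  refine Finset.sum_congr rfl fun x _ => ?_
  rw [Finset.sum_mul]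
  refine Finset.sum_congr rfl fun y _ => ?_
  rw [h2]
  ring

theorem dft2_eta (n : ℕ) [NeZero n] (hodd : Odd n) (hsq : Squarefree n) (k l : ℤ) :
    dft2 n (eta n) k l = n * (jacobiSym (k ^ 2 + l ^ 2) n : ℂ) := by
  suffices H : ∀ n : ℕ, ∀ (_ : NeZero n), Odd n → Squarefree n → ∀ k l : ℤ,
      dft2 n (eta n) k l = n * (jacobiSym (k ^ 2 + l ^ 2) n : ℂ) from H n _ hodd hsq k l
  intro n
  induction n using Nat.recOnPosPrimePosCoprime with
  | zero => intro h; exact absurd rfl h.out
  | one =>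
    intro _ _ _ k l
    unfold dft2 dft1 eta
    simp only [jacobiSym.one_right]
    have : (Finset.univ : Finset (ZMod 1)) = {0} := by
      ext x
      simp only [Finset.mem_univ, Finset.mem_singleton, true_iff]
      exact Subsingleton.elim x 0
    rw [this]
    simp
  | prime_pow p e hp he =>
    intro hne hodd hsq k l
    have he1 : e = 1 := by
      by_contra hne1
      have h2 : 2 ≤ e := by omega
      have h3 : p * p ∣ p ^ e := by
        rw [← sq]
        exact pow_dvd_pow p h2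
      have := hsq p h3
      exact hp.one_lt.ne' (Nat.isUnit_iff.1 this)
    subst he1
    have : Fact p.Prime := ⟨hp⟩
    have hp2 : p ≠ 2 := by
      rintro rfl
      simp at hodd
      exact absurd hodd (by decide)
    have h4 := dft2_eta_prime p hp2 k l
    have h5 : p ^ 1 = p := pow_one p
    -- transport along `p ^ 1 = p`
    revert hne
    rw [h5]
    intro hne
    convert h4
  | coprime a b ha hb hab iha ihb =>
    intro hne hodd hsq k l
    have : NeZero a := ⟨by omega⟩
    have : NeZero b := ⟨by omega⟩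
    have hoa : Odd a := (Nat.odd_mul.1 hodd).1
    have hob : Odd b := (Nat.odd_mul.1 hodd).2
    have hsa : Squarefree a := hsq.of_mul_left
    have hsb : Squarefree b := hsq.of_mul_right
    have h1 := dft2_crt a b hab (eta (a * b)) (eta a) (eta b) (eta_crt hab) k l
    have h2 : dft2 (a * b) (eta (a * b)) k l =
        (a * b : ℕ) * (jacobiSym (k ^ 2 + l ^ 2) (a * b) : ℂ) := by
      rw [h1, iha _ hoa hsa, ihb _ hob hsb, jacobiSym.mul_right]
      push_cast
      ring
    convert h2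

end P004
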