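import Vale.Agent.P004.C3

/-!
# Module C, part 4: `theta` as a lattice sum
-/

open Real MeasureTheory Set
open scoped ENNReal

namespace P004

/-- the primary condition -/
def Prim (p : ℤ × ℤ) : Prop := p.2 % 2 = 0 ∧ (p.1 + p.2) % 4 = 1

instance (p : ℤ × ℤ) : Decidable (Prim p) := by unfold Prim; infer_instance

/-- norm of a lattice point -/
def nm (p : ℤ × ℤ) : ℕ := p.1.natAbs ^ 2 + p.2.natAbs ^ 2

theorem nm_cast (p : ℤ × ℤ) : ((nm p : ℕ) : ℤ) = p.1 ^ 2 + p.2 ^ 2 := by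
  unfold nm; push_cast; simp

theorem nm_castR (p : ℤ × ℤ) : ((nm p : ℕ) : ℝ) = (p.1 : ℝ) ^ 2 + (p.2 : ℝ) ^ 2 := by
  have := nm_cast p
  exact_mod_cast this

theorem nm_mod_four {p : ℤ × ℤ} (hp : Prim p) : nm p % 4 = 1 := by
  obtain ⟨h1, h2⟩ := hp
  have h3 := nm_cast p
  have h4 : ((nm p : ℕ) : ℤ) % 4 = 1 := by
    rw [h3]
    have hx : p.1 % 4 = 1 ∧ p.2 % 4 = 0 ∨ p.1 % 4 = 3 ∧ p.2 % 4 = 2 := by omega
    rcases hx with ⟨ha, hb⟩ | ⟨ha, hb⟩ <;>
      simp [sq, Int.add_emod, Int.mul_emod, ha, hb]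
  omega

theorem summable_lattice {t : ℝ} (ht : 0 < t) (c : ℤ × ℤ → ℝ) (B : ℝ) (hc : ∀ p, |c p| ≤ B) :
    Summable (fun p : ℤ × ℤ => c p *
      ((p.1 : ℝ) * Real.exp (-π * ((p.1 : ℝ) ^ 2 + (p.2 : ℝ) ^ 2) * t))) := by
  have := summable_two ht (fun p => (c p : ℂ)) B (fun p => by
    rw [Complex.norm_real]; exact hc p)
  have h2 := this.norm
  refine Summable.of_norm ?_
  refine h2.congr ?_
  intro p
  rw [← Complex.ofReal_mul, Complex.norm_real]

theorem abs_chi_le (m : ℤ) (n : ℕ) : |chi m n| ≤ 1 := by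
  unfold chi
  rcases jacobiSym.trichotomy m n with h | h | h <;> rw [h] <;> norm_num

/-- `theta` as a lattice sum over primary elements -/
theorem theta_lattice (m : ℤ) {u : ℝ} (hu : 0 < u) :
    theta m u = 4 * ∑' p : ℤ × ℤ, ((if Prim p then 1 else 0) * chi m (nm p)) *
      ((p.1 : ℝ) * Real.exp (-π * ((p.1 : ℝ) ^ 2 + (p.2 : ℝ) ^ 2) * u)) := by
  unfold theta
  congr 1
  have hs := summable_lattice hu (fun p => (if Prim p then 1 else 0) * chi m (nm p)) 1 (by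
    intro p
    split_ifs
    · rw [one_mul]; exact abs_chi_le m _
    · simp)
  have h1 := hs.hasSum.tsum_fiberwise nm
  rw [← h1.tsum_eq]
  refine tsum_congr fun n => ?_
  -- the fibre
  rw [tsum_subtype (nm ⁻¹' {n}) (fun p : ℤ × ℤ => ((if Prim p then 1 else 0) * chi m (nm p)) *
      ((p.1 : ℝ) * Real.exp (-π * ((p.1 : ℝ) ^ 2 + (p.2 : ℝ) ^ 2) * u)))]
  have h2 : ∀ p : ℤ × ℤ, (nm ⁻¹' {n}).indicator (fun p : ℤ × ℤ =>
      ((if Prim p then 1 else 0) * chi m (nm p)) *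
      ((p.1 : ℝ) * Real.exp (-π * ((p.1 : ℝ) ^ 2 + (p.2 : ℝ) ^ 2) * u))) p =
      (if p.1 ^ 2 + p.2 ^ 2 = (n : ℤ) ∧ p.2 % 2 = 0 ∧ (p.1 + p.2) % 4 = 1 then (p.1 : ℝ) else 0) *
        (chi m n * Real.exp (-π * n * u)) := by
    intro p
    by_cases h : nm p = n
    · rw [Set.indicator_of_mem (by simpa using h)]
      have h3 : p.1 ^ 2 + p.2 ^ 2 = (n : ℤ) := by rw [← h, nm_cast]
      have h4 : (p.1 : ℝ) ^ 2 + (p.2 : ℝ) ^ 2 = n := by rw [← h, nm_castR]
      rw [h4, h]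
      by_cases h5 : Prim p
      · rw [if_pos h5, if_pos ⟨h3, h5⟩]
        ring
      · rw [if_neg h5, if_neg (fun h6 => h5 h6.2)]
        ring
    · rw [Set.indicator_of_notMem (by simpa using h), if_neg, zero_mul]
      rintro ⟨h3, -⟩
      apply h
      have := nm_cast p
      rw [h3] at this
      exact_mod_cast this
  rw [tsum_congr h2, tsum_mul_right]
  have h3 : ∑' p : ℤ × ℤ, (if p.1 ^ 2 + p.2 ^ 2 = (n : ℤ) ∧ p.2 % 2 = 0 ∧ (p.1 + p.2) % 4 = 1
      then (p.1 : ℝ) else 0) = ca n := by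
    rw [tsum_eq_sum (s := Finset.Icc (-(n : ℤ)) n ×ˢ Finset.Icc (-(n : ℤ)) n)]
    · rw [Finset.sum_product]
      unfold ca
      push_cast
      refine Finset.sum_congr rfl fun x _ => Finset.sum_congr rfl fun y _ => ?_
      split_ifs <;> simp
    · intro p hp
      rw [if_neg]
      rintro ⟨h4, -⟩
      apply hp
      rw [Finset.mem_product, Finset.mem_Icc, Finset.mem_Icc]
      have hx : |p.1| ≤ n := by
        have : |p.1| ≤ p.1 ^ 2 := by
          rw [← sq_abs]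
          nlinarith [abs_nonneg p.1, sq_nonneg (|p.1| - 1),
            show |p.1| = 0 ∨ 1 ≤ |p.1| by have := abs_nonneg p.1; omega]
        nlinarith [sq_nonneg p.2]
      have hy : |p.2| ≤ n := by
        have : |p.2| ≤ p.2 ^ 2 := by
          rw [← sq_abs]
          nlinarith [abs_nonneg p.2, sq_nonneg (|p.2| - 1),
            show |p.2| = 0 ∨ 1 ≤ |p.2| by have := abs_nonneg p.2; omega]
        nlinarith [sq_nonneg p.1]
      exact ⟨abs_le.1 hx, abs_le.1 hy⟩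
  rw [h3]
  ring

/-! ### the two-part -/

/-- `cos (π y / 2)` -/
def e0 : ZMod 4 → ℤ := ![1, 0, -1, 0]

/-- indicator of even residues -/
def e1 : ZMod 4 → ℤ := ![1, 0, 1, 0]

theorem prim_iff (x y : ℤ) : Prim (x, y) ↔ y % 2 = 0 ∧ (x + y) % 4 = 1 := Iff.rfl

theorem cast_mod4 (x : ℤ) : (x : ZMod 4) = ((x % 4 : ℤ) : ZMod 4) := by
  have := ZMod.intCast_mod x 4
  exact_mod_cast this.symm

theorem prim_antisymm (x y : ℤ) :
    ((if Prim (x, y) then 1 else 0 : ℤ) - (if Prim (-x, -y) then 1 else 0)) =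
      ZMod.χ₄ x * e0 y := by
  have hx : x % 4 = 0 ∨ x % 4 = 1 ∨ x % 4 = 2 ∨ x % 4 = 3 := by omega
  have hy : y % 4 = 0 ∨ y % 4 = 1 ∨ y % 4 = 2 ∨ y % 4 = 3 := by omega
  rw [cast_mod4 x, cast_mod4 y]
  rcases hx with h | h | h | h <;> rcases hy with h' | h' | h' | h' <;> rw [h, h'] <;>
    first
      | (rw [if_neg (by rw [prim_iff]; omega), if_neg (by rw [prim_iff]; omega)]; decide)
      | (rw [if_pos (by rw [prim_iff]; omega), if_neg (by rw [prim_iff]; omega)]; decide)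
      | (rw [if_neg (by rw [prim_iff]; omega), if_pos (by rw [prim_iff]; omega)]; decide)

theorem chi8_prim {x y : ℤ} {n : ℕ} (hn : (n : ℤ) = x ^ 2 + y ^ 2) :
    (ZMod.χ₄ x * e0 y) * ZMod.χ₈ n = ZMod.χ₄ x * e1 y := by
  have h8 : ((n : ℕ) : ZMod 8) = (x : ZMod 8) ^ 2 + (y : ZMod 8) ^ 2 := by
    have := congrArg (fun z : ℤ => (z : ZMod 8)) hn
    push_cast at this
    exact this
  rw [h8]
  have hx : (x : ZMod 4) = ZMod.castHom (show 4 ∣ 8 by norm_num) (ZMod 4) (x : ZMod 8) := by simp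
  have hy : (y : ZMod 4) = ZMod.castHom (show 4 ∣ 8 by norm_num) (ZMod 4) (y : ZMod 8) := by simp
  rw [hx, hy]
  generalize (x : ZMod 8) = a
  generalize (y : ZMod 8) = b
  revert a b
  decide

end P004
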