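import Vale.Agent.P004.C4

/-!
# Module C, part 5: symmetric form of `theta` and the transform of the two-part
-/

open Real MeasureTheory Set
open scoped ENNReal

namespace P004

/-- the Gaussian weight -/
noncomputable def gw (t : ℝ) (p : ℤ × ℤ) : ℝ :=
  (p.1 : ℝ) * Real.exp (-π * ((p.1 : ℝ) ^ 2 + (p.2 : ℝ) ^ 2) * t)

theorem gw_neg (t : ℝ) (p : ℤ × ℤ) : gw t (-p) = - gw t p := by
  unfold gw
  simp

/-- `((x² + y²)/n)` on the lattice -/
def jn (n : ℕ) (p : ℤ × ℤ) : ℤ := jacobiSym (p.1 ^ 2 + p.2 ^ 2) n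

theorem abs_jn (n : ℕ) (p : ℤ × ℤ) : |((jn n p : ℤ) : ℝ)| ≤ 1 := by
  unfold jn
  rcases jacobiSym.trichotomy (p.1 ^ 2 + p.2 ^ 2) n with h | h | h <;> rw [h] <;> norm_num

theorem nm_neg (p : ℤ × ℤ) : nm (-p) = nm p := by unfold nm; simp

theorem coef_even_odd (n : ℕ) (hn : Odd n) (p : ℤ × ℤ) :
    ((if Prim p then 1 else 0) * chi n (nm p) - (if Prim (-p) then 1 else 0) * chi n (nm (-p))) =
      ((ZMod.χ₄ p.1 * e0 p.2 * jn n p : ℤ) : ℝ) ∧
    ((if Prim p then 1 else 0) * chi (2 * n : ℕ) (nm p) -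
      (if Prim (-p) then 1 else 0) * chi (2 * n : ℕ) (nm (-p))) =
      ((ZMod.χ₄ p.1 * e1 p.2 * jn n p : ℤ) : ℝ) := by
  obtain ⟨x, y⟩ := p
  have hanti := prim_antisymm x y
  have h8 := chi8_prim (nm_cast (x, y))
  simp only at h8
  rw [nm_neg]
  have hneg : (-(x, y) : ℤ × ℤ) = (-x, -y) := rfl
  rw [hneg]
  by_cases hP : Prim (x, y) ∨ Prim (-x, -y)
  · have h4 : nm (x, y) % 4 = 1 := by
      rcases hP with h | h
      · exact nm_mod_four h
      · have := nm_mod_four h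
        rwa [← hneg, nm_neg] at this
    have hodd : Odd (nm (x, y)) := Nat.odd_iff.2 (by omega)
    have hrec : jacobiSym (n : ℤ) (nm (x, y)) = jn n (x, y) := by
      unfold jn
      rw [← nm_cast]
      exact (jacobiSym.quadratic_reciprocity_one_mod_four h4 hn).symm
    have hc1 : chi n (nm (x, y)) = (jn n (x, y) : ℝ) := by
      unfold chi; rw [hrec]
    have hc2 : chi (2 * n : ℕ) (nm (x, y)) = ((ZMod.χ₈ (nm (x, y)) * jn n (x, y) : ℤ) : ℝ) := by
      unfold chi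
      push_cast
      rw [jacobiSym.mul_left, hrec, jacobiSym.at_two hodd]
      push_cast
      ring
    constructor
    · rw [hc1, ← hanti]
      push_cast
      ring
    · rw [hc2]
      have h9 : ZMod.χ₄ x * e1 y = ((if Prim (x, y) then 1 else 0 : ℤ) -
          (if Prim (-x, -y) then 1 else 0)) * ZMod.χ₈ (nm (x, y)) := by
        rw [hanti, h8]
      simp only
      rw [h9]
      push_cast
      ring
  · push Not at hP
    rw [if_neg hP.1, if_neg hP.2] at hanti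
    have h9 : ZMod.χ₄ x * e0 y = 0 := by rw [← hanti]; norm_num
    rw [h9, zero_mul] at h8
    rw [if_neg hP.1, if_neg hP.2]
    simp only
    rw [h9, ← h8]
    constructor <;> push_cast <;> ring

theorem theta_sym_aux (m : ℤ) (c : ℤ × ℤ → ℤ) {u : ℝ} (hu : 0 < u)
    (h : ∀ p : ℤ × ℤ, ((if Prim p then 1 else 0) * chi m (nm p) -
      (if Prim (-p) then 1 else 0) * chi m (nm (-p))) = (c p : ℝ)) :
    theta m u = 2 * ∑' p : ℤ × ℤ, (c p : ℝ) * gw u p := by
  have hb : ∀ p : ℤ × ℤ, |(if Prim p then 1 else 0) * chi m (nm p)| ≤ 1 := by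
    intro p
    split_ifs
    · rw [one_mul]; exact abs_chi_le m _
    · simp
  have hs : Summable fun p => ((if Prim p then 1 else 0) * chi m (nm p)) * gw u p :=
    summable_lattice hu (fun p => (if Prim p then 1 else 0) * chi m (nm p)) 1 hb
  have hs2 : Summable fun p => ((if Prim (-p) then 1 else 0) * chi m (nm (-p))) * gw u p :=
    summable_lattice hu (fun p => (if Prim (-p) then 1 else 0) * chi m (nm (-p))) 1
    (fun p => hb (-p))
  rw [theta_lattice m hu]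
  have h1 : ∑' p : ℤ × ℤ, ((if Prim p then 1 else 0) * chi m (nm p)) * gw u p =
      - ∑' p : ℤ × ℤ, ((if Prim (-p) then 1 else 0) * chi m (nm (-p))) * gw u p := by
    rw [← tsum_neg, ← (Equiv.neg (ℤ × ℤ)).tsum_eq]
    refine tsum_congr fun p => ?_
    simp only [Equiv.neg_apply]
    rw [gw_neg]
    ring
  have h2 : ∑' p : ℤ × ℤ, (c p : ℝ) * gw u p =
      ∑' p : ℤ × ℤ, ((if Prim p then 1 else 0) * chi m (nm p)) * gw u p -
      ∑' p : ℤ × ℤ, ((if Prim (-p) then 1 else 0) * chi m (nm (-p))) * gw u p := by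
    rw [← hs.tsum_sub hs2]
    refine tsum_congr fun p => ?_
    rw [← h p]
    ring
  rw [h2]
  have h3 : ∑' p : ℤ × ℤ, ((if Prim p then 1 else 0) * chi m (nm p)) *
      ((p.1 : ℝ) * Real.exp (-π * ((p.1 : ℝ) ^ 2 + (p.2 : ℝ) ^ 2) * u)) =
      ∑' p : ℤ × ℤ, ((if Prim p then 1 else 0) * chi m (nm p)) * gw u p := rfl
  rw [h3]
  linarith

theorem theta_sym_odd (n : ℕ) (hn : Odd n) {u : ℝ} (hu : 0 < u) :
    theta n u = 2 * ∑' p : ℤ × ℤ, ((ZMod.χ₄ p.1 * e0 p.2 * jn n p : ℤ) : ℝ) * gw u p :=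
  theta_sym_aux _ _ hu (fun p => (coef_even_odd n hn p).1)

theorem theta_sym_even (n : ℕ) (hn : Odd n) {u : ℝ} (hu : 0 < u) :
    theta (2 * n : ℕ) u = 2 * ∑' p : ℤ × ℤ, ((ZMod.χ₄ p.1 * e1 p.2 * jn n p : ℤ) : ℝ) * gw u p :=
  theta_sym_aux _ _ hu (fun p => (coef_even_odd n hn p).2)

/-! ### the transform of the two-part -/

theorem stdAddChar_four_nat (j : ℕ) :
    (ZMod.stdAddChar ((j : ℕ) : ZMod 4) : ℂ) = Complex.I ^ j := by
  have h1 : Complex.exp (2 * π * Complex.I / 4) = Complex.I := by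
    have : 2 * (π : ℂ) * Complex.I / 4 = (π / 2 : ℂ) * Complex.I := by ring
    rw [this, Complex.exp_mul_I, Complex.cos_pi_div_two, Complex.sin_pi_div_two]
    simp
  have h3 := ZMod.stdAddChar_coe (N := 4) (j : ℤ)
  have h4 : (((j : ℤ) : ZMod 4)) = ((j : ℕ) : ZMod 4) := by push_cast; rfl
  rw [h4] at h3
  calc (ZMod.stdAddChar ((j : ℕ) : ZMod 4) : ℂ) = _ := h3
    _ = Complex.exp (j * (2 * π * Complex.I / 4)) := by
        congr 1
        push_cast
        ring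
    _ = _ := by rw [Complex.exp_nat_mul, h1]

theorem sac0 : (ZMod.stdAddChar (0 : ZMod 4) : ℂ) = 1 := by simp

theorem sac1 : (ZMod.stdAddChar (1 : ZMod 4) : ℂ) = Complex.I := by
  have := stdAddChar_four_nat 1
  rw [pow_one] at this
  exact_mod_cast this

theorem sac2 : (ZMod.stdAddChar (2 : ZMod 4) : ℂ) = -1 := by
  have := stdAddChar_four_nat 2
  rw [Complex.I_sq] at this
  exact_mod_cast this

theorem sac3 : (ZMod.stdAddChar (3 : ZMod 4) : ℂ) = -Complex.I := by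
  have := stdAddChar_four_nat 3
  rw [Complex.I_pow_three] at this
  exact_mod_cast this

theorem sum4 (F : ZMod 4 → ℂ) : ∑ a : ZMod 4, F a = F 0 + F 1 + F 2 + F 3 :=
  Fin.sum_univ_four F

theorem cases4 (k : ZMod 4) : k = 0 ∨ k = 1 ∨ k = 2 ∨ k = 3 := by
  revert k; decide

theorem m22 : (2 : ZMod 4) * 2 = 0 := by decide
theorem m23 : (2 : ZMod 4) * 3 = 2 := by decide
theorem m32 : (3 : ZMod 4) * 2 = 2 := by decide
theorem m33 : (3 : ZMod 4) * 3 = 1 := by decide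
theorem c40 : ZMod.χ₄ 0 = 0 := by decide
theorem c41 : ZMod.χ₄ 1 = 1 := by decide
theorem c42 : ZMod.χ₄ 2 = 0 := by decide
theorem c43 : ZMod.χ₄ 3 = -1 := by decide
theorem e00 : e0 0 = 1 := rfl
theorem e01 : e0 1 = 0 := rfl
theorem e02 : e0 2 = -1 := rfl
theorem e03 : e0 3 = 0 := rfl
theorem e10 : e1 0 = 1 := rfl
theorem e11 : e1 1 = 0 := rfl
theorem e12 : e1 2 = 1 := rfl
theorem e13 : e1 3 = 0 := rfl

theorem dft_chi4 (k : ZMod 4) :
    ∑ a : ZMod 4, ((ZMod.χ₄ a : ℤ) : ℂ) * (ZMod.stdAddChar (a * k) : ℂ) =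
      2 * Complex.I * ((ZMod.χ₄ k : ℤ) : ℂ) := by
  rw [sum4]
  rcases cases4 k with rfl | rfl | rfl | rfl <;>
    simp only [zero_mul, one_mul, mul_one, mul_zero, m22, m23, m32, m33, c40, c41, c42, c43,
      sac0, sac1, sac2, sac3] <;> push_cast <;> ring

theorem dft_e0 (k : ZMod 4) :
    ∑ a : ZMod 4, ((e0 a : ℤ) : ℂ) * (ZMod.stdAddChar (a * k) : ℂ) =
      2 * (1 - ((e1 k : ℤ) : ℂ)) := by
  rw [sum4]
  rcases cases4 k with rfl | rfl | rfl | rfl <;>
    simp only [zero_mul, one_mul, mul_one, mul_zero, m22, m23, m32, m33, e00, e01, e02, e03,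
      e10, e11, e12, e13, sac0, sac1, sac2, sac3] <;> push_cast <;> ring

theorem dft_e1 (k : ZMod 4) :
    ∑ a : ZMod 4, ((e1 a : ℤ) : ℂ) * (ZMod.stdAddChar (a * k) : ℂ) =
      2 * ((e1 k : ℤ) : ℂ) := by
  rw [sum4]
  rcases cases4 k with rfl | rfl | rfl | rfl <;>
    simp only [zero_mul, one_mul, mul_one, mul_zero, m22, m23, m32, m33, e00, e01, e02, e03,
      e10, e11, e12, e13, sac0, sac1, sac2, sac3] <;> push_cast <;> ring

end P004
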