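import Vale.Agent.P004.C5

/-!
# Module C, part 6: the transform of the coefficient function
-/

open Real MeasureTheory Set
open scoped ENNReal

namespace P004

section

variable (n : ℕ) [NeZero n] (e : ZMod 4 → ℤ)

/-- coefficient function modulo `4 n` -/
noncomputable def cf (a b : ZMod (4 * n)) : ℂ :=
  ((ZMod.χ₄ (ZMod.castHom (dvd_mul_right 4 n) (ZMod 4) a) *
    e (ZMod.castHom (dvd_mul_right 4 n) (ZMod 4) b) : ℤ) : ℂ) *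
  eta n (ZMod.castHom (dvd_mul_left n 4) (ZMod n) a) (ZMod.castHom (dvd_mul_left n 4) (ZMod n) b)

theorem cf_int (p : ℤ × ℤ) : cf n e p.1 p.2 = ((ZMod.χ₄ p.1 * e p.2 * jn n p : ℤ) : ℂ) := by
  unfold cf jn
  have h4 : ∀ z : ℤ, ZMod.castHom (dvd_mul_right 4 n) (ZMod 4) (z : ZMod (4 * n)) = z :=
    fun z => map_intCast _ z
  have h5 : ∀ z : ℤ, ZMod.castHom (dvd_mul_left n 4) (ZMod n) (z : ZMod (4 * n)) = z :=
    fun z => map_intCast _ z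
  rw [h4, h4, h5, h5, eta_int]
  push_cast
  ring

omit [NeZero n] in
theorem odd_cases (hn : Odd n) : (n : ZMod 4) = 1 ∨ (n : ZMod 4) = 3 := by
  have h1 : n % 4 = 1 ∨ n % 4 = 3 := by
    rw [Nat.odd_iff] at hn; omega
  have h2 : (n : ZMod 4) = ((n % 4 : ℕ) : ZMod 4) := by simp
  rw [h2]
  rcases h1 with h | h <;> rw [h]
  · left; rfl
  · right; rfl

/-- the 2-part -/
noncomputable def fA (a b : ZMod 4) : ℂ := ((ZMod.χ₄ ((n : ZMod 4) * a) * e ((n : ZMod 4) * b) : ℤ) : ℂ)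

theorem cf_crt (hn : Odd n) (x y : ZMod 4 × ZMod n) :
    cf n e (crtMap 4 n x) (crtMap 4 n y) = fA n e x.1 y.1 * eta n x.2 y.2 := by
  unfold cf fA
  rw [crtMap_fst, crtMap_fst, crtMap_snd, crtMap_snd, eta_smul 4]
  exact (Nat.Coprime.pow_left 2 (Nat.coprime_two_left.2 hn) : Nat.Coprime (2 ^ 2) n)

theorem dft2_cf (hn : Odd n) (hsq : Squarefree n) (eh : ZMod 4 → ℂ)
    (he : ∀ b, e (3 * b) = e b)
    (heh : ∀ k : ZMod 4, ∑ a : ZMod 4, ((e a : ℤ) : ℂ) * (ZMod.stdAddChar (a * k) : ℂ) = eh k)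
    (k l : ℤ) :
    dft2 (4 * n) (cf n e) k l = ((ZMod.χ₄ n : ℤ) : ℂ) * (2 * Complex.I * ((ZMod.χ₄ k : ℤ) : ℂ)) *
      eh l * (n * (jacobiSym (k ^ 2 + l ^ 2) n : ℂ)) := by
  have hc : Nat.Coprime 4 n := (Nat.Coprime.pow_left 2 (Nat.coprime_two_left.2 hn) :
    Nat.Coprime (2 ^ 2) n)
  rw [dft2_crt 4 n hc (cf n e) (fA n e) (eta n) (cf_crt n e hn), dft2_eta n hn hsq]
  congr 1
  unfold dft2 dft1 fA
  have h1 : ∀ a b : ZMod 4, ((ZMod.χ₄ ((n : ZMod 4) * a) * e ((n : ZMod 4) * b) : ℤ) : ℂ) =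
      ((ZMod.χ₄ n : ℤ) : ℂ) * (((ZMod.χ₄ a : ℤ) : ℂ) * ((e b : ℤ) : ℂ)) := by
    intro a b
    rw [map_mul]
    have : e ((n : ZMod 4) * b) = e b := by
      rcases odd_cases n hn with h | h
      · rw [h, one_mul]
      · rw [h, he]
    rw [this]
    push_cast
    ring
  simp_rw [h1]
  have h2 : ∀ a : ZMod 4, (∑ b : ZMod 4, ((ZMod.χ₄ n : ℤ) : ℂ) *
      (((ZMod.χ₄ a : ℤ) : ℂ) * ((e b : ℤ) : ℂ)) * (ZMod.stdAddChar (b * (l : ZMod 4)) : ℂ)) =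
      ((ZMod.χ₄ n : ℤ) : ℂ) * ((ZMod.χ₄ a : ℤ) : ℂ) * eh l := by
    intro a
    rw [← heh, Finset.mul_sum]
    refine Finset.sum_congr rfl fun b _ => ?_
    ring
  simp_rw [h2]
  have h3 : ∀ a : ZMod 4, ((ZMod.χ₄ n : ℤ) : ℂ) * ((ZMod.χ₄ a : ℤ) : ℂ) * eh l *
      (ZMod.stdAddChar (a * (k : ZMod 4)) : ℂ) = ((ZMod.χ₄ n : ℤ) : ℂ) * eh l *
      (((ZMod.χ₄ a : ℤ) : ℂ) * (ZMod.stdAddChar (a * (k : ZMod 4)) : ℂ)) := by
    intro a; ring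
  simp_rw [h3]
  rw [← Finset.mul_sum, dft_chi4]
  ring

/-- the transformed lattice sum -/
theorem lattice_poisson (hn : Odd n) (hsq : Squarefree n) (e' : ZMod 4 → ℤ)
    (he : ∀ b, e (3 * b) = e b)
    (heh : ∀ k : ZMod 4, ∑ a : ZMod 4, ((e a : ℤ) : ℂ) * (ZMod.stdAddChar (a * k) : ℂ) =
      2 * ((e' k : ℤ) : ℂ)) {u : ℝ} (hu : 0 < u) :
    ∑' p : ℤ × ℤ, ((ZMod.χ₄ p.1 * e p.2 * jn n p : ℤ) : ℝ) * gw u p =
      ((ZMod.χ₄ n : ℤ) : ℝ) / (16 * n ^ 2 * u ^ 2) *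
      ∑' p : ℤ × ℤ, ((ZMod.χ₄ p.1 * e' p.2 * jn n p : ℤ) : ℝ) * gw (1 / (16 * n ^ 2 * u)) p := by
  have hn0 : (n : ℂ) ≠ 0 := by exact_mod_cast NeZero.ne n
  have hu0 : (u : ℂ) ≠ 0 := by exact_mod_cast hu.ne'
  have h1 := poisson2 (4 * n) (cf n e) hu
  have h2 : ∀ p : ℤ × ℤ, dft2 (4 * n) (cf n e) p.1 p.2 *
      (((p.1 : ℝ) * Real.exp (-π * ((p.1 : ℝ) ^ 2 + (p.2 : ℝ) ^ 2) *
        (1 / (((4 * n : ℕ) : ℝ) ^ 2 * u))) : ℝ) : ℂ) =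
      (4 * Complex.I * n * ((ZMod.χ₄ n : ℤ) : ℂ)) *
      (((((ZMod.χ₄ p.1 * e' p.2 * jn n p : ℤ) : ℝ) * gw (1 / (16 * n ^ 2 * u)) p) : ℝ) : ℂ) := by
    intro p
    rw [dft2_cf n e hn hsq (fun k => 2 * ((e' k : ℤ) : ℂ)) he heh]
    unfold gw jn
    have e3 : (1 / (((4 * n : ℕ) : ℝ) ^ 2 * u)) = 1 / (16 * n ^ 2 * u) := by
      push_cast
      ring_nf
    rw [e3]
    push_cast
    ring
  have h3 : ∀ p : ℤ × ℤ, cf n e p.1 p.2 *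
      (((p.1 : ℝ) * Real.exp (-π * ((p.1 : ℝ) ^ 2 + (p.2 : ℝ) ^ 2) * u) : ℝ) : ℂ) =
      (((((ZMod.χ₄ p.1 * e p.2 * jn n p : ℤ) : ℝ) * gw u p) : ℝ) : ℂ) := by
    intro p
    rw [cf_int]
    unfold gw
    push_cast
    ring
  rw [tsum_congr h2, tsum_congr h3, tsum_mul_left] at h1
  rw [← Complex.ofReal_tsum, ← Complex.ofReal_tsum] at h1
  rw [← Complex.ofReal_inj, h1, ← mul_assoc]
  push_cast
  congr 1
  field_simp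
  have hI : Complex.I ^ 2 = -1 := Complex.I_sq
  ring_nf
  rw [hI]
  ring

end

end P004
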