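import Vale.Agent.P004.Iface

/-!
Module D, part 1: the sign of the quadratic Gauss sum of a prime `p ≡ 1 mod 4`, from the
behaviour of the theta function near `2/p`.
-/

open Real MeasureTheory Set Filter Topology
open Complex (I)

namespace P004

/-- The theta function on the right half plane. -/
noncomputable def Th (z : ℂ) : ℂ := jacobiTheta (I * z)

lemma Th_inv {z : ℂ} : Th z = (z ^ (1 / 2 : ℂ))⁻¹ * Th (1 / z) := by
  unfold Th
  rw [jacobiTheta_eq_jacobiTheta₂, jacobiTheta₂_functional_equation, jacobiTheta_eq_jacobiTheta₂]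
  have h1 : -I * (I * z) = z := by
    rw [← mul_assoc, neg_mul, Complex.I_mul_I, neg_neg, one_mul]
  have h2 : -1 / (I * z) = I * (1 / z) := by
    rcases eq_or_ne z 0 with rfl | hz
    · simp
    · field_simp
      rw [Complex.I_sq]
  rw [h1, h2]
  simp

lemma Th_tendsto {α : Type*} {l : Filter α} {z : α → ℂ} (h : Tendsto (fun a => (z a).re) l atTop) :
    Tendsto (fun a => Th (z a)) l (𝓝 1) := by
  have h1 := isBigO_at_im_infty_jacobiTheta_sub_one
  have h2 : Tendsto (fun τ : ℂ => rexp (-π * τ.im)) (comap Complex.im atTop) (𝓝 0) := by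
    refine (Real.tendsto_exp_atBot).comp ?_
    exact (tendsto_id.const_mul_atTop_of_neg (by linarith [pi_pos] : -π < 0)).comp tendsto_comap
  have h3 : Tendsto (fun τ : ℂ => jacobiTheta τ - 1) (comap Complex.im atTop) (𝓝 0) :=
    h1.trans_tendsto h2
  have h4 : Tendsto jacobiTheta (comap Complex.im atTop) (𝓝 1) := by
    simpa using h3.add_const 1
  refine h4.comp ?_
  rw [tendsto_comap_iff]
  refine h.congr fun a => ?_
  simp

lemma exp_half {p : ℕ} (hp : p % 4 = 1) (n : ℤ) :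
    Complex.exp (-(π * I * (n : ℂ) ^ 2 * p / 2)) = if Even n then 1 else -I := by
  obtain ⟨k, hk⟩ : ∃ k : ℕ, p = 4 * k + 1 := ⟨p / 4, by omega⟩
  have hpc : (p : ℂ) = 4 * k + 1 := by exact_mod_cast hk
  split_ifs with h
  · obtain ⟨m, rfl⟩ := h
    rw [Complex.exp_eq_one_iff]
    refine ⟨-(m ^ 2 * p), ?_⟩
    push_cast
    ring
  · obtain ⟨m, rfl⟩ := Int.not_even_iff_odd.1 h
    have : -(π * I * ((2 * m + 1 : ℤ) : ℂ) ^ 2 * p / 2) =
        -(π / 2 * I) + ((-(4 * k * (m ^ 2 + m) + (m ^ 2 + m) + k) : ℤ) : ℂ) * (2 * π * I) := by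
      rw [hpc]
      push_cast
      ring
    rw [this, Complex.exp_add, Complex.exp_int_mul_two_pi_mul_I, mul_one, Complex.exp_neg,
      Complex.exp_pi_div_two_mul_I, Complex.inv_I]

/-- The theta function near `i p / 2`. -/
lemma Th_shift {p : ℕ} (hp : p % 4 = 1) {z : ℂ} (hz : 0 < z.re) :
    Th (I * p / 2 + z) = (1 + I) * Th (4 * z) - I * Th z := by
  have hs : ∀ c : ℝ, 0 < c → Summable fun n : ℤ => Complex.exp (π * I * (n : ℂ) ^ 2 * (I * (c * z))) :=
    fun c hc => by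
      have := (summable_jacobiTheta₂_term_iff 0 (I * (c * z))).2 (by simp; positivity)
      refine this.congr fun n => ?_
      rw [jacobiTheta₂_term]
      congr 1
      ring
  have h1 := hs 1 one_pos
  simp only [Complex.ofReal_one, one_mul] at h1
  have h4 := hs 4 (by norm_num)
  have e4 : Th (4 * z) = ∑' n : ℤ, if Even n then Complex.exp (π * I * (n : ℂ) ^ 2 * (I * z)) else 0 := by
    have hinj : Function.Injective fun n : ℤ => 2 * n := fun a b h => by simpa using h
    rw [← hinj.tsum_eq]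
    · unfold Th jacobiTheta
      refine tsum_congr fun n => ?_
      rw [if_pos (even_two_mul n)]
      push_cast
      congr 1
      ring
    · intro n hn
      have : Even n := by
        by_contra h
        simp [h] at hn
      obtain ⟨m, rfl⟩ := this
      exact ⟨m, by ring⟩
  have s4 : Summable fun n : ℤ => if Even n then Complex.exp (π * I * (n : ℂ) ^ 2 * (I * z)) else 0 := by
    refine Summable.of_norm_bounded h1.norm fun n => ?_
    split_ifs
    · exact le_rfl
    · simp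
  rw [e4]
  unfold Th jacobiTheta
  rw [← tsum_mul_left, ← tsum_mul_left, ← (s4.mul_left _).tsum_sub (h1.mul_left _)]
  refine tsum_congr fun n => ?_
  have : π * I * (n : ℂ) ^ 2 * (I * (I * p / 2 + z)) =
      -(π * I * (n : ℂ) ^ 2 * p / 2) + π * I * (n : ℂ) ^ 2 * (I * z) := by
    have hI := Complex.I_sq
    linear_combination (π * I * (n : ℂ) ^ 2 * p / 2) * hI
  rw [this, Complex.exp_add, exp_half hp]
  split_ifs <;> ring

lemma real_mul_cpow_half {t : ℝ} (ht : 0 < t) {w : ℂ} (hw : w ≠ 0) :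
    ((t : ℂ) * w) ^ (1 / 2 : ℂ) = (√t : ℝ) * w ^ (1 / 2 : ℂ) := by
  have ht' : (t : ℂ) ≠ 0 := by exact_mod_cast ht.ne'
  rw [Complex.cpow_def_of_ne_zero (mul_ne_zero ht' hw), Complex.cpow_def_of_ne_zero hw,
    Complex.log_ofReal_mul ht hw, add_mul, Complex.exp_add]
  congr 1
  rw [Real.sqrt_eq_rpow, Real.rpow_def_of_pos ht]
  push_cast
  rfl

/-- The behaviour of the theta function near `2/p`, from the behaviour near `p/2`. -/
lemma side_B {p : ℕ} (hp : p % 4 = 1) :
    Tendsto (fun t : ℝ => (√t : ℝ) * Th (t - 2 * I / p)) (𝓝[>] 0) (𝓝 ((1 / √(p : ℝ) : ℝ) : ℂ)) := by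
  have hp0 : (0 : ℝ) < p := by exact_mod_cast (by omega : 0 < p)
  have hpc : (p : ℂ) ≠ 0 := by exact_mod_cast hp0.ne'
  set z : ℝ → ℂ := fun t => t - 2 * I / p with hz
  set η : ℝ → ℂ := fun t => -(I * p / 2) / z t with hη
  have hz0 : ∀ t, z t ≠ 0 := fun t h => by
    have := congrArg Complex.im h
    simp [hz, Complex.div_im] at this
    omega
  have hη0 : ∀ t, η t ≠ 0 := fun t => div_ne_zero (by simp [hpc]) (hz0 t)
  have hinv : ∀ t : ℝ, 0 < t → 1 / (t * η t) = ((4 / (p ^ 2 * t) : ℝ) : ℂ) + 2 * I / p := fun t ht => by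
    have ht' : (t : ℂ) ≠ 0 := by exact_mod_cast ht.ne'
    have h1 := hz0 t
    simp only [hη]
    rw [one_div, mul_div_assoc', inv_div]
    simp only [hz]
    push_cast
    field_simp
    have hI := Complex.I_sq
    linear_combination (-2 * t * p) * hI
  have hre : ∀ t : ℝ, 0 < t → 0 < ((t : ℂ) * η t).re := fun t ht => by
    have h1 : 0 < (1 / ((t : ℂ) * η t)).re := by
      rw [hinv t ht, Complex.add_re, Complex.ofReal_re, show (2 * I / (p : ℂ)).re = 0 by
        simp [Complex.div_re], add_zero]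
      positivity
    have h2 : (t : ℂ) * η t = 1 / (1 / ((t : ℂ) * η t)) := by rw [one_div_one_div]
    rw [h2, one_div, Complex.inv_re]
    exact div_pos h1 (Complex.normSq_pos.2 fun h => by simp [h] at h1)
  have key : ∀ t : ℝ, 0 < t → (√t : ℝ) * Th (z t) = ((z t) ^ (1 / 2 : ℂ))⁻¹ *
      ((1 + I) * ((4 * η t) ^ (1 / 2 : ℂ))⁻¹ * Th (1 / (4 * (t * η t))) -
        I * ((η t) ^ (1 / 2 : ℂ))⁻¹ * Th (1 / (t * η t))) := fun t ht => by
    have hst : ((√t : ℝ) : ℂ) ≠ 0 := by exact_mod_cast (Real.sqrt_pos.2 ht).ne'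
    have h1 : 1 / z t = I * p / 2 + t * η t := by
      have h1 := hz0 t
      simp only [hη]
      field_simp
      simp only [hz]
      field_simp
      have hI := Complex.I_sq
      linear_combination (2 : ℂ) * hI
    rw [Th_inv, h1, Th_shift hp (hre t ht), Th_inv (z := 4 * (t * η t)),
      Th_inv (z := (t : ℂ) * η t), show 4 * ((t : ℂ) * η t) = t * (4 * η t) by ring,
      real_mul_cpow_half ht (by simpa using hη0 t), real_mul_cpow_half ht (hη0 t), mul_inv, mul_inv]
    field_simp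
  have czt : ContinuousAt z 0 := by fun_prop
  have cη : ContinuousAt η 0 := continuousAt_const.div czt (hz0 0)
  have z0 : z 0 = ((1 - I) / (√(p : ℝ) : ℝ)) ^ (2 : ℕ) := by
    have h1 : ((√(p : ℝ) : ℝ) : ℂ) ^ 2 = p := by
      rw [← Complex.ofReal_pow, Real.sq_sqrt hp0.le]
      simp
    rw [div_pow, h1]
    simp only [hz]
    have hI := Complex.I_sq
    field_simp
    push_cast
    linear_combination (-1 : ℂ) * hI
  have η0 : η 0 = ((p / 2 : ℝ) : ℂ) ^ (2 : ℕ) := by
    have hI := Complex.I_sq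
    simp only [hη, hz]
    push_cast
    rw [zero_sub]
    field_simp
  have η0' : 4 * η 0 = ((p : ℝ) : ℂ) ^ (2 : ℕ) := by
    rw [η0]
    push_cast
    ring
  have hzr : (0 : ℝ) < ((1 - I) / (√(p : ℝ) : ℝ)).re := by
    rw [Complex.div_ofReal_re]
    have : 0 < √(p : ℝ) := Real.sqrt_pos.2 hp0
    exact div_pos (by simp) this
  have l1 : Tendsto (fun t => (z t) ^ (1 / 2 : ℂ)) (𝓝[>] 0) (𝓝 ((1 - I) / (√(p : ℝ) : ℝ))) := by
    have h1 : z 0 ∈ Complex.slitPlane := by
      right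
      simp [hz, Complex.div_im]
      omega
    have h2 := ((continuousAt_cpow_const h1 (b := 1 / 2)).tendsto.comp czt.tendsto).mono_left
      (nhdsWithin_le_nhds (s := Ioi 0))
    rw [z0, one_div, Complex.sq_cpow_two_inv hzr] at h2
    simp only [one_div]
    exact h2
  have l2 : Tendsto (fun t => (η t) ^ (1 / 2 : ℂ)) (𝓝[>] 0) (𝓝 ((p / 2 : ℝ) : ℂ)) := by
    have h1 : η 0 ∈ Complex.slitPlane := by
      rw [η0, ← Complex.ofReal_pow]
      exact Complex.ofReal_mem_slitPlane.2 (by positivity)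
    have h2 := ((continuousAt_cpow_const h1 (b := 1 / 2)).tendsto.comp cη.tendsto).mono_left
      (nhdsWithin_le_nhds (s := Ioi 0))
    rw [η0, one_div, Complex.sq_cpow_two_inv (by simpa using hp0)] at h2
    simp only [one_div]
    exact h2
  have l3 : Tendsto (fun t => (4 * η t) ^ (1 / 2 : ℂ)) (𝓝[>] 0) (𝓝 ((p : ℝ) : ℂ)) := by
    have h1 : 4 * η 0 ∈ Complex.slitPlane := by
      rw [η0', ← Complex.ofReal_pow]
      exact Complex.ofReal_mem_slitPlane.2 (by positivity)
    have h2 := ((continuousAt_cpow_const h1 (b := 1 / 2)).tendsto.comp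
      (cη.tendsto.const_mul 4)).mono_left (nhdsWithin_le_nhds (s := Ioi 0))
    rw [η0', one_div, Complex.sq_cpow_two_inv (by simpa using hp0)] at h2
    simp only [one_div]
    exact h2
  have hat : Tendsto (fun t : ℝ => 4 / ((p : ℝ) ^ 2 * t)) (𝓝[>] 0) atTop := by
    have : Tendsto (fun t : ℝ => 4 / (p : ℝ) ^ 2 * t⁻¹) (𝓝[>] 0) atTop :=
      tendsto_inv_nhdsGT_zero.const_mul_atTop (by positivity)
    refine this.congr fun t => ?_
    rw [div_mul_eq_div_div, div_eq_mul_inv (4 / (p : ℝ) ^ 2)]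
  have l4 : Tendsto (fun t : ℝ => Th (1 / (t * η t))) (𝓝[>] 0) (𝓝 1) := by
    refine Th_tendsto (hat.congr' ?_)
    filter_upwards [self_mem_nhdsWithin] with t ht
    rw [hinv t ht, Complex.add_re, Complex.ofReal_re, show (2 * I / (p : ℂ)).re = 0 by
        simp [Complex.div_re], add_zero]
  have l5 : Tendsto (fun t : ℝ => Th (1 / (4 * (t * η t)))) (𝓝[>] 0) (𝓝 1) := by
    refine Th_tendsto ((hat.const_mul_atTop (by norm_num : (0 : ℝ) < 1 / 4)).congr' ?_)
    filter_upwards [self_mem_nhdsWithin] with t ht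
    rw [show 1 / (4 * ((t : ℂ) * η t)) = ((1 / 4 : ℝ) : ℂ) * (1 / (t * η t)) by
      push_cast; rw [one_div_mul_one_div], hinv t ht, Complex.re_ofReal_mul, Complex.add_re,
      Complex.ofReal_re, show (2 * I / (p : ℂ)).re = 0 by simp [Complex.div_re], add_zero]
  have hsp : ((√(p : ℝ) : ℝ) : ℂ) ≠ 0 := by exact_mod_cast (Real.sqrt_pos.2 hp0).ne'
  have h1I : (1 - I : ℂ) ≠ 0 := fun h => by simpa using congrArg Complex.re h
  have lim := (l1.inv₀ (div_ne_zero h1I hsp)).mul
    ((((l3.inv₀ (by exact_mod_cast hp0.ne')).const_mul (1 + I)).mul l5).sub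
      (((l2.inv₀ (by exact_mod_cast (half_pos hp0).ne')).const_mul I).mul l4))
  have hval : (((1 - I) / (√(p : ℝ) : ℝ) : ℂ))⁻¹ * ((1 + I) * (((p : ℝ) : ℂ))⁻¹ * 1 -
      I * (((p / 2 : ℝ) : ℂ))⁻¹ * 1) = ((1 / √(p : ℝ) : ℝ) : ℂ) := by
    have h1 : ((√(p : ℝ) : ℝ) : ℂ) ^ 2 = p := by
      rw [← Complex.ofReal_pow, Real.sq_sqrt hp0.le]
      simp
    push_cast
    field_simp
    linear_combination (1 - I) * h1
  rw [hval] at lim
  refine lim.congr' ?_
  filter_upwards [self_mem_nhdsWithin] with t ht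
  exact (key t ht).symm

lemma summable_gauss {c : ℝ} (hc : 0 < c) : Summable fun k : ℤ => rexp (-π * (k : ℝ) ^ 2 * c) := by
  have := ((summable_jacobiTheta₂_term_iff 0 (I * c)).2 (by simpa using hc)).norm
  refine this.congr fun k => ?_
  rw [jacobiTheta₂_term, Complex.norm_exp]
  congr 1
  have : (2 * π * I * k * 0 + π * I * (k : ℂ) ^ 2 * (I * c) : ℂ) =
      ((-π * (k : ℝ) ^ 2 * c : ℝ) : ℂ) := by
    have hI := Complex.I_sq
    push_cast
    linear_combination (π * (k : ℂ) ^ 2 * c) * hI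
  rw [this, Complex.ofReal_re]

/-- The Gauss sum. -/
noncomputable def gsd (p : ℕ) [NeZero p] : ℂ := ∑ a : ZMod p, ZMod.stdAddChar (a * a)

/-- The behaviour of the theta function near `2/p`. -/
lemma side_A (hTw : StTw) {p : ℕ} [NeZero p] :
    Tendsto (fun t : ℝ => (√t : ℝ) * Th (t - 2 * I / p)) (𝓝[>] 0) (𝓝 (gsd p / p)) := by
  have hp0 : (0 : ℝ) < p := by exact_mod_cast Nat.pos_of_ne_zero (NeZero.ne p)
  have hpc : (p : ℂ) ≠ 0 := by exact_mod_cast hp0.ne'
  set d : ℤ → ℂ := fun k => ∑ a : ZMod p, ZMod.stdAddChar (a * a) * ZMod.stdAddChar (a * (k : ZMod p))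
    with hd
  have hd0 : d 0 = gsd p := by simp [hd, gsd]
  have hdn : ∀ k, ‖d k‖ ≤ p := fun k => by
    refine (norm_sum_le _ _).trans ?_
    simp [ZMod.card]
  have key : ∀ t : ℝ, 0 < t → (√t : ℝ) * Th (t - 2 * I / p) =
      1 / p * ∑' k : ℤ, d k * (rexp (-π * (k : ℝ) ^ 2 / (p ^ 2 * t)) : ℂ) := fun t ht => by
    have h1 := (hTw p (fun a => ZMod.stdAddChar (a * a)) t ht).1
    have h2 : Th (t - 2 * I / p) = ∑' n : ℤ, ZMod.stdAddChar ((n : ZMod p) * (n : ZMod p)) *
        (rexp (-π * (n : ℝ) ^ 2 * t) : ℂ) := by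
      unfold Th jacobiTheta
      refine tsum_congr fun n => ?_
      rw [← Int.cast_mul, ZMod.stdAddChar_coe, Complex.ofReal_exp, ← Complex.exp_add]
      congr 1
      have hI := Complex.I_sq
      push_cast
      linear_combination (π * (n : ℂ) ^ 2 * t - 2 * π * I * (n : ℂ) ^ 2 / p) * hI
    rw [h2, h1]
    have hst : ((√t : ℝ) : ℂ) ≠ 0 := by exact_mod_cast (Real.sqrt_pos.2 ht).ne'
    push_cast
    field_simp
    rfl
  have lim : Tendsto (fun t : ℝ => ∑' k : ℤ, d k * (rexp (-π * (k : ℝ) ^ 2 / (p ^ 2 * t)) : ℂ))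
      (𝓝[>] 0) (𝓝 (∑' k : ℤ, if k = 0 then gsd p else 0)) := by
    refine tendsto_tsum_of_dominated_convergence (bound := fun k => p * rexp (-π * (k : ℝ) ^ 2 * (1 / p ^ 2)))
      ((summable_gauss (by positivity)).mul_left _) (fun k => ?_) ?_
    · by_cases hk : k = 0
      · subst hk
        simp [hd0]
      · rw [if_neg hk, show (0 : ℂ) = d k * ((0 : ℝ) : ℂ) by simp]
        refine Tendsto.const_mul _ ((Complex.continuous_ofReal.tendsto 0).comp ?_)
        refine Real.tendsto_exp_atBot.comp ?_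
        have hk' : (0 : ℝ) < (k : ℝ) ^ 2 := by positivity
        have : Tendsto (fun t : ℝ => -π * (k : ℝ) ^ 2 / (p : ℝ) ^ 2 * t⁻¹) (𝓝[>] 0) atBot :=
          tendsto_inv_nhdsGT_zero.const_mul_atTop_of_neg
            (div_neg_of_neg_of_pos (mul_neg_of_neg_of_pos (by linarith [pi_pos]) hk') (by positivity))
        refine this.congr fun t => ?_
        rw [div_mul_eq_div_div, div_eq_mul_inv (-π * (k : ℝ) ^ 2 / (p : ℝ) ^ 2)]
    · have : Ioo (0 : ℝ) 1 ∈ 𝓝[>] (0 : ℝ) := Ioo_mem_nhdsGT one_pos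
      filter_upwards [this] with t ht k
      rw [norm_mul, Complex.norm_real, Real.norm_of_nonneg (Real.exp_pos _).le]
      refine mul_le_mul (hdn k) (Real.exp_le_exp.2 ?_) (Real.exp_pos _).le hp0.le
      rw [div_mul_eq_div_div, neg_mul, neg_div, neg_div, neg_mul, neg_le_neg_iff, mul_one_div]
      rw [le_div_iff₀ ht.1]
      exact mul_le_of_le_one_right (by positivity) ht.2.le
  rw [tsum_ite_eq] at lim
  have lim2 := lim.const_mul (1 / (p : ℂ))
  rw [one_div_mul_eq_div] at lim2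
  refine lim2.congr' ?_
  filter_upwards [self_mem_nhdsWithin] with t ht
  rw [key t ht]

/-- The Gauss sum of a number `≡ 1 mod 4`. -/
theorem gs_eq (hTw : StTw) {p : ℕ} [NeZero p] (hp : p % 4 = 1) : gsd p = (√(p : ℝ) : ℝ) := by
  have h := tendsto_nhds_unique (side_A hTw) (side_B hp)
  have hp0 : (0 : ℝ) < p := by exact_mod_cast Nat.pos_of_ne_zero (NeZero.ne p)
  have hpc : (p : ℂ) ≠ 0 := by exact_mod_cast hp0.ne'
  rw [div_eq_iff hpc] at h
  rw [h]
  have h1 : ((√(p : ℝ) : ℝ) : ℂ) * (√(p : ℝ) : ℝ) = p := by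
    rw [← Complex.ofReal_mul, Real.mul_self_sqrt hp0.le]
    simp
  have h2 : ((√(p : ℝ) : ℝ) : ℂ) ≠ 0 := by exact_mod_cast (Real.sqrt_pos.2 hp0).ne'
  rw [Complex.ofReal_div, Complex.ofReal_one, one_div_mul_eq_div, ← h1, mul_div_assoc, div_self h2,
    mul_one]

end P004
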