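import Mathlib

/-!
# P004: definitions for the mean analytic rank of the quadratic twists of `y² = x³ - x`

* `ca n`      : the `n`-th coefficient of `L(y² = x³ - x, s)`, as a sum over primary Gaussian
                integers `x + iy` (`y` even, `x + y ≡ 1 mod 4`) of norm `n`;
* `lam n`     : `ca n / √n`;
* `chi m n`   : the Jacobi symbol `(m / n)` as a real number;
* `theta m u` : `4 ∑ ca n (m/n) e^{-π n u}`;
* `Jm m`      : `∫_0^∞ theta m u ^ 2 u du`.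
-/

open Real MeasureTheory Set
open scoped ENNReal

namespace P004

/-- The `n`-th coefficient of `L(y² = x³ - x, s)`: the sum of the real parts of the Gaussian
integers `x + iy` of norm `n` with `y` even and `x + y ≡ 1 mod 4`. -/
noncomputable def ca (n : ℕ) : ℤ :=
  ∑ x ∈ Finset.Icc (-(n : ℤ)) n, ∑ y ∈ Finset.Icc (-(n : ℤ)) n,
    if x ^ 2 + y ^ 2 = (n : ℤ) ∧ y % 2 = 0 ∧ (x + y) % 4 = 1 then x else 0

/-- normalised coefficient -/
noncomputable def lam (n : ℕ) : ℝ := (ca n : ℝ) / √(n : ℝ)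

/-- the Jacobi symbol `(m / n)` as a real number -/
noncomputable def chi (m : ℤ) (n : ℕ) : ℝ := (jacobiSym m n : ℝ)

/-- the number of divisors, as a real number -/
noncomputable def dv (n : ℕ) : ℝ := (n.divisors.card : ℝ)

/-- the theta series of the twist by `m` -/
noncomputable def theta (m : ℤ) (u : ℝ) : ℝ :=
  4 * ∑' n : ℕ, (ca n : ℝ) * chi m n * Real.exp (-π * n * u)

/-- the conductor parameter of the twist by a squarefree `m` -/
noncomputable def Qm (m : ℕ) : ℝ := if Odd m then 8 * (m : ℝ) ^ 2 else 4 * (m : ℝ) ^ 2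

/-- the square norm of `theta m` -/
noncomputable def Jm (m : ℕ) : ℝ≥0∞ :=
  ∫⁻ u in Ioi (0 : ℝ), ENNReal.ofReal (theta m u ^ 2 * u)

/-- the squarefree integers in `[1, X]` -/
def sqf (X : ℕ) : Finset ℕ := (Finset.Icc 1 X).filter Squarefree

/-- the sum of `Jm m` over squarefree `m ≤ X` -/
noncomputable def sumJ (X : ℕ) : ℝ≥0∞ := ∑ m ∈ sqf X, Jm m

/-- the weighted square norm `∫_0^∞ |F u|² u^{1+2θ} du` -/
noncomputable def nrm (θ : ℝ) (F : ℝ → ℂ) : ℝ≥0∞ :=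
  ∫⁻ u in Ioi (0 : ℝ), ENNReal.ofReal (‖F u‖ ^ 2 * u ^ (1 + 2 * θ))

/-- `∑ a_n (m/n) n^{-θ+iv} e^{-π n u}` -/
noncomputable def Bf (θ v : ℝ) (m : ℤ) (u : ℝ) : ℂ :=
  ∑' n : ℕ, (((ca n : ℝ) * chi m n * Real.exp (-π * n * u) : ℝ) : ℂ) *
    (n : ℂ) ^ (-(θ : ℂ) + v * Complex.I)

/-- the same sum restricted to squarefree `n` coprime to `R` -/
noncomputable def Tf (θ v : ℝ) (R : ℕ) (m : ℤ) (u : ℝ) : ℂ :=
  ∑' n : ℕ, if Squarefree n ∧ n.Coprime R then
    (((ca n : ℝ) * chi m n * Real.exp (-π * n * u) : ℝ) : ℂ) *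
      (n : ℂ) ^ (-(θ : ℂ) + v * Complex.I) else 0

/-- `∑ a_n (h/n) e^{-π n u}` over squarefree `n` coprime to `r` -/
noncomputable def Uf (h : ℤ) (r : ℕ) (u : ℝ) : ℝ :=
  ∑' n : ℕ, if Squarefree n ∧ n.Coprime r then
    (ca n : ℝ) * chi h n * Real.exp (-π * n * u) else 0

/-- the kernel `G y = ∫_0^∞ x^7 e^{-x} e^{-π y²/x^16} dx` -/
noncomputable def Gk (y : ℝ) : ℝ :=
  ∫ x in Ioi (0 : ℝ), x ^ 7 * Real.exp (-x) * Real.exp (-π * y ^ 2 / x ^ 16)

/-- powerful (squareful) numbers -/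
def Powerful (r : ℕ) : Prop := r ≠ 0 ∧ ∀ p : ℕ, p.Prime → p ∣ r → p ^ 2 ∣ r

/-- the summand of `Aj`: `t = (g, m₁, m₂)` -/
noncomputable def AjTerm (H : ℝ) (r : ℕ) (j : ℤ) (u : ℝ) (t : ℕ × ℕ × ℕ) : ℝ :=
  if Squarefree (t.1 * t.2.1 * t.2.2) ∧ (t.1 * t.2.1 * t.2.2).Coprime r then
    (ca t.1 : ℝ) ^ 2 * (lam t.2.1 * lam t.2.2) * chi j (t.2.1 * t.2.2) *
      (∑ d ∈ t.1.divisors, if (d : ℤ) ∣ j then
        (ArithmeticFunction.moebius d : ℝ) / d *
          Gk (|(j : ℝ)| * H / ((d : ℝ) ^ 2 * (t.2.1 * t.2.2))) else 0) *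
      Real.exp (-π * t.1 * u * (t.2.1 + t.2.2))
  else 0

/-- the `j`-th term of the dual sum -/
noncomputable def Aj (H : ℝ) (r : ℕ) (j : ℤ) (u : ℝ) : ℝ :=
  ∑' t : ℕ × ℕ × ℕ, AjTerm H r j u t

/-! ### the quadratic twists `E^(D) : D y² = x³ - x` -/

/-- fundamental discriminants other than `1` -/
def IsFund (D : ℤ) : Prop :=
  D ≠ 1 ∧ ((D % 4 = 1 ∧ Squarefree D) ∨
    ∃ d : ℤ, D = 4 * d ∧ (d % 4 = 2 ∨ d % 4 = 3) ∧ Squarefree d)

open scoped Classical in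
/-- the fundamental discriminants `D ≠ 1` with `|D| ≤ X` -/
noncomputable def Fam (X : ℕ) : Finset ℤ := (Finset.Icc (-(X : ℤ)) X).filter IsFund

/-- `a_p` of `E^(D) : D y² = x³ - x` at a prime of good reduction: `p` minus the number of affine
points modulo `p` -/
noncomputable def frobTrace (D : ℤ) (p : ℕ) : ℤ :=
  p - Nat.card {q : ZMod p × ZMod p // (D : ZMod p) * q.2 ^ 2 = q.1 ^ 3 - q.1}

/-- the Euler factor of `E^(D)` at `p`: the reduction is good for `p ∤ 2D` and additive for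
`p ∣ 2D` -/
noncomputable def localFactor (D : ℤ) (p : ℕ) (s : ℂ) : ℂ :=
  if (p : ℤ) ∣ 2 * D then 1
  else (1 - (frobTrace D p : ℂ) * (p : ℂ) ^ (-s) + (p : ℂ) ^ (1 - 2 * s))⁻¹

/-- `L` is the (entire) Hasse-Weil `L`-function of `E^(D)` -/
structure IsLFunction (D : ℤ) (L : ℂ → ℂ) : Prop where
  entire : Differentiable ℂ L
  euler : ∀ s : ℂ, 3 / 2 < s.re → HasProd (fun p : Nat.Primes => localFactor D p s) (L s)

open scoped Classical in
/-- the Hasse-Weil `L`-function of `E^(D)` (junk value `0` if it did not exist) -/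
noncomputable def LTwist (D : ℤ) : ℂ → ℂ :=
  if h : ∃ L, IsLFunction D L then h.choose else 0

/-- the analytic rank of `E^(D)` -/
noncomputable def aRank (D : ℤ) : ℕ := analyticOrderNatAt (LTwist D) 1

end P004
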