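import Vale.Agent.P004.Iface

/-!
# P004: the final statement
-/

open Real MeasureTheory Set
open scoped ENNReal

namespace P004

/-- The analytic ranks of the quadratic twists `E^(D) : D y² = x³ - x`.

1. For every fundamental discriminant `D ≠ 1` the Hasse-Weil `L`-function of `E^(D)` (the Euler
   product for `Re s > 3/2`) has a unique entire continuation `LTwist D`, not identically zero, so
   that the analytic rank `aRank D = ord_{s=1} LTwist D` is a well defined natural number.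
2. Large analytic ranks are rare: `#{D : |D| ≤ X, aRank D ≥ z} ≤ X exp(C √(log X loglog X) -
   c z²/log X)`.
3. The mean analytic rank is `≪ (log X)^{3/4} (loglog X)^{1/4}`; all moments likewise. -/
def StFin : Prop :=
  (∀ D : ℤ, IsFund D → IsLFunction D (LTwist D) ∧ (∀ L, IsLFunction D L → L = LTwist D) ∧
    analyticOrderAt (LTwist D) 1 = (aRank D : ℕ∞)) ∧
  (∃ C c : ℝ, 0 < C ∧ 0 < c ∧ ∀ X : ℕ, 3 ≤ X → ∀ z : ℝ, 0 ≤ z →
    (((Fam X).filter (fun D => z ≤ (aRank D : ℝ))).card : ℝ) ≤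
      X * Real.exp (C * √(Real.log X * Real.log (Real.log X + 2)) - c * z ^ 2 / Real.log X)) ∧
  (∀ k : ℕ, ∃ C : ℝ, 0 < C ∧ ∀ X : ℕ, 3 ≤ X →
    ∑ D ∈ Fam X, (aRank D : ℝ) ^ k ≤
      C * ((Fam X).card : ℝ) *
        ((Real.log X) ^ (3 / 4 : ℝ) * (Real.log (Real.log X + 2)) ^ (1 / 4 : ℝ)) ^ k)

end P004
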