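import Vale.Agent.P004.Iface
import Vale.Agent.P004.B

/-!
# P004, module G, part 1: the arithmetic function `eR`
`[n squarefree, coprime to R] ca n = ∑_{k l = n} eR k * ca l`.
-/

open Real Set
open scoped ENNReal

namespace P004

namespace G

/-- the local factor of `eR` -/
noncomputable def Eloc (R p : ℕ) : ℕ → ℝ
  | 0 => 1
  | 1 => if p = 2 then 0 else if p ∣ R then -(ca p : ℝ) else 0
  | 2 => if p = 2 then 0 else if p ∣ R then (p : ℝ) else p - (ca p : ℝ) ^ 2
  | 3 => if p = 2 then 0 else if p ∣ R then 0 else p * (ca p : ℝ)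
  | _ + 4 => 0

/-- the multiplicative function `eR` -/
noncomputable def eF (R : ℕ) : ArithmeticFunction ℝ :=
  ⟨fun n => if n = 0 then 0 else n.factorization.prod (fun p j => Eloc R p j), by simp⟩

theorem eF_apply (R n : ℕ) (hn : n ≠ 0) :
    eF R n = n.factorization.prod (fun p j => Eloc R p j) := by
  change (if n = 0 then (0 : ℝ) else n.factorization.prod (fun p j => Eloc R p j)) = _
  rw [if_neg hn]

theorem eF_mult (R : ℕ) : (eF R).IsMultiplicative := by
  rw [ArithmeticFunction.IsMultiplicative.iff_ne_zero]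
  refine ⟨?_, ?_⟩
  · rw [eF_apply _ _ one_ne_zero]; simp
  · intro m n hm hn hmn
    rw [eF_apply _ _ hm, eF_apply _ _ hn, eF_apply _ _ (mul_ne_zero hm hn),
      Nat.factorization_mul_of_coprime hmn, ← Finsupp.prod_add_index_of_disjoint]
    exact hmn.disjoint_primeFactors

theorem eF_prime_pow (R p k : ℕ) (hp : p.Prime) : eF R (p ^ k) = Eloc R p k := by
  rw [eF_apply _ _ (pow_ne_zero _ hp.ne_zero), Nat.Prime.factorization_pow hp]
  rw [Finsupp.prod_single_index]
  rfl

/-- `ca` as an arithmetic function -/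
noncomputable def cF (h : StCoef) : ArithmeticFunction ℝ := ⟨fun n => (ca n : ℝ), by simp [h.zero]⟩

theorem cF_apply (h : StCoef) (n : ℕ) : cF h n = (ca n : ℝ) := rfl

theorem cF_mult (h : StCoef) : (cF h).IsMultiplicative := by
  rw [ArithmeticFunction.IsMultiplicative.iff_ne_zero]
  refine ⟨?_, ?_⟩
  · rw [cF_apply, h.one]; simp
  · intro m n _ _ hmn
    rw [cF_apply, cF_apply, cF_apply, h.mul m n hmn]; push_cast; ring

/-- the restricted coefficients -/
noncomputable def gF (_h : StCoef) (R : ℕ) : ArithmeticFunction ℝ :=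
  ⟨fun n => if Squarefree n ∧ n.Coprime R then (ca n : ℝ) else 0, by simp⟩

theorem gF_apply (h : StCoef) (R n : ℕ) :
    gF h R n = if Squarefree n ∧ n.Coprime R then (ca n : ℝ) else 0 := rfl

theorem gF_mult (h : StCoef) (R : ℕ) : (gF h R).IsMultiplicative := by
  rw [ArithmeticFunction.IsMultiplicative.iff_ne_zero]
  refine ⟨?_, ?_⟩
  · rw [gF_apply, h.one]; simp
  · intro m n _ _ hmn
    simp only [gF_apply]
    have e1 : Squarefree (m * n) ↔ Squarefree m ∧ Squarefree n := Nat.squarefree_mul hmn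
    have e2 : (m * n).Coprime R ↔ m.Coprime R ∧ n.Coprime R := Nat.coprime_mul_iff_left
    by_cases h1 : Squarefree m ∧ m.Coprime R
    · by_cases h2 : Squarefree n ∧ n.Coprime R
      · rw [if_pos h1, if_pos h2, if_pos ⟨e1.2 ⟨h1.1, h2.1⟩, e2.2 ⟨h1.2, h2.2⟩⟩, h.mul m n hmn]
        push_cast; ring
      · rw [if_neg h2, if_neg (fun h3 => h2 ⟨(e1.1 h3.1).2, (e2.1 h3.2).2⟩)]; simp
    · rw [if_neg h1, if_neg (fun h3 => h1 ⟨(e1.1 h3.1).1, (e2.1 h3.2).1⟩)]; simp

theorem gF_prime_pow_of_two_le (h : StCoef) (R p k : ℕ) (hp : p.Prime) (hk : 2 ≤ k) :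
    gF h R (p ^ k) = 0 := by
  rw [gF_apply, if_neg]
  rintro ⟨h1, -⟩
  have : p * p ∣ p ^ k := by
    rw [← sq]; exact pow_dvd_pow p hk
  have := h1 p this
  exact hp.one_lt.ne' (Nat.isUnit_iff.1 this)

theorem ca_two (h : StCoef) (k : ℕ) : ca (2 ^ (k + 1)) = 0 := by
  apply h.mod_four
  rw [pow_succ]
  omega

theorem conv_prime_pow (f g : ArithmeticFunction ℝ) (p k : ℕ) (hp : p.Prime) :
    (f * g) (p ^ k) = ∑ i ∈ Finset.range (k + 1), f (p ^ i) * g (p ^ (k - i)) := by
  rw [ArithmeticFunction.mul_apply, Nat.sum_divisorsAntidiagonal (fun a b => f a * g b),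
    Nat.sum_divisors_prime_pow hp]
  apply Finset.sum_congr rfl
  intro i hi
  rw [Finset.mem_range] at hi
  rw [Nat.pow_div (by omega) hp.pos]

theorem Eloc_big (R p j : ℕ) (hj : 4 ≤ j) : Eloc R p j = 0 := by
  obtain ⟨i, rfl⟩ := Nat.exists_eq_add_of_le' hj
  rfl

theorem conv_eq (h : StCoef) (R : ℕ) : eF R * cF h = gF h R := by
  rw [ArithmeticFunction.IsMultiplicative.eq_iff_eq_on_prime_powers _
    ((eF_mult R).mul (cF_mult h)) _ (gF_mult h R)]
  intro p k hp
  rw [conv_prime_pow _ _ _ _ hp]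
  simp_rw [eF_prime_pow R p _ hp, cF_apply]
  have hecke : p ≠ 2 → ∀ k, (ca (p ^ (k + 2)) : ℝ) = ca p * ca (p ^ (k + 1)) - p * ca (p ^ k) := by
    intro h2 k
    rw [h.hecke p k hp h2]; push_cast; ring
  have hone : (ca (p ^ 0) : ℝ) = 1 := by rw [pow_zero, h.one]; simp
  have hp1 : (ca (p ^ 1) : ℝ) = ca p := by rw [pow_one]
  have g0 : gF h R (p ^ 0) = 1 := by
    rw [pow_zero]; exact (gF_mult h R).map_one
  have g1 : gF h R (p ^ 1) = if p ∣ R then 0 else (ca p : ℝ) := by
    rw [pow_one, gF_apply]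
    by_cases hpR : p ∣ R
    · rw [if_pos hpR, if_neg]
      rintro ⟨-, h2⟩
      exact (Nat.Prime.coprime_iff_not_dvd hp).1 h2 hpR
    · rw [if_neg hpR, if_pos ⟨hp.prime.squarefree, (Nat.Prime.coprime_iff_not_dvd hp).2 hpR⟩]
  rcases k with _ | _ | _ | k
  · rw [g0]; simp [Eloc, h.one]
  · rw [g1, Finset.sum_range_succ, Finset.sum_range_one]
    simp only [Nat.sub_zero, Nat.sub_self, hone, hp1, zero_add]
    by_cases h2 : p = 2
    · subst h2
      have := ca_two h 0
      simp only [zero_add, pow_one] at this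
      simp [Eloc, this]
    · by_cases hpR : p ∣ R <;> simp [Eloc, h2, hpR]
  · rw [gF_prime_pow_of_two_le h R p _ hp (by omega)]
    simp only [Finset.sum_range_succ, Finset.sum_range_zero, zero_add, Nat.sub_zero]
    norm_num
    by_cases h2 : p = 2
    · subst h2
      have e1 := ca_two h 0
      have e2 := ca_two h 1
      norm_num at e1 e2
      simp [Eloc, e1, e2]
    · have hk := hecke h2 0
      simp only [zero_add, hp1, hone] at hk
      by_cases hpR : p ∣ R
      · simp [Eloc, h2, hpR, hk, h.one]; ring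
      · simp [Eloc, h2, hpR, hk, h.one]; ring
  · rw [gF_prime_pow_of_two_le h R p _ hp (by omega)]
    have hsub : ∑ i ∈ Finset.range (k + 1 + 1 + 1 + 1),
        Eloc R p i * (ca (p ^ (k + 1 + 1 + 1 - i)) : ℝ) =
        ∑ i ∈ Finset.range 4, Eloc R p i * (ca (p ^ (k + 1 + 1 + 1 - i)) : ℝ) := by
      symm
      apply Finset.sum_subset
      · intro x hx; simp only [Finset.mem_range] at hx ⊢; omega
      · intro x _ hx
        simp only [Finset.mem_range, not_lt] at hx
        rw [Eloc_big _ _ _ hx, zero_mul]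
    rw [hsub]
    simp only [Finset.sum_range_succ, Finset.sum_range_zero, zero_add, Nat.sub_zero]
    have s1 : k + 1 + 1 + 1 - 1 = k + 2 := by omega
    have s2 : k + 1 + 1 + 1 - 2 = k + 1 := by omega
    have s3 : k + 1 + 1 + 1 - 3 = k := by omega
    have s0 : k + 1 + 1 + 1 = (k + 1) + 2 := by omega
    rw [s1, s2, s3, s0]
    by_cases h2 : p = 2
    · subst h2
      have e1 := ca_two h (k + 2)
      have e2 : (k + 1) + 2 = k + 2 + 1 := by omega
      rw [e2, e1]
      simp [Eloc]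
    · have k1 := hecke h2 (k + 1)
      have k2 := hecke h2 k
      by_cases hpR : p ∣ R
      · simp only [Eloc, h2, hpR, if_true, if_false]
        rw [k1, k2]; ring
      · simp only [Eloc, h2, hpR, if_false]
        rw [k1, k2]; ring

/-- the convolution identity, pointwise -/
theorem conv_apply (h : StCoef) (R n : ℕ) :
    ∑ x ∈ n.divisorsAntidiagonal, eF R x.1 * (ca x.2 : ℝ) =
      if Squarefree n ∧ n.Coprime R then (ca n : ℝ) else 0 := by
  have := congrArg (fun f : ArithmeticFunction ℝ => f n) (conv_eq h R)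
  simpa only [ArithmeticFunction.mul_apply, cF_apply, gF_apply] using this

/-! ### the size and the support of `eF` -/

theorem ca_prime_bound (h : StCoef) (p : ℕ) (hp : p.Prime) : (ca p : ℝ) ^ 2 ≤ 4 * p := by
  have h1 := h.bound p
  have h2 : dv p = 2 := by
    unfold dv
    rw [hp.divisors, Finset.card_pair hp.one_lt.ne]; norm_num
  rw [h2] at h1
  have h3 : |(ca p : ℝ)| ^ 2 ≤ (2 * √(p : ℝ)) ^ 2 := pow_le_pow_left₀ (abs_nonneg _) h1 2
  rw [sq_abs, mul_pow, Real.sq_sqrt (by positivity)] at h3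
  linarith

theorem Eloc_bound (h : StCoef) (R p j : ℕ) (hp : p.Prime) :
    |Eloc R p j| ≤ (√(p : ℝ)) ^ j * ((j : ℝ) + 1) ^ 2 := by
  have hb := ca_prime_bound h p hp
  have hp0 : (0 : ℝ) ≤ p := by positivity
  have hs : (√(p : ℝ)) ^ 2 = p := Real.sq_sqrt hp0
  have hs0 : 0 ≤ √(p : ℝ) := Real.sqrt_nonneg _
  have hc : |(ca p : ℝ)| ≤ 2 * √(p : ℝ) := by
    apply abs_le_of_sq_le_sq _ (by positivity)
    rw [mul_pow, hs]; linarith
  have hc' := abs_le.1 hc
  rcases j with _ | _ | _ | _ | j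
  · simp [Eloc]
  · simp only [Eloc, zero_add, pow_one]
    split_ifs
    · simp
    · rw [abs_neg]; push_cast; nlinarith
    · simp
  · simp only [Eloc, zero_add]
    norm_num
    split_ifs
    · simp
    · rw [abs_of_nonneg hp0]; linarith
    · rw [abs_le]; constructor <;> nlinarith [sq_nonneg (ca p : ℝ)]
  · simp only [Eloc, zero_add]
    norm_num
    have h3 : (√(p : ℝ)) ^ 3 = p * √(p : ℝ) := by
      rw [pow_succ, hs]
    rw [h3]
    split_ifs
    · simp; positivity
    · simp; positivity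
    · rw [abs_mul, abs_of_nonneg hp0]
      nlinarith [mul_le_mul_of_nonneg_left hc hp0, mul_nonneg hp0 hs0]
  · rw [Eloc_big _ _ _ (by omega), abs_zero]; positivity

theorem Eloc_ne_zero_not_dvd (R p j : ℕ) (hj : j ≠ 0) (hpR : ¬ p ∣ R) (h : Eloc R p j ≠ 0) :
    2 ≤ j := by
  rcases j with _ | _ | j
  · exact absurd rfl hj
  · exfalso; apply h; simp [Eloc, hpR]
  · omega

theorem Eloc_ne_zero_dvd (R p j : ℕ) (hpR : p ∣ R) (h : Eloc R p j ≠ 0) : j ≤ 2 := by
  by_contra hj
  push Not at hj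
  apply h
  rcases j with _ | _ | _ | _ | j
  · omega
  · omega
  · omega
  · simp [Eloc, hpR]
  · rfl

theorem sqrt_factorization (n : ℕ) (hn : n ≠ 0) :
    √(n : ℝ) = n.factorization.prod (fun p j => (√(p : ℝ)) ^ j) := by
  have h1 : ((n.factorization.prod (fun p j => (√(p : ℝ)) ^ j)) : ℝ) ^ 2 = n := by
    rw [Finsupp.prod, ← Finset.prod_pow]
    have : (n : ℝ) = ((n.factorization.prod (fun p j => p ^ j) : ℕ) : ℝ) := by
      rw [Nat.prod_factorization_pow_eq_self hn]
    rw [this, Finsupp.prod]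
    push_cast
    apply Finset.prod_congr rfl
    intro p _
    rw [← pow_mul, mul_comm, pow_mul, Real.sq_sqrt (by positivity)]
  rw [← h1, Real.sqrt_sq]
  exact Finset.prod_nonneg fun p _ => by positivity

theorem dv_factorization (n : ℕ) (hn : n ≠ 0) :
    dv n = n.factorization.prod (fun _ j => ((j : ℝ) + 1)) := by
  unfold dv
  rw [Nat.card_divisors hn, Finsupp.prod]
  push_cast
  rfl

theorem eF_bound (h : StCoef) (R n : ℕ) : |eF R n| ≤ √(n : ℝ) * dv n ^ 2 := by
  by_cases hn : n = 0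
  · subst hn; simp
  rw [eF_apply _ _ hn, sqrt_factorization n hn, dv_factorization n hn, Finsupp.prod, Finsupp.prod,
    Finsupp.prod, Finset.abs_prod, ← Finset.prod_pow, ← Finset.prod_mul_distrib]
  apply Finset.prod_le_prod
  · intro p _; positivity
  · intro p hp
    apply Eloc_bound h
    exact Nat.prime_of_mem_primeFactors (by simpa using hp)

theorem eF_support (R n : ℕ) (hR : 0 < R) (hn : eF R n ≠ 0) :
    ∃ a b : ℕ, a ∣ R ^ 2 ∧ Powerful b ∧ n = a * b := by
  have hn0 : n ≠ 0 := by rintro rfl; simp at hn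
  rw [eF_apply _ _ hn0, Finsupp.prod] at hn
  have hloc : ∀ p ∈ n.primeFactors, Eloc R p (n.factorization p) ≠ 0 := by
    intro p hp
    exact Finset.prod_ne_zero_iff.1 hn p (by simpa using hp)
  classical
  let a := ∏ p ∈ n.primeFactors with p ∣ R, p ^ n.factorization p
  let b := ∏ p ∈ n.primeFactors with ¬ p ∣ R, p ^ n.factorization p
  have hab : n = a * b := by
    have := Nat.prod_factorization_pow_eq_self hn0
    rw [Finsupp.prod, Nat.support_factorization] at this
    rw [← this]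
    simp only [a, b]
    rw [this]
    rw [Finset.prod_filter_mul_prod_filter_not]
    exact this.symm
  refine ⟨a, b, ?_, ⟨?_, ?_⟩, hab⟩
  · apply Finset.prod_dvd_of_isRelPrime
    · intro p hp q hq hpq
      have hp' := Nat.prime_of_mem_primeFactors (Finset.mem_filter.1 (Finset.mem_coe.1 hp)).1
      have hq' := Nat.prime_of_mem_primeFactors (Finset.mem_filter.1 (Finset.mem_coe.1 hq)).1
      exact Nat.coprime_iff_isRelPrime.1 (Nat.coprime_pow_primes _ _ hp' hq' hpq)
    · intro p hp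
      rw [Finset.mem_filter] at hp
      have h2 := Eloc_ne_zero_dvd R p _ hp.2 (hloc p hp.1)
      exact (pow_dvd_pow p h2).trans (pow_dvd_pow_of_dvd hp.2 2)
  · apply Finset.prod_ne_zero_iff.2
    intro p hp
    exact pow_ne_zero _ (Nat.prime_of_mem_primeFactors (Finset.mem_filter.1 hp).1).ne_zero
  · intro q hq hqb
    obtain ⟨p, hp, hqp⟩ := (Prime.dvd_finsetProd_iff hq.prime _).1 hqb
    have hp' := Finset.mem_filter.1 hp
    have hpp := Nat.prime_of_mem_primeFactors hp'.1
    have hqp' : q = p := (Nat.prime_dvd_prime_iff_eq hq hpp).1 (hq.dvd_of_dvd_pow hqp)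
    subst hqp'
    have h2 := Eloc_ne_zero_not_dvd R q _ (by
      exact (Nat.Prime.factorization_pos_of_dvd hq hn0 (Nat.dvd_of_mem_primeFactors hp'.1)).ne')
      hp'.2 (hloc q hp'.1)
    exact (pow_dvd_pow q h2).trans (Finset.dvd_prod_of_mem _ hp)

end G

end P004
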