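import Vale.Agent.P004.Iface

/-!
# P004, module H1, part a: elementary facts about the weights and the integrals `ah`
-/

open Real MeasureTheory Set

namespace P004.H1

/-- the weight `1_{n squarefree, (n,r)=1} a_n e^{-π n u}` -/
noncomputable def wt (r : ℕ) (u : ℝ) (n : ℕ) : ℝ :=
  if Squarefree n ∧ n.Coprime r then (ca n : ℝ) * Real.exp (-π * n * u) else 0

theorem Uf_eq (h : ℤ) (r : ℕ) (u : ℝ) : Uf h r u = ∑' n, wt r u n * chi h n := by
  unfold Uf
  refine tsum_congr fun n => ?_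
  unfold wt
  split_ifs <;> ring

theorem abs_chi_le (h : ℤ) (n : ℕ) : |chi h n| ≤ 1 := by
  unfold chi
  rcases jacobiSym.trichotomy h n with h0 | h0 | h0 <;> simp [h0]

theorem chi_mul (h : ℤ) {m n : ℕ} (hm : m ≠ 0) (hn : n ≠ 0) :
    chi h (m * n) = chi h m * chi h n := by
  unfold chi
  have : NeZero m := ⟨hm⟩
  have : NeZero n := ⟨hn⟩
  rw [jacobiSym.mul_right]
  push_cast
  ring

theorem dv_le (n : ℕ) : dv n ≤ n := by
  unfold dv
  exact_mod_cast Nat.card_divisors_le_self n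

theorem dv_nonneg (n : ℕ) : 0 ≤ dv n := by unfold dv; positivity

theorem abs_ca_le (hC : StCoef) (n : ℕ) : |(ca n : ℝ)| ≤ (n : ℝ) ^ 2 := by
  refine (hC.bound n).trans ?_
  rcases Nat.eq_zero_or_pos n with rfl | hn
  · simp
  have h1 : (1 : ℝ) ≤ n := by exact_mod_cast hn
  have h2 : √(n : ℝ) ≤ n := by
    rw [Real.sqrt_le_left (by positivity)]
    nlinarith
  calc dv n * √(n : ℝ) ≤ n * n := mul_le_mul (dv_le n) h2 (by positivity) (by positivity)
    _ = (n : ℝ) ^ 2 := by ring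

theorem abs_wt_le (hC : StCoef) (r : ℕ) (u : ℝ) (n : ℕ) :
    |wt r u n| ≤ (n : ℝ) ^ 2 * Real.exp (-(π * u) * n) := by
  unfold wt
  split_ifs with h
  · rw [abs_mul, abs_of_pos (Real.exp_pos _)]
    have : -π * n * u = -(π * u) * n := by ring
    rw [this]
    exact mul_le_mul_of_nonneg_right (abs_ca_le hC n) (Real.exp_pos _).le
  · simp only [abs_zero]; positivity

theorem summable_wt (hC : StCoef) (r : ℕ) {u : ℝ} (hu : 0 < u) (k : ℕ) :
    Summable fun n : ℕ => |wt r u n| * (n : ℝ) ^ k := by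
  have h1 := Real.summable_pow_mul_exp_neg_nat_mul (k + 2) (r := π * u) (by positivity)
  refine Summable.of_nonneg_of_le (fun n => by positivity) (fun n => ?_) h1
  calc |wt r u n| * (n : ℝ) ^ k ≤ ((n : ℝ) ^ 2 * Real.exp (-(π * u) * n)) * (n : ℝ) ^ k :=
        mul_le_mul_of_nonneg_right (abs_wt_le hC r u n) (by positivity)
    _ = (n : ℝ) ^ (k + 2) * Real.exp (-(π * u) * n) := by ring

theorem wt_ne_zero {r : ℕ} {u : ℝ} {n : ℕ} (h : wt r u n ≠ 0) :
    Squarefree n ∧ n.Coprime r ∧ ca n ≠ 0 := by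
  unfold wt at h
  split_ifs at h with h1
  · refine ⟨h1.1, h1.2, ?_⟩
    intro h2
    simp [h2] at h
  · exact absurd rfl h

theorem prime_of_ca_ne_zero (hC : StCoef) {n : ℕ} (hs : Squarefree n) (hn : ca n ≠ 0) (p : ℕ)
    (hp : p.Prime) (hpn : p ∣ n) : p % 4 = 1 := by
  obtain ⟨m, rfl⟩ := hpn
  have hcop : Nat.Coprime p m := by
    rw [Nat.squarefree_mul_iff] at hs
    exact hs.1
  rw [hC.mul p m hcop] at hn
  have h1 : ca p ≠ 0 := left_ne_zero_of_mul hn
  by_contra h2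
  exact h1 (hC.mod_four p h2)

theorem one_mod_four {n : ℕ} (hn : n ≠ 0) (h : ∀ p : ℕ, p.Prime → p ∣ n → p % 4 = 1) :
    n % 4 = 1 := by
  induction n using Nat.recOnMul with
  | zero => exact absurd rfl hn
  | one => rfl
  | prime p hp => exact h p hp dvd_rfl
  | mul a b ha hb =>
    have ha0 : a ≠ 0 := left_ne_zero_of_mul hn
    have hb0 : b ≠ 0 := right_ne_zero_of_mul hn
    have h1 := ha ha0 fun p hp hpa => h p hp (hpa.mul_right b)
    have h2 := hb hb0 fun p hp hpb => h p hp (hpb.mul_left a)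
    rw [Nat.mul_mod, h1, h2]

theorem chi_neg (j : ℤ) {n : ℕ} (hn : n ≠ 0) (h : ∀ p : ℕ, p.Prime → p ∣ n → p % 4 = 1) :
    chi (-j) n = chi j n := by
  unfold chi
  have h4 := one_mod_four hn h
  rw [← neg_one_mul, jacobiSym.mul_left, jacobiSym.at_neg_one (by rw [Nat.odd_iff]; omega)]
  have : ZMod.χ₄ (n : ZMod 4) = 1 := by
    rw [ZMod.χ₄_nat_one_mod_four h4]
  rw [this, one_mul]

/-! ### the integrals `ah` -/

/-- `∫_0^∞ x^15 e^{-x} e^{-π h² x^16/H²} dx` -/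
noncomputable def ah (H : ℝ) (h : ℤ) : ℝ :=
  ∫ x in Ioi (0 : ℝ), x ^ 15 * Real.exp (-x) * Real.exp (-π * (h : ℝ) ^ 2 * x ^ 16 / H ^ 2)

theorem integrable_pow_exp (k : ℕ) :
    IntegrableOn (fun x : ℝ => x ^ k * Real.exp (-x)) (Ioi 0) := by
  have h := Real.GammaIntegral_convergent (s := k + 1) (by positivity)
  refine h.congr_fun (fun x _ => ?_) measurableSet_Ioi
  simp only [add_sub_cancel_right, Real.rpow_natCast]
  ring

theorem integrable_ah (H : ℝ) (h : ℤ) :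
    IntegrableOn (fun x : ℝ => x ^ 15 * Real.exp (-x) *
      Real.exp (-π * (h : ℝ) ^ 2 * x ^ 16 / H ^ 2)) (Ioi 0) := by
  refine Integrable.mono' (integrable_pow_exp 15) ?_ ?_
  · apply Continuous.aestronglyMeasurable
    fun_prop
  · filter_upwards [ae_restrict_mem measurableSet_Ioi] with x hx
    have hx0 : (0 : ℝ) < x := hx
    rw [Real.norm_eq_abs, abs_of_nonneg (by positivity)]
    refine mul_le_of_le_one_right (by positivity) ?_
    rw [Real.exp_le_one_iff]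
    have : 0 ≤ π * (h : ℝ) ^ 2 * x ^ 16 / H ^ 2 := by positivity
    have e : -π * (h : ℝ) ^ 2 * x ^ 16 / H ^ 2 = -(π * (h : ℝ) ^ 2 * x ^ 16 / H ^ 2) := by ring
    rw [e]; linarith

theorem ah_nonneg (H : ℝ) (h : ℤ) : 0 ≤ ah H h := by
  refine setIntegral_nonneg measurableSet_Ioi fun x hx => ?_
  have hx0 : (0 : ℝ) < x := hx
  positivity

/-- `e^{-y} ≤ y^{-3/4}` in the form used below -/
theorem exp_neg_le {y : ℝ} (hy : 0 < y) : Real.exp (-y) ≤ y ^ (-(3 / 4) : ℝ) := by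
  have h1 : y ^ (3 / 4 : ℝ) ≤ Real.exp y := by
    rcases le_total y 1 with h | h
    · exact (Real.rpow_le_one hy.le h (by norm_num)).trans (Real.one_le_exp hy.le)
    · calc y ^ (3 / 4 : ℝ) ≤ y ^ (1 : ℝ) := Real.rpow_le_rpow_of_exponent_le h (by norm_num)
        _ = y := Real.rpow_one y
        _ ≤ Real.exp y := by linarith [Real.add_one_le_exp y]
  rw [Real.exp_neg, Real.rpow_neg hy.le]
  exact inv_anti₀ (by positivity) h1

theorem ah_le {H : ℝ} (hH : 0 < H) {h : ℤ} (hh : h ≠ 0) :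
    ah H h ≤ 6 * H ^ (3 / 2 : ℝ) * |(h : ℝ)| ^ (-(3 / 2) : ℝ) := by
  have h0 : 0 < |(h : ℝ)| := by
    rw [abs_pos]; exact_mod_cast hh
  have key : ∀ x ∈ Ioi (0 : ℝ), x ^ 15 * Real.exp (-x) *
      Real.exp (-π * (h : ℝ) ^ 2 * x ^ 16 / H ^ 2) ≤
      (H ^ (3 / 2 : ℝ) * |(h : ℝ)| ^ (-(3 / 2) : ℝ)) * (x ^ 3 * Real.exp (-x)) := by
    intro x hx
    have hx0 : (0 : ℝ) < x := hx
    have e : -π * (h : ℝ) ^ 2 * x ^ 16 / H ^ 2 = -(π * (|(h : ℝ)| ^ 2 * x ^ 16 / H ^ 2)) := by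
      rw [sq_abs]; ring
    have hy : 0 < |(h : ℝ)| ^ 2 * x ^ 16 / H ^ 2 := by positivity
    have h1 : Real.exp (-π * (h : ℝ) ^ 2 * x ^ 16 / H ^ 2) ≤
        (|(h : ℝ)| ^ 2 * x ^ 16 / H ^ 2) ^ (-(3 / 4) : ℝ) := by
      refine le_trans ?_ (exp_neg_le hy)
      rw [e, Real.exp_le_exp]
      have := Real.pi_gt_three
      nlinarith
    have h2 : (|(h : ℝ)| ^ 2 * x ^ 16 / H ^ 2) ^ (-(3 / 4) : ℝ) =
        H ^ (3 / 2 : ℝ) * |(h : ℝ)| ^ (-(3 / 2) : ℝ) * (x ^ 12)⁻¹ := by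
      rw [Real.div_rpow (by positivity) (by positivity), Real.mul_rpow (by positivity)
        (by positivity), ← Real.rpow_natCast, ← Real.rpow_natCast, ← Real.rpow_natCast,
        ← Real.rpow_mul h0.le, ← Real.rpow_mul hx0.le, ← Real.rpow_mul hH.le]
      have e1 : ((2 : ℕ) : ℝ) * -(3 / 4) = -(3 / 2) := by norm_num
      have e2 : ((16 : ℕ) : ℝ) * -(3 / 4) = -((12 : ℕ) : ℝ) := by norm_num
      rw [e1, e2, Real.rpow_neg hx0.le, Real.rpow_natCast, Real.rpow_neg hH.le]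
      field_simp
    have h3 : x ^ 15 * (x ^ 12)⁻¹ = x ^ 3 := by
      field_simp
    calc x ^ 15 * Real.exp (-x) * Real.exp (-π * (h : ℝ) ^ 2 * x ^ 16 / H ^ 2)
        ≤ x ^ 15 * Real.exp (-x) * (H ^ (3 / 2 : ℝ) * |(h : ℝ)| ^ (-(3 / 2) : ℝ) * (x ^ 12)⁻¹) := by
          rw [← h2]
          exact mul_le_mul_of_nonneg_left h1 (by positivity)
      _ = (H ^ (3 / 2 : ℝ) * |(h : ℝ)| ^ (-(3 / 2) : ℝ)) * ((x ^ 15 * (x ^ 12)⁻¹) * Real.exp (-x)) := by
          ring
      _ = _ := by rw [h3]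
  have hI : ∫ x in Ioi (0 : ℝ), x ^ 3 * Real.exp (-x) = 6 := by
    have h1 := Real.Gamma_eq_integral (s := 4) (by norm_num)
    have h2 : Real.Gamma 4 = 6 := by
      have := Real.Gamma_nat_eq_factorial 3
      norm_num [Nat.factorial] at this ⊢
    rw [h2] at h1
    rw [h1]
    refine setIntegral_congr_fun measurableSet_Ioi fun x hx => ?_
    have : (4 : ℝ) - 1 = ((3 : ℕ) : ℝ) := by norm_num
    simp only [this, Real.rpow_natCast]
    ring
  calc ah H h ≤ ∫ x in Ioi (0 : ℝ), (H ^ (3 / 2 : ℝ) * |(h : ℝ)| ^ (-(3 / 2) : ℝ)) *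
        (x ^ 3 * Real.exp (-x)) := by
        refine setIntegral_mono_on (integrable_ah H h) ?_ measurableSet_Ioi key
        exact (integrable_pow_exp 3).const_mul _
    _ = 6 * H ^ (3 / 2 : ℝ) * |(h : ℝ)| ^ (-(3 / 2) : ℝ) := by
        rw [integral_const_mul, hI]; ring

theorem summable_ah {H : ℝ} (hH : 0 < H) : Summable (ah H) := by
  have h1 : Summable fun h : ℤ => |(h : ℝ)| ^ (-(3 / 2) : ℝ) :=
    Real.summable_abs_int_rpow (by norm_num)
  have h2 := h1.mul_left (6 * H ^ (3 / 2 : ℝ))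
  refine Summable.of_norm_bounded_eventually (g := fun h : ℤ =>
    6 * H ^ (3 / 2 : ℝ) * |(h : ℝ)| ^ (-(3 / 2) : ℝ)) h2 ?_
  have : ({0} : Set ℤ)ᶜ ∈ Filter.cofinite := by
    rw [Filter.mem_cofinite]; simp
  filter_upwards [this] with h hh
  rw [Real.norm_eq_abs, abs_of_nonneg (ah_nonneg H h)]
  exact ah_le hH (by simpa using hh)

/-- the constant `∫_0^∞ x^15 e^{-x} e^{-π x^16} dx` -/
noncomputable def c0 : ℝ := ah 1 1

theorem c0_pos : 0 < c0 := by
  unfold c0 ah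
  rw [integral_pos_iff_support_of_nonneg_ae]
  · have : Function.support (fun x : ℝ => x ^ 15 * Real.exp (-x) *
        Real.exp (-π * ((1 : ℤ) : ℝ) ^ 2 * x ^ 16 / 1 ^ 2)) ⊇ Ioi 0 := by
      intro x hx
      have hx0 : (0 : ℝ) < x := hx
      rw [Function.mem_support]
      positivity
    refine lt_of_lt_of_le ?_ (measure_mono this)
    rw [Measure.restrict_apply_self]
    simp
  · filter_upwards [ae_restrict_mem measurableSet_Ioi] with x hx
    have hx0 : (0 : ℝ) < x := hx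
    simp only [Pi.zero_apply]
    positivity
  · exact integrable_ah 1 1

theorem c0_le {H : ℝ} (hH : 0 < H) {m : ℕ} (hm : (m : ℝ) ≤ H) : c0 ≤ ah H m := by
  unfold c0 ah
  refine setIntegral_mono_on (integrable_ah 1 1) (integrable_ah H m) measurableSet_Ioi ?_
  intro x hx
  have hx0 : (0 : ℝ) < x := hx
  refine mul_le_mul_of_nonneg_left ?_ (by positivity)
  rw [Real.exp_le_exp]
  have h1 : (m : ℝ) ^ 2 / H ^ 2 ≤ 1 := by
    rw [div_le_one (by positivity)]
    exact pow_le_pow_left₀ (by positivity) hm 2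
  have h2 : 0 ≤ π * x ^ 16 := by positivity
  push_cast
  have e1 : -π * 1 ^ 2 * x ^ 16 / 1 ^ 2 = -(π * x ^ 16) := by ring
  have e2 : -π * (m : ℝ) ^ 2 * x ^ 16 / H ^ 2 = -(π * x ^ 16 * ((m : ℝ) ^ 2 / H ^ 2)) := by ring
  rw [e1, e2]
  nlinarith

/-- the left side of `StPair` as a series -/
theorem integral_eq_tsum {H : ℝ} (hH : 0 < H) (n : ℕ) :
    ∫ x in Ioi (0 : ℝ), x ^ 15 * Real.exp (-x) *
        ∑' h : ℤ, Real.exp (-π * (h : ℝ) ^ 2 * x ^ 16 / H ^ 2) * chi h n =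
      ∑' h : ℤ, ah H h * chi h n := by
  have h1 := integral_tsum_of_summable_integral_norm (μ := volume.restrict (Ioi (0 : ℝ)))
    (F := fun (h : ℤ) (x : ℝ) => x ^ 15 * Real.exp (-x) *
      Real.exp (-π * (h : ℝ) ^ 2 * x ^ 16 / H ^ 2) * chi h n)
    (fun h => (integrable_ah H h).mul_const _) ?_
  · rw [show (fun x : ℝ => x ^ 15 * Real.exp (-x) *
        ∑' h : ℤ, Real.exp (-π * (h : ℝ) ^ 2 * x ^ 16 / H ^ 2) * chi h n) =
        fun x : ℝ => ∑' h : ℤ, x ^ 15 * Real.exp (-x) *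
        Real.exp (-π * (h : ℝ) ^ 2 * x ^ 16 / H ^ 2) * chi h n from ?_, ← h1]
    · refine tsum_congr fun h => ?_
      rw [integral_mul_const]
      rfl
    · funext x
      rw [← tsum_mul_left]
      refine tsum_congr fun h => ?_
      ring
  · refine Summable.of_nonneg_of_le (fun h => integral_nonneg fun x => norm_nonneg _) (fun h => ?_)
      (summable_ah hH)
    unfold ah
    refine setIntegral_mono_on ?_ (integrable_ah H h) measurableSet_Ioi ?_
    · exact ((integrable_ah H h).mul_const _).norm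
    · intro x hx
      have hx0 : (0 : ℝ) < x := hx
      rw [norm_mul, Real.norm_eq_abs, Real.norm_eq_abs, abs_of_nonneg (by positivity)]
      exact mul_le_of_le_one_right (by positivity) (abs_chi_le h n)

end P004.H1
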