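import Vale.Agent.P004.Defs

/-!
# P004: frozen statements of the modules

Every module proves `theorem pfXxx : StXxx` in its own file `Vale/Agent/P004/<Module>.lean`
(importing `Vale.Agent.P004.Iface` only, and taking other `StYyy` as hypotheses when needed, e.g.
`theorem pfRec (h1 : StDecomp) (h2 : StSumS) ... : StRec`).
-/

open Real MeasureTheory Set
open scoped ENNReal

namespace P004

/-! ### A. arithmetic of `ca` -/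

/-- Module A1 : basic arithmetic of `ca`. -/
structure StCoef : Prop where
  zero : ca 0 = 0
  one : ca 1 = 1
  mul : ∀ m n : ℕ, Nat.Coprime m n → ca (m * n) = ca m * ca n
  mod_four : ∀ n : ℕ, n % 4 ≠ 1 → ca n = 0
  three_mod_four : ∀ p : ℕ, p.Prime → p % 4 = 3 → ca p = 0
  hecke : ∀ p k : ℕ, p.Prime → p ≠ 2 → ca (p ^ (k + 2)) = ca p * ca (p ^ (k + 1)) - p * ca (p ^ k)
  bound : ∀ n : ℕ, |(ca n : ℝ)| ≤ dv n * √(n : ℝ)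

/-- Module A2 : `ca p` is the trace of Frobenius of `y² = x³ - x`. -/
def StPt : Prop :=
  ∀ (p : ℕ) [Fact p.Prime], p ≠ 2 → ca p = - ∑ x : ZMod p, quadraticChar (ZMod p) (x ^ 3 - x)

/-! ### B. divisor sums -/

/-- Module B : divisor sums, polynomial in `1/θ`. -/
def StDiv : Prop :=
  (∀ K : ℕ, ∃ C : ℝ, 0 < C ∧ ∃ A : ℕ, ∀ θ : ℝ, 0 < θ → θ ≤ 1 →
    ∑' n : ℕ, ENNReal.ofReal (dv n ^ K * (n : ℝ) ^ (-1 - θ)) ≤ ENNReal.ofReal (C * (1 / θ) ^ A)) ∧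
  (∀ K : ℕ, ∃ C : ℝ, 0 < C ∧ ∃ A : ℕ, ∀ θ : ℝ, 0 < θ → θ ≤ 1 →
    ∑' r : {r : ℕ // Powerful r}, ENNReal.ofReal (dv r ^ K * (r : ℝ) ^ (-1 / 2 - θ)) ≤
      ENNReal.ofReal (C * (1 / θ) ^ A))

/-! ### C. theta functional equation -/

/-- Module C0 : one-dimensional Poisson summation twisted by a periodic function. -/
def StTw : Prop :=
  ∀ (M : ℕ) [NeZero M] (c : ZMod M → ℂ) (t : ℝ), 0 < t →
    (∑' n : ℤ, c n * (Real.exp (-π * (n : ℝ) ^ 2 * t) : ℂ) =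
      (1 / (M * √t : ℝ) : ℂ) * ∑' k : ℤ,
        (∑ a : ZMod M, c a * ZMod.stdAddChar (a * (k : ZMod M))) *
          (Real.exp (-π * (k : ℝ) ^ 2 / (M ^ 2 * t)) : ℂ)) ∧
    (∑' n : ℤ, c n * ((n : ℝ) * Real.exp (-π * (n : ℝ) ^ 2 * t) : ℝ) =
      (-Complex.I / (M ^ 2 * (t * √t) : ℝ) : ℂ) * ∑' k : ℤ,
        (∑ a : ZMod M, c a * ZMod.stdAddChar (a * (k : ZMod M))) *
          ((k : ℝ) * Real.exp (-π * (k : ℝ) ^ 2 / (M ^ 2 * t)) : ℝ))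

/-- Module C : functional equation of `theta m`. -/
def StFE : Prop :=
  ∀ m : ℕ, Squarefree m → ∃ κ : ℝ, (κ = 1 ∨ κ = -1) ∧ ∀ u : ℝ, 0 < u →
    theta m u = κ / (Qm m * u ^ 2) * theta m (1 / (Qm m * u))

/-! ### D. Gauss sums and Poisson summation for real characters -/

/-- Module D : Poisson summation for `(h/q)`, `q` a product of distinct primes `≡ 1 mod 4`
(contains the sign of the quadratic Gauss sum). -/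
def StPois : Prop :=
  ∀ q : ℕ, Squarefree q → (∀ p : ℕ, p.Prime → p ∣ q → p % 4 = 1) → ∀ T : ℝ, 0 < T →
    ∑' h : ℤ, Real.exp (-π * (h : ℝ) ^ 2 / T ^ 2) * chi h q =
      T / √(q : ℝ) * ∑' j : ℤ, Real.exp (-π * (j : ℝ) ^ 2 * T ^ 2 / (q : ℝ) ^ 2) * chi j q

/-- Module D2 : the mixed Poisson formula for a pair `n₁, n₂`. -/
def StPair : Prop :=
  ∀ n₁ n₂ : ℕ, Squarefree n₁ → Squarefree n₂ →
    (∀ p : ℕ, p.Prime → p ∣ n₁ * n₂ → p % 4 = 1) → ∀ H : ℝ, 0 < H →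
    ∫ x in Ioi (0 : ℝ), x ^ 15 * Real.exp (-x) *
        ∑' h : ℤ, Real.exp (-π * (h : ℝ) ^ 2 * x ^ 16 / H ^ 2) * chi h (n₁ * n₂) =
      H * ∑ d ∈ (n₁.gcd n₂).divisors, (ArithmeticFunction.moebius d : ℝ) /
          (d * √(((n₁ / n₁.gcd n₂) * (n₂ / n₁.gcd n₂) : ℕ) : ℝ)) *
        ∑' j : ℤ, if (d : ℤ) ∣ j then
          chi j ((n₁ / n₁.gcd n₂) * (n₂ / n₁.gcd n₂)) *
            Gk (|(j : ℝ)| * H / ((d : ℝ) ^ 2 * (((n₁ / n₁.gcd n₂) * (n₂ / n₁.gcd n₂) : ℕ) : ℝ)))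
          else 0

/-! ### E. the kernel `Gk` -/

/-- the separating weight -/
noncomputable def kapc (θ v : ℝ) : ℂ :=
  (1 / (2 * π) : ℝ) * mellin (fun y : ℝ => (Gk y : ℂ)) ((1 / 2 - θ : ℝ) + v * Complex.I)

/-- Module E : the kernel. -/
structure StKer : Prop where
  nonneg : ∀ y, 0 ≤ Gk y
  le : ∀ y, Gk y ≤ 5040
  cont : Continuous Gk
  decay : ∃ C : ℝ, 0 < C ∧ ∀ y : ℝ, 0 ≤ y → Gk y ≤ C * Real.exp (-(y ^ (2 / 17 : ℝ)) / 2)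
  kcont : ∀ θ : ℝ, 0 < θ → θ ≤ 1 / 4 → Continuous (kapc θ)
  kbound : ∃ C : ℝ, 0 < C ∧ ∀ θ v : ℝ, 0 < θ → θ ≤ 1 / 4 →
    ‖kapc θ v‖ ≤ C * Real.exp (-3 * π * |v|)
  repr : ∀ θ : ℝ, 0 < θ → θ ≤ 1 / 4 → ∀ y : ℝ, 0 < y →
    (Gk y : ℂ) = ∫ v : ℝ, kapc θ v * (y : ℂ) ^ (-(((1 / 2 - θ : ℝ) : ℂ) + v * Complex.I))

/-! ### F. analysis of `Bf` -/

/-- Module F : fractional integration. -/
def StFrac : Prop :=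
  ∃ C : ℝ, 0 < C ∧ ∀ θ : ℝ, 0 < θ → θ ≤ 1 / 8 → ∀ v : ℝ, ∀ m : ℕ, 0 < m →
    nrm θ (Bf θ v m) ≤ ENNReal.ofReal (C * (1 / θ) ^ 2 * Real.exp (2 * π * |v|)) * (Jm m + 1)

/-- Module G : convolution bound for `Tf`. -/
def StConv : Prop :=
  ∃ C : ℝ, 0 < C ∧ ∃ A : ℕ, ∀ θ : ℝ, 0 < θ → θ ≤ 1 / 8 → ∀ v : ℝ, ∀ m : ℤ, ∀ R : ℕ, 0 < R →
    nrm θ (Tf θ v R m) ≤ ENNReal.ofReal (C * (1 / θ) ^ A * dv R ^ A) * nrm θ (Bf θ v m)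

/-! ### H. the dual sum -/

/-- Module H1 : the positivity step and Poisson summation. -/
def StSumS : Prop :=
  ∃ C : ℝ, 0 < C ∧ ∀ (X r : ℕ) (H u : ℝ), 0 < r → 1 ≤ X → (X : ℝ) ≤ H → 0 < u →
    ENNReal.ofReal (∑ m ∈ sqf X, Uf m r u ^ 2) ≤
      ENNReal.ofReal (C * H) * (ENNReal.ofReal |Aj H r 0 u| +
        ∑' j : ℕ, ENNReal.ofReal |Aj H r (j + 1) u|)

/-- Module H2 : separation of variables in `Aj`. -/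
def StSep : Prop :=
  ∃ C : ℝ, 0 < C ∧ ∀ θ : ℝ, 0 < θ → θ ≤ 1 / 8 → ∀ (H : ℝ) (r j : ℕ) (u : ℝ), 0 < H → 0 < r →
    0 < j → 0 < u →
    ENNReal.ofReal |Aj H r j u| ≤
      ENNReal.ofReal (C * (j * H) ^ (-1 / 2 + θ)) *
        ∑' g : ℕ, ∑' e : ℕ, ENNReal.ofReal (g * dv g ^ 3 * (dv e ^ 2 * (e : ℝ) ^ (1 - 2 * θ))) *
          ∫⁻ v : ℝ, ENNReal.ofReal (Real.exp (-3 * π * |v|) *
            ‖Tf θ v (e * g * r) j (u * g * e)‖ ^ 2)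

/-- Module H3 : the bound for one `j ≥ 1`. -/
def StAj : Prop :=
  ∃ C : ℝ, 0 < C ∧ ∃ A : ℕ, ∀ θ : ℝ, 0 < θ → θ ≤ 1 / 8 → ∀ (H : ℝ) (r j₁ j₂ : ℕ), 0 < H →
    0 < r → Squarefree j₁ → 0 < j₂ →
    ∫⁻ u in Ioi (0 : ℝ), ENNReal.ofReal (|Aj H r ((j₁ * j₂ ^ 2 : ℕ) : ℤ) u| * u ^ (1 + 2 * θ)) ≤
      ENNReal.ofReal (C * (1 / θ) ^ A * dv r ^ A * dv j₂ ^ A *
        (((j₁ * j₂ ^ 2 : ℕ) : ℝ) * H) ^ (-1 / 2 + θ)) * (Jm j₁ + 1)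

/-- Module H4 : the term `j = 0`. -/
def StA0 : Prop :=
  ∃ C : ℝ, 0 < C ∧ ∃ A : ℕ, ∀ θ : ℝ, 0 < θ → θ ≤ 1 / 8 → ∀ (H : ℝ) (r : ℕ), 0 < H → 0 < r →
    ∫⁻ u in Ioi (0 : ℝ), ENNReal.ofReal (|Aj H r 0 u| * u ^ (1 + 2 * θ)) ≤
      ENNReal.ofReal (C * (1 / θ) ^ A)

/-- Module H5 : the tail `j H > X² (C L)^17`. -/
def StTail : Prop :=
  ∃ C : ℝ, 1 ≤ C ∧ ∀ (L θ H : ℝ) (X r : ℕ), 1 ≤ X → 1 ≤ L → Real.log X ≤ L → 0 < θ →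
    θ ≤ 1 / 8 → (X : ℝ) ≤ H → 0 < r →
    ∑' j : ℕ, (if (X : ℝ) ^ 2 * (C * L) ^ 17 < j * H then
      ∫⁻ u in Ioi (1 / (3 * X) : ℝ), ENNReal.ofReal (|Aj H r j u| * u ^ (1 + 2 * θ)) else 0) ≤ 1

/-! ### I. assembly of the recursion -/

/-- Module I1 : reduction of `sumJ` to squarefree-supported sums. -/
def StDecomp : Prop :=
  ∃ C : ℝ, 0 < C ∧ ∃ A : ℕ, ∀ θ : ℝ, 0 < θ → θ ≤ 1 / 8 → ∀ X : ℕ, 1 ≤ X →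
    sumJ X ≤ ENNReal.ofReal (C * (1 / θ) ^ A * (3 * X : ℝ) ^ (2 * θ)) *
      ∑' r : {r : ℕ // Powerful r}, ENNReal.ofReal (dv r ^ 2 * (r : ℝ) ^ (-1 / 2 - 3 / 2 * θ)) *
        ∫⁻ u in Ioi (1 / (3 * X) : ℝ),
          ENNReal.ofReal ((∑ m ∈ sqf X, Uf m r u ^ 2) * u ^ (1 + 2 * θ))

/-- Module I2 : the recursion. -/
def StRec : Prop :=
  ∃ C₁ : ℝ, 1 ≤ C₁ ∧ ∃ C : ℝ, 1 ≤ C ∧ ∃ A : ℕ, ∀ (L H : ℝ) (X : ℕ), 1 ≤ X → 1 ≤ L →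
    Real.log X ≤ L → (X : ℝ) ≤ H → H ≤ (X : ℝ) ^ 2 * (C₁ * L) ^ 17 →
    sumJ X ≤ ENNReal.ofReal (C * L ^ A) * (ENNReal.ofReal H + ENNReal.ofReal (√H) *
      ∑ j ∈ sqf ⌊(X : ℝ) ^ 2 * (C₁ * L) ^ 17 / H⌋₊, ENNReal.ofReal (1 / √(j : ℝ)) * (Jm j + 1))

/-- Module I3 : the trivial bound. -/
def StTriv : Prop := ∃ C : ℝ, 1 ≤ C ∧ ∀ m : ℕ, 0 < m → Squarefree m →
  Jm m ≤ ENNReal.ofReal (C * (m : ℝ) ^ 3)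

/-- Module J : the main estimate. -/
def StMain : Prop := ∃ C : ℝ, 1 ≤ C ∧ ∀ X : ℕ, 3 ≤ X →
  sumJ X ≤ ENNReal.ofReal (X * Real.exp (C * √(Real.log X * Real.log (Real.log X + 2))))

/-! ### K. the completed L-function -/

/-- Module K1 : the completed `L`-function of the twist. -/
def StEnt : Prop :=
  ∃ C : ℝ, 1 ≤ C ∧ ∀ m : ℕ, 0 < m → Squarefree m → ∃ Φ : ℂ → ℂ, Differentiable ℂ Φ ∧
    (∀ s : ℂ, 3 / 2 < s.re → Φ s = 4 * Complex.Gamma s * (π : ℂ) ^ (-s) *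
      ∑' n : ℕ, ((ca n * chi m n : ℝ) : ℂ) / (n : ℂ) ^ s) ∧
    (∀ s : ℂ, 1 ≤ s.re → s.re ≤ 5 →
      ‖Φ s‖ ≤ C * (1 + √((Jm m).toReal * Real.log (3 * m)))) ∧
    (∀ s : ℂ, ‖Φ (2 - s)‖ = Qm m ^ (s.re - 1) * ‖Φ s‖) ∧
    1 / C ≤ ‖Φ 3‖

/-- Module K2 : a bound for the order of vanishing (pure complex analysis). -/
def StOrd : Prop :=
  ∃ C : ℝ, 1 ≤ C ∧ ∀ (Φ : ℂ → ℂ) (T B c₀ : ℝ) (a : ℕ), Differentiable ℂ Φ → 1 ≤ T → 0 < c₀ →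
    c₀ ≤ 1 → 1 ≤ B →
    (∀ s : ℂ, 1 ≤ s.re → s.re ≤ 5 → ‖Φ s‖ ≤ B) →
    (∀ s : ℂ, 0 ≤ s.re → s.re ≤ 1 → ‖Φ s‖ ≤ B * Real.exp (2 * T * (1 - s.re))) →
    c₀ ≤ ‖Φ 3‖ → (a : ℕ∞) ≤ analyticOrderAt Φ 1 →
    (a : ℝ) ^ 2 ≤ C * (T + Real.log (B / c₀) + 1) * (Real.log (B / c₀) + 1)

/-! ### L. the twists and the final statement -/

/-- Module L1 : the Euler product of the twist is a twisted Dirichlet series. -/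
def StEuler : Prop :=
  ∀ D : ℤ, IsFund D → ∃ m : ℕ, 0 < m ∧ Squarefree m ∧ (D.natAbs = m ∨ D.natAbs = 4 * m) ∧
    ∀ s : ℂ, 3 / 2 < s.re → HasProd (fun p : Nat.Primes => localFactor D p s)
      (∑' n : ℕ, ((ca n * chi m n : ℝ) : ℂ) / (n : ℂ) ^ s)

/-- Module L3 : fundamental discriminants have positive lower density. -/
def StCount : Prop := ∃ c : ℝ, 0 < c ∧ ∀ X : ℕ, 3 ≤ X → c * X ≤ ((Fam X).card : ℝ)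

end P004
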