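import Vale.Agent.P004.Final

/-!
# P004: intermediate statements for the final theorem
-/

open Real MeasureTheory Set
open scoped ENNReal

namespace P004

/-- the first part of `StFin` -/
def StLfun : Prop :=
  ∀ D : ℤ, IsFund D → IsLFunction D (LTwist D) ∧ (∀ L, IsLFunction D L → L = LTwist D) ∧
    analyticOrderAt (LTwist D) 1 = (aRank D : ℕ∞)

/-- the pointwise bound of the rank -/
def StRk : Prop :=
  ∃ C : ℝ, 1 ≤ C ∧ ∀ D : ℤ, IsFund D → ∃ m : ℕ, 0 < m ∧ Squarefree m ∧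
    (D.natAbs = m ∨ D.natAbs = 4 * m) ∧ Jm m ≠ ∞ ∧
    (aRank D : ℝ) ^ 2 ≤ C * Real.log (3 * m) *
      (1 + Real.log (1 + Real.log (3 * m)) + Real.log (1 + (Jm m).toReal))

/-- exponential moment of the ranks -/
def StExp : Prop :=
  ∃ C c : ℝ, 0 < C ∧ 0 < c ∧ ∀ X : ℕ, 3 ≤ X →
    ∑ D ∈ Fam X, Real.exp (c * (aRank D : ℝ) ^ 2 / Real.log X) ≤
      X * Real.exp (C * √(Real.log X * Real.log (Real.log X + 2)))

end P004
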