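import Vale.Agent.P004.L2Iface

/-!
# Module L2, part a: the `L`-functions of the twists and the pointwise bound of the rank
-/

open Real MeasureTheory Set
open scoped ENNReal

namespace P004

namespace L2

/-- the factor between the completed and the Hasse-Weil `L`-function -/
noncomputable def hf (s : ℂ) : ℂ := (π : ℂ) ^ s * (Complex.Gamma s)⁻¹ / 4

theorem pi_ne : (π : ℂ) ≠ 0 := by exact_mod_cast Real.pi_ne_zero

theorem hf_diff : Differentiable ℂ hf := by
  unfold hf
  refine Differentiable.div_const (Differentiable.mul ?_ Complex.differentiable_one_div_Gamma) _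
  intro s
  exact DifferentiableAt.const_cpow differentiableAt_id (Or.inl pi_ne)

theorem hf_mul {s : ℂ} (hs : 0 < s.re) :
    4 * Complex.Gamma s * (π : ℂ) ^ (-s) * hf s = 1 := by
  unfold hf
  have hG := Complex.Gamma_ne_zero_of_re_pos hs
  have hp : (π : ℂ) ^ s ≠ 0 := by
    rw [Ne, Complex.cpow_eq_zero_iff]; intro h; exact pi_ne h.1
  rw [Complex.cpow_neg]
  field_simp

theorem hf_ne {s : ℂ} (hs : 0 < s.re) : hf s ≠ 0 := by
  intro h
  have := hf_mul hs
  rw [h, mul_zero] at this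
  exact zero_ne_one this

theorem Lfun_unique {D : ℤ} {L L' : ℂ → ℂ} (h : IsLFunction D L) (h' : IsLFunction D L') :
    L = L' := by
  have h1 : AnalyticOnNhd ℂ L univ := fun z _ => h.entire.analyticAt z
  have h2 : AnalyticOnNhd ℂ L' univ := fun z _ => h'.entire.analyticAt z
  refine h1.eq_of_eventuallyEq h2 (z₀ := 2) ?_
  have hopen : IsOpen {s : ℂ | 3 / 2 < s.re} := isOpen_lt continuous_const Complex.continuous_re
  filter_upwards [hopen.mem_nhds (show (2 : ℂ) ∈ {s : ℂ | 3 / 2 < s.re} by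
    simp only [mem_setOf_eq, Complex.re_ofNat]; norm_num)] with s hs
  exact (h.euler s hs).unique (h'.euler s hs)

/-- everything about one twist -/
theorem one_twist (hE : StEnt) (hEu : StEuler) :
    ∃ C : ℝ, 1 ≤ C ∧ ∀ D : ℤ, IsFund D → ∃ m : ℕ, 0 < m ∧ Squarefree m ∧
      (D.natAbs = m ∨ D.natAbs = 4 * m) ∧ ∃ Φ : ℂ → ℂ, Differentiable ℂ Φ ∧
      IsLFunction D (fun s => Φ s * hf s) ∧
      (∀ s : ℂ, 1 ≤ s.re → s.re ≤ 5 →
        ‖Φ s‖ ≤ C * (1 + √((Jm m).toReal * Real.log (3 * m)))) ∧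
      (∀ s : ℂ, ‖Φ (2 - s)‖ = Qm m ^ (s.re - 1) * ‖Φ s‖) ∧
      1 / C ≤ ‖Φ 3‖ := by
  obtain ⟨C, hC, h⟩ := hE
  refine ⟨C, hC, fun D hD => ?_⟩
  obtain ⟨m, hm, hsq, hnat, hprod⟩ := hEu D hD
  obtain ⟨Φ, h1, h2, h3, h4, h5⟩ := h m hm hsq
  refine ⟨m, hm, hsq, hnat, Φ, h1, ⟨h1.mul hf_diff, fun s hs => ?_⟩, h3, h4, h5⟩
  have h6 := hprod s hs
  have h7 : Φ s * hf s = ∑' n : ℕ, ((ca n * chi m n : ℝ) : ℂ) / (n : ℂ) ^ s := by
    rw [h2 s hs]
    have := hf_mul (s := s) (by linarith)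
    calc 4 * Complex.Gamma s * (π : ℂ) ^ (-s) *
          (∑' n : ℕ, ((ca n * chi m n : ℝ) : ℂ) / (n : ℂ) ^ s) * hf s
        = (4 * Complex.Gamma s * (π : ℂ) ^ (-s) * hf s) *
          (∑' n : ℕ, ((ca n * chi m n : ℝ) : ℂ) / (n : ℂ) ^ s) := by ring
      _ = _ := by rw [this, one_mul]
  simp only [h7]
  exact h6

theorem LTwist_eq {D : ℤ} {L : ℂ → ℂ} (h : IsLFunction D L) : LTwist D = L := by
  have hex : ∃ L, IsLFunction D L := ⟨L, h⟩
  unfold LTwist
  rw [dif_pos hex]
  exact Lfun_unique hex.choose_spec h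

theorem order_ne_top {L : ℂ → ℂ} (h : Differentiable ℂ L) {z : ℂ} (hz : L z ≠ 0) :
    analyticOrderAt L 1 ≠ ⊤ := by
  intro htop
  rw [analyticOrderAt_eq_top] at htop
  have h1 : AnalyticOnNhd ℂ L univ := fun z _ => h.analyticAt z
  have h2 : AnalyticOnNhd ℂ (fun _ : ℂ => (0 : ℂ)) univ := fun z _ => analyticAt_const
  have := h1.eq_of_eventuallyEq h2 (z₀ := 1) htop
  exact hz (by rw [this])

end L2

/-- first part of the final theorem -/
theorem pfLfun (hE : StEnt) (hEu : StEuler) : StLfun := by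
  obtain ⟨C, hC, h⟩ := L2.one_twist hE hEu
  intro D hD
  obtain ⟨m, hm, hsq, hnat, Φ, h1, h2, h3, h4, h5⟩ := h D hD
  have hL := L2.LTwist_eq h2
  rw [hL]
  refine ⟨h2, fun L hL' => L2.Lfun_unique hL' h2, ?_⟩
  unfold aRank
  rw [hL, Nat.cast_analyticOrderNatAt]
  refine L2.order_ne_top h2.entire (z := 3) ?_
  refine mul_ne_zero ?_ (L2.hf_ne (by simp))
  intro h0
  rw [h0, norm_zero] at h5
  have : 0 < 1 / C := by positivity
  linarith

/-- the pointwise bound -/
theorem pfRk (hE : StEnt) (hEu : StEuler) (hO : StOrd) (hT : StTriv) : StRk := by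
  obtain ⟨C, hC, h⟩ := L2.one_twist hE hEu
  obtain ⟨C2, hC2, hord⟩ := hO
  obtain ⟨C3, hC3, htriv⟩ := hT
  have hlC : 0 ≤ Real.log C := Real.log_nonneg hC
  have hlC3 : 0 ≤ Real.log (1 + C3) := Real.log_nonneg (by linarith)
  refine ⟨C2 * (5 + 2 * Real.log C + 1 + Real.log (1 + C3)) * (2 * Real.log C + 1), ?_,
    fun D hD => ?_⟩
  · have e1 : 1 ≤ 5 + 2 * Real.log C + 1 + Real.log (1 + C3) := by linarith
    have e2 : 1 ≤ 2 * Real.log C + 1 := by linarith
    calc (1 : ℝ) = 1 * 1 * 1 := by norm_num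
      _ ≤ C2 * (5 + 2 * Real.log C + 1 + Real.log (1 + C3)) * (2 * Real.log C + 1) := by
        gcongr
  obtain ⟨m, hm, hsq, hnat, Φ, h1, h2, h3, h4, h5⟩ := h D hD
  have hJ := htriv m hm hsq
  have hJtop : Jm m ≠ ∞ := ne_top_of_le_ne_top ENNReal.ofReal_ne_top hJ
  refine ⟨m, hm, hsq, hnat, hJtop, ?_⟩
  have hm1 : (1 : ℝ) ≤ m := by exact_mod_cast hm
  set J := (Jm m).toReal with hJdef
  have hJ0 : 0 ≤ J := ENNReal.toReal_nonneg
  have hJle : J ≤ C3 * (m : ℝ) ^ 3 := by
    have := ENNReal.toReal_mono ENNReal.ofReal_ne_top hJ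
    rwa [ENNReal.toReal_ofReal (by positivity)] at this
  set T := Real.log (3 * m) with hTdef
  have hT1 : 1 ≤ T := by
    rw [hTdef, Real.le_log_iff_exp_le (by positivity)]
    have := Real.exp_one_lt_d9
    linarith
  set B := C * (1 + √(J * T)) with hB
  have hs0 : 0 ≤ √(J * T) := Real.sqrt_nonneg _
  have hB1 : 1 ≤ B := by
    rw [hB]
    calc (1 : ℝ) = 1 * 1 := by norm_num
      _ ≤ C * (1 + √(J * T)) := by gcongr; linarith
  have hQ0 : 0 < Qm m := by unfold Qm; split_ifs <;> positivity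
  have hQ : Qm m ≤ Real.exp (2 * T) := by
    have e : Real.exp (2 * T) = (3 * m) ^ 2 := by
      rw [hTdef, two_mul, Real.exp_add, Real.exp_log (by positivity)]; ring
    rw [e]
    unfold Qm
    split_ifs <;> nlinarith
  have hlow : ∀ s : ℂ, 0 ≤ s.re → s.re ≤ 1 → ‖Φ s‖ ≤ B * Real.exp (2 * T * (1 - s.re)) := by
    intro s hs0 hs1
    have e1 := h4 (2 - s)
    rw [sub_sub_cancel] at e1
    have e2 : (2 - s).re = 2 - s.re := by simp
    rw [e2] at e1
    have e3 := h3 (2 - s) (by rw [e2]; linarith) (by rw [e2]; linarith)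
    rw [e1, mul_comm]
    refine mul_le_mul e3 ?_ (by positivity) (by positivity)
    rw [show 2 - s.re - 1 = 1 - s.re by ring]
    calc Qm m ^ (1 - s.re) ≤ (Real.exp (2 * T)) ^ (1 - s.re) :=
          Real.rpow_le_rpow hQ0.le hQ (by linarith)
      _ = Real.exp (2 * T * (1 - s.re)) := by rw [← Real.exp_mul]
  have hrank : (aRank D : ℕ∞) ≤ analyticOrderAt Φ 1 := by
    have hL := L2.LTwist_eq h2
    have hne : analyticOrderAt (fun s => Φ s * L2.hf s) 1 ≠ ⊤ := by
      refine L2.order_ne_top h2.entire (z := 3) ?_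
      refine mul_ne_zero ?_ (L2.hf_ne (by simp))
      intro h0
      rw [h0, norm_zero] at h5
      have : 0 < 1 / C := by positivity
      linarith
    unfold aRank
    rw [hL, Nat.cast_analyticOrderNatAt hne]
    have hm1 := analyticOrderAt_mul (h1.analyticAt 1) (L2.hf_diff.analyticAt 1)
    have hm2 : analyticOrderAt L2.hf 1 = 0 :=
      (L2.hf_diff.analyticAt 1).analyticOrderAt_eq_zero.mpr (L2.hf_ne (by simp))
    rw [hm2, add_zero] at hm1
    exact le_of_eq hm1
  have hc0 : 0 < 1 / C := by positivity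
  have key := hord Φ T B (1 / C) (aRank D) h1 hT1 hc0
    (by rw [div_le_one (by positivity)]; exact hC) hB1 h3 hlow h5 hrank
  have hlog : Real.log (B / (1 / C)) ≤ 2 * Real.log C + Real.log (1 + T) + Real.log (1 + J) := by
    have e1 : B / (1 / C) = C ^ 2 * (1 + √(J * T)) := by rw [hB]; field_simp
    have e2 : 1 + √(J * T) ≤ (1 + T) * (1 + J) := by
      have : √(J * T) ≤ J + T := by
        apply Real.sqrt_le_iff.mpr ⟨by positivity, ?_⟩
        nlinarith [mul_nonneg hJ0 (by linarith : (0 : ℝ) ≤ T)]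
      nlinarith [mul_nonneg hJ0 (by linarith : (0 : ℝ) ≤ T)]
    rw [e1, Real.log_mul (by positivity) (by positivity), Real.log_pow]
    have e3 : Real.log (1 + √(J * T)) ≤ Real.log (1 + T) + Real.log (1 + J) := by
      rw [← Real.log_mul (by positivity) (by positivity)]
      exact Real.log_le_log (by positivity) e2
    push_cast
    linarith
  have hlT : 0 ≤ Real.log (1 + T) := Real.log_nonneg (by linarith)
  have hlJ : 0 ≤ Real.log (1 + J) := Real.log_nonneg (by linarith)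
  have hlT' : Real.log (1 + T) ≤ T := by
    have := Real.log_le_sub_one_of_pos (show (0 : ℝ) < 1 + T by linarith)
    linarith
  have hlJ' : Real.log (1 + J) ≤ Real.log (1 + C3) + 3 * T := by
    have e1 : 1 + J ≤ (1 + C3) * (3 * m) ^ 3 := by
      have : (1 : ℝ) ≤ (m : ℝ) ^ 3 := one_le_pow₀ hm1
      nlinarith
    calc Real.log (1 + J) ≤ Real.log ((1 + C3) * (3 * m) ^ 3) :=
          Real.log_le_log (by positivity) e1
      _ = Real.log (1 + C3) + 3 * T := by
          rw [Real.log_mul (by positivity) (by positivity), Real.log_pow]; push_cast; ring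
  have hlB0 : 0 ≤ Real.log (B / (1 / C)) := by
    apply Real.log_nonneg
    rw [le_div_iff₀ hc0]
    have : 1 / C ≤ 1 := by rw [div_le_one (by positivity)]; exact hC
    linarith
  refine key.trans ?_
  have f1 : T + Real.log (B / (1 / C)) + 1 ≤
      (5 + 2 * Real.log C + 1 + Real.log (1 + C3)) * T := by
    nlinarith [mul_nonneg hlC (by linarith : (0 : ℝ) ≤ T - 1),
      mul_nonneg hlC3 (by linarith : (0 : ℝ) ≤ T - 1)]
  have f2 : Real.log (B / (1 / C)) + 1 ≤
      (2 * Real.log C + 1) * (1 + Real.log (1 + T) + Real.log (1 + J)) := by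
    nlinarith [mul_nonneg hlC hlT, mul_nonneg hlC hlJ]
  calc C2 * (T + Real.log (B / (1 / C)) + 1) * (Real.log (B / (1 / C)) + 1)
      ≤ C2 * ((5 + 2 * Real.log C + 1 + Real.log (1 + C3)) * T) *
        ((2 * Real.log C + 1) * (1 + Real.log (1 + T) + Real.log (1 + J))) := by
        apply mul_le_mul _ f2 (by linarith) (by positivity)
        exact mul_le_mul_of_nonneg_left f1 (by linarith)
    _ = _ := by ring

end P004
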