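import Vale.Agent.P004.Iface2
import Vale.Agent.P004.L2a

/-!
# P004, upgrade, module V6a: the pointwise bound of the rank
-/

open Real MeasureTheory Set
open scoped ENNReal

namespace P004

/-- the trivial bound of the rank -/
def StTrivRk : Prop :=
  ∃ K : ℝ, 1 ≤ K ∧ ∀ X : ℕ, 3 ≤ X → ∀ D : ℤ, IsFund D → D.natAbs ≤ X →
    (aRank D : ℝ) ≤ K * Real.log X

/-- the pointwise bound, for `z ≤ K log X` -/
def StPw : Prop :=
  ∀ K : ℝ, 1 ≤ K → ∃ c₁ c₂ C : ℝ, 0 < c₁ ∧ 0 < c₂ ∧ 1 ≤ C ∧ ∀ D : ℤ, IsFund D →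
    ∃ m : ℕ, 0 < m ∧ Squarefree m ∧ (D.natAbs = m ∨ D.natAbs = 4 * m) ∧
    ∀ (X N : ℕ) (z : ℝ), 3 ≤ X → m ≤ X → 1 ≤ N → N ≤ X →
      Real.log X / 2 ≤ Real.log (3 * N) →
      C * √(Real.log X * Real.log (Real.log X + 2)) ≤ z → z ≤ K * Real.log X →
      Jm m ≤ ENNReal.ofReal (Real.exp (c₁ * z)) →
      Jf (1 / (3 * N) : ℝ) m ≤ ENNReal.ofReal (Real.exp (c₂ * z ^ 2 / Real.log X)) →
      (aRank D : ℝ) < z

namespace V6

theorem log_ge_one {X : ℕ} (hX : 3 ≤ X) : 1 ≤ Real.log X := by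
  have hX3 : (3 : ℝ) ≤ X := by exact_mod_cast hX
  rw [Real.le_log_iff_exp_le (by linarith)]
  have := Real.exp_one_lt_d9
  linarith

theorem ll_ge_one {L : ℝ} (hL : 1 ≤ L) : 1 ≤ Real.log (L + 2) := by
  rw [Real.le_log_iff_exp_le (by linarith)]
  have := Real.exp_one_lt_d9
  linarith

theorem ent2_ent (h : StEnt2) : StEnt := by
  obtain ⟨C, hC, h⟩ := h
  refine ⟨C, hC, fun m hm hsq => ?_⟩
  obtain ⟨Φ, h1, h2, h3, h4, h5, -⟩ := h m hm hsq
  exact ⟨Φ, h1, h2, h3, h4, h5⟩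

/-- everything about one twist -/
theorem one_twist (hE : StEnt2) (hEu : StEuler) :
    ∃ C : ℝ, 1 ≤ C ∧ ∀ D : ℤ, IsFund D → ∃ m : ℕ, 0 < m ∧ Squarefree m ∧
      (D.natAbs = m ∨ D.natAbs = 4 * m) ∧ ∃ Φ : ℂ → ℂ, Differentiable ℂ Φ ∧
      IsLFunction D (fun s => Φ s * L2.hf s) ∧
      (∀ s : ℂ, 1 ≤ s.re → s.re ≤ 5 →
        ‖Φ s‖ ≤ C * (1 + √((Jm m).toReal * Real.log (3 * m)))) ∧
      (∀ s : ℂ, ‖Φ (2 - s)‖ = Qm m ^ (s.re - 1) * ‖Φ s‖) ∧
      1 / C ≤ ‖Φ 3‖ ∧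
      (∀ (N : ℕ) (ρ : ℝ) (s : ℂ), 1 ≤ N → 0 ≤ ρ → 1 + ρ ≤ s.re → s.re ≤ 5 →
        ‖Φ s‖ ≤ C * (1 + √((Jf (1 / (3 * N) : ℝ) m).toReal * Real.log (3 * N)) +
          (3 * N : ℝ) ^ (-ρ) * √((Jm m).toReal * Real.log (3 * m)))) := by
  obtain ⟨C, hC, h⟩ := hE
  refine ⟨C, hC, fun D hD => ?_⟩
  obtain ⟨m, hm, hsq, hnat, hprod⟩ := hEu D hD
  obtain ⟨Φ, h1, h2, h3, h4, h5, h6'⟩ := h m hm hsq
  refine ⟨m, hm, hsq, hnat, Φ, h1, ⟨h1.mul L2.hf_diff, fun s hs => ?_⟩, h3, h4, h5, h6'⟩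
  have h6 := hprod s hs
  have h7 : Φ s * L2.hf s = ∑' n : ℕ, ((ca n * chi m n : ℝ) : ℂ) / (n : ℂ) ^ s := by
    rw [h2 s hs]
    have := L2.hf_mul (s := s) (by linarith)
    calc 4 * Complex.Gamma s * (π : ℂ) ^ (-s) *
          (∑' n : ℕ, ((ca n * chi m n : ℝ) : ℂ) / (n : ℂ) ^ s) * L2.hf s
        = (4 * Complex.Gamma s * (π : ℂ) ^ (-s) * L2.hf s) *
          (∑' n : ℕ, ((ca n * chi m n : ℝ) : ℂ) / (n : ℂ) ^ s) := by ring
      _ = _ := by rw [this, one_mul]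
  simp only [h7]
  exact h6

theorem rank_le {D : ℤ} {Φ : ℂ → ℂ} (h1 : Differentiable ℂ Φ)
    (h2 : IsLFunction D (fun s => Φ s * L2.hf s)) (h3 : Φ 3 ≠ 0) :
    (aRank D : ℕ∞) ≤ analyticOrderAt Φ 1 := by
  have hL := L2.LTwist_eq h2
  have hne : analyticOrderAt (fun s => Φ s * L2.hf s) 1 ≠ ⊤ :=
    L2.order_ne_top h2.entire (z := 3) (mul_ne_zero h3 (L2.hf_ne (by simp)))
  unfold aRank
  rw [hL, Nat.cast_analyticOrderNatAt hne]
  have hm1 := analyticOrderAt_mul (h1.analyticAt 1) (L2.hf_diff.analyticAt 1)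
  have hm2 : analyticOrderAt L2.hf 1 = 0 :=
    (L2.hf_diff.analyticAt 1).analyticOrderAt_eq_zero.mpr (L2.hf_ne (by simp))
  rw [hm2, add_zero] at hm1
  exact le_of_eq hm1

end V6

/-- the trivial bound of the rank -/
theorem pfTrivRk (h : StRk) (hT : StTriv) : StTrivRk := by
  obtain ⟨C, hC, hrk⟩ := h
  obtain ⟨C3, hC3, htriv⟩ := hT
  have hlC3 : 0 ≤ Real.log (1 + C3) := Real.log_nonneg (by linarith)
  refine ⟨1 + 2 * C * (1 + 2 + Real.log (1 + C3) + 6), ?_, fun X hX D hD hDX => ?_⟩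
  · have : 0 ≤ 2 * C * (1 + 2 + Real.log (1 + C3) + 6) := by positivity
    linarith
  have hL := V6.log_ge_one hX
  have hX3 : (3 : ℝ) ≤ X := by exact_mod_cast hX
  set L := Real.log X with hLdef
  obtain ⟨m, hm, hsq, hnat, hJtop, hb⟩ := hrk D hD
  have hmX : m ≤ X := by omega
  have hm1 : (1 : ℝ) ≤ m := by exact_mod_cast hm
  have hmX' : (m : ℝ) ≤ X := by exact_mod_cast hmX
  set J := (Jm m).toReal with hJdef
  have hJ0 : 0 ≤ J := ENNReal.toReal_nonneg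
  have hJle : J ≤ C3 * (m : ℝ) ^ 3 := by
    have := ENNReal.toReal_mono ENNReal.ofReal_ne_top (htriv m hm hsq)
    rwa [ENNReal.toReal_ofReal (by positivity)] at this
  have hT2 : Real.log (3 * m) ≤ 2 * L := by
    calc Real.log (3 * m) ≤ Real.log (X * X) := by
          apply Real.log_le_log (by positivity)
          exact mul_le_mul hX3 hmX' (by positivity) (by positivity)
      _ = 2 * L := by rw [Real.log_mul (by positivity) (by positivity)]; ring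
  have hT0 : 0 ≤ Real.log (3 * m) := Real.log_nonneg (by linarith)
  have h1 : Real.log (1 + Real.log (3 * m)) ≤ 2 * L := by
    have := Real.log_le_sub_one_of_pos (show (0 : ℝ) < 1 + Real.log (3 * m) by linarith)
    linarith
  have h2 : Real.log (1 + J) ≤ Real.log (1 + C3) + 6 * L := by
    have e1 : 1 + J ≤ (1 + C3) * (3 * m) ^ 3 := by
      have : (1 : ℝ) ≤ (m : ℝ) ^ 3 := one_le_pow₀ hm1
      nlinarith
    calc Real.log (1 + J) ≤ Real.log ((1 + C3) * (3 * m) ^ 3) :=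
          Real.log_le_log (by positivity) e1
      _ = Real.log (1 + C3) + 3 * Real.log (3 * m) := by
          rw [Real.log_mul (by positivity) (by positivity), Real.log_pow]; push_cast; ring
      _ ≤ _ := by linarith
  have h3 : 1 + Real.log (1 + Real.log (3 * m)) + Real.log (1 + J) ≤
      (1 + 2 + Real.log (1 + C3) + 6) * L := by nlinarith
  have h4 : 0 ≤ 1 + Real.log (1 + Real.log (3 * m)) + Real.log (1 + J) := by
    have e1 : 0 ≤ Real.log (1 + Real.log (3 * m)) := Real.log_nonneg (by linarith)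
    have e2 : 0 ≤ Real.log (1 + J) := Real.log_nonneg (by linarith)
    linarith
  have h5 : (aRank D : ℝ) ^ 2 ≤ (2 * C * (1 + 2 + Real.log (1 + C3) + 6)) * L ^ 2 := by
    calc (aRank D : ℝ) ^ 2 ≤ C * Real.log (3 * m) *
          (1 + Real.log (1 + Real.log (3 * m)) + Real.log (1 + J)) := hb
      _ ≤ C * (2 * L) * ((1 + 2 + Real.log (1 + C3) + 6) * L) := by gcongr
      _ = _ := by ring
  set M := 2 * C * (1 + 2 + Real.log (1 + C3) + 6) with hM
  have hM0 : 0 ≤ M := by positivity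
  have h6 : (aRank D : ℝ) ^ 2 ≤ ((1 + M) * L) ^ 2 := by
    refine h5.trans ?_
    rw [mul_pow]
    apply mul_le_mul_of_nonneg_right _ (by positivity)
    nlinarith
  exact (abs_le_of_sq_le_sq' h6 (by positivity)).2

namespace V6

theorem lq_le {L : ℝ} (hL : 1 ≤ L) : Real.log (√(2 * L)) ≤ Real.log (L + 2) := by
  rw [Real.log_sqrt (by positivity)]
  have e1 : Real.log (2 * L) ≤ Real.log ((L + 2) ^ 2) := by
    apply Real.log_le_log (by positivity); nlinarith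
  rw [Real.log_pow] at e1
  push_cast at e1
  linarith

theorem logB_le {CE L w : ℝ} (hCE : 1 ≤ CE) (hL : 1 ≤ L) :
    Real.log (2 * CE * √(2 * L) * Real.exp w) + 1 ≤
      2 * (Real.log (3 * CE ^ 2) + 1) * Real.log (L + 2) + w := by
  have hL0 : 0 < L := by linarith
  have hCE0 : 0 < CE := by linarith
  have hl2 := ll_ge_one hL
  have hlq := lq_le hL
  have hq0 : 0 < √(2 * L) := by positivity
  rw [Real.log_mul (by positivity) (by positivity),
    Real.log_mul (by positivity) (by positivity), Real.log_exp]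
  have e1 : Real.log (2 * CE) ≤ Real.log (3 * CE ^ 2) := by
    apply Real.log_le_log (by positivity); nlinarith
  have e2 : 0 ≤ Real.log (3 * CE ^ 2) := Real.log_nonneg (by nlinarith)
  nlinarith

theorem logP_le {CE L w : ℝ} (hCE : 1 ≤ CE) (hL : 1 ≤ L) :
    Real.log (3 * CE * √(2 * L) * Real.exp w / (1 / CE)) + 1 ≤
      2 * (Real.log (3 * CE ^ 2) + 1) * Real.log (L + 2) + w := by
  have hL0 : 0 < L := by linarith
  have hCE0 : 0 < CE := by linarith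
  have hl2 := ll_ge_one hL
  have hlq := lq_le hL
  have hq0 : 0 < √(2 * L) := by positivity
  have e0 : 3 * CE * √(2 * L) * Real.exp w / (1 / CE) = 3 * CE ^ 2 * √(2 * L) * Real.exp w := by
    field_simp
  rw [e0, Real.log_mul (by positivity) (by positivity),
    Real.log_mul (by positivity) (by positivity), Real.log_exp]
  have e2 : 0 ≤ Real.log (3 * CE ^ 2) := Real.log_nonneg (by nlinarith)
  nlinarith

theorem sq_facts {L : ℝ} (hL : 1 ≤ L) :
    √(L * Real.log (L + 2)) ^ 2 = L * Real.log (L + 2) ∧ 1 ≤ √(L * Real.log (L + 2)) ∧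
      Real.log (L + 2) ≤ 2 * √(L * Real.log (L + 2)) := by
  have hl2 := ll_ge_one hL
  have hL0 : 0 < L := by linarith
  have hs2 : √(L * Real.log (L + 2)) ^ 2 = L * Real.log (L + 2) := Real.sq_sqrt (by positivity)
  refine ⟨hs2, ?_, ?_⟩
  · rw [Real.one_le_sqrt]; nlinarith
  · have e1 : Real.log (L + 2) ≤ 2 * L := by
      have := Real.log_le_sub_one_of_pos (show (0 : ℝ) < L + 2 by linarith)
      linarith
    have e2 : Real.log (L + 2) ^ 2 ≤ (2 * √(L * Real.log (L + 2))) ^ 2 := by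
      rw [mul_pow, hs2]; nlinarith
    exact (abs_le_of_sq_le_sq' e2 (by positivity)).2

/-- the first half of the bound -/
theorem part1 {CT K Λ L l2 s z lB : ℝ} (hCT : 1 ≤ CT) (hK : 1 ≤ K) (hΛ : 1 ≤ Λ) (hL : 1 ≤ L)
    (hs : 1 ≤ s) (hl2s : l2 ≤ 2 * s) (hz : 32 * Λ * CT * K * s ≤ z)
    (hlB : lB + 1 ≤ 2 * Λ * l2 + 1 / (20 * CT * K) * z / 2) :
    CT * (2 * L * (1 / (20 * CT * K) * z / L) + lB + 1) ≤ z / 4 := by
  have hz0 : 0 < z := lt_of_lt_of_le (by positivity) hz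
  have hL0 : 0 < L := by linarith
  set c₁ := 1 / (20 * CT * K) with hc₁
  have e1 : 2 * L * (c₁ * z / L) = 2 * (c₁ * z) := by field_simp
  have e2 : CT * (c₁ * z) ≤ z / 20 := by
    have : CT * c₁ ≤ 1 / 20 := by
      rw [hc₁, mul_one_div, div_le_div_iff₀ (by positivity) (by norm_num)]
      nlinarith
    calc CT * (c₁ * z) = (CT * c₁) * z := by ring
      _ ≤ 1 / 20 * z := mul_le_mul_of_nonneg_right this hz0.le
      _ = z / 20 := by ring
  have e3 : CT * (2 * Λ * l2) ≤ z / 8 := by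
    have f1 : CT * (2 * Λ * l2) ≤ CT * (2 * Λ * (2 * s)) := by gcongr
    have f2 : CT * (2 * Λ * (2 * s)) * 8 ≤ z := by
      calc CT * (2 * Λ * (2 * s)) * 8 = 32 * Λ * CT * 1 * s := by ring
        _ ≤ 32 * Λ * CT * K * s := by gcongr
        _ ≤ z := hz
    linarith
  calc CT * (2 * L * (c₁ * z / L) + lB + 1) = CT * (2 * (c₁ * z) + (lB + 1)) := by rw [e1]; ring
    _ ≤ CT * (2 * (c₁ * z) + (2 * Λ * l2 + c₁ * z / 2)) := by gcongr
    _ = 5 / 2 * (CT * (c₁ * z)) + CT * (2 * Λ * l2) := by ring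
    _ ≤ 5 / 2 * (z / 20) + z / 8 := by linarith
    _ = z / 4 := by ring

/-- the second half of the bound -/
theorem part2 {CT K Λ L l2 s z lP : ℝ} (hCT : 1 ≤ CT) (hK : 1 ≤ K) (hΛ : 1 ≤ Λ) (hL : 1 ≤ L)
    (hl2 : 1 ≤ l2) (hs : 1 ≤ s) (hs2 : s ^ 2 = L * l2) (hz : 32 * Λ * CT * K * s ≤ z)
    (hzK : z ≤ K * L) (hlP0 : 0 ≤ lP)
    (hlP : lP + 1 ≤ 2 * Λ * l2 + 1 / (48 * CT ^ 2 * K ^ 2) * z ^ 2 / L / 2) :
    CT * √((2 * L + lP + 1) * (lP + 1)) ≤ z / 4 := by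
  have hz0 : 0 < z := lt_of_lt_of_le (by positivity) hz
  have hL0 : 0 < L := by linarith
  have hCT0 : 0 < CT := by linarith
  have hK0 : 0 < K := by linarith
  set W := lP + 1 with hW
  set η := 1 / (48 * CT ^ 2 * K ^ 2) with hη
  have hη0 : 0 < η := by positivity
  have hW1 : W ≤ η * z ^ 2 / L := by
    have e1 : 2 * Λ * l2 ≤ η * z ^ 2 / L / 2 := by
      have f1 : (32 * Λ * CT * K * s) ^ 2 ≤ z ^ 2 := pow_le_pow_left₀ (by positivity) hz 2
      have f2 : 2 * Λ * l2 * (2 * L) ≤ η * (32 * Λ * CT * K * s) ^ 2 := by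
        have : η * (32 * Λ * CT * K * s) ^ 2 = 64 / 3 * Λ ^ 2 * (L * l2) := by
          rw [mul_pow, hs2, hη]; field_simp; ring
        rw [this]
        have g1 : Λ ≤ Λ ^ 2 := by nlinarith
        have g2 : 0 < L * l2 := by positivity
        nlinarith [mul_le_mul_of_nonneg_right g1 g2.le]
      rw [div_div, le_div_iff₀ (by positivity)]
      calc 2 * Λ * l2 * (L * 2) = 2 * Λ * l2 * (2 * L) := by ring
        _ ≤ η * (32 * Λ * CT * K * s) ^ 2 := f2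
        _ ≤ η * z ^ 2 := mul_le_mul_of_nonneg_left f1 (by positivity)
    linarith
  have hW0 : 0 ≤ W := by linarith
  have hW2 : W ≤ L := by
    refine hW1.trans ?_
    rw [div_le_iff₀ hL0]
    have f1 : z ^ 2 ≤ (K * L) ^ 2 := pow_le_pow_left₀ hz0.le hzK 2
    have f2 : η * K ^ 2 ≤ 1 := by
      rw [hη, div_mul_eq_mul_div, one_mul, div_le_one (by positivity)]
      have : 1 ≤ CT ^ 2 := one_le_pow₀ hCT
      nlinarith [sq_nonneg K, mul_le_mul_of_nonneg_right this (sq_nonneg K)]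
    calc η * z ^ 2 ≤ η * (K * L) ^ 2 := mul_le_mul_of_nonneg_left f1 hη0.le
      _ = (η * K ^ 2) * (L * L) := by ring
      _ ≤ 1 * (L * L) := mul_le_mul_of_nonneg_right f2 (by positivity)
      _ = L * L := one_mul _
  have f1 : (2 * L + lP + 1) * W ≤ 3 * L * (η * z ^ 2 / L) := by
    apply mul_le_mul (by linarith) hW1 hW0 (by positivity)
  have f2 : 3 * L * (η * z ^ 2 / L) ≤ (z / (4 * CT)) ^ 2 := by
    have g1 : 3 * L * (η * z ^ 2 / L) = 3 * η * z ^ 2 := by field_simp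
    rw [g1, div_pow, le_div_iff₀ (by positivity)]
    have g2 : 3 * η * (4 * CT) ^ 2 ≤ 1 := by
      have : 3 * η * (4 * CT) ^ 2 = 1 / K ^ 2 := by rw [hη]; field_simp; ring
      rw [this, div_le_one (by positivity)]
      exact one_le_pow₀ hK
    calc 3 * η * z ^ 2 * (4 * CT) ^ 2 = (3 * η * (4 * CT) ^ 2) * z ^ 2 := by ring
      _ ≤ 1 * z ^ 2 := mul_le_mul_of_nonneg_right g2 (by positivity)
      _ = z ^ 2 := one_mul _
  have f3 : √((2 * L + lP + 1) * W) ≤ z / (4 * CT) := by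
    rw [← Real.sqrt_sq (show 0 ≤ z / (4 * CT) by positivity)]
    exact Real.sqrt_le_sqrt (f1.trans f2)
  calc CT * √((2 * L + lP + 1) * W) ≤ CT * (z / (4 * CT)) := by gcongr
    _ = z / 4 := by field_simp

theorem sqrt_aux {J a l w : ℝ} (hJ : J ≤ Real.exp w) (ha : a ≤ l) (ha0 : 0 ≤ a) :
    √(J * a) ≤ √l * Real.exp (w / 2) := by
  calc √(J * a) ≤ √(Real.exp w * l) := by
        apply Real.sqrt_le_sqrt
        exact mul_le_mul hJ ha ha0 (Real.exp_pos _).le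
    _ = √l * Real.exp (w / 2) := by
        rw [Real.sqrt_mul (Real.exp_pos _).le, mul_comm]
        congr 1
        rw [Real.sqrt_eq_iff_mul_self_eq (Real.exp_pos _).le (Real.exp_pos _).le,
          ← Real.exp_add]
        congr 1; ring

theorem log3_le {X m : ℕ} (hX : 3 ≤ X) (hm : 1 ≤ m) (hmX : m ≤ X) :
    Real.log (3 * m) ≤ 2 * Real.log X ∧ 0 ≤ Real.log (3 * m) := by
  have hX3 : (3 : ℝ) ≤ X := by exact_mod_cast hX
  have hm1 : (1 : ℝ) ≤ m := by exact_mod_cast hm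
  have hmX' : (m : ℝ) ≤ X := by exact_mod_cast hmX
  refine ⟨?_, Real.log_nonneg (by linarith)⟩
  calc Real.log (3 * m) ≤ Real.log (X * X) := by
        apply Real.log_le_log (by positivity)
        exact mul_le_mul hX3 hmX' (by positivity) (by positivity)
    _ = 2 * Real.log X := by rw [Real.log_mul (by positivity) (by positivity)]; ring

theorem Q_le {X m : ℕ} (hX : 3 ≤ X) (hm : 1 ≤ m) (hmX : m ≤ X) :
    0 < Qm m ∧ Qm m ≤ Real.exp (2 * (2 * Real.log X)) := by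
  have hX3 : (3 : ℝ) ≤ X := by exact_mod_cast hX
  have hX0 : (0 : ℝ) < X := by linarith
  have hm1 : (1 : ℝ) ≤ m := by exact_mod_cast hm
  have hmX' : (m : ℝ) ≤ X := by exact_mod_cast hmX
  have e : Real.exp (2 * (2 * Real.log X)) = (X * X) ^ 2 := by
    rw [show 2 * (2 * Real.log X) = Real.log X + Real.log X + (Real.log X + Real.log X) by ring,
      Real.exp_add, Real.exp_add, Real.exp_log hX0]
    ring
  rw [e]
  have e2 : (3 * m : ℝ) ≤ X * X := mul_le_mul hX3 hmX' (by positivity) (by positivity)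
  have e3 : (3 * m : ℝ) ^ 2 ≤ (X * X) ^ 2 := pow_le_pow_left₀ (by positivity) e2 2
  refine ⟨by unfold Qm; split_ifs <;> positivity, le_trans ?_ e3⟩
  unfold Qm
  split_ifs <;> nlinarith

theorem low_side {Φ : ℂ → ℂ} {Q B T : ℝ} (hQ0 : 0 < Q) (hQ : Q ≤ Real.exp (2 * T))
    (h4 : ∀ s : ℂ, ‖Φ (2 - s)‖ = Q ^ (s.re - 1) * ‖Φ s‖)
    (hup : ∀ s : ℂ, 1 ≤ s.re → s.re ≤ 5 → ‖Φ s‖ ≤ B) (s : ℂ) (hs0 : 0 ≤ s.re) (hs1 : s.re ≤ 1) :
    ‖Φ s‖ ≤ B * Real.exp (2 * T * (1 - s.re)) := by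
  have e1 := h4 (2 - s)
  rw [sub_sub_cancel] at e1
  have e2 : (2 - s).re = 2 - s.re := by simp
  rw [e2] at e1
  have e3 := hup (2 - s) (by rw [e2]; linarith) (by rw [e2]; linarith)
  rw [e1, mul_comm]
  refine mul_le_mul e3 ?_ (by positivity) ((norm_nonneg _).trans e3)
  rw [show 2 - s.re - 1 = 1 - s.re by ring]
  calc Q ^ (1 - s.re) ≤ (Real.exp (2 * T)) ^ (1 - s.re) :=
        Real.rpow_le_rpow hQ0.le hQ (by linarith)
    _ = Real.exp (2 * T * (1 - s.re)) := by rw [← Real.exp_mul]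

theorem up_le {CE a q w : ℝ} (hCE : 0 ≤ CE) (ha : a ≤ q * Real.exp w) (hq : 1 ≤ q) (hw : 0 ≤ w) :
    CE * (1 + a) ≤ 2 * CE * q * Real.exp w := by
  have he : 1 ≤ Real.exp w := Real.one_le_exp hw
  have e1 : 1 ≤ q * Real.exp w := by nlinarith
  calc CE * (1 + a) ≤ CE * (q * Real.exp w + q * Real.exp w) := by gcongr
    _ = _ := by ring

theorem far_le {CE a b t q w v : ℝ} (hCE : 0 ≤ CE) (ha : a ≤ q * Real.exp w) (hq : 1 ≤ q)
    (hw : 0 ≤ w) (hb : b ≤ q * Real.exp v) (ht : t ≤ Real.exp (-v)) (hb0 : 0 ≤ b) :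
    CE * (1 + a + t * b) ≤ 3 * CE * q * Real.exp w := by
  have he : 1 ≤ Real.exp w := Real.one_le_exp hw
  have e1 : 1 ≤ q * Real.exp w := by nlinarith
  have e3 : t * b ≤ q := by
    calc t * b ≤ Real.exp (-v) * (q * Real.exp v) := mul_le_mul ht hb hb0 (Real.exp_pos _).le
      _ = q * (Real.exp (-v) * Real.exp v) := by ring
      _ = q := by rw [← Real.exp_add, neg_add_cancel, Real.exp_zero, mul_one]
  have e4 : q ≤ q * Real.exp w := le_mul_of_one_le_right (by linarith) he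
  have e5 := e3.trans e4
  calc CE * (1 + a + t * b) ≤ CE * (q * Real.exp w + q * Real.exp w + q * Real.exp w) := by
        gcongr
    _ = _ := by ring

theorem decay_le {Y ρ c z L : ℝ} (hY : 0 < Y) (hL : 0 < L) (hρ : ρ = c * z / L) (hρ0 : 0 ≤ ρ)
    (h : L / 2 ≤ Real.log Y) : Y ^ (-ρ) ≤ Real.exp (-(c * z / 2)) := by
  rw [Real.rpow_def_of_pos hY]
  apply Real.exp_le_exp.mpr
  have f1 : L / 2 * ρ ≤ Real.log Y * ρ := mul_le_mul_of_nonneg_right h hρ0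
  have f2 : L / 2 * ρ = c * z / 2 := by rw [hρ]; field_simp
  linarith

theorem rho_le {CT K L z : ℝ} (hCT : 1 ≤ CT) (hK : 1 ≤ K) (hL : 0 < L) (hz2 : z ≤ K * L) :
    1 / (20 * CT * K) * z / L ≤ 1 / 20 := by
  have hK0 : 0 < K := by linarith
  have hCT0 : 0 < CT := by linarith
  rw [div_le_iff₀ hL]
  have e1 : 1 / (20 * CT * K) * z ≤ 1 / (20 * CT * K) * (K * L) :=
    mul_le_mul_of_nonneg_left hz2 (by positivity)
  have e2 : 1 / (20 * CT * K) * (K * L) = 1 / 20 * (L / CT) := by field_simp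
  have e3 : L / CT ≤ L := div_le_self hL.le hCT
  linarith

end V6

/-- the pointwise bound -/
theorem pfPw (hE : StEnt2) (hEu : StEuler) (hO : StOrd2) : StPw := by
  obtain ⟨CE, hCE, h⟩ := V6.one_twist hE hEu
  obtain ⟨CT, hCT, hord⟩ := hO
  intro K hK
  have hCE0 : 0 < CE := by linarith
  have hCT0 : 0 < CT := by linarith
  have hK0 : 0 < K := by linarith
  have hΛ1 : 1 ≤ Real.log (3 * CE ^ 2) + 1 := by
    have : 0 ≤ Real.log (3 * CE ^ 2) := Real.log_nonneg (by nlinarith)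
    linarith
  have hΛ0 : 0 < Real.log (3 * CE ^ 2) + 1 := by linarith
  refine ⟨1 / (20 * CT * K), 1 / (48 * CT ^ 2 * K ^ 2),
    32 * (Real.log (3 * CE ^ 2) + 1) * CT * K, by positivity,
    by positivity, ?_, fun D hD => ?_⟩
  · calc (1 : ℝ) ≤ 32 * 1 * 1 * 1 := by norm_num
      _ ≤ 32 * (Real.log (3 * CE ^ 2) + 1) * CT * K := by gcongr
  obtain ⟨m, hm, hsq, hnat, Φ, h1, h2, h3, h4, h5, h6⟩ := h D hD
  refine ⟨m, hm, hsq, hnat, fun X N z hX hmX hN hNX hlN hz1 hz2 hJm hJf => ?_⟩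
  have hL := V6.log_ge_one hX
  have hN1 : (1 : ℝ) ≤ N := by exact_mod_cast hN
  obtain ⟨hlm, hlm0⟩ := V6.log3_le hX hm hmX
  obtain ⟨hlN2, hlN0⟩ := V6.log3_le hX hN hNX
  obtain ⟨hQ0, hQ⟩ := V6.Q_le hX hm hmX
  set L := Real.log X with hLdef
  have hl2 := V6.ll_ge_one hL
  obtain ⟨hs2, hs1, hl2s⟩ := V6.sq_facts hL
  have hL0 : 0 < L := by linarith
  have hz0 : 0 < z := lt_of_lt_of_le (by positivity) hz1
  -- bounds of `J` and `F`
  have hJle : (Jm m).toReal ≤ Real.exp (1 / (20 * CT * K) * z) := by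
    have := ENNReal.toReal_mono ENNReal.ofReal_ne_top hJm
    rwa [ENNReal.toReal_ofReal (Real.exp_pos _).le] at this
  have hFle : (Jf (1 / (3 * N) : ℝ) m).toReal ≤
      Real.exp (1 / (48 * CT ^ 2 * K ^ 2) * z ^ 2 / L) := by
    have := ENNReal.toReal_mono ENNReal.ofReal_ne_top hJf
    rwa [ENNReal.toReal_ofReal (Real.exp_pos _).le] at this
  have hq : 1 ≤ √(2 * L) := by rw [Real.one_le_sqrt]; linarith
  have hsqJ := V6.sqrt_aux hJle hlm hlm0
  have hsqF := V6.sqrt_aux hFle hlN2 hlN0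
  have hρ0 : 0 ≤ 1 / (20 * CT * K) * z / L := by positivity
  have hρ1 := V6.rho_le hCT hK hL0 hz2
  have hup : ∀ s : ℂ, 1 ≤ s.re → s.re ≤ 5 →
      ‖Φ s‖ ≤ 2 * CE * √(2 * L) * Real.exp (1 / (20 * CT * K) * z / 2) :=
    fun s hs1 hs2 => (h3 s hs1 hs2).trans (V6.up_le hCE0.le hsqJ hq (by positivity))
  have hfar : ∀ s : ℂ, 1 + 1 / (20 * CT * K) * z / L ≤ s.re → s.re ≤ 5 →
      ‖Φ s‖ ≤ 3 * CE * √(2 * L) * Real.exp (1 / (48 * CT ^ 2 * K ^ 2) * z ^ 2 / L / 2) :=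
    fun s hs1 hs2 => (h6 N _ s hN hρ0 hs1 hs2).trans
      (V6.far_le hCE0.le hsqF hq (by positivity) hsqJ
        (V6.decay_le (by positivity) hL0 rfl hρ0 hlN) (Real.sqrt_nonneg _))
  have hlow := V6.low_side hQ0 hQ h4 hup
  have hc0 : 0 < 1 / CE := by positivity
  have hc1 : 1 / CE ≤ 1 := by rw [div_le_one (by positivity)]; exact hCE
  have hPhi3 : Φ 3 ≠ 0 := by
    intro h0
    rw [h0, norm_zero] at h5
    linarith
  have he1 : 1 ≤ Real.exp (1 / (20 * CT * K) * z / 2) := Real.one_le_exp (by positivity)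
  have he2 : 1 ≤ Real.exp (1 / (48 * CT ^ 2 * K ^ 2) * z ^ 2 / L / 2) :=
    Real.one_le_exp (by positivity)
  have hB1 : 1 ≤ 2 * CE * √(2 * L) * Real.exp (1 / (20 * CT * K) * z / 2) := by
    calc (1 : ℝ) ≤ 2 * 1 * 1 * 1 := by norm_num
      _ ≤ _ := by gcongr
  have hP1 : 1 ≤ 3 * CE * √(2 * L) * Real.exp (1 / (48 * CT ^ 2 * K ^ 2) * z ^ 2 / L / 2) := by
    calc (1 : ℝ) ≤ 3 * 1 * 1 * 1 := by norm_num
      _ ≤ _ := by gcongr
  have key := hord Φ (2 * L) _ _ _ (1 / CE) (aRank D) h1 (by linarith) hc0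
    hc1 hB1 hP1 hρ0 hρ1 hfar hup hlow h5 (V6.rank_le h1 h2 hPhi3)
  have hlogP0 : 0 ≤ Real.log (3 * CE * √(2 * L) *
      Real.exp (1 / (48 * CT ^ 2 * K ^ 2) * z ^ 2 / L / 2) / (1 / CE)) := by
    apply Real.log_nonneg
    rw [le_div_iff₀ hc0]
    linarith
  have hp1 := V6.part1 hCT hK hΛ1 hL hs1 hl2s hz1 (V6.logB_le hCE hL)
  have hp2 := V6.part2 hCT hK hΛ1 hL hl2 hs1 hs2 hz1 hz2 hlogP0 (V6.logP_le hCE hL)
  linarith

end P004
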